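import Vale.Agent.P193.GDefs

/-!
The Steinberg group: canonical family, universal property, elementary matrices.
-/

namespace Vale.Agent.P193

open scoped commutatorElement

section St

variable {I R : Type} [Ring R]

open Classical in
/-- The canonical generators of the Steinberg group. -/
noncomputable def stX (i j : I) (a : R) : St I R :=
  if h : i ≠ j then PresentedGroup.mk _ (stOf h a) else 1

theorem stX_of_ne {i j : I} (h : i ≠ j) (a : R) :
    (stX i j a : St I R) = PresentedGroup.mk _ (stOf h a) := by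
  simp [stX, h]

theorem st_rel {r : FreeGroup (StGen I R)} (hr : r ∈ stRels I R) :
    (PresentedGroup.mk (stRels I R) r) = 1 :=
  PresentedGroup.one_of_mem hr

/-- The canonical Steinberg family. -/
noncomputable def stFam (I R : Type) [Ring R] : SFam R I (St I R) where
  x := stX
  add := by
    intro i j h a b
    have := st_rel (I := I) (R := R) (Or.inl ⟨i, j, h, a, b, rfl⟩)
    simp only [map_mul, map_inv] at this
    simp only [stX_of_ne h]
    exact mul_inv_eq_one.mp this
  comm := by
    intro i j k l h h' hjk hil a b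
    have := st_rel (I := I) (R := R) (Or.inr (Or.inl ⟨i, j, k, l, h, h', a, b, hjk, hil, rfl⟩))
    rw [map_commutatorElement] at this
    rw [stX_of_ne h, stX_of_ne h']
    exact commutatorElement_eq_one_iff_commute.mp this
  mul := by
    intro i j k h h' h'' a b
    have := st_rel (I := I) (R := R) (Or.inr (Or.inr ⟨i, j, k, h, h', h'', a, b, rfl⟩))
    rw [map_mul, map_inv, map_commutatorElement] at this
    rw [stX_of_ne h, stX_of_ne h', stX_of_ne h'']
    exact mul_inv_eq_one.mp this

variable {H : Type} [Group H]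

/-- Universal property of the Steinberg group. -/
noncomputable def stLift (F : SFam R I H) : St I R →* H :=
  PresentedGroup.toGroup (f := fun g : StGen I R => F.x g.1.1.1 g.1.1.2 g.2) (by
    rintro r (⟨i, j, h, a, b, rfl⟩ | ⟨i, j, k, l, h, h', a, b, hjk, hil, rfl⟩ |
      ⟨i, j, k, h, h', h'', a, b, rfl⟩)
    · simp [stOf, F.add h]
    · rw [map_commutatorElement]
      simpa [stOf] using commutatorElement_eq_one_iff_commute.mpr (F.comm h h' hjk hil a b)
    · rw [map_mul, map_inv, map_commutatorElement]
      simp [stOf, F.mul h h' h''])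

theorem stLift_x (F : SFam R I H) {i j : I} (h : i ≠ j) (a : R) :
    stLift F ((stFam I R).x i j a) = F.x i j a := by
  change stLift F (stX i j a) = _
  rw [stX_of_ne h]
  exact PresentedGroup.toGroup.of _

theorem st_ext {f g : St I R →* H}
    (h : ∀ i j, i ≠ j → ∀ a, f ((stFam I R).x i j a) = g ((stFam I R).x i j a)) : f = g := by
  apply PresentedGroup.ext
  rintro ⟨⟨⟨i, j⟩, hij⟩, a⟩
  have := h i j hij a
  change f (stX i j a) = g (stX i j a) at this
  rw [stX_of_ne hij] at this
  exact this

theorem stFam_gen : (stFam I R).gen = ⊤ := by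
  rw [eq_top_iff, ← PresentedGroup.closure_range_of (stRels I R)]
  apply Subgroup.closure_mono
  rintro _ ⟨⟨⟨⟨i, j⟩, hij⟩, a⟩, rfl⟩
  exact ⟨i, j, a, hij, (stX_of_ne hij a).symm⟩

theorem stLift_range (F : SFam R I H) : (stLift F).range = F.gen := by
  rw [MonoidHom.range_eq_map, ← stFam_gen, SFam.gen, MonoidHom.map_closure, SFam.gen]
  congr 1
  ext g
  constructor
  · rintro ⟨_, ⟨i, j, a, h, rfl⟩, rfl⟩
    exact ⟨i, j, a, h, stLift_x F h a⟩
  · rintro ⟨i, j, a, h, rfl⟩
    exact ⟨_, ⟨i, j, a, h, rfl⟩, stLift_x F h a⟩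

end St

namespace SFam

variable {R : Type} [Ring R] {I : Type} {H : Type} [Group H] (F : SFam R I H)

theorem x_zero {i j : I} (h : i ≠ j) : F.x i j 0 = 1 := by
  have := F.add h 0 0
  rw [add_zero] at this
  exact left_eq_mul.mp this

theorem x_neg {i j : I} (h : i ≠ j) (a : R) : F.x i j (-a) = (F.x i j a)⁻¹ := by
  rw [eq_inv_iff_mul_eq_one, ← F.add h, neg_add_cancel, F.x_zero h]

end SFam

section Units

variable {R : Type} [Ring R] {I : Type} [Fintype I]

/-- The unit `1 + p` for `p` of square zero. -/
def sqUnit (p : R) (h : p * p = 0) : Rˣ where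
  val := 1 + p
  inv := 1 - p
  val_inv := by
    have : (1 + p) * (1 - p) = 1 - p * p := by noncomm_ring
    rw [this, h, sub_zero]
  inv_val := by
    have : (1 - p) * (1 + p) = 1 - p * p := by noncomm_ring
    rw [this, h, sub_zero]

theorem Frame.mul_ne (fr : Frame R I) {i j k l : I} (h : j ≠ k) (a b : R) :
    fr.b i * a * fr.c j * (fr.b k * b * fr.c l) = 0 := by
  have : fr.b i * a * fr.c j * (fr.b k * b * fr.c l)
      = fr.b i * a * (fr.c j * fr.b k) * b * fr.c l := by noncomm_ring
  rw [this, fr.cb_ne h]; simp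

theorem Frame.mul_self (fr : Frame R I) {i j l : I} (a b : R) :
    fr.b i * a * fr.c j * (fr.b j * b * fr.c l) = fr.b i * (a * b) * fr.c l := by
  have : fr.b i * a * fr.c j * (fr.b j * b * fr.c l)
      = fr.b i * a * (fr.c j * fr.b j) * b * fr.c l := by noncomm_ring
  rw [this, fr.cb_self]; noncomm_ring

open Classical in
/-- The elementary matrix in a frame. -/
noncomputable def Frame.el (fr : Frame R I) (i j : I) (a : R) : Rˣ :=
  if h : i ≠ j then sqUnit (fr.b i * a * fr.c j) (fr.mul_ne h.symm a a) else 1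

theorem Frame.el_val (fr : Frame R I) {i j : I} (h : i ≠ j) (a : R) :
    (fr.el i j a : R) = 1 + fr.b i * a * fr.c j := by
  simp [Frame.el, h, sqUnit]

theorem Frame.el_inv_val (fr : Frame R I) {i j : I} (h : i ≠ j) (a : R) :
    (((fr.el i j a)⁻¹ : Rˣ) : R) = 1 - fr.b i * a * fr.c j := by
  simp [Frame.el, h, sqUnit]

/-- Elementary matrices satisfy the Steinberg relations. -/
noncomputable def Frame.fam (fr : Frame R I) : SFam R I Rˣ where
  x := fr.el
  add := by
    intro i j h a b
    ext
    rw [Units.val_mul, fr.el_val h, fr.el_val h, fr.el_val h]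
    have h0 := fr.mul_ne (i := i) (l := j) h.symm a b
    have : (1 + fr.b i * a * fr.c j) * (1 + fr.b i * b * fr.c j)
        = 1 + fr.b i * (a + b) * fr.c j + fr.b i * a * fr.c j * (fr.b i * b * fr.c j) := by
      noncomm_ring
    rw [this, h0, add_zero]
  comm := by
    intro i j k l h h' hjk hil a b
    ext
    rw [Units.val_mul, Units.val_mul, fr.el_val h, fr.el_val h']
    have h0 := fr.mul_ne (i := i) (l := l) hjk a b
    have h1 := fr.mul_ne (i := k) (l := j) hil.symm b a
    set p := fr.b i * a * fr.c j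
    set q := fr.b k * b * fr.c l
    have e1 : (1 + p) * (1 + q) = 1 + p + q + p * q := by noncomm_ring
    have e2 : (1 + q) * (1 + p) = 1 + p + q + q * p := by noncomm_ring
    rw [e1, e2, h0, h1]
  mul := by
    intro i j k h h' h'' a b
    ext
    rw [commutatorElement_def]
    simp only [Units.val_mul]
    rw [fr.el_inv_val h, fr.el_inv_val h', fr.el_val h, fr.el_val h', fr.el_val h'']
    have hpp := fr.mul_ne (i := i) (l := j) h.symm a a
    have hqq := fr.mul_ne (i := j) (l := k) h'.symm b b
    have hqp := fr.mul_ne (i := j) (l := j) h''.symm b a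
    rw [← fr.mul_self (j := j)]
    set p := fr.b i * a * fr.c j
    set q := fr.b j * b * fr.c k
    have e : (1 + p) * (1 + q) * (1 - p) * (1 - q) = 1 + p * q - p * p - q * q - q * p
        - p * (q * p) - p * (q * q) + (p * p) * q + (q * p) * q + p * (q * p) * q := by
      noncomm_ring
    rw [e, hpp, hqq, hqp]; simp

/-- The map from the Steinberg group to the units. -/
noncomputable def stPi (fr : Frame R I) : St I R →* Rˣ := stLift fr.fam

theorem stPi_rep (fr : Frame R I) : Rep (stFam I R) fr (stPi fr) := by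
  intro i j h a
  rw [stPi, stLift_x _ h]
  exact fr.el_val h a

end Units

namespace NiceRing

variable {R : Type} [Ring R] (N : NiceRing R)

theorem hz'u : N.z' * N.u = 0 := by
  have h : N.z' * (N.z * N.z' + N.u * N.u') * N.u = N.z' * N.u := by rw [N.hzu, mul_one]
  have e : N.z' * (N.z * N.z' + N.u * N.u') * N.u
      = (N.z' * N.z) * N.z' * N.u + N.z' * N.u * (N.u' * N.u) := by noncomm_ring
  rw [e, N.hz, N.hu, one_mul, mul_one] at h
  exact left_eq_add.mp h.symm

theorem hu'z : N.u' * N.z = 0 := by
  have h : N.u' * (N.z * N.z' + N.u * N.u') * N.z = N.u' * N.z := by rw [N.hzu, mul_one]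
  have e : N.u' * (N.z * N.z' + N.u * N.u') * N.z
      = N.u' * N.z * (N.z' * N.z) + (N.u' * N.u) * N.u' * N.z := by noncomm_ring
  rw [e, N.hz, N.hu, one_mul, mul_one] at h
  exact left_eq_add.mp h.symm

/-- The Leavitt pair of a nice ring. -/
def pair : LPair R where
  p0 := N.z
  p0' := N.z'
  p1 := N.u
  p1' := N.u'
  h0 := N.hz
  h1 := N.hu
  h01 := N.hz'u
  h10 := N.hu'z
  hsum := N.hzu

end NiceRing

end Vale.Agent.P193
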