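import Vale.Agent.P193.GBasic

/-!
Column and row elements of a Steinberg family, and the conjugation lemma (L1).
-/

namespace Vale.Agent.P193

open scoped commutatorElement

set_option linter.unusedSectionVars false

namespace SFam

variable {R : Type} [Ring R] {I : Type} {H : Type} [Group H] (F : SFam R I H)

/-- A root subgroup as a homomorphism. -/
def xHom {i j : I} (h : i ≠ j) : Multiplicative R →* H where
  toFun a := F.x i j a.toAdd
  map_one' := F.x_zero h
  map_mul' _ _ := F.add h _ _

variable [Fintype I] (fr : Frame R I)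

/-- `col l v` is the product over `i ≠ l` of `x i l (c i * v)`. -/
noncomputable def col (l : I) (v : R) : H := by
  classical
  exact MonoidHom.noncommPiCoprod (fun i : {i // i ≠ l} => F.xHom i.2)
    (fun i j _ a b => F.comm i.2 j.2 j.2.symm i.2 _ _)
    (fun i => Multiplicative.ofAdd (fr.c i.1 * v))

/-- `row l w` is the product over `j ≠ l` of `x l j (w * b j)`. -/
noncomputable def row (l : I) (w : R) : H := by
  classical
  exact MonoidHom.noncommPiCoprod (fun j : {j // j ≠ l} => F.xHom j.2.symm)
    (fun i j _ a b => F.comm i.2.symm j.2.symm i.2 j.2.symm _ _)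
    (fun j => Multiplicative.ofAdd (w * fr.b j.1))

theorem col_add (l : I) (v w : R) : F.col fr l (v + w) = F.col fr l v * F.col fr l w := by
  unfold col
  rw [← map_mul]
  congr 1
  funext i
  simp [mul_add]

theorem row_add (l : I) (v w : R) : F.row fr l (v + w) = F.row fr l v * F.row fr l w := by
  unfold row
  rw [← map_mul]
  congr 1
  funext i
  simp [add_mul]

theorem col_zero (l : I) : F.col fr l 0 = 1 := by
  have := F.col_add fr l 0 0
  rw [add_zero] at this
  exact left_eq_mul.mp this

theorem row_zero (l : I) : F.row fr l 0 = 1 := by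
  have := F.row_add fr l 0 0
  rw [add_zero] at this
  exact left_eq_mul.mp this

theorem col_neg (l : I) (v : R) : F.col fr l (-v) = (F.col fr l v)⁻¹ := by
  rw [eq_inv_iff_mul_eq_one, ← F.col_add, neg_add_cancel, F.col_zero]

theorem row_neg (l : I) (v : R) : F.row fr l (-v) = (F.row fr l v)⁻¹ := by
  rw [eq_inv_iff_mul_eq_one, ← F.row_add, neg_add_cancel, F.row_zero]

theorem col_b {i l : I} (h : i ≠ l) (r : R) : F.col fr l (fr.b i * r) = F.x i l r := by
  classical
  unfold col
  have : (fun j : {j // j ≠ l} => Multiplicative.ofAdd (fr.c j.1 * (fr.b i * r)))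
      = Pi.mulSingle (⟨i, h⟩ : {j // j ≠ l}) (Multiplicative.ofAdd r) := by
    funext j
    by_cases hj : j = ⟨i, h⟩
    · subst hj; simp [← mul_assoc, fr.cb_self]
    · have : j.1 ≠ i := fun e => hj (Subtype.ext e)
      simp [← mul_assoc, fr.cb_ne this, Pi.mulSingle_eq_of_ne hj]
  rw [this]
  exact MonoidHom.noncommPiCoprod_mulSingle (fun i : {i // i ≠ l} => F.xHom i.2) ⟨i, h⟩ _

theorem row_c {l j : I} (h : j ≠ l) (r : R) : F.row fr l (r * fr.c j) = F.x l j r := by
  classical
  unfold row
  have : (fun i : {i // i ≠ l} => Multiplicative.ofAdd (r * fr.c j * fr.b i.1))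
      = Pi.mulSingle (⟨j, h⟩ : {j // j ≠ l}) (Multiplicative.ofAdd r) := by
    funext i
    by_cases hi : i = ⟨j, h⟩
    · subst hi; simp [mul_assoc, fr.cb_self]
    · have : j ≠ i.1 := fun e => hi (Subtype.ext e.symm)
      simp [mul_assoc, fr.cb_ne this, Pi.mulSingle_eq_of_ne hi]
  rw [this]
  exact MonoidHom.noncommPiCoprod_mulSingle (fun i : {i // i ≠ l} => F.xHom i.2.symm) ⟨j, h⟩ _

theorem col_b_self (l : I) (r : R) : F.col fr l (fr.b l * r) = 1 := by
  unfold col
  have : (fun j : {j // j ≠ l} => Multiplicative.ofAdd (fr.c j.1 * (fr.b l * r))) = 1 := by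
    funext j
    simp [← mul_assoc, fr.cb_ne j.2]
  rw [this, map_one]

theorem row_c_self (l : I) (r : R) : F.row fr l (r * fr.c l) = 1 := by
  unfold row
  have : (fun i : {i // i ≠ l} => Multiplicative.ofAdd (r * fr.c l * fr.b i.1)) = 1 := by
    funext j
    simp [mul_assoc, fr.cb_ne j.2.symm]
  rw [this, map_one]

/-- Induction principle for columns: a property closed under sums that holds for all
`b i * r` (`i` in a set outside of which `v` has no coordinates) holds for `v`. -/
theorem _root_.Vale.Agent.P193.Frame.col_induction (P : R → Prop) (v : R) (h0 : P 0)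
    (hadd : ∀ a b, P a → P b → P (a + b)) (hb : ∀ i, P (fr.b i * (fr.c i * v))) : P v := by
  have : v = ∑ i, fr.b i * (fr.c i * v) := by
    simp only [← mul_assoc]
    rw [← Finset.sum_mul, fr.sum, one_mul]
  rw [this]
  exact Finset.sum_induction _ P hadd h0 (fun i _ => hb i)

theorem _root_.Vale.Agent.P193.Frame.row_induction (P : R → Prop) (w : R) (h0 : P 0)
    (hadd : ∀ a b, P a → P b → P (a + b)) (hb : ∀ i, P (w * fr.b i * fr.c i)) : P w := by
  have : w = ∑ i, w * fr.b i * fr.c i := by
    simp only [mul_assoc]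
    rw [← Finset.mul_sum, fr.sum, mul_one]
  rw [this]
  exact Finset.sum_induction _ P hadd h0 (fun i _ => hb i)

/-- Membership of a column in a subgroup. -/
theorem col_mem (S : Subgroup H) (l : I) (v : R)
    (h : ∀ i, i ≠ l → F.x i l (fr.c i * v) ∈ S) : F.col fr l v ∈ S := by
  refine fr.col_induction (fun a => F.col fr l a ∈ S) v ?_ ?_ ?_
  · simp [F.col_zero, S.one_mem]
  · intro a b ha hb; simp only [F.col_add]; exact S.mul_mem ha hb
  · intro i
    by_cases hi : i = l
    · subst hi; simp [F.col_b_self, S.one_mem]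
    · simp only [F.col_b fr hi]; exact h i hi

theorem row_mem (S : Subgroup H) (l : I) (w : R)
    (h : ∀ j, j ≠ l → F.x l j (w * fr.b j) ∈ S) : F.row fr l w ∈ S := by
  refine fr.row_induction (fun a => F.row fr l a ∈ S) w ?_ ?_ ?_
  · simp [F.row_zero, S.one_mem]
  · intro a b ha hb; simp only [F.row_add]; exact S.mul_mem ha hb
  · intro i
    by_cases hi : i = l
    · subst hi; simp [F.row_c_self, S.one_mem]
    · simp only [F.row_c fr hi]; exact h i hi

theorem x_mem_sub {i j l : I} (h : i ≠ j) (hi : i ≠ l) (hj : j ≠ l) (a : R) :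
    F.x i j a ∈ F.sub l :=
  Subgroup.subset_closure ⟨i, j, a, h, hi, hj, rfl⟩

theorem x_mem_gen {i j : I} (h : i ≠ j) (a : R) : F.x i j a ∈ F.gen :=
  Subgroup.subset_closure ⟨i, j, a, h, rfl⟩

variable {F fr} {π : H →* Rˣ}

theorem rep_col (hπ : Rep F fr π) (l : I) (v : R) :
    ((π (F.col fr l v) : Rˣ) : R) = 1 + (1 - fr.b l * fr.c l) * v * fr.c l := by
  refine fr.col_induction (fun a => ((π (F.col fr l a) : Rˣ) : R)
    = 1 + (1 - fr.b l * fr.c l) * a * fr.c l) v ?_ ?_ ?_
  · simp [F.col_zero]
  · intro a b ha hb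
    simp only [F.col_add, map_mul, Units.val_mul, ha, hb]
    have e : (1 + (1 - fr.b l * fr.c l) * a * fr.c l) * (1 + (1 - fr.b l * fr.c l) * b * fr.c l)
        = 1 + (1 - fr.b l * fr.c l) * (a + b) * fr.c l + (1 - fr.b l * fr.c l) * a *
          (fr.c l - (fr.c l * fr.b l) * fr.c l) * b * fr.c l := by noncomm_ring
    rw [e, fr.cb_self]; simp
  · intro i
    by_cases hi : i = l
    · subst hi
      have e : (1 - fr.b i * fr.c i) * (fr.b i * (fr.c i * v))
          = (fr.b i - fr.b i * (fr.c i * fr.b i)) * (fr.c i * v) := by noncomm_ring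
      simp [F.col_b_self, e, fr.cb_self]
    · have e : (1 - fr.b l * fr.c l) * (fr.b i * (fr.c i * v))
          = (fr.b i - fr.b l * (fr.c l * fr.b i)) * (fr.c i * v) := by noncomm_ring
      simp only [F.col_b fr hi, hπ i l hi, e, fr.cb_ne (Ne.symm hi)]
      simp

theorem rep_row (hπ : Rep F fr π) (l : I) (w : R) :
    ((π (F.row fr l w) : Rˣ) : R) = 1 + fr.b l * w * (1 - fr.b l * fr.c l) := by
  refine fr.row_induction (fun a => ((π (F.row fr l a) : Rˣ) : R)
    = 1 + fr.b l * a * (1 - fr.b l * fr.c l)) w ?_ ?_ ?_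
  · simp [F.row_zero]
  · intro a b ha hb
    simp only [F.row_add, map_mul, Units.val_mul, ha, hb]
    have e : (1 + fr.b l * a * (1 - fr.b l * fr.c l)) * (1 + fr.b l * b * (1 - fr.b l * fr.c l))
        = 1 + fr.b l * (a + b) * (1 - fr.b l * fr.c l) + fr.b l * a *
          (fr.b l - fr.b l * (fr.c l * fr.b l)) * b * (1 - fr.b l * fr.c l) := by noncomm_ring
    rw [e, fr.cb_self]; simp
  · intro i
    by_cases hi : i = l
    · subst hi
      have e : fr.b i * (w * fr.b i * fr.c i) * (1 - fr.b i * fr.c i)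
          = fr.b i * w * fr.b i * (fr.c i - (fr.c i * fr.b i) * fr.c i) := by noncomm_ring
      simp [F.row_c_self, e, fr.cb_self]
    · have e : fr.b l * (w * fr.b i * fr.c i) * (1 - fr.b l * fr.c l)
          = fr.b l * (w * fr.b i) * (fr.c i - (fr.c i * fr.b l) * fr.c l) := by noncomm_ring
      simp only [F.row_c fr hi, hπ l i (Ne.symm hi), e, fr.cb_ne hi]
      simp

theorem conj_of_comm {g h k : H} (e : ⁅g, h⁆ = k) : g * h * g⁻¹ = k * h := by
  rw [← e, commutatorElement_def]; group

theorem col_conj_x (hπ : Rep F fr π) {i j l : I} (h : i ≠ j) (hi : i ≠ l) (hj : j ≠ l) (a v : R) :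
    F.x i j a * F.col fr l v * (F.x i j a)⁻¹ = F.col fr l ((π (F.x i j a) : Rˣ) * v) := by
  refine fr.col_induction (fun v => F.x i j a * F.col fr l v * (F.x i j a)⁻¹
    = F.col fr l ((π (F.x i j a) : Rˣ) * v)) v ?_ ?_ ?_
  · simp [F.col_zero]
  · intro p q hp hq
    simp only [mul_add, F.col_add, ← hp, ← hq]; group
  · intro k
    generalize fr.c k * v = r
    rw [hπ i j h]
    have e : (1 + fr.b i * a * fr.c j) * (fr.b k * r)
        = fr.b i * (a * (fr.c j * fr.b k) * r) + fr.b k * r := by noncomm_ring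
    rw [e]
    by_cases hk : k = l
    · subst hk
      simp [F.col_b_self, fr.cb_ne hj]
    · by_cases hkj : k = j
      · subst hkj
        rw [F.col_add, F.col_b fr hi, F.col_b fr hk, fr.cb_self, mul_one]
        exact conj_of_comm (F.mul h hk hi a r)
      · rw [fr.cb_ne (Ne.symm hkj), mul_zero, zero_mul, mul_zero, zero_add, F.col_b fr hk,
          (F.comm h hk (Ne.symm hkj) hi a r).eq]
        group

theorem row_conj_x (hπ : Rep F fr π) {i j l : I} (h : i ≠ j) (hi : i ≠ l) (hj : j ≠ l) (a w : R) :
    (F.x i j a)⁻¹ * F.row fr l w * F.x i j a = F.row fr l (w * (π (F.x i j a) : Rˣ)) := by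
  refine fr.row_induction (fun w => (F.x i j a)⁻¹ * F.row fr l w * F.x i j a
    = F.row fr l (w * (π (F.x i j a) : Rˣ))) w ?_ ?_ ?_
  · simp [F.row_zero]
  · intro p q hp hq
    simp only [add_mul, F.row_add, ← hp, ← hq]; group
  · intro k
    generalize w * fr.b k = r
    rw [hπ i j h]
    have e : (r * fr.c k) * (1 + fr.b i * a * fr.c j)
        = (r * (fr.c k * fr.b i) * a) * fr.c j + r * fr.c k := by noncomm_ring
    rw [e]
    by_cases hk : k = l
    · subst hk
      simp [F.row_c_self, fr.cb_ne (Ne.symm hi)]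
    · by_cases hki : k = i
      · subst hki
        rw [F.row_add, F.row_c fr hj, F.row_c fr hk, fr.cb_self, mul_one]
        have h1 := F.mul (Ne.symm hk) h (Ne.symm hj) r a
        have h2 := (F.comm (Ne.symm hj) h (Ne.symm h) (Ne.symm hj) (r * a) a).eq
        have h3 := conj_of_comm h1
        calc (F.x k j a)⁻¹ * F.x l k r * F.x k j a
            = (F.x k j a)⁻¹ * (F.x l k r * F.x k j a * (F.x l k r)⁻¹) * F.x l k r := by group
          _ = F.x l j (r * a) * F.x l k r := by rw [h3, h2]; group
      · rw [fr.cb_ne hki, mul_zero, zero_mul, zero_mul, zero_add, F.row_c fr hk, mul_assoc,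
          (F.comm (Ne.symm hk) h hki (Ne.symm hj) r a).eq]
        group

/-- (L1) for columns. -/
theorem col_conj (hπ : Rep F fr π) {l : I} {g : H} (hg : g ∈ F.sub l) (v : R) :
    g * F.col fr l v * g⁻¹ = F.col fr l ((π g : Rˣ) * v) := by
  induction hg using Subgroup.closure_induction generalizing v with
  | mem g hg =>
    obtain ⟨i, j, a, h, hi, hj, rfl⟩ := hg
    exact col_conj_x hπ h hi hj a v
  | one => simp
  | mul g g' _ _ ih ih' =>
    rw [map_mul, Units.val_mul, mul_assoc _ _ v, ← ih, ← ih']; group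
  | inv g _ ih =>
    have := ih (((π g)⁻¹ : Rˣ) * v)
    rw [← mul_assoc, Units.mul_inv, one_mul] at this
    rw [map_inv, ← this]; group

/-- (L1) for rows. -/
theorem row_conj (hπ : Rep F fr π) {l : I} {g : H} (hg : g ∈ F.sub l) (w : R) :
    g⁻¹ * F.row fr l w * g = F.row fr l (w * (π g : Rˣ)) := by
  induction hg using Subgroup.closure_induction generalizing w with
  | mem g hg =>
    obtain ⟨i, j, a, h, hi, hj, rfl⟩ := hg
    exact row_conj_x hπ h hi hj a w
  | one => simp
  | mul g g' _ _ ih ih' =>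
    rw [map_mul, Units.val_mul, ← mul_assoc w, ← ih', ← ih]; group
  | inv g _ ih =>
    have := ih (w * ((π g)⁻¹ : Rˣ))
    rw [mul_assoc w, Units.inv_mul, mul_one] at this
    rw [map_inv, ← this]; group

theorem row_conj' (hπ : Rep F fr π) {l : I} {g : H} (hg : g ∈ F.sub l) (w : R) :
    g * F.row fr l w * g⁻¹ = F.row fr l (w * ((π g)⁻¹ : Rˣ)) := by
  have := row_conj hπ ((F.sub l).inv_mem hg) w
  rwa [inv_inv, map_inv] at this

/-- An element of `sub l` in the kernel of `π` is central. -/
theorem central (hπ : Rep F fr π) (hgen : F.gen = ⊤) {l : I} {g : H} (hg : g ∈ F.sub l)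
    (h1 : π g = 1) (k : H) : Commute g k := by
  have hc : ∀ v, Commute g (F.col fr l v) := by
    intro v
    have := col_conj hπ hg v
    rw [h1, Units.val_one, one_mul] at this
    exact mul_inv_eq_iff_eq_mul.mp this
  have hr : ∀ v, Commute g (F.row fr l v) := by
    intro v
    have := row_conj' hπ hg v
    rw [h1, inv_one, Units.val_one, mul_one] at this
    exact mul_inv_eq_iff_eq_mul.mp this
  have hk : k ∈ F.gen := hgen ▸ Subgroup.mem_top k
  induction hk using Subgroup.closure_induction with
  | mem k hk =>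
    obtain ⟨i, j, a, h, rfl⟩ := hk
    by_cases hi : i = l
    · subst hi
      rw [← F.row_c fr (Ne.symm h)]; exact hr _
    · by_cases hj : j = l
      · subst hj
        rw [← F.col_b fr h]; exact hc _
      · have := F.mul hi (Ne.symm hj) h a 1
        rw [mul_one] at this
        rw [← this, ← F.col_b fr hi, ← F.row_c fr hj, commutatorElement_def]
        exact (((hc _).mul_right (hr _)).mul_right (hc _).inv_right).mul_right (hr _).inv_right
  | one => exact Commute.one_right g
  | mul a b _ _ ha hb => exact ha.mul_right hb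
  | inv a _ ha => exact ha.inv_right

end SFam

end Vale.Agent.P193
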