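import Mathlib

/-!
Group-theoretic half of the Boone-Higman project: definitions.
-/

namespace Vale.Agent.P193

open scoped commutatorElement

/-- A purely infinite simple infinite-sum ring with centre {0,1}. -/
structure NiceRing (R : Type) [Ring R] where
  z : R
  z' : R
  u : R
  u' : R
  φ : R →+* R
  hz : z' * z = 1
  hu : u' * u = 1
  hzu : z * z' + u * u' = 1
  hφ : ∀ x, φ x = z * x * z' + u * φ x * u'
  pi : ∀ a : R, a ≠ 0 → ∃ x y : R, x * a * y = 1
  center : ∀ c : R, (∀ x, c * x = x * c) → c = 0 ∨ c = 1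
  nontriv : (1 : R) ≠ 0

/-- Finitely presented ring, in universal-property form. -/
def RingFP (R : Type) [Ring R] : Prop :=
  ∃ (X : Type) (_ : Finite X) (ι : X → R) (S : Set (FreeRing X)), S.Finite ∧
    Function.Surjective (FreeRing.lift ι) ∧ (∀ r ∈ S, FreeRing.lift ι r = 0) ∧
    ∀ (A : Type) [Ring A] (f : X → A), (∀ r ∈ S, FreeRing.lift f r = 0) →
      ∃ g : R →+* A, ∀ x, g (ι x) = f x

/-- A family of group elements satisfying the Steinberg relations. -/
structure SFam (R : Type) [Ring R] (I : Type) (H : Type) [Group H] where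
  x : I → I → R → H
  add : ∀ {i j : I}, i ≠ j → ∀ a b : R, x i j (a + b) = x i j a * x i j b
  comm : ∀ {i j k l : I}, i ≠ j → k ≠ l → j ≠ k → i ≠ l → ∀ a b : R,
    Commute (x i j a) (x k l b)
  mul : ∀ {i j k : I}, i ≠ j → j ≠ k → i ≠ k → ∀ a b : R,
    ⁅x i j a, x j k b⁆ = x i k (a * b)

namespace SFam

variable {R : Type} [Ring R] {I : Type} {H : Type} [Group H]

/-- The subgroup generated by the family. -/
def gen (F : SFam R I H) : Subgroup H :=
  Subgroup.closure {g | ∃ i j a, i ≠ j ∧ g = F.x i j a}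

/-- The subgroup generated by the members not involving the index `l`. -/
def sub (F : SFam R I H) (l : I) : Subgroup H :=
  Subgroup.closure {g | ∃ i j a, i ≠ j ∧ i ≠ l ∧ j ≠ l ∧ g = F.x i j a}

end SFam

/-- A complete system of matrix units inside `R`: columns `b i`, rows `c i`. -/
structure Frame (R : Type) [Ring R] (I : Type) [Fintype I] where
  b : I → R
  c : I → R
  cb_self : ∀ i, c i * b i = 1
  cb_ne : ∀ {i j : I}, i ≠ j → c i * b j = 0
  sum : ∑ i, b i * c i = 1

/-- `π` represents the family `F` by elementary matrices in the frame `fr`. -/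
def Rep {R : Type} [Ring R] {I : Type} [Fintype I] {H : Type} [Group H]
    (F : SFam R I H) (fr : Frame R I) (π : H →* Rˣ) : Prop :=
  ∀ i j : I, i ≠ j → ∀ a : R, ((π (F.x i j a) : Rˣ) : R) = 1 + fr.b i * a * fr.c j

/-- At least three indices. -/
def Three (I : Type) : Prop := ∀ i j : I, ∃ m, m ≠ i ∧ m ≠ j

/-- At least four indices. -/
def Four (I : Type) : Prop := ∀ i j k : I, ∃ m, m ≠ i ∧ m ≠ j ∧ m ≠ k

/-- A Leavitt pair: `R` is isomorphic to `R ⊕ R`. -/
structure LPair (R : Type) [Ring R] where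
  p0 : R
  p0' : R
  p1 : R
  p1' : R
  h0 : p0' * p0 = 1
  h1 : p1' * p1 = 1
  h01 : p0' * p1 = 0
  h10 : p1' * p0 = 0
  hsum : p0 * p0' + p1 * p1' = 1

/-- Generators of the Steinberg group. -/
abbrev StGen (I R : Type) : Type := {p : I × I // p.1 ≠ p.2} × R

/-- The generator `x i j a` in the free group. -/
def stOf {I R : Type} {i j : I} (h : i ≠ j) (a : R) : FreeGroup (StGen I R) :=
  FreeGroup.of (⟨(i, j), h⟩, a)

/-- The Steinberg relations. -/
def stRels (I R : Type) [Ring R] : Set (FreeGroup (StGen I R)) :=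
  {r | (∃ (i j : I) (h : i ≠ j) (a b : R), r = stOf h (a + b) * (stOf h a * stOf h b)⁻¹) ∨
    (∃ (i j k l : I) (h : i ≠ j) (h' : k ≠ l) (a b : R), j ≠ k ∧ i ≠ l ∧
      r = ⁅stOf h a, stOf h' b⁆) ∨
    (∃ (i j k : I) (h : i ≠ j) (h' : j ≠ k) (h'' : i ≠ k) (a b : R),
      r = ⁅stOf h a, stOf h' b⁆ * (stOf h'' (a * b))⁻¹)}

/-- The Steinberg group of `R` on the index set `I`. -/
abbrev St (I R : Type) [Ring R] : Type := PresentedGroup (stRels I R)

end Vale.Agent.P193
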