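import Vale.Agent.P193.GBasic

/-!
Steinberg groups on at least five indices over finitely presented rings are finitely presented.
-/

namespace Vale.Agent.P193

open scoped commutatorElement

namespace GFP

/-- Group commutator. -/
def cm {G : Type} [Group G] (a b : G) : G := a * b * a⁻¹ * b⁻¹

section cm

variable {G : Type} [Group G]

theorem cm_eq_one {a b : G} (h : Commute a b) : cm a b = 1 := by
  rw [cm, h.eq]; group

theorem commute_of_cm {a b : G} (h : cm a b = 1) : Commute a b := by
  have : a * b = cm a b * (b * a) := by rw [cm]; group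
  rw [h, one_mul] at this
  exact this

theorem cm_one_left (b : G) : cm 1 b = 1 := by simp [cm]

theorem cm_one_right (a : G) : cm a 1 = 1 := by simp [cm]

theorem commute_cm {a b c : G} (h1 : Commute a c) (h2 : Commute b c) : Commute (cm a b) c :=
  ((h1.mul_left h2).mul_left h1.inv_left).mul_left h2.inv_left

theorem key {a b c : G} (h1 : Commute a c) (h2 : Commute (cm a b) (cm b c))
    (h3 : Commute (cm b c) c) : cm a (cm b c) = cm (cm a b) c := by
  have e1 : a * c * a⁻¹ = c := by rw [h1.eq]; group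
  have e2 : cm a (cm b c)
      = cm a b * (b * (a * c * a⁻¹) * b⁻¹ * (cm a b)⁻¹ * (a * c * a⁻¹)⁻¹) * (cm b c)⁻¹ := by
    simp only [cm]; group
  have e3 : b * c * b⁻¹ * (cm a b)⁻¹ * c⁻¹ = cm b c * (c * (cm a b)⁻¹ * c⁻¹) := by
    simp only [cm]; group
  have e4 : Commute (cm b c) (c * (cm a b)⁻¹ * c⁻¹) :=
    (h3.mul_right h2.symm.inv_right).mul_right h3.inv_right
  rw [e2, e1, e3, e4.eq]
  generalize cm a b = u
  generalize cm b c = v
  simp only [cm]; group

theorem cm_mul_left {a a' b : G} (h : Commute (cm a' b) a) (h' : Commute (cm a' b) (cm a b)) :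
    cm (a * a') b = cm a b * cm a' b := by
  have e : cm (a * a') b = a * cm a' b * a⁻¹ * cm a b := by simp only [cm]; group
  rw [e, ← h.eq, ← h'.eq]; group

theorem cm_mul_right {a b b' : G} (h : Commute (cm a b') b) :
    cm a (b * b') = cm a b * cm a b' := by
  have e : cm a (b * b') = cm a b * (b * cm a b' * b⁻¹) := by simp only [cm]; group
  rw [e, ← h.eq]; group

theorem cm_inv_left {a b : G} (h : Commute (cm a b) a) : cm a⁻¹ b = (cm a b)⁻¹ := by
  have e : cm a⁻¹ b = a⁻¹ * (cm a b)⁻¹ * a := by simp only [cm]; group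
  rw [e, ← h.inv_inv.eq]; group

theorem cm_inv_right {a b : G} (h : Commute (cm a b) b) : cm a b⁻¹ = (cm a b)⁻¹ := by
  have e : cm a b⁻¹ = b⁻¹ * (cm a b)⁻¹ * b := by simp only [cm]; group
  rw [e, ← h.inv_inv.eq]; group

theorem map_cm {H : Type} [Group H] (f : G →* H) (a b : G) : f (cm a b) = cm (f a) (f b) := by
  simp [cm]

end cm

theorem exists_ne4 {I : Type} [Fintype I] (hI : 5 ≤ Fintype.card I) (i j k l : I) :
    ∃ m, m ≠ i ∧ m ≠ j ∧ m ≠ k ∧ m ≠ l := by
  classical
  have h1 : ({i, j, k, l} : Finset I).card < (Finset.univ : Finset I).card := by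
    have := Finset.card_le_four (a := i) (b := j) (c := k) (d := l)
    rw [Finset.card_univ]; omega
  obtain ⟨m, -, hm⟩ := Finset.exists_mem_notMem_of_card_lt_card h1
  simp only [Finset.mem_insert, Finset.mem_singleton, not_or] at hm
  exact ⟨m, hm⟩

/-- The short relations. -/
structure Short {I B G : Type} [Group G] (g : I → I → Option B → G) : Prop where
  diag : ∀ i o, g i i o = 1
  comm : ∀ i j k l o o', j ≠ k → i ≠ l → Commute (g i j o) (g k l o')
  mul1 : ∀ i j k o, i ≠ j → j ≠ k → i ≠ k → cm (g i j none) (g j k o) = g i k o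
  mul2 : ∀ i j k o, i ≠ j → j ≠ k → i ≠ k → cm (g i j o) (g j k none) = g i k o

section words

variable {I B G : Type} [Group G]

open Classical in
/-- The elements attached to words. -/
noncomputable def X (μ : I → I → I) (g : I → I → Option B → G) : List B → I → I → G
  | [], i, j => g i j none
  | [a], i, j => g i j (some a)
  | a :: b :: w, i, j =>
      if i = j then 1 else cm (g i (μ i j) (some a)) (X μ g (b :: w) (μ i j) j)

/-- The Steinberg relations for words of bounded length. -/
structure P (x : List B → I → I → G) (H : ℕ) : Prop where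
  comm : ∀ w w' i j k l, w.length ≤ H → w'.length ≤ H → j ≠ k → i ≠ l →
    Commute (x w i j) (x w' k l)
  mul : ∀ w w' i j k, w.length + w'.length ≤ H → i ≠ j → j ≠ k → i ≠ k →
    cm (x w i j) (x w' j k) = x (w ++ w') i k

variable {μ : I → I → I} {g : I → I → Option B → G}

theorem X_diag (hg : Short g) (w : List B) (i : I) : X μ g w i i = 1 := by
  match w with
  | [] => exact hg.diag _ _
  | [a] => exact hg.diag _ _
  | a :: b :: w => simp [X]

theorem X_cons (a b : B) (w : List B) {i j : I} (h : i ≠ j) :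
    X μ g (a :: b :: w) i j = cm (X μ g [a] i (μ i j)) (X μ g (b :: w) (μ i j) j) := by
  simp [X, h]

theorem X_short {w : List B} (hw : w.length ≤ 1) : ∃ o, ∀ i j, X μ g w i j = g i j o := by
  match w with
  | [] => exact ⟨none, fun _ _ => rfl⟩
  | [a] => exact ⟨some a, fun _ _ => rfl⟩
  | a :: b :: w => simp at hw

theorem P_one (hg : Short g) : P (X μ g) 1 where
  comm w w' i j k l hw hw' h1 h2 := by
    obtain ⟨o, ho⟩ := X_short (μ := μ) (g := g) hw
    obtain ⟨o', ho'⟩ := X_short (μ := μ) (g := g) hw'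
    rw [ho, ho']; exact hg.comm _ _ _ _ _ _ h1 h2
  mul w w' i j k hw h1 h2 h3 := by
    match w, w' with
    | [], w' =>
      obtain ⟨o', ho'⟩ := X_short (μ := μ) (g := g) (w := w') (by simpa using hw)
      rw [List.nil_append, ho', ho']; exact hg.mul1 _ _ _ _ h1 h2 h3
    | w, [] =>
      obtain ⟨o, ho⟩ := X_short (μ := μ) (g := g) (w := w) (by simpa using hw)
      rw [List.append_nil, ho, ho]; exact hg.mul2 _ _ _ _ h1 h2 h3
    | a :: w, b :: w' => simp at hw; omega

theorem assoc {x : List B → I → I → G} {n : ℕ}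
    (hc : ∀ w w' i j k l, w.length ≤ n → w'.length ≤ n → j ≠ k → i ≠ l →
      Commute (x w i j) (x w' k l)) {w₁ w₂ w₃ : List B} {i j l k : I}
    (h12 : w₁.length + w₂.length ≤ n) (h23 : w₂.length + w₃.length ≤ n)
    (hjl : j ≠ l) (hik : i ≠ k) (hkl : k ≠ l) (hjk : j ≠ k)
    (m1 : cm (x w₁ i j) (x w₂ j l) = x (w₁ ++ w₂) i l)
    (m2 : cm (x w₂ j l) (x w₃ l k) = x (w₂ ++ w₃) j k) :
    cm (x w₁ i j) (x (w₂ ++ w₃) j k) = cm (x (w₁ ++ w₂) i l) (x w₃ l k) := by
  rw [← m1, ← m2]
  refine key (hc _ _ _ _ _ _ (by omega) (by omega) hjl hik) ?_ ?_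
  · rw [m1, m2]
    exact hc _ _ _ _ _ _ (by simpa using h12) (by simpa using h23) hjl.symm hik
  · rw [m2]
    exact hc _ _ _ _ _ _ (by simpa using h23) (by omega) hkl hjk

variable [Fintype I]

theorem P_succ (hI : 5 ≤ Fintype.card I) (hμ : ∀ i j, μ i j ≠ i ∧ μ i j ≠ j) (hg : Short g)
    {H : ℕ} (hH : 1 ≤ H) (h : P (X μ g) H) : P (X μ g) (H + 1) := by
  have a1 : ∀ (a : B) (w : List B) i j k, w.length = H → i ≠ j → j ≠ k → i ≠ k →
      cm (X μ g [a] i j) (X μ g w j k) = X μ g (a :: w) i k := by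
    intro a w i j k hw h1 h2 h3
    match w, hw with
    | [], hw => simp at hw; omega
    | b :: w, hw =>
      rw [X_cons a b w h3]
      by_cases hj : j = μ i k
      · rw [← hj]
      · have := assoc h.comm (w₁ := [a]) (w₂ := []) (w₃ := b :: w) (i := i) (j := j) (l := μ i k)
          (k := k) (by simpa using hH) (by simpa using hw.le) hj h3 (hμ i k).2.symm h2
          (h.mul _ _ _ _ _ (by simpa using hH) h1 hj (hμ i k).1.symm)
          (h.mul _ _ _ _ _ (by simpa using hw.le) hj (hμ i k).2 h2)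
        exact this
  have a2 : ∀ (w w' : List B) i j k, w ≠ [] → w' ≠ [] → w.length + w'.length ≤ H + 1 →
      i ≠ j → j ≠ k → i ≠ k → cm (X μ g w i j) (X μ g w' j k) = X μ g (w ++ w') i k := by
    intro w w' i j k hw hw' hl h1 h2 h3
    rcases Nat.lt_or_eq_of_le hl with hl' | hl'
    · exact h.mul _ _ _ _ _ (by omega) h1 h2 h3
    match w, hw with
    | [a], _ => exact a1 a w' i j k (by simp at hl'; omega) h1 h2 h3
    | a :: b :: w, _ =>
      obtain ⟨l, l1, l2, l3, -⟩ := exists_ne4 hI i j k k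
      have hw'' : 0 < w'.length := List.length_pos_iff.mpr hw'
      simp only [List.length_cons] at hl'
      have := assoc h.comm (w₁ := [a]) (w₂ := b :: w) (w₃ := w') (i := i) (j := l) (l := j)
        (k := k) (by simp; omega) (by simp; omega) l2 h3 h2.symm l3
        (h.mul _ _ _ _ _ (by simp; omega) l1.symm l2 h1)
        (h.mul _ _ _ _ _ (by simp; omega) l2 h2 l3)
      rw [List.singleton_append] at this
      rw [← this]
      exact a1 a _ i l k (by simp; omega) l1.symm l3 h3
  have c0 : ∀ (w : List B) i j k l (z : G), w.length ≤ H + 1 →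
      (∀ (v : List B) p q, v.length ≤ H → q ≠ k → p ≠ l → Commute (X μ g v p q) z) →
      j ≠ k → i ≠ l → Commute (X μ g w i j) z := by
    intro w i j k l z hw hz h1 h2
    rcases Nat.lt_or_eq_of_le hw with hw' | hw'
    · exact hz w i j (by omega) h1 h2
    by_cases hij : i = j
    · rw [hij, X_diag hg]; exact Commute.one_left _
    match w, hw' with
    | [], hw' => simp at hw'
    | a :: w, hw' =>
      obtain ⟨m, m1, m2, m3, m4⟩ := exists_ne4 hI i j k l
      simp only [List.length_cons] at hw'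
      rw [← a1 a w i m j (by omega) m1.symm m2 hij]
      exact commute_cm (hz _ _ _ (by simpa using hH) m3 h2) (hz _ _ _ (by omega) h1 m4)
  have c1 : ∀ (w w' : List B) i j k l, w.length ≤ H + 1 → w'.length ≤ H + 1 → j ≠ k → i ≠ l →
      Commute (X μ g w i j) (X μ g w' k l) := by
    intro w w' i j k l hw hw' h1 h2
    refine c0 w i j k l _ hw (fun v p q hv h3 h4 => ?_) h1 h2
    refine (c0 w' k l p q _ hw' (fun u r s hu h5 h6 => ?_) h4.symm h3.symm).symm
    exact h.comm _ _ _ _ _ _ hu hv h5 h6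
  refine ⟨c1, fun w w' i j k hl h1 h2 h3 => ?_⟩
  · rcases Nat.lt_or_eq_of_le hl with hl' | hl'
    · exact h.mul _ _ _ _ _ (by omega) h1 h2 h3
    obtain ⟨l, l1, l2, l3, -⟩ := exists_ne4 hI i j k k
    match w, w', hl' with
    | [], [], hl' => simp at hl'
    | [], a :: w, hl' =>
      simp only [List.length_cons, List.length_nil] at hl'
      have := assoc c1 (w₁ := []) (w₂ := [a]) (w₃ := w) (i := i) (j := j) (l := l) (k := k)
        (by simp) (by simp; omega) l2.symm h3 l3.symm h2
        (h.mul _ _ _ _ _ (by simpa using hH) h1 l2.symm l1.symm)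
        (a1 a w j l k (by omega) l2.symm l3 h2)
      exact this.trans (a1 a w i l k (by omega) l1.symm l3 h3)
    | a :: w, [], hl' =>
      simp only [List.length_cons, List.length_nil] at hl'
      have := assoc c1 (w₁ := [a]) (w₂ := w) (w₃ := []) (i := i) (j := l) (l := j) (k := k)
        (by simp; omega) (by simp; omega) l2 h3 h2.symm l3
        (a1 a w i l j (by omega) l1.symm l2 h1)
        (h.mul _ _ _ _ _ (by simp; omega) l2 h2 l3)
      rw [List.append_nil] at this ⊢
      exact this.symm.trans (a1 a w i l k (by omega) l1.symm l3 h3)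
    | a :: w, b :: w', hl' => exact a2 _ _ i j k (by simp) (by simp) hl h1 h2 h3

theorem P_all (hI : 5 ≤ Fintype.card I) (hμ : ∀ i j, μ i j ≠ i ∧ μ i j ≠ j) (hg : Short g)
    (H : ℕ) : P (X μ g) (H + 1) := by
  induction H with
  | zero => exact P_one hg
  | succ H ih => exact P_succ hI hμ hg (by omega) ih

end words

open scoped IsMulCommutative in
theorem exists_add {α G : Type} [Group G] (t : α → G) (ht : ∀ a b, Commute (t a) (t b)) :
    ∃ Y : FreeAbelianGroup α → G, (∀ a, Y (FreeAbelianGroup.of a) = t a) ∧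
      ∀ f f', Y (f + f') = Y f * Y f' := by
  have : IsMulCommutative (Subgroup.closure (Set.range t)) :=
    Subgroup.isMulCommutative_closure (by
      rintro _ ⟨a, rfl⟩ _ ⟨b, rfl⟩; exact ht a b)
  let φ : FreeAbelianGroup α →+ Additive (Subgroup.closure (Set.range t)) :=
    FreeAbelianGroup.lift fun a => Additive.ofMul ⟨t a, Subgroup.subset_closure ⟨a, rfl⟩⟩
  refine ⟨fun f => (Additive.toMul (φ f) : Subgroup.closure (Set.range t)), fun a => ?_,
    fun f f' => ?_⟩
  · simp [φ]
  · simp

/-- Basis element of a word. -/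
def wo {B : Type} (w : List B) : FreeRing B := FreeAbelianGroup.of (FreeMonoid.ofList w)

theorem wo_mul {B : Type} (w w' : List B) : wo w * wo w' = wo (w ++ w') :=
  FreeAbelianGroup.of_mul_of (FreeMonoid.ofList w) (FreeMonoid.ofList w')

theorem F_ind {B : Type} {p : FreeRing B → Prop} (h0 : p 0) (h1 : ∀ w, p (wo w))
    (h2 : ∀ f, p f → p (-f)) (h3 : ∀ f f', p f → p f' → p (f + f')) (f : FreeRing B) : p f :=
  FreeAbelianGroup.induction_on (motive := p) f h0 (fun w => h1 (FreeMonoid.toList w))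
    (fun _ => h2 _) h3

theorem exists_fam {I B G : Type} [Group G] [Fintype I] (hI : 5 ≤ Fintype.card I)
    {g : I → I → Option B → G} (hg : Short g) :
    ∃ Y : SFam (FreeRing B) I G,
      (∀ i j, Y.x i j 1 = g i j none) ∧ ∀ i j a, Y.x i j (FreeRing.of a) = g i j (some a) := by
  choose μ hμ1 hμ2 _ using fun i j : I => exists_ne4 hI i j j j
  have hP := P_all (μ := μ) hI (fun i j => ⟨hμ1 i j, hμ2 i j⟩) hg
  have hc : ∀ w w' i j k l, j ≠ k → i ≠ l → Commute (X μ g w i j) (X μ g w' k l) :=
    fun w w' i j k l h1 h2 =>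
      (hP (w.length + w'.length)).comm _ _ _ _ _ _ (by omega) (by omega) h1 h2
  have hcc : ∀ i j (w w' : FreeMonoid B),
      Commute (X μ g (FreeMonoid.toList w) i j) (X μ g (FreeMonoid.toList w') i j) := by
    intro i j w w'
    by_cases h : i = j
    · rw [h, X_diag hg]; exact Commute.one_left _
    · exact hc _ _ _ _ _ _ (Ne.symm h) h
  have hex : ∀ i j : I, ∃ Y : FreeRing B → G, (∀ w, Y (wo w) = X μ g w i j) ∧
      ∀ f f', Y (f + f') = Y f * Y f' := by
    intro i j
    obtain ⟨Y, h1, h2⟩ :=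
      exists_add (fun w : FreeMonoid B => X μ g (FreeMonoid.toList w) i j) (hcc i j)
    exact ⟨Y, fun w => h1 _, h2⟩
  choose Y hw hY2 using hex
  have h0 : ∀ i j, Y i j 0 = 1 := by
    intro i j
    have := hY2 i j 0 0
    rw [add_zero] at this
    exact left_eq_mul.1 this
  have hn : ∀ i j f, Y i j (-f) = (Y i j f)⁻¹ := by
    intro i j f
    rw [eq_inv_iff_mul_eq_one, ← hY2, neg_add_cancel, h0]
  have hcz : ∀ i j z, (∀ w, Commute (X μ g w i j) z) → ∀ f, Commute (Y i j f) z := by
    intro i j z hz f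
    induction f using F_ind with
    | h0 => rw [h0]; exact Commute.one_left _
    | h1 w => rw [hw]; exact hz w
    | h2 f ih => rw [hn]; exact ih.inv_left
    | h3 f f' ih ih' => rw [hY2]; exact ih.mul_left ih'
  have hC : ∀ i j k l f f', j ≠ k → i ≠ l → Commute (Y i j f) (Y k l f') :=
    fun i j k l f f' h1 h2 => hcz _ _ _
      (fun w => (hcz _ _ _ (fun w' => hc _ _ _ _ _ _ h2.symm h1.symm) f').symm) f
  have hM1 : ∀ i j k w f', i ≠ j → j ≠ k → i ≠ k →
      cm (Y i j (wo w)) (Y j k f') = Y i k (wo w * f') := by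
    intro i j k w f' h1 h2 h3
    induction f' using F_ind with
    | h0 => rw [h0, mul_zero, h0, cm_one_right]
    | h1 w' =>
      rw [wo_mul, hw, hw, hw]
      exact (hP (w.length + w'.length)).mul _ _ _ _ _ (by omega) h1 h2 h3
    | h2 f ih =>
      rw [mul_neg, hn, hn, cm_inv_right, ih]
      rw [ih]; exact hC _ _ _ _ _ _ h2.symm h3
    | h3 f f' ih ih' =>
      rw [mul_add, hY2, hY2, cm_mul_right, ih, ih']
      rw [ih']; exact hC _ _ _ _ _ _ h2.symm h3
  have hM : ∀ i j k f f', i ≠ j → j ≠ k → i ≠ k →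
      cm (Y i j f) (Y j k f') = Y i k (f * f') := by
    intro i j k f f' h1 h2 h3
    induction f using F_ind with
    | h0 => rw [h0, zero_mul, h0, cm_one_left]
    | h1 w => exact hM1 _ _ _ _ _ h1 h2 h3
    | h2 f ih =>
      rw [neg_mul, hn, hn, cm_inv_left, ih]
      rw [ih]; exact hC _ _ _ _ _ _ h3.symm h1
    | h3 f f'' ih ih' =>
      rw [add_mul, hY2, hY2, cm_mul_left, ih, ih']
      · rw [ih']; exact hC _ _ _ _ _ _ h3.symm h1
      · rw [ih, ih']; exact hC _ _ _ _ _ _ h3.symm h3
  exact ⟨⟨Y, fun _ a b => hY2 _ _ a b, fun _ _ h1 h2 a b => hC _ _ _ _ a b h1 h2,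
    fun h1 h2 h3 a b => hM _ _ _ a b h1 h2 h3⟩, fun i j => hw i j [], fun i j a => hw i j [a]⟩

/-- The congruence attached to a Steinberg family. -/
def con {I T G : Type} [Ring T] [Group G] [Fintype I] (hI : 5 ≤ Fintype.card I)
    (Y : SFam T I G) : RingCon T where
  r f f' := ∀ i j, i ≠ j → Y.x i j f = Y.x i j f'
  iseqv := ⟨fun _ _ _ _ => rfl, fun h i j e => (h i j e).symm,
    fun h h' i j e => (h i j e).trans (h' i j e)⟩
  add' h h' i j e := by rw [Y.add e, Y.add e, h i j e, h' i j e]
  mul' h h' i j e := by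
    obtain ⟨m, m1, m2, -, -⟩ := exists_ne4 hI i j j j
    rw [← Y.mul m1.symm m2 e, ← Y.mul m1.symm m2 e, h i m m1.symm, h' m j m2]

/-- Candidates for short relators. -/
def cand (α : Type) : Set (FreeGroup α) :=
  Set.range (fun p : α × α × α => cm (FreeGroup.of p.1) (FreeGroup.of p.2.1) *
    (FreeGroup.of p.2.2)⁻¹) ∪
  (Set.range (fun p : α × α => cm (FreeGroup.of p.1) (FreeGroup.of p.2)) ∪ Set.range FreeGroup.of)

theorem cand_finite (α : Type) [Finite α] : (cand α).Finite :=
  (Set.finite_range _).union ((Set.finite_range _).union (Set.finite_range _))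

theorem exists_group {α G : Type} [Finite α] [Group G] (t : α → G) :
    ∃ (Γ : Type) (_ : Group Γ) (s : α → Γ) (p : Γ →* G), Group.IsFinitelyPresented Γ ∧
      (∀ a, p (s a) = t a) ∧
      (∀ (H : Type) [Group H] (f f' : Γ →* H), (∀ a, f (s a) = f' (s a)) → f = f') ∧
      (∀ a b c, cm (t a) (t b) = t c → cm (s a) (s b) = s c) ∧
      (∀ a b, cm (t a) (t b) = 1 → cm (s a) (s b) = 1) ∧ ∀ a, t a = 1 → s a = 1 := by
  let rels : Set (FreeGroup α) := cand α ∩ {r | FreeGroup.lift t r = 1}
  have : Finite rels := ((cand_finite α).inter_of_left _).to_subtype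
  have h1 : ∀ r ∈ cand α, FreeGroup.lift t r = 1 → PresentedGroup.mk rels r = 1 :=
    fun r hr hr' => (QuotientGroup.eq_one_iff _).2 (Subgroup.subset_normalClosure ⟨hr, hr'⟩)
  refine ⟨PresentedGroup rels, inferInstance, PresentedGroup.of,
    PresentedGroup.toGroup (f := t) (fun r hr => hr.2), inferInstance,
    fun a => PresentedGroup.toGroup.of _, fun H _ f f' hf => PresentedGroup.ext hf,
    fun a b c h => ?_, fun a b h => ?_, fun a h => ?_⟩
  · have := h1 _ (Or.inl ⟨(a, b, c), rfl⟩) (by simp [map_cm, h])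
    rw [map_mul, map_inv, map_cm, mul_inv_eq_one] at this
    exact this
  · have := h1 _ (Or.inr (Or.inl ⟨(a, b), rfl⟩)) (by simp [map_cm, h])
    rw [map_cm] at this
    exact this
  · exact h1 _ (Or.inr (Or.inr ⟨a, rfl⟩)) (by simp [h])

/-- Image of a family under a homomorphism. -/
def mapFam {T I G H : Type} [Ring T] [Group G] [Group H] (Y : SFam T I G) (f : G →* H) :
    SFam T I H where
  x i j a := f (Y.x i j a)
  add h a b := by rw [Y.add h, map_mul]
  comm h1 h2 h3 h4 a b := (Y.comm h1 h2 h3 h4 a b).map f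
  mul h1 h2 h3 a b := by rw [← Y.mul h1 h2 h3, map_commutatorElement]

end GFP

open GFP in
theorem st_fp {R : Type} [Ring R] (hfp : RingFP R) {I : Type} [Fintype I]
    (hI : 5 ≤ Fintype.card I) : Group.IsFinitelyPresented (St I R) := by
  classical
  obtain ⟨B, _, ι, S, hS, hsurj, hS0, huniv⟩ := hfp
  let v : Option B → R := fun o => o.elim 1 ι
  let Z := stFam I R
  have hdiag : ∀ i r, Z.x i i r = 1 := fun i r => by simp [Z, stFam, stX]
  obtain ⟨Γ, _, s, p, hΓ, hp, hext, r2, r3, r5⟩ :=
    exists_group (fun t : I × I × Option B => Z.x t.1 t.2.1 (v t.2.2))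
  have hg : Short (fun i j o => s (i, j, o)) :=
    { diag := fun i o => r5 _ (hdiag _ _)
      comm := fun i j k l o o' h1 h2 => commute_of_cm (r3 _ _ (cm_eq_one (by
        by_cases e1 : i = j
        · rw [e1, hdiag]; exact Commute.one_left _
        by_cases e2 : k = l
        · rw [e2, hdiag]; exact Commute.one_right _
        exact Z.comm e1 e2 h1 h2 _ _)))
      mul1 := fun i j k o h1 h2 h3 => r2 _ _ _ (by
        refine (Z.mul h1 h2 h3 _ _).trans ?_
        simp [v])
      mul2 := fun i j k o h1 h2 h3 => r2 _ _ _ (by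
        refine (Z.mul h1 h2 h3 _ _).trans ?_
        simp [v]) }
  obtain ⟨Y, hY1, hYa⟩ := exists_fam hI hg
  have hpY : ∀ f i j, i ≠ j → p (Y.x i j f) = Z.x i j (FreeRing.lift ι f) := by
    intro f
    induction f using FreeRing.induction_on with
    | hn1 =>
      intro i j e
      rw [Y.x_neg e, map_inv, hY1, hp, map_neg, map_one, Z.x_neg e]; rfl
    | hb a => intro i j e; rw [hYa, hp, FreeRing.lift_of]; rfl
    | ha f f' ih ih' => intro i j e; rw [Y.add e, map_mul, ih i j e, ih' i j e, map_add, Z.add e]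
    | hm f f' ih ih' =>
      intro i j e
      obtain ⟨m, m1, m2, -, -⟩ := exists_ne4 hI i j j j
      rw [← Y.mul m1.symm m2 e, map_commutatorElement, ih i m m1.symm, ih' m j m2, map_mul,
        Z.mul m1.symm m2 e]
  have hps : Function.Surjective p := by
    rw [← MonoidHom.range_eq_top, eq_top_iff, ← stFam_gen, SFam.gen, Subgroup.closure_le]
    rintro _ ⟨i, j, a, e, rfl⟩
    obtain ⟨f, rfl⟩ := hsurj a
    exact ⟨_, hpY f i j e⟩
  let T : Set Γ := (fun t : (I × I) × FreeRing B => Y.x t.1.1 t.1.2 t.2) ''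
    ({q : I × I | q.1 ≠ q.2} ×ˢ S)
  have hT : T.Finite := ((Set.toFinite _).prod hS).image _
  refine Group.IsFinitelyPresented.of_surjective p hps ⟨T, hT, le_antisymm ?_ ?_⟩
  · refine Subgroup.normalClosure_le_normal ?_
    rintro _ ⟨⟨⟨i, j⟩, f⟩, ⟨e, hf⟩, rfl⟩
    show p (Y.x i j f) = 1
    rw [hpY f i j e, hS0 f hf, Z.x_zero e]
  let π := QuotientGroup.mk' (Subgroup.normalClosure T)
  let Y' := mapFam Y π
  let c := con hI Y'
  have hc : ∀ f f' : FreeRing B, (f : c.Quotient) = (f' : c.Quotient) ↔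
      ∀ i j, i ≠ j → π (Y.x i j f) = π (Y.x i j f') := fun f f' => c.eq
  have hl : FreeRing.lift (fun a => ((FreeRing.of a : FreeRing B) : c.Quotient)) = c.mk' :=
    FreeRing.hom_ext fun a => by simp
  obtain ⟨g, hg'⟩ := huniv c.Quotient (fun a => ((FreeRing.of a : FreeRing B) : c.Quotient))
    (fun r hr => by
      rw [hl]
      refine (hc r 0).2 fun i j e => ?_
      rw [Y.x_zero e, map_one]
      exact (QuotientGroup.eq_one_iff _).2
        (Subgroup.subset_normalClosure ⟨((i, j), r), ⟨e, hr⟩, rfl⟩))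
  choose σ hσ using fun r : R => c.mk'_surjective (g r)
  have hσ' : ∀ r, ((σ r : FreeRing B) : c.Quotient) = g r := hσ
  let Y'' : SFam R I (Γ ⧸ Subgroup.normalClosure T) :=
    { x := fun i j r => π (Y.x i j (σ r))
      add := fun {i j} e r r' => by
        rw [← map_mul, ← Y.add e]
        refine (hc _ _).1 ?_ i j e
        rw [RingCon.coe_add, hσ', hσ', hσ', map_add]
      comm := fun h1 h2 h3 h4 r r' => Y'.comm h1 h2 h3 h4 _ _
      mul := fun {i j k} h1 h2 h3 r r' => by
        refine (Y'.mul h1 h2 h3 _ _).trans ?_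
        refine (hc _ _).1 ?_ i k h3
        rw [RingCon.coe_mul, hσ', hσ', hσ', map_mul] }
  have hqp : (stLift Y'').comp p = π := by
    refine hext _ _ _ ?_
    rintro ⟨i, j, o⟩
    rw [MonoidHom.comp_apply, hp]
    by_cases e : i = j
    · subst e
      rw [hdiag, map_one, hg.diag, map_one]
    refine (stLift_x Y'' e _).trans ?_
    cases o with
    | none =>
      rw [← hY1]
      refine (hc _ _).1 ?_ i j e
      rw [hσ']; exact map_one g
    | some a =>
      rw [← hYa]
      refine (hc _ _).1 ?_ i j e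
      rw [hσ']; exact hg' a
  intro a ha
  have : π a = 1 := by
    rw [← hqp, MonoidHom.comp_apply, ha, map_one]
  exact (QuotientGroup.eq_one_iff _).1 this

end Vale.Agent.P193
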