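import Vale.Agent.P193.GStab
import Vale.Agent.P193.GFPSt

/-!
TASK G4. The elementary group is finitely presented.

Proof. Refining the frame does not change the elementary group (`refine_exists`). After two
refinements there are at least five indices, the Steinberg group is finitely presented (`st_fp`)
and maps isomorphically onto the elementary group (`fam_injective`).
-/

namespace Vale.Agent.P193

variable {R : Type} [Ring R] {I : Type} [Fintype I] [DecidableEq I]

theorem range_refine (fr : Frame R I) (h3 : Three I) (i0 : I) (P : LPair R) :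
    (stPi (fr.refine i0 P)).range = (stPi fr).range := by
  obtain ⟨F', hF', e1, e2, e3⟩ := refine_exists (stFam I R) fr (stPi fr) (stPi_rep fr) h3 i0 P
  have h1 : ∀ i j, i ≠ j → ∀ a,
      stPi fr (F'.x i j a) = stPi (fr.refine i0 P) ((stFam _ R).x i j a) :=
    fun i j h a => Units.ext ((hF' i j h a).trans (stPi_rep _ i j h a).symm)
  apply le_antisymm
  · rw [MonoidHom.range_eq_map, ← stFam_gen, SFam.gen, Subgroup.map_le_iff_le_comap,
      Subgroup.closure_le]
    rintro _ ⟨i, j, a, h, rfl⟩
    exact ⟨_, h1 i j h a⟩
  · have h2 : ∀ i j, i ≠ j → ∀ a, stPi fr (F'.x i j a) ∈ (stPi (fr.refine i0 P)).range :=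
      fun i j h a => ⟨_, (h1 i j h a).symm⟩
    rw [MonoidHom.range_eq_map (stPi fr), ← stFam_gen, SFam.gen, Subgroup.map_le_iff_le_comap,
      Subgroup.closure_le]
    rintro _ ⟨i, j, a, h, rfl⟩
    show stPi fr ((stFam I R).x i j a) ∈ (stPi (fr.refine i0 P)).range
    by_cases hi : i = i0
    · subst hi
      rw [e2 j h.symm, map_mul]
      exact mul_mem (h2 _ _ (by simpa using h) _) (h2 _ _ (by simp) _)
    by_cases hj : j = i0
    · subst hj
      rw [e3 i h, map_mul]
      exact mul_mem (h2 _ _ (by simpa using h) _) (h2 _ _ (by simp) _)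
    · rw [e1 i j h hi hj]
      exact h2 _ _ (by simpa using h) _

omit [Fintype I] [DecidableEq I] in
theorem Three.option3 (h3 : Three I) (i0 : I) : Three (Option I) := by
  intro i j
  obtain ⟨m, h1, h2⟩ := h3 (i.getD i0) (j.getD i0)
  refine ⟨some m, ?_, ?_⟩
  · rintro rfl; exact h1 rfl
  · rintro rfl; exact h2 rfl

theorem Three.card (h3 : Three I) (i0 : I) : 3 ≤ Fintype.card I := by
  obtain ⟨j, hj, -⟩ := h3 i0 i0
  obtain ⟨k, hk, hk'⟩ := h3 i0 j
  have : ({k, j, i0} : Finset I).card = 3 := by
    rw [Finset.card_eq_three]; exact ⟨k, j, i0, hk', hk, hj, rfl⟩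
  rw [← this]; exact Finset.card_le_univ _

theorem range_fp (N : NiceRing R) (hfp : RingFP R) (fr : Frame R I) (h3 : Three I)
    (hinj : Function.Injective (stPi fr)) :
    Group.IsFinitelyPresented (stPi fr).range := by
  have _ := hinj
  obtain ⟨i0⟩ : Nonempty I := by
    by_contra h
    rw [not_nonempty_iff] at h
    have := fr.sum
    rw [Finset.univ_eq_empty, Finset.sum_empty] at this
    exact N.nontriv this.symm
  have h4 := h3.option3 i0
  have h5 := h4.option3 none
  rw [← range_refine fr h3 i0 N.pair, ← range_refine _ h4 none N.pair]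
  have := st_fp hfp (I := Option (Option I)) (by
    have := h3.card i0
    simp only [Fintype.card_option]; omega)
  exact Group.IsFinitelyPresented.equiv (MonoidHom.ofInjective
    (fam_injective N (stFam _ R) _ _ (stPi_rep _) stFam_gen h5))

end Vale.Agent.P193
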