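import Vale.Agent.P193.GBasic

/-!
TASK G3a. Generic cones in a purely infinite simple ring.

One element `t`: if `t z = 0` take `γ = z`, `lam = 1`. Else `x t z y = 1`; put `v = t z y`, `γ = z y z`,
`lam = u' x`, `q = v u`; `lam t γ = u' z = 0`, `lam q = 1`, `γ` has left inverse `z' (x t z) z'`...
(note `x t z y = 1` so `y` has a left inverse). Induct on the list: apply the one-element case to
`lam t γ` and multiply. Finally, given `lam q = 1`, pass to `p1 = q z`, `p1' = z' lam`; the complement
`e = 1 - p1 p1'` contains `q u`, `u' lam`, and is equivalent to `1`: writing `e = a a' + g` with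
`a = q u`, `a' = u' lam`, `g = e - a a'`, and `1 = e + p1 p1'`, put
`p0 = a z a' + a u p1' + g`, `p0' = a z' a' + p1 u' a' + g` (then `p0' p0 = 1`, `p0 p0' = e`).
-/

namespace Vale.Agent.P193

variable {R : Type} [Ring R]

theorem generic_one (N : NiceRing R) (t : R) :
    ∃ γ γ' lam q : R, γ' * γ = 1 ∧ lam * q = 1 ∧ lam * t * γ = 0 := by
  by_cases ht : t = 0
  · exact ⟨1, 1, 1, 1, by simp, by simp, by simp [ht]⟩
  · obtain ⟨x, y, h⟩ := N.pi t ht
    refine ⟨y * N.z, N.z' * x * t, N.u' * x, t * y * N.u, ?_, ?_, ?_⟩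
    · have : N.z' * x * t * (y * N.z) = N.z' * (x * t * y) * N.z := by noncomm_ring
      rw [this, h, mul_one, N.hz]
    · have : N.u' * x * (t * y * N.u) = N.u' * (x * t * y) * N.u := by noncomm_ring
      rw [this, h, mul_one, N.hu]
    · have : N.u' * x * t * (y * N.z) = N.u' * (x * t * y) * N.z := by noncomm_ring
      rw [this, h, mul_one, N.hu'z]

theorem generic_list (N : NiceRing R) (T : List R) :
    ∃ γ γ' lam q : R, γ' * γ = 1 ∧ lam * q = 1 ∧ ∀ t ∈ T, lam * t * γ = 0 := by
  induction T with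
  | nil => exact ⟨1, 1, 1, 1, by simp, by simp, by simp⟩
  | cons t T ih =>
    obtain ⟨γ, γ', lam, q, h1, h2, h3⟩ := ih
    obtain ⟨δ, δ', l, r, k1, k2, k3⟩ := generic_one N (lam * t * γ)
    refine ⟨γ * δ, δ' * γ', l * lam, q * r, ?_, ?_, ?_⟩
    · have : δ' * γ' * (γ * δ) = δ' * (γ' * γ) * δ := by noncomm_ring
      rw [this, h1, mul_one, k1]
    · have : l * lam * (q * r) = l * (lam * q) * r := by noncomm_ring
      rw [this, h2, mul_one, k2]
    · intro s hs
      have e : l * lam * s * (γ * δ) = l * (lam * s * γ) * δ := by noncomm_ring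
      rw [e]
      rcases List.mem_cons.mp hs with rfl | hs
      · exact k3
      · rw [h3 s hs]; simp

/-- The Leavitt pair built from a right invertible element. -/
def pairOf (N : NiceRing R) (lam q : R) (h : lam * q = 1) : LPair R :=
  have k1 : ∀ x, lam * (q * x) = x := fun x => by rw [← mul_assoc, h, one_mul]
  have k2 : ∀ x, N.z' * (N.z * x) = x := fun x => by rw [← mul_assoc, N.hz, one_mul]
  have k3 : ∀ x, N.u' * (N.u * x) = x := fun x => by rw [← mul_assoc, N.hu, one_mul]
  have k4 : ∀ x, N.z' * (N.u * x) = 0 := fun x => by rw [← mul_assoc, N.hz'u, zero_mul]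
  have k5 : ∀ x, N.u' * (N.z * x) = 0 := fun x => by rw [← mul_assoc, N.hu'z, zero_mul]
  have k6 : ∀ x, N.z * (N.z' * x) = x - N.u * (N.u' * x) := fun x => by
    rw [← mul_assoc, ← mul_assoc, eq_sub_iff_add_eq, ← add_mul, N.hzu, one_mul]
  { p0 := q * N.u * N.z * N.u' * lam + q * N.u * N.u * N.z' * lam + (1 - q * lam)
    p0' := q * N.u * N.z' * N.u' * lam + q * N.z * N.u' * N.u' * lam + (1 - q * lam)
    p1 := q * N.z
    p1' := N.z' * lam
    h0 := by
      simp only [mul_add, add_mul, mul_sub, sub_mul, mul_assoc, k1, k2, k3, k4, k5, k6, mul_one,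
        one_mul, mul_zero]
      abel
    h1 := by simp only [mul_assoc, k1, N.hz]
    h01 := by
      simp only [mul_add, add_mul, mul_sub, sub_mul, mul_assoc, k1, N.hu'z, mul_one,
        one_mul, mul_zero]
      abel
    h10 := by
      simp only [mul_add, add_mul, mul_sub, sub_mul, mul_assoc, k1, k4, mul_one,
        one_mul, mul_zero]
      abel
    hsum := by
      simp only [mul_add, add_mul, mul_sub, sub_mul, mul_assoc, k1, k2, k3, k4, k5, k6, mul_one,
        one_mul, mul_zero]
      abel }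

theorem generic_cone (N : NiceRing R) (T : List R) :
    ∃ (γ γ' : R) (P : LPair R), γ' * γ = 1 ∧ ∀ t ∈ T, P.p1' * t * γ = 0 := by
  obtain ⟨γ, γ', lam, q, h1, h2, h3⟩ := generic_list N T
  refine ⟨γ, γ', pairOf N lam q h2, h1, fun t ht => ?_⟩
  change N.z' * lam * t * γ = 0
  rw [mul_assoc N.z', mul_assoc N.z', h3 t ht, mul_zero]

end Vale.Agent.P193
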