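import Vale.Agent.P193.GGeneric

/-!
TASK G5. The elementary group `E = fr.fam.gen = (stPi fr).range` is simple and contains `Rˣ`.

Simplicity. Let `N ⊴ E`, `1 ≠ g ∈ N`.
1. Some conjugate `g` of it has `c i * g * b j ≠ 0` with `i ≠ j`: otherwise `g = ∑ b i g_i c i` and the
`(i,j)` entry `a g_j - g_i a` of the conjugate by `el i j a` vanishes for all `a`, so all `g_i` equal
one central element, `g` is central, `g = 1` by `center`.
2. `x (c i g b j) y = 1`. Pick `k ≠ j`, and from `generic_cone` with `T = 1 :: [c k g⁻¹ b l | l]` get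
`δ = γ` (left invertible), `κ = p1'` (right invertible). `τ = el j k (y κ)`, `h = g τ g⁻¹ τ⁻¹ ∈ N` fixes
all `b l δ`, and `h ≠ 1` (else `g τ = τ g`; apply `x * c i` on the left, `b k` on the right: `κ = 0`).
3. Pick `m` with `η = c m (h⁻¹ - 1) ≠ 0`, `l ≠ m`, `σ = el l m δ`; `⁅h, σ⁆ = 1 + b l δ η ∈ N`. Pick `s` with
`η b s ≠ 0`, `t ∉ {l, s}`; the commutator with `el s t 1` is `el l t (δ η b s)`, `δ η b s ≠ 0`.
4. From `el l t a ∈ N`, `a ≠ 0`, `x a y = 1` get all `el m l r`, then all pairs (three indices).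
Embedding. Whitehead: if `c b = 1 = c' b'`, `c b' = 0 = c' b` and `1 + b a c'`, `1 + b' a c ∈ E` for all
`a`, then for a unit `g`, `(1 + b (g - 1) c) (1 + b' (g⁻¹ - 1) c') ∈ E` (it is `w(g) w(-1)` with
`w(g) = x(g) x'(-g⁻¹) x(g)`). Apply with `φ g` to `(b 1, b 2)` and to `(b 1 u, b 2)`; since
`φ g = z g z' + u (φ g) u'` the quotient is `1 + b 1 z (g - 1) z' c 1 ∈ E`, a homomorphism in `g`.
-/

namespace Vale.Agent.P193

open scoped commutatorElement

set_option linter.unusedSectionVars false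

variable {R : Type} [Ring R] {I : Type} [Fintype I] [DecidableEq I]

namespace Simple

variable {fr : Frame R I} {M : Subgroup Rˣ}

/-- `M` is normalised by the elementary matrices. -/
def Norm (fr : Frame R I) (M : Subgroup Rˣ) : Prop :=
  ∀ i j, i ≠ j → ∀ a, ∀ g ∈ M, fr.el i j a * g * (fr.el i j a)⁻¹ ∈ M

theorem Norm.left (hM : Norm fr M) {i j : I} (h : i ≠ j) (a : R) {g : Rˣ} (hg : g ∈ M) :
    ⁅fr.el i j a, g⁆ ∈ M := by
  rw [commutatorElement_def]
  exact mul_mem (hM i j h a g hg) (inv_mem hg)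

theorem Norm.right (hM : Norm fr M) {i j : I} (h : i ≠ j) (a : R) {g : Rˣ} (hg : g ∈ M) :
    ⁅g, fr.el i j a⁆ ∈ M := by
  have := mul_mem hg (hM i j h a _ (inv_mem hg))
  rw [commutatorElement_def]
  simpa only [mul_assoc] using this

theorem eq_zero_of_c (fr : Frame R I) {v : R} (h : ∀ i, fr.c i * v = 0) : v = 0 := by
  have : v = ∑ i, fr.b i * (fr.c i * v) := by
    simp only [← mul_assoc]
    rw [← Finset.sum_mul, fr.sum, one_mul]
  rw [this]; simp [h]

theorem eq_zero_of_b (fr : Frame R I) {v : R} (h : ∀ i, v * fr.b i = 0) : v = 0 := by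
  have : v = ∑ i, v * fr.b i * fr.c i := by
    simp only [mul_assoc]
    rw [← Finset.mul_sum, fr.sum, mul_one]
  rw [this]; simp [h]

theorem step1 (N : NiceRing R) (hM : Norm fr M) (h3 : Three I) [Nonempty I] {g : Rˣ}
    (hg : g ∈ M) (h1 : g ≠ 1) : ∃ g' ∈ M, ∃ i j, i ≠ j ∧ fr.c i * (g' : Rˣ) * fr.b j ≠ 0 := by
  by_contra hcon
  push Not at hcon
  have key : ∀ i j, i ≠ j → ∀ a, fr.c i * g * fr.b i * a = a * (fr.c j * g * fr.b j) := by
    intro i j h a
    have h0 := hcon _ (hM i j h a g hg) i j h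
    rw [Units.val_mul, Units.val_mul, fr.el_val h, fr.el_inv_val h] at h0
    have e : fr.c i * ((1 + fr.b i * a * fr.c j) * g * (1 - fr.b i * a * fr.c j)) * fr.b j =
        fr.c i * g * fr.b j - fr.c i * g * fr.b i * a * (fr.c j * fr.b j)
        + (fr.c i * fr.b i) * a * (fr.c j * g * fr.b j)
        - (fr.c i * fr.b i) * a * (fr.c j * g * fr.b i) * a * (fr.c j * fr.b j) := by
      noncomm_ring
    rw [e, fr.cb_self, fr.cb_self, hcon g hg i j h, hcon g hg j i h.symm] at h0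
    simp only [mul_one, one_mul, mul_zero, zero_mul, sub_zero, zero_sub] at h0
    exact (neg_add_eq_zero.1 h0)
  obtain ⟨i0⟩ := ‹Nonempty I›
  have hall : ∀ j, fr.c j * g * fr.b j = fr.c i0 * g * fr.b i0 := by
    intro j
    by_cases h : j = i0
    · rw [h]
    · simpa using key j i0 h 1
  obtain ⟨j0, hj0, -⟩ := h3 i0 i0
  have hc := N.center (fr.c i0 * g * fr.b i0) fun a => by
    rw [key i0 j0 hj0.symm a, hall j0]
  rcases hc with hc | hc
  · have : (g : R) = 0 := by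
      refine eq_zero_of_b fr fun j => eq_zero_of_c fr fun i => ?_
      rw [← mul_assoc]
      by_cases h : i = j
      · rw [h, hall j, hc]
      · exact hcon g hg i j h
    exact N.nontriv (by rw [← g.mul_inv, this, zero_mul])
  · apply h1
    ext
    rw [Units.val_one, ← sub_eq_zero]
    refine eq_zero_of_b fr fun j => eq_zero_of_c fr fun i => ?_
    rw [sub_mul, mul_sub, one_mul, ← mul_assoc]
    by_cases h : i = j
    · rw [h, hall j, hc, fr.cb_self, sub_self]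
    · rw [hcon g hg i j h, fr.cb_ne h, sub_self]

theorem step2 (N : NiceRing R) (hM : Norm fr M) {g : Rˣ} (hg : g ∈ M) {i j : I} (h : i ≠ j)
    (h0 : fr.c i * g * fr.b j ≠ 0) :
    ∃ k ∈ M, k ≠ 1 ∧ ∃ δ δ' : R, δ' * δ = 1 ∧ ∀ l, (k : Rˣ) * (fr.b l * δ) = fr.b l * δ := by
  obtain ⟨x, y, hxy⟩ := N.pi _ h0
  obtain ⟨δ, δ', P, hδ, hT⟩ := generic_cone N
    (1 :: (Finset.univ.toList.map fun l => fr.c i * (g⁻¹ : Rˣ) * fr.b l))
  have hκ : P.p1' * δ = 0 := by simpa using hT 1 (by simp)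
  have hκ' : ∀ l, P.p1' * (fr.c i * (g⁻¹ : Rˣ) * fr.b l) * δ = 0 := fun l =>
    hT _ (List.mem_cons_of_mem _ (List.mem_map.2 ⟨l, by simp, rfl⟩))
  refine ⟨⁅g, fr.el j i (y * P.p1')⁆, hM.right h.symm _ hg, ?_, δ, δ', hδ, fun l => ?_⟩
  · intro e
    have e1 := congrArg (fun u : Rˣ => x * fr.c i * (u : R) * fr.b i * P.p1)
      (commutatorElement_eq_one_iff_commute.1 e).eq
    simp only [Units.val_mul, fr.el_val h.symm] at e1
    have l1 : x * fr.c i * (g * (1 + fr.b j * (y * P.p1') * fr.c i)) * fr.b i * P.p1 =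
        x * fr.c i * g * fr.b i * P.p1 +
          x * (fr.c i * g * fr.b j) * y * P.p1' * (fr.c i * fr.b i) * P.p1 := by noncomm_ring
    have l2 : x * fr.c i * ((1 + fr.b j * (y * P.p1') * fr.c i) * g) * fr.b i * P.p1 =
        x * fr.c i * g * fr.b i * P.p1 +
          x * (fr.c i * fr.b j) * (y * P.p1' * fr.c i * g * fr.b i * P.p1) := by noncomm_ring
    rw [l1, l2, hxy, fr.cb_self, fr.cb_ne h, one_mul, mul_one, P.h1, mul_zero, zero_mul] at e1
    exact N.nontriv (add_left_cancel e1)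
  · rw [commutatorElement_def]
    simp only [Units.val_mul]
    rw [fr.el_inv_val h.symm, fr.el_val h.symm]
    have a1 : (1 - fr.b j * (y * P.p1') * fr.c i) * (fr.b l * δ) = fr.b l * δ := by
      have e : (1 - fr.b j * (y * P.p1') * fr.c i) * (fr.b l * δ) =
          fr.b l * δ - fr.b j * y * (P.p1' * (fr.c i * fr.b l) * δ) := by noncomm_ring
      rw [e]
      by_cases hl : i = l
      · rw [hl, fr.cb_self, mul_one, hκ, mul_zero, sub_zero]
      · rw [fr.cb_ne hl, mul_zero, zero_mul, mul_zero, sub_zero]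
    rw [mul_assoc _ _ (fr.b l * δ), a1]
    have e : (g : R) * (1 + fr.b j * (y * P.p1') * fr.c i) * (g⁻¹ : Rˣ) * (fr.b l * δ) =
        (g * (g⁻¹ : Rˣ)) * (fr.b l * δ) +
          g * fr.b j * y * (P.p1' * (fr.c i * (g⁻¹ : Rˣ) * fr.b l) * δ) := by noncomm_ring
    rw [e, hκ', Units.mul_inv, one_mul, mul_zero, add_zero]

theorem step3 (hM : Norm fr M) (h3 : Three I) {k : Rˣ} (hk : k ∈ M) (h1 : k ≠ 1) {δ δ' : R}
    (hδ : δ' * δ = 1) (hfix : ∀ l, (k : Rˣ) * (fr.b l * δ) = fr.b l * δ) :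
    ∃ l t a, l ≠ t ∧ a ≠ 0 ∧ fr.el l t a ∈ M := by
  have hfix' : ∀ l, ((k⁻¹ : Rˣ) : R) * (fr.b l * δ) = fr.b l * δ := by
    intro l
    conv_lhs => rw [← hfix l, ← mul_assoc, Units.inv_mul, one_mul]
  obtain ⟨m, hm⟩ : ∃ m, fr.c m * (((k⁻¹ : Rˣ) : R) - 1) ≠ 0 := by
    by_contra hcon
    push Not at hcon
    have := sub_eq_zero.1 (eq_zero_of_c fr hcon)
    exact h1 (inv_eq_one.1 (Units.ext this))
  set η := fr.c m * (((k⁻¹ : Rˣ) : R) - 1) with hη
  obtain ⟨l, hl, -⟩ := h3 m m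
  obtain ⟨s, hs⟩ : ∃ s, η * fr.b s ≠ 0 := by
    by_contra hcon
    push Not at hcon
    exact hm (eq_zero_of_b fr hcon)
  obtain ⟨t, htl, hts⟩ := h3 l s
  have hηl : η * (fr.b l * δ) = 0 := by
    rw [hη, mul_assoc, sub_mul, hfix', one_mul, sub_self, mul_zero]
  set w := ⁅k, fr.el l m δ⁆ with hw
  have hwM : w ∈ M := hM.right hl δ hk
  have hwv : (w : R) = 1 + fr.b l * δ * η := by
    rw [hw, commutatorElement_def]
    simp only [Units.val_mul]
    rw [fr.el_inv_val hl, fr.el_val hl]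
    have e : (k : R) * (1 + fr.b l * δ * fr.c m) * (k⁻¹ : Rˣ) =
        k * (k⁻¹ : Rˣ) + k * (fr.b l * δ) * fr.c m * (k⁻¹ : Rˣ) := by noncomm_ring
    rw [e, hfix, Units.mul_inv]
    have e2 : (1 + fr.b l * δ * fr.c m * (k⁻¹ : Rˣ)) * (1 - fr.b l * δ * fr.c m) =
        1 + fr.b l * δ * (fr.c m * (((k⁻¹ : Rˣ) : R) - 1))
          - fr.b l * δ * fr.c m * ((k⁻¹ : Rˣ) * (fr.b l * δ)) * fr.c m := by noncomm_ring
    rw [e2, hfix']
    have e3 : fr.b l * δ * fr.c m * (fr.b l * δ) * fr.c m =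
        fr.b l * δ * (fr.c m * fr.b l) * δ * fr.c m := by noncomm_ring
    rw [e3, fr.cb_ne hl.symm]; simp [hη]
  have hwi : ((w⁻¹ : Rˣ) : R) = 1 - fr.b l * δ * η := by
    apply Units.inv_eq_of_mul_eq_one_right
    rw [hwv]
    have e : (1 + fr.b l * δ * η) * (1 - fr.b l * δ * η) =
        1 - fr.b l * δ * (η * (fr.b l * δ)) * η := by noncomm_ring
    rw [e, hηl]; simp
  refine ⟨l, t, δ * (η * fr.b s), htl.symm, fun h0 => hs ?_, ?_⟩
  · rw [← one_mul (η * fr.b s), ← hδ, mul_assoc, h0, mul_zero]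
  · have hmem := hM.right hts.symm 1 hwM
    convert hmem using 1
    ext
    rw [commutatorElement_def]
    simp only [Units.val_mul]
    rw [fr.el_inv_val hts.symm, fr.el_val hts.symm, fr.el_val htl.symm, hwv, hwi]
    have k1 : ∀ x, η * (fr.b l * (δ * x)) = 0 := fun x => by
      rw [← mul_assoc (fr.b l), ← mul_assoc, hηl, zero_mul]
    have k2 : ∀ x, fr.c t * (fr.b l * x) = 0 := fun x => by
      rw [← mul_assoc, fr.cb_ne htl, zero_mul]
    have k3 : ∀ x, fr.c t * (fr.b s * x) = 0 := fun x => by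
      rw [← mul_assoc, fr.cb_ne hts, zero_mul]
    simp only [mul_add, add_mul, mul_sub, sub_mul, mul_assoc, k1, k2, k3, mul_one, one_mul,
      mul_zero, zero_mul]
    abel

theorem step4 (N : NiceRing R) (hM : Norm fr M) (h3 : Three I) {l t : I} {a : R} (h : l ≠ t)
    (ha : a ≠ 0) (hmem : fr.el l t a ∈ M) : ∀ p q, p ≠ q → ∀ r, fr.el p q r ∈ M := by
  have hmul : ∀ {i j k : I}, i ≠ j → j ≠ k → i ≠ k → ∀ a b : R,
      ⁅fr.el i j a, fr.el j k b⁆ = fr.el i k (a * b) := fr.fam.mul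
  have A1 : ∀ i j, i ≠ j → (∀ r, fr.el i j r ∈ M) → ∀ q, q ≠ i → ∀ r, fr.el i q r ∈ M := by
    intro i j hij hA q hq r
    by_cases hqj : q = j
    · rw [hqj]; exact hA r
    · have := hM.right (Ne.symm hqj) 1 (hA r)
      rwa [hmul hij (Ne.symm hqj) hq.symm, mul_one] at this
  have A2 : ∀ i j, i ≠ j → (∀ r, fr.el i j r ∈ M) → ∀ p, p ≠ j → ∀ r, fr.el p j r ∈ M := by
    intro i j hij hA p hp r
    by_cases hpi : p = i
    · rw [hpi]; exact hA r
    · have := hM.left hpi r (hA 1)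
      rwa [hmul hpi hij hp, mul_one] at this
  obtain ⟨x, y, hxy⟩ := N.pi a ha
  obtain ⟨m, hml, hmt⟩ := h3 l t
  have B : ∀ r, fr.el m l r ∈ M := by
    intro r
    have h1 := hM.left hml (r * x) hmem
    rw [hmul hml h hmt] at h1
    have h2 := hM.right h.symm y h1
    rw [hmul hmt h.symm hml] at h2
    have e : r * x * a * y = r * (x * a * y) := by noncomm_ring
    rwa [e, hxy, mul_one] at h2
  intro p q hpq
  obtain ⟨k, hkm, hkp⟩ := h3 m p
  exact A1 p k hkp.symm (A2 m k hkm.symm (A1 m l hml B k hkm) p hkp.symm) q hpq.symm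

theorem whitehead {E : Subgroup Rˣ} {b c b' c' : R} (h1 : c * b = 1) (h2 : c' * b' = 1)
    (h3 : c * b' = 0) (h4 : c' * b = 0) (hX : ∀ a, ∃ e ∈ E, ((e : Rˣ) : R) = 1 + b * a * c')
    (hX' : ∀ a, ∃ e ∈ E, ((e : Rˣ) : R) = 1 + b' * a * c) (g : Rˣ) :
    ∃ e ∈ E, ((e : Rˣ) : R) = 1 + b * ((g : R) - 1) * c + b' * (((g⁻¹ : Rˣ) : R) - 1) * c' := by
  obtain ⟨e1, m1, v1⟩ := hX g
  obtain ⟨e2, m2, v2⟩ := hX' (-((g⁻¹ : Rˣ) : R))
  obtain ⟨e3, m3, v3⟩ := hX (-1)
  obtain ⟨e4, m4, v4⟩ := hX' 1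
  refine ⟨e1 * e2 * e1 * (e3 * e4 * e3),
    mul_mem (mul_mem (mul_mem m1 m2) m1) (mul_mem (mul_mem m3 m4) m3), ?_⟩
  have k1 : ∀ x, c * (b * x) = x := fun x => by rw [← mul_assoc, h1, one_mul]
  have k2 : ∀ x, c' * (b' * x) = x := fun x => by rw [← mul_assoc, h2, one_mul]
  have k3 : ∀ x, c * (b' * x) = 0 := fun x => by rw [← mul_assoc, h3, zero_mul]
  have k4 : ∀ x, c' * (b * x) = 0 := fun x => by rw [← mul_assoc, h4, zero_mul]
  have k5 : ∀ x, (g : R) * (((g⁻¹ : Rˣ) : R) * x) = x := fun x => by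
    rw [← mul_assoc, Units.mul_inv, one_mul]
  have k6 : ∀ x, ((g⁻¹ : Rˣ) : R) * ((g : R) * x) = x := fun x => by
    rw [← mul_assoc, Units.inv_mul, one_mul]
  have w1 : ((e1 * e2 * e1 : Rˣ) : R) =
      1 - b * c - b' * c' + b * (g * c') - b' * ((g⁻¹ : Rˣ) * c) := by
    simp only [Units.val_mul, v1, v2]
    simp only [mul_add, add_mul, mul_neg, neg_mul, mul_assoc, k1, k2, k3, k4, k5,
      k6, mul_one, one_mul, mul_zero, neg_zero]
    abel
  have w2 : ((e3 * e4 * e3 : Rˣ) : R) = 1 - b * c - b' * c' - b * c' + b' * c := by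
    simp only [Units.val_mul, v3, v4]
    simp only [mul_add, add_mul, mul_neg, neg_mul, mul_assoc, k1, k2, k3, k4,
      mul_one, one_mul, mul_zero, neg_zero, neg_neg]
    abel
  rw [Units.val_mul, w1, w2]
  simp only [mul_add, add_mul, mul_sub, sub_mul, mul_assoc, k1, k2, k3, k4,
    mul_one, one_mul, mul_zero]
  abel

/-- The corner embedding. -/
def corner (B C : R) (h : C * B = 1) : R →* R where
  toFun g := 1 + B * (g - 1) * C
  map_one' := by simp
  map_mul' g k := by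
    have k1 : ∀ x, C * (B * x) = x := fun x => by rw [← mul_assoc, h, one_mul]
    simp only [mul_add, add_mul, mul_sub, sub_mul, mul_assoc, k1, mul_one, one_mul]
    abel

end Simple

theorem range_simple (N : NiceRing R) (fr : Frame R I) (h3 : Three I) [Nonempty I] :
    IsSimpleGroup (stPi fr).range := by
  have hr : (stPi fr).range = fr.fam.gen := stLift_range fr.fam
  have hel : ∀ i j, i ≠ j → ∀ a, fr.el i j a ∈ (stPi fr).range := by
    intro i j h a
    rw [hr]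
    exact Subgroup.subset_closure ⟨i, j, a, h, rfl⟩
  obtain ⟨i0⟩ := ‹Nonempty I›
  obtain ⟨j0, hj0, -⟩ := h3 i0 i0
  haveI : Nontrivial (stPi fr).range := by
    refine ⟨⟨⟨_, hel j0 i0 hj0 1⟩, 1, fun e => N.nontriv ?_⟩⟩
    have e1 := congrArg (fun u : (stPi fr).range => fr.c j0 * ((u : Rˣ) : R) * fr.b i0) e
    simp only [fr.el_val hj0, OneMemClass.coe_one, Units.val_one] at e1
    have e2 : fr.c j0 * (1 + fr.b j0 * 1 * fr.c i0) * fr.b i0 =
        fr.c j0 * 1 * fr.b i0 + (fr.c j0 * fr.b j0) * (fr.c i0 * fr.b i0) := by noncomm_ring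
    rw [e2, fr.cb_self, fr.cb_self, mul_one (1 : R)] at e1
    exact add_eq_left.1 e1
  refine ⟨fun K hK => ?_⟩
  by_cases hb : K = ⊥
  · exact Or.inl hb
  · right
    obtain ⟨⟨g, hg⟩, h1⟩ := Subgroup.ne_bot_iff_exists_ne_one.1 hb
    let M : Subgroup Rˣ := K.map (stPi fr).range.subtype
    have hM : Simple.Norm fr M := by
      rintro i j h a _ ⟨k, hk, rfl⟩
      exact ⟨_, hK.conj_mem k hk ⟨_, hel i j h a⟩, rfl⟩
    have hgM : (g : Rˣ) ∈ M := ⟨g, hg, rfl⟩
    have hg1 : (g : Rˣ) ≠ 1 := fun e => h1 (Subtype.ext (Subtype.ext e))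
    obtain ⟨g', hg', i, j, hij, h0⟩ := Simple.step1 N hM h3 hgM hg1
    obtain ⟨k, hk, hk1, δ, δ', hδ, hfix⟩ := Simple.step2 N hM hg' hij h0
    obtain ⟨l, t, a, hlt, ha, hmem⟩ := Simple.step3 hM h3 hk hk1 hδ hfix
    have hall := Simple.step4 N hM h3 hlt ha hmem
    have hle : (stPi fr).range ≤ M := by
      rw [hr, SFam.gen, Subgroup.closure_le]
      rintro _ ⟨p, q, r, hpq, rfl⟩
      exact hall p q hpq r
    rw [eq_top_iff]
    intro u _
    obtain ⟨v, hv, e⟩ := hle u.2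
    have : v = u := Subtype.ext e
    exact this ▸ hv

theorem units_embed (N : NiceRing R) (fr : Frame R I) (h3 : Three I) [Nonempty I] :
    ∃ f : Rˣ →* (stPi fr).range, Function.Injective f := by
  have hr : (stPi fr).range = fr.fam.gen := stLift_range fr.fam
  have hel : ∀ i j, i ≠ j → ∀ a, fr.el i j a ∈ (stPi fr).range := by
    intro i j h a
    rw [hr]
    exact Subgroup.subset_closure ⟨i, j, a, h, rfl⟩
  obtain ⟨i⟩ := ‹Nonempty I›
  obtain ⟨j, hj, -⟩ := h3 i i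
  have hCB : N.z' * fr.c i * (fr.b i * N.z) = 1 := by
    have : N.z' * fr.c i * (fr.b i * N.z) = N.z' * (fr.c i * fr.b i) * N.z := by noncomm_ring
    rw [this, fr.cb_self, mul_one, N.hz]
  let ψ := Simple.corner (fr.b i * N.z) (N.z' * fr.c i) hCB
  have hψ : ∀ g, ψ g = 1 + fr.b i * N.z * (g - 1) * (N.z' * fr.c i) := fun g => rfl
  have hmem : ∀ g : Rˣ, Units.map ψ g ∈ (stPi fr).range := by
    intro g
    let G : Rˣ := Units.map (N.φ : R →* R) g
    obtain ⟨e1, m1, v1⟩ := Simple.whitehead (E := (stPi fr).range) (fr.cb_self i) (fr.cb_self j)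
      (fr.cb_ne hj.symm) (fr.cb_ne hj) (fun a => ⟨_, hel i j hj.symm a, fr.el_val hj.symm a⟩)
      (fun a => ⟨_, hel j i hj a, fr.el_val hj a⟩) G
    obtain ⟨e2, m2, v2⟩ := Simple.whitehead (E := (stPi fr).range) (b := fr.b i * N.u)
      (c := N.u' * fr.c i) (b' := fr.b j) (c' := fr.c j)
      (by
        have : N.u' * fr.c i * (fr.b i * N.u) = N.u' * (fr.c i * fr.b i) * N.u := by noncomm_ring
        rw [this, fr.cb_self, mul_one, N.hu])
      (fr.cb_self j) (by rw [mul_assoc, fr.cb_ne hj.symm, mul_zero])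
      (by rw [← mul_assoc, fr.cb_ne hj, zero_mul])
      (fun a => ⟨_, hel i j hj.symm (N.u * a), by rw [fr.el_val hj.symm]; noncomm_ring⟩)
      (fun a => ⟨_, hel j i hj (a * N.u'), by rw [fr.el_val hj]; noncomm_ring⟩) G
    have : Units.map ψ g = e1 * e2⁻¹ := by
      rw [eq_mul_inv_iff_mul_eq]
      ext
      rw [Units.val_mul, v1, v2, Units.coe_map, hψ]
      have hG : (G : R) - 1 = N.z * ((g : R) - 1) * N.z' + N.u * ((G : R) - 1) * N.u' := by
        have h1 : (G : R) = N.z * g * N.z' + N.u * G * N.u' := N.hφ g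
        have e : N.z * ((g : R) - 1) * N.z' + N.u * ((G : R) - 1) * N.u' =
            (N.z * g * N.z' + N.u * G * N.u') - (N.z * N.z' + N.u * N.u') := by noncomm_ring
        rw [e, ← h1, N.hzu]
      have k1 : ∀ x, fr.c i * (fr.b i * x) = x := fun x => by
        rw [← mul_assoc, fr.cb_self, one_mul]
      have k2 : ∀ x, fr.c i * (fr.b j * x) = 0 := fun x => by
        rw [← mul_assoc, fr.cb_ne hj.symm, zero_mul]
      have k3 : ∀ x, N.z' * (N.u * x) = 0 := fun x => by rw [← mul_assoc, N.hz'u, zero_mul]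
      conv_rhs => rw [hG]
      generalize (G : R) - 1 = s
      generalize (g : R) - 1 = t
      generalize ((G⁻¹ : Rˣ) : R) - 1 = r
      simp only [mul_add, add_mul, mul_assoc, k1, k2, k3, mul_one, one_mul, mul_zero]
      abel
    rw [this]
    exact mul_mem m1 (inv_mem m2)
  refine ⟨(Units.map ψ).codRestrict _ hmem, fun g k e => ?_⟩
  have e1 := congrArg (fun u : (stPi fr).range =>
    N.z' * fr.c i * ((u : Rˣ) : R) * (fr.b i * N.z)) e
  simp only [MonoidHom.codRestrict_apply, Units.coe_map, hψ] at e1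
  have key : ∀ g : R, N.z' * fr.c i * (1 + fr.b i * N.z * (g - 1) * (N.z' * fr.c i)) *
      (fr.b i * N.z) = g := by
    intro g
    have e : N.z' * fr.c i * (1 + fr.b i * N.z * (g - 1) * (N.z' * fr.c i)) * (fr.b i * N.z) =
        N.z' * fr.c i * (fr.b i * N.z) + (N.z' * fr.c i * (fr.b i * N.z)) * (g - 1) *
          (N.z' * fr.c i * (fr.b i * N.z)) := by noncomm_ring
    rw [e, hCB]; noncomm_ring
  rw [key, key] at e1
  exact Units.ext e1

end Vale.Agent.P193
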