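import Vale.Agent.P193.GStab
import Vale.Agent.P193.GFP
import Vale.Agent.P193.GSimple

/-!
The group-theoretic half: units of a finitely presented nice ring embed in a finitely presented
simple group.
-/

namespace Vale.Agent.P193

variable {R : Type} [Ring R]

/-- The trivial frame. -/
def Frame.unit (R : Type) [Ring R] : Frame R Unit where
  b _ := 1
  c _ := 1
  cb_self _ := one_mul 1
  cb_ne h := (h rfl).elim
  sum := by simp

theorem three_oou : Three (Option (Option Unit)) := by
  unfold Three; decide

theorem group_main (N : NiceRing R) (hfp : RingFP R) :
    ∃ (H : Type) (_ : Group H), IsSimpleGroup H ∧ Group.IsFinitelyPresented H ∧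
      ∃ f : Rˣ →* H, Function.Injective f := by
  let fr : Frame R (Option (Option Unit)) :=
    ((Frame.unit R).refine () N.pair).refine none N.pair
  have hinj : Function.Injective (stPi fr) :=
    fam_injective N (stFam _ R) fr (stPi fr) (stPi_rep fr) stFam_gen three_oou
  exact ⟨(stPi fr).range, inferInstance, range_simple N fr three_oou,
    range_fp N hfp fr three_oou hinj, units_embed N fr three_oou⟩

end Vale.Agent.P193
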