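import Vale.Agent.P193.GColRow

/-!
TASK G1. Refinement of a Steinberg family along a Leavitt pair.

Proof plan. Put `pr : Option I → I` (`none ↦ i0`), `P : Option I → R` (`none ↦ p1`,
`some i ↦ if i = i0 then p0 else 1`), `P'` likewise. Then `P' i * P i = 1`, and `P' j * P i = 0` if
`pr i = pr j`, `i ≠ j`. For `m ≠ i0` and `β * α = 0` let `D m α β = ⁅x i0 m α, x m i0 β⁆`; it lies in
`F.sub l` for `l ∉ {i0, m}` and `π (D m α β) = 1 + b i0 * α * β * c i0`.
(a) For `m ≠ m'` both `≠ i0`, `β' * α = 0`: `D m α (r * β') = D m' (α * r) β'`: write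
`x m i0 (r β') = ⁅x m m' r, x m' i0 β'⁆`, conjugate by `g = x i0 m α ∈ sub m'` with `col_conj`,
`row_conj'` (`g x_{m m'}(r) g⁻¹ = x_{m m'}(r) x_{i0 m'}(α r)`, `g` fixes `x_{m' i0}(β')`), use
`⁅a b, c⁆ = a ⁅b, c⁆ a⁻¹ ⁅a, c⁆` and that `D m' _ _ ∈ sub m` commutes with `x m m' r = row m (r c m')`.
So `D` does not depend on `m` (take `r = 1`, three indices suffice) and `D α (r β') = D (α r) β'`.
Define `y i j a = if pr i ≠ pr j then x (pr i) (pr j) (P i * a * P' j) else D (P i * a) (P' j)` and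
check the three relations case by case, always via `col_conj` / `row_conj'`.
-/

namespace Vale.Agent.P193

open scoped commutatorElement

variable {R : Type} [Ring R] {I : Type} [Fintype I] [DecidableEq I] {H : Type} [Group H]

/-- Split the index `i0` into `some i0` and `none`. -/
def Frame.refine (fr : Frame R I) (i0 : I) (P : LPair R) : Frame R (Option I) where
  b o := match o with
    | none => fr.b i0 * P.p1
    | some i => if i = i0 then fr.b i0 * P.p0 else fr.b i
  c o := match o with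
    | none => P.p1' * fr.c i0
    | some i => if i = i0 then P.p0' * fr.c i0 else fr.c i
  cb_self := by
    rintro (_ | i)
    · calc P.p1' * fr.c i0 * (fr.b i0 * P.p1) = P.p1' * (fr.c i0 * fr.b i0) * P.p1 := by
            noncomm_ring
        _ = 1 := by rw [fr.cb_self, mul_one, P.h1]
    · by_cases h : i = i0
      · simp only [h, if_true]
        calc P.p0' * fr.c i0 * (fr.b i0 * P.p0) = P.p0' * (fr.c i0 * fr.b i0) * P.p0 := by
              noncomm_ring
          _ = 1 := by rw [fr.cb_self, mul_one, P.h0]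
      · simp only [h, if_false, fr.cb_self]
  cb_ne := by
    have key : ∀ (i j : I) (s t : R), s * fr.c i * (fr.b j * t) = s * (fr.c i * fr.b j) * t := by
      intros; noncomm_ring
    rintro (_ | i) (_ | j) h
    · exact absurd rfl h
    · by_cases hj : j = i0
      · simp only [hj, if_true, key, fr.cb_self, mul_one, P.h10]
      · simp only [hj, if_false, mul_assoc, fr.cb_ne (Ne.symm hj), mul_zero]
    · by_cases hi : i = i0
      · simp only [hi, if_true, key, fr.cb_self, mul_one, P.h01]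
      · simp only [hi, if_false, ← mul_assoc, fr.cb_ne hi, zero_mul]
    · have hij : i ≠ j := fun e => h (congrArg some e)
      by_cases hi : i = i0
      · subst hi
        simp only [if_true, hij.symm, if_false, mul_assoc, fr.cb_ne hij, mul_zero]
      · by_cases hj : j = i0
        · subst hj
          simp only [if_true, hi, if_false, ← mul_assoc, fr.cb_ne hij, zero_mul]
        · simp only [hi, hj, if_false, fr.cb_ne hij]
  sum := by
    rw [Fintype.sum_option]
    have : ∀ i, (if i = i0 then fr.b i0 * P.p0 else fr.b i) *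
        (if i = i0 then P.p0' * fr.c i0 else fr.c i) =
        fr.b i * fr.c i - if i = i0 then fr.b i0 * P.p1 * (P.p1' * fr.c i0) else 0 := by
      intro i
      by_cases h : i = i0
      · subst h
        simp only [if_true]
        have e : fr.b i * fr.c i = fr.b i * (P.p0 * P.p0' + P.p1 * P.p1') * fr.c i := by
          rw [P.hsum, mul_one]
        rw [e]; noncomm_ring
      · simp [h]
    simp only [this, Finset.sum_sub_distrib, fr.sum, Finset.sum_ite_eq', Finset.mem_univ, if_true]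
    abel

namespace Refine

/-- The projection of the refined index set. -/
def pr (i0 : I) : Option I → I
  | none => i0
  | some i => i

/-- Column correction. -/
def pv (i0 : I) (P : LPair R) : Option I → R
  | none => P.p1
  | some i => if i = i0 then P.p0 else 1

/-- Row correction. -/
def pv' (i0 : I) (P : LPair R) : Option I → R
  | none => P.p1'
  | some i => if i = i0 then P.p0' else 1

omit [Fintype I] in
theorem pv_self (i0 : I) (P : LPair R) (o : Option I) : pv' i0 P o * pv i0 P o = 1 := by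
  rcases o with _ | i
  · exact P.h1
  · by_cases h : i = i0 <;> simp [pv, pv', h, P.h0]

omit [Fintype I] in
theorem pr_eq (i0 : I) (P : LPair R) {o o' : Option I} (h : o ≠ o') (e : pr i0 o = pr i0 o') :
    pr i0 o = i0 ∧ pv' i0 P o * pv i0 P o' = 0 := by
  rcases o with _ | i <;> rcases o' with _ | j
  · exact absurd rfl h
  · have : j = i0 := e.symm
    simp [pr, pv, pv', this, P.h10]
  · have : i = i0 := e
    simp [pr, pv, pv', this, P.h01]
  · exact absurd (congrArg some e) h

omit [Fintype I] [DecidableEq I] in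
theorem pr_three (i0 : I) {i j k : Option I} (hij : i ≠ j) (hjk : j ≠ k) (hik : i ≠ k)
    (e : pr i0 i = pr i0 j) : pr i0 j ≠ pr i0 k := by
  intro e'
  rcases i with _ | i <;> rcases j with _ | j <;> rcases k with _ | k <;>
    simp_all [pr]

theorem refine_b (fr : Frame R I) (i0 : I) (P : LPair R) (o : Option I) :
    (fr.refine i0 P).b o = fr.b (pr i0 o) * pv i0 P o := by
  rcases o with _ | i
  · rfl
  · by_cases h : i = i0 <;> simp [Frame.refine, pr, pv, h]

theorem refine_c (fr : Frame R I) (i0 : I) (P : LPair R) (o : Option I) :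
    (fr.refine i0 P).c o = pv' i0 P o * fr.c (pr i0 o) := by
  rcases o with _ | i
  · rfl
  · by_cases h : i = i0 <;> simp [Frame.refine, pr, pv', h]

/-- The diagonal commutator. -/
def D (F : SFam R I H) (i0 m : I) (α β : R) : H := ⁅F.x i0 m α, F.x m i0 β⁆

variable {F : SFam R I H} {fr : Frame R I} {π : H →* Rˣ}

omit [DecidableEq I] in
theorem rep_inv (hπ : Rep F fr π) {i j : I} (h : i ≠ j) (a : R) :
    (((π (F.x i j a))⁻¹ : Rˣ) : R) = 1 - fr.b i * a * fr.c j := by
  rw [← map_inv, ← F.x_neg h, hπ i j h]; noncomm_ring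

omit [DecidableEq I] in
theorem D_rep (hπ : Rep F fr π) {i0 m : I} (hm : m ≠ i0) {α β : R} (h : β * α = 0) :
    ((π (D F i0 m α β) : Rˣ) : R) = 1 + fr.b i0 * (α * β) * fr.c i0 := by
  rw [D, commutatorElement_def]
  simp only [map_mul, map_inv, Units.val_mul]
  rw [rep_inv hπ hm.symm, rep_inv hπ hm, hπ _ _ hm.symm, hπ _ _ hm]
  have hpp := fr.mul_ne (i := i0) (l := m) hm α α
  have hqq := fr.mul_ne (i := m) (l := i0) hm.symm β β
  have hqp := fr.mul_self (i := m) (j := i0) (l := m) β α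
  rw [h, mul_zero, zero_mul] at hqp
  rw [← fr.mul_self (j := m)]
  set p := fr.b i0 * α * fr.c m
  set q := fr.b m * β * fr.c i0
  have e : (1 + p) * (1 + q) * (1 - p) * (1 - q) = 1 + p * q - p * p - q * q - q * p
      - p * (q * p) - p * (q * q) + (p * p) * q + (q * p) * q + p * (q * p) * q := by
    noncomm_ring
  rw [e, hpp, hqq, hqp]; simp

omit [DecidableEq I] in
theorem D_rep_inv (hπ : Rep F fr π) {i0 m : I} (hm : m ≠ i0) {α β : R} (h : β * α = 0) :
    (((π (D F i0 m α β))⁻¹ : Rˣ) : R) = 1 - fr.b i0 * (α * β) * fr.c i0 := by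
  apply Units.inv_eq_of_mul_eq_one_right
  rw [D_rep hπ hm h]
  have h0 := fr.mul_self (i := i0) (j := i0) (l := i0) (α * β) (α * β)
  have e1 : α * β * (α * β) = α * (β * α) * β := by noncomm_ring
  rw [e1, h, mul_zero, zero_mul, mul_zero, zero_mul] at h0
  set p := fr.b i0 * (α * β) * fr.c i0
  have e : (1 + p) * (1 - p) = 1 - p * p := by noncomm_ring
  rw [e, h0, sub_zero]

omit [Fintype I] [DecidableEq I] in
theorem D_mem {i0 m l : I} (hm : m ≠ i0) (h0 : i0 ≠ l) (h1 : m ≠ l) (α β : R) :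
    D F i0 m α β ∈ F.sub l := by
  have ha : F.x i0 m α ∈ F.sub l := Subgroup.subset_closure ⟨i0, m, α, hm.symm, h0, h1, rfl⟩
  have hb : F.x m i0 β ∈ F.sub l := Subgroup.subset_closure ⟨m, i0, β, hm, h1, h0, rfl⟩
  rw [D, commutatorElement_def]
  exact mul_mem (mul_mem (mul_mem ha hb) (inv_mem ha)) (inv_mem hb)

omit [DecidableEq I] in
theorem D_col0 (hπ : Rep F fr π) {i0 m l : I} (hm : m ≠ i0) (h0 : i0 ≠ l) (h1 : m ≠ l)
    {α β : R} (h : β * α = 0) (r : R) :
    D F i0 m α β * F.x i0 l r * (D F i0 m α β)⁻¹ = F.x i0 l (r + α * β * r) := by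
  rw [← F.col_b fr h0, SFam.col_conj hπ (D_mem hm h0 h1 α β), D_rep hπ hm h, ← F.col_b fr h0]
  congr 1
  have e : (1 + fr.b i0 * (α * β) * fr.c i0) * (fr.b i0 * r) =
      fr.b i0 * (r + α * β * (fr.c i0 * fr.b i0) * r) := by noncomm_ring
  rw [e, fr.cb_self, mul_one]

omit [DecidableEq I] in
theorem D_row0 (hπ : Rep F fr π) {i0 m l : I} (hm : m ≠ i0) (h0 : i0 ≠ l) (h1 : m ≠ l)
    {α β : R} (h : β * α = 0) (r : R) :
    D F i0 m α β * F.x l i0 r * (D F i0 m α β)⁻¹ = F.x l i0 (r - r * (α * β)) := by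
  rw [← F.row_c fr h0, SFam.row_conj' hπ (D_mem hm h0 h1 α β), D_rep_inv hπ hm h,
    ← F.row_c fr h0]
  congr 1
  have e : r * fr.c i0 * (1 - fr.b i0 * (α * β) * fr.c i0) =
      (r - r * (fr.c i0 * fr.b i0) * (α * β)) * fr.c i0 := by noncomm_ring
  rw [e, fr.cb_self, mul_one]

omit [DecidableEq I] in
theorem D_row1 (hπ : Rep F fr π) {i0 m l k : I} (hm : m ≠ i0) (h0 : i0 ≠ l) (h1 : m ≠ l)
    (hk : k ≠ l) (hk0 : k ≠ i0) {α β : R} (h : β * α = 0) (r : R) :
    D F i0 m α β * F.x l k r * (D F i0 m α β)⁻¹ = F.x l k r := by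
  rw [← F.row_c fr hk, SFam.row_conj' hπ (D_mem hm h0 h1 α β), D_rep_inv hπ hm h]
  congr 1
  have e : r * fr.c k * (1 - fr.b i0 * (α * β) * fr.c i0) =
      r * fr.c k - r * (fr.c k * fr.b i0) * (α * β) * fr.c i0 := by noncomm_ring
  rw [e, fr.cb_ne hk0]; simp

omit [DecidableEq I] in
theorem D_shift (hπ : Rep F fr π) {i0 m m' : I} (hm : m ≠ i0) (hm' : m' ≠ i0) (hmm : m ≠ m')
    {α β : R} (h : β * α = 0) (r : R) : D F i0 m α (r * β) = D F i0 m' (α * r) β := by
  have h' : β * (α * r) = 0 := by rw [← mul_assoc, h, zero_mul]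
  have hh := F.mul hmm hm' hm r β
  have hA := SFam.conj_of_comm (F.mul hm.symm hmm hm'.symm α r)
  have hB : F.x m' i0 β * F.x i0 m α = F.x i0 m α * F.x m' i0 β := by
    have := F.mul hm' hm.symm hmm.symm β α
    rw [h, F.x_zero hmm.symm] at this
    exact (commutatorElement_eq_one_iff_commute.1 this).eq
  have hAC := (F.comm hm'.symm hmm hmm.symm hm'.symm (α * r) r).eq
  have hD := D_row1 hπ hm' hm.symm hmm.symm hmm.symm hm' h' r
  rw [D, ← hh]
  rw [D] at hD ⊢
  set g := F.x i0 m α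
  set A := F.x m m' r
  set B := F.x m' i0 β
  set C := F.x i0 m' (α * r)
  have hB' : g * B * g⁻¹ = B := by rw [← hB]; group
  calc ⁅g, ⁅A, B⁆⁆ = ⁅g * A * g⁻¹, g * B * g⁻¹⁆ * ⁅A, B⁆⁻¹ := by
        simp only [commutatorElement_def]; group
    _ = ⁅A * C, B⁆ * ⁅A, B⁆⁻¹ := by rw [hA, hB', hAC]
    _ = A * ⁅C, B⁆ * A⁻¹ := by simp only [commutatorElement_def]; group
    _ = (⁅C, B⁆ * A * ⁅C, B⁆⁻¹) * ⁅C, B⁆ * A⁻¹ := by rw [hD]
    _ = ⁅C, B⁆ := by group

theorem D_indep (hπ : Rep F fr π) {i0 m m' : I} (hm : m ≠ i0) (hm' : m' ≠ i0)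
    {α β : R} (h : β * α = 0) : D F i0 m α β = D F i0 m' α β := by
  by_cases hmm : m = m'
  · rw [hmm]
  · simpa using D_shift hπ hm hm' hmm h 1

theorem D_shift' (hπ : Rep F fr π) (h3 : Three I) {i0 m m' : I} (hm : m ≠ i0) (hm' : m' ≠ i0)
    {α β : R} (h : β * α = 0) (r : R) : D F i0 m α (r * β) = D F i0 m' (α * r) β := by
  obtain ⟨n, hn0, hn⟩ := h3 i0 m
  rw [D_shift hπ hm hn0 hn.symm h r]
  exact D_indep hπ hn0 hm' (by rw [← mul_assoc, h, zero_mul])

theorem D_col (hπ : Rep F fr π) (h3 : Three I) {i0 m l : I} (hm : m ≠ i0) (h0 : l ≠ i0)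
    {α β : R} (h : β * α = 0) (r : R) :
    D F i0 m α β * F.x i0 l r * (D F i0 m α β)⁻¹ = F.x i0 l (r + α * β * r) := by
  obtain ⟨n, hn0, hn⟩ := h3 i0 l
  rw [D_indep hπ hm hn0 h]
  exact D_col0 hπ hn0 h0.symm hn h r

theorem D_row (hπ : Rep F fr π) (h3 : Three I) {i0 m l : I} (hm : m ≠ i0) (h0 : l ≠ i0)
    {α β : R} (h : β * α = 0) (r : R) :
    D F i0 m α β * F.x l i0 r * (D F i0 m α β)⁻¹ = F.x l i0 (r - r * (α * β)) := by
  obtain ⟨n, hn0, hn⟩ := h3 i0 l
  rw [D_indep hπ hm hn0 h]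
  exact D_row0 hπ hn0 h0.symm hn h r

theorem D_comm_col (hπ : Rep F fr π) (h3 : Three I) {i0 m l : I} (hm : m ≠ i0) (h0 : l ≠ i0)
    {α β : R} (h : β * α = 0) {r : R} (hr : β * r = 0) :
    Commute (D F i0 m α β) (F.x i0 l r) := by
  have := D_col hπ h3 hm h0 h r
  rw [mul_assoc α, hr, mul_zero, add_zero] at this
  exact mul_inv_eq_iff_eq_mul.1 this

theorem D_comm_row (hπ : Rep F fr π) (h3 : Three I) {i0 m l : I} (hm : m ≠ i0) (h0 : l ≠ i0)
    {α β : R} (h : β * α = 0) {r : R} (hr : r * α = 0) :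
    Commute (D F i0 m α β) (F.x l i0 r) := by
  have := D_row hπ h3 hm h0 h r
  rw [← mul_assoc r, hr, zero_mul, sub_zero] at this
  exact mul_inv_eq_iff_eq_mul.1 this

theorem D_comm_other (hπ : Rep F fr π) (h3 : Three I) {i0 m l k : I} (hm : m ≠ i0)
    (h0 : l ≠ i0) (hk : l ≠ k) (hk0 : k ≠ i0) {α β : R} (h : β * α = 0) (r : R) :
    Commute (D F i0 m α β) (F.x l k r) := by
  obtain ⟨n, hn0, hn⟩ := h3 i0 l
  rw [D_indep hπ hm hn0 h]
  exact mul_inv_eq_iff_eq_mul.1 (D_row1 hπ hn0 h0.symm hn hk.symm hk0 h r)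

theorem D_add (hπ : Rep F fr π) (h3 : Three I) {i0 m : I} (hm : m ≠ i0)
    {α α' β : R} (h : β * α = 0) (h' : β * α' = 0) :
    D F i0 m (α + α') β = D F i0 m α β * D F i0 m α' β := by
  have hc := (D_comm_col hπ h3 hm hm h h').eq
  rw [add_comm α, D, F.add hm.symm]
  rw [D] at hc ⊢
  rw [D]
  set a := F.x i0 m α
  set a' := F.x i0 m α'
  set c := F.x m i0 β
  calc ⁅a' * a, c⁆ = (a' * ⁅a, c⁆) * a'⁻¹ * ⁅a', c⁆ := by
        simp only [commutatorElement_def]; group
    _ = _ := by rw [← hc]; group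

/-- The refined generators. -/
def y (F : SFam R I H) (i0 m : I) (P : LPair R) (i j : Option I) (a : R) : H :=
  if pr i0 i = pr i0 j then D F i0 m (pv i0 P i * a) (pv' i0 P j)
  else F.x (pr i0 i) (pr i0 j) (pv i0 P i * a * pv' i0 P j)

omit [Fintype I] in
theorem y_D {i0 m : I} {P : LPair R} {i j : Option I} (e : pr i0 i = pr i0 j) (a : R) :
    y F i0 m P i j a = D F i0 m (pv i0 P i * a) (pv' i0 P j) := if_pos e

omit [Fintype I] in
theorem y_x {i0 m : I} {P : LPair R} {i j : Option I} (e : pr i0 i ≠ pr i0 j) (a : R) :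
    y F i0 m P i j a = F.x (pr i0 i) (pr i0 j) (pv i0 P i * a * pv' i0 P j) := if_neg e

omit [Fintype I] in
theorem zero_aux {i0 : I} {P : LPair R} {i j : Option I} (h : i ≠ j) (e : pr i0 i = pr i0 j)
    (a : R) : pv' i0 P i * (pv i0 P j * a) = 0 := by
  rw [← mul_assoc, (pr_eq i0 P h e).2, zero_mul]

theorem D_comm_y (hπ : Rep F fr π) (h3 : Three I) {i0 m : I} (hm : m ≠ i0) (P : LPair R)
    {i j k l : Option I} (hij : i ≠ j) (hkl : k ≠ l) (hjk : j ≠ k) (hil : i ≠ l)
    (e : pr i0 i = pr i0 j) (a b : R) :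
    Commute (D F i0 m (pv i0 P i * a) (pv' i0 P j)) (y F i0 m P k l b) := by
  have hi0 := (pr_eq i0 P hij e).1
  have hj0 : pr i0 j = i0 := e ▸ hi0
  have h0 := zero_aux (P := P) hij.symm e.symm a
  by_cases e' : pr i0 k = pr i0 l
  · have hk0 := (pr_eq i0 P hkl e').1
    have hl0 : pr i0 l = i0 := e' ▸ hk0
    rw [y_D e']
    have c1 := D_comm_col hπ h3 hm hm h0 (zero_aux (P := P) hjk (hj0.trans hk0.symm) b)
    have c2 := D_comm_row hπ h3 hm hm h0 (zero_aux (P := P) hil.symm (hl0.trans hi0.symm) a)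
    conv_rhs => rw [D, commutatorElement_def]
    exact ((c1.mul_right c2).mul_right c1.inv_right).mul_right c2.inv_right
  · rw [y_x e']
    by_cases hk0 : pr i0 k = i0
    · rw [hk0]
      refine D_comm_col hπ h3 hm (fun h => e' (hk0.trans h.symm)) h0 ?_
      rw [mul_assoc]
      exact zero_aux hjk (hj0.trans hk0.symm) _
    · by_cases hl0 : pr i0 l = i0
      · rw [hl0]
        refine D_comm_row hπ h3 hm hk0 h0 ?_
        rw [mul_assoc, zero_aux hil.symm (hl0.trans hi0.symm), mul_zero]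
      · exact D_comm_other hπ h3 hm hk0 e' hl0 h0 _

/-- The refined family. -/
def fam (hπ : Rep F fr π) (h3 : Three I) {i0 m : I} (hm : m ≠ i0) (P : LPair R) :
    SFam R (Option I) H where
  x := y F i0 m P
  add := by
    intro i j hij a b
    by_cases e : pr i0 i = pr i0 j
    · simp only [y_D e, mul_add]
      exact D_add hπ h3 hm (zero_aux hij.symm e.symm a) (zero_aux hij.symm e.symm b)
    · simp only [y_x e, mul_add, add_mul]
      exact F.add e _ _
  comm := by
    intro i j k l hij hkl hjk hil a b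
    by_cases e : pr i0 i = pr i0 j
    · rw [y_D e]; exact D_comm_y hπ h3 hm P hij hkl hjk hil e a b
    · by_cases e' : pr i0 k = pr i0 l
      · rw [y_D e']; exact (D_comm_y hπ h3 hm P hkl hij hil.symm hjk.symm e' b a).symm
      · rw [y_x e, y_x e']
        by_cases e1 : pr i0 j = pr i0 k
        · by_cases e2 : pr i0 i = pr i0 l
          · exact absurd ((pr_eq i0 P hil e2).1.trans (pr_eq i0 P hjk e1).1.symm) e
          · rw [← commutatorElement_eq_one_iff_commute, ← e1, F.mul e (e1 ▸ e') e2]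
            have : pv i0 P i * a * pv' i0 P j * (pv i0 P k * b * pv' i0 P l) = 0 := by
              rw [mul_assoc, mul_assoc (pv i0 P k), zero_aux hjk e1, mul_zero]
            rw [this, F.x_zero e2]
        · by_cases e2 : pr i0 i = pr i0 l
          · symm
            rw [← commutatorElement_eq_one_iff_commute, e2, F.mul e' (e2 ▸ e) (Ne.symm e1)]
            have : pv i0 P k * b * pv' i0 P l * (pv i0 P i * a * pv' i0 P j) = 0 := by
              rw [mul_assoc, mul_assoc (pv i0 P i), zero_aux hil.symm e2.symm, mul_zero]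
            rw [this, F.x_zero (Ne.symm e1)]
          · exact F.comm e e' e1 e2 _ _
  mul := by
    intro i j k hij hjk hik a b
    have hP : ∀ s t : R, s * pv' i0 P j * (pv i0 P j * t) = s * t := by
      intro s t
      rw [mul_assoc, ← mul_assoc (pv' i0 P j), pv_self, one_mul]
    by_cases e : pr i0 i = pr i0 j
    · have e1 := pr_three i0 hij hjk hik e
      have e2 : pr i0 i ≠ pr i0 k := e ▸ e1
      have hi0 := (pr_eq i0 P hij e).1
      have hj0 : pr i0 j = i0 := e ▸ hi0
      have hk0 : pr i0 k ≠ i0 := fun h => e2 (hi0.trans h.symm)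
      rw [y_D e, y_x e1, y_x e2, hi0, hj0, commutatorElement_def,
        D_col hπ h3 hm hk0 (zero_aux hij.symm e.symm a), add_comm, F.add hk0.symm,
        mul_inv_cancel_right, mul_assoc (pv i0 P j), hP]
      congr 1; noncomm_ring
    · by_cases e1 : pr i0 j = pr i0 k
      · have e2 : pr i0 i ≠ pr i0 k := e1 ▸ e
        have hj0 := (pr_eq i0 P hjk e1).1
        have hk0 : pr i0 k = i0 := e1 ▸ hj0
        have hi0 : pr i0 i ≠ i0 := fun h => e (h.trans hj0.symm)
        rw [y_x e, y_D e1, y_x e2, hj0, hk0]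
        have h1 := D_row hπ h3 hm hi0 (zero_aux (P := P) hjk.symm e1.symm b)
          (pv i0 P i * a * pv' i0 P j)
        have h2 : ∀ g d : H, ⁅g, d⁆ = g * (d * g * d⁻¹)⁻¹ := by
          intro g d; rw [commutatorElement_def]; group
        rw [h2, h1, ← F.x_neg hi0, ← F.add hi0, mul_assoc (pv i0 P j), hP]
        congr 1; noncomm_ring
      · by_cases e2 : pr i0 i = pr i0 k
        · have hi0 := (pr_eq i0 P hik e2).1
          have hk0 : pr i0 k = i0 := e2 ▸ hi0
          have hj0 : pr i0 j ≠ i0 := fun h => e (hi0.trans h.symm)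
          rw [y_x e, y_x e1, y_D e2, hi0, hk0]
          have h0 : pv' i0 P k * (pv i0 P i * a * pv' i0 P j) = 0 := by
            rw [mul_assoc, zero_aux hik.symm e2.symm]
          have := D_shift' hπ h3 hj0 hm h0 (pv i0 P j * b)
          rw [hP, mul_assoc (pv i0 P i) a b] at this
          exact this
        · rw [y_x e, y_x e1, y_x e2, F.mul e e1 e2, mul_assoc (pv i0 P j), hP]
          congr 1; noncomm_ring

end Refine

theorem refine_exists (F : SFam R I H) (fr : Frame R I) (π : H →* Rˣ) (hπ : Rep F fr π)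
    (h3 : Three I) (i0 : I) (P : LPair R) :
    ∃ F' : SFam R (Option I) H, Rep F' (fr.refine i0 P) π ∧
      (∀ i j, i ≠ j → i ≠ i0 → j ≠ i0 → ∀ a, F.x i j a = F'.x (some i) (some j) a) ∧
      (∀ j, j ≠ i0 → ∀ a, F.x i0 j a =
        F'.x (some i0) (some j) (P.p0' * a) * F'.x none (some j) (P.p1' * a)) ∧
      (∀ i, i ≠ i0 → ∀ a, F.x i i0 a =
        F'.x (some i) (some i0) (a * P.p0) * F'.x (some i) none (a * P.p1)) := by
  obtain ⟨m, hm, -⟩ := h3 i0 i0
  refine ⟨Refine.fam hπ h3 hm P, ?_, ?_, ?_, ?_⟩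
  · intro i j hij a
    change ((π (Refine.y F i0 m P i j a) : Rˣ) : R) = _
    rw [Refine.refine_b, Refine.refine_c]
    by_cases e : Refine.pr i0 i = Refine.pr i0 j
    · have hi0 := (Refine.pr_eq i0 P hij e).1
      rw [Refine.y_D e, Refine.D_rep hπ hm (Refine.zero_aux hij.symm e.symm a), ← e, hi0]
      noncomm_ring
    · rw [Refine.y_x e, hπ _ _ e]
      noncomm_ring
  · intro i j hij hi hj a
    change _ = Refine.y F i0 m P _ _ a
    rw [Refine.y_x (by exact hij)]
    simp [Refine.pr, Refine.pv, Refine.pv', hi, hj]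
  · intro j hj a
    change _ = Refine.y F i0 m P _ _ _ * Refine.y F i0 m P _ _ _
    rw [Refine.y_x (by exact hj.symm), Refine.y_x (by exact hj.symm)]
    simp only [Refine.pr, Refine.pv, Refine.pv', hj, if_true, if_false, mul_one]
    rw [← F.add hj.symm, ← mul_assoc, ← mul_assoc, ← add_mul, P.hsum, one_mul]
  · intro i hi a
    change _ = Refine.y F i0 m P _ _ _ * Refine.y F i0 m P _ _ _
    rw [Refine.y_x (by exact hi), Refine.y_x (by exact hi)]
    simp only [Refine.pr, Refine.pv, Refine.pv', hi, if_true, if_false, one_mul]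
    rw [← F.add hi, mul_assoc, mul_assoc, ← mul_add, P.hsum, mul_one]

end Vale.Agent.P193
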