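import Vale.Agent.P193.GColRow

/-!
TASK G2. Eilenberg swindle: the part of the kernel of `π` lying in `F.sub l` is trivial.

Proof plan. Let `J = {i // i ≠ l}` (it has `Three`), `s : St J R →* H` the lift of the restricted
family; its range is `F.sub l`. For an additive multiplicative map `f : R → R` (non-unital ring hom)
let `f_* : St J R →* St J R`, `x i j a ↦ x i j (f a)`.
(a) With `fz a = z a z'`, `fu a = u a u'`: the images of `fz_*` and `fu_*` commute (the only hard case
`x i j (z a z')` versus `x j i (u b u')`: write the first as `⁅x i m (z a), x m j z'⁆`), hence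
`g ↦ fz_* g * fu_* (φ_* g)` is a homomorphism, equal to `φ_*` by `st_ext` and `hφ`.
(b) For `p' * p = 1`, `fp a = p a p'`: there is `U : H` with `s (fp_* g) = U * s g * U⁻¹` for all `g`.
For one index `i ≠ l` take `U i = T * w`, `w = x l i 1 * x i l (-1) * x l i 1` (so `π w` sends `b i` to
`b l`), `T = x i l p * x l i (-p') * x i l p`; then `π (U i) * b i = b i * p`,
`c i * (π (U i))⁻¹ = p' * c i`, `U i ∈ sub j` for `j ∉ {i, l}`, so by `col_conj` / `row_conj'`
conjugation by `U i` sends `x i j a ↦ x i j (p a)`, `x j i a ↦ x j i (a p')` and fixes `x j k a`.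
Multiply the `U i` over a duplicate-free list of all `i : J` (induction on the list).
If `π (s y) = 1` then `s y` is central (`SFam.central`), so `s (fp_* y) = s y`.
(c) `π (s y) = 1 → π (s (φ_* y)) = 1`: with `e = ∑_{i ∈ J} b i c i = 1 - b l c l`,
`W = ∑_{i ∈ J} b i * φ (c i)`, `W' = ∑_{i ∈ J} φ (b i) * c i` one has `W' W = φ e` and, by induction on
`g`, `π (s g) - 1 = e * (π (s g) - 1)` and `π (s (φ_* g)) - 1 = W * φ (π (s g) - 1) * W'`.
Then `s (φ_* y) = s y * s (φ_* y)`, so `s y = 1`.
-/

namespace Vale.Agent.P193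

open scoped commutatorElement

set_option linter.unusedSectionVars false
set_option linter.unusedSimpArgs false

variable {R : Type} [Ring R] {I : Type} [Fintype I] [DecidableEq I] {H : Type} [Group H]

/-- The family restricted to the indices different from `l`, twisted by a non-unital ring map. -/
def SFam.twist (F : SFam R I H) (l : I) (f : R →ₙ+* R) : SFam R {i // i ≠ l} H where
  x i j a := F.x i.1 j.1 (f a)
  add h a b := by
    rw [map_add]; exact F.add (fun e => h (Subtype.ext e)) _ _
  comm h h' hjk hil a b :=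
    F.comm (fun e => h (Subtype.ext e)) (fun e => h' (Subtype.ext e))
      (fun e => hjk (Subtype.ext e)) (fun e => hil (Subtype.ext e)) _ _
  mul h h' h'' a b := by
    rw [map_mul]
    exact F.mul (fun e => h (Subtype.ext e)) (fun e => h' (Subtype.ext e))
      (fun e => h'' (Subtype.ext e)) _ _

theorem SFam.twist_gen_le (F : SFam R I H) (l : I) (f : R →ₙ+* R) :
    (F.twist l f).gen ≤ F.sub l := by
  apply Subgroup.closure_mono
  rintro _ ⟨i, j, a, h, rfl⟩
  exact ⟨i.1, j.1, f a, fun e => h (Subtype.ext e), i.2, j.2, rfl⟩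

theorem SFam.sub_le_twist_gen (F : SFam R I H) (l : I) :
    F.sub l ≤ (F.twist l (NonUnitalRingHom.id R)).gen := by
  apply Subgroup.closure_mono
  rintro _ ⟨i, j, a, h, hi, hj, rfl⟩
  exact ⟨⟨i, hi⟩, ⟨j, hj⟩, a, fun e => h (congrArg Subtype.val e), rfl⟩

/-- The corner map `a ↦ p a p'`. -/
def corner (p p' : R) (h : p' * p = 1) : R →ₙ+* R where
  toFun a := p * a * p'
  map_mul' a b := by
    have : p * a * p' * (p * b * p') = p * a * (p' * p) * b * p' := by noncomm_ring
    rw [this, h]; noncomm_ring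
  map_zero' := by simp
  map_add' a b := by noncomm_ring

theorem SFam.comm_of_mul_zero (F : SFam R I H) {i j k : I} (h : i ≠ j) (h' : j ≠ k) (h'' : i ≠ k)
    {a b : R} (hab : a * b = 0) : Commute (F.x i j a) (F.x j k b) := by
  have := F.mul h h' h'' a b
  rw [hab, F.x_zero h''] at this
  exact commutatorElement_eq_one_iff_commute.mp this

/-- Orthogonal corners commute. -/
theorem SFam.comm_orth (F : SFam R I H) {l i j k m : I} (h : i ≠ j) (h' : k ≠ m) (hi : i ≠ l)
    (hj : j ≠ l) {p p' q q' : R} (hpq : p' * q = 0) (hqp : q' * p = 0) (a b : R) :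
    Commute (F.x i j (p * a * p')) (F.x k m (q * b * q')) := by
  have e1 : p * a * p' * (q * b * q') = 0 := by
    have : p * a * p' * (q * b * q') = p * a * (p' * q) * b * q' := by noncomm_ring
    rw [this, hpq]; simp
  have e2 : q * b * q' * (p * a * p') = 0 := by
    have : q * b * q' * (p * a * p') = q * b * (q' * p) * a * p' := by noncomm_ring
    rw [this, hqp]; simp
  by_cases hjk : j = k
  · subst hjk
    by_cases him : i = m
    · subst him
      have e3 : q * b * q' * (p * a) = 0 := by
        have : q * b * q' * (p * a) = q * b * (q' * p) * a := by noncomm_ring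
        rw [this, hqp]; simp
      have e4 : p' * (q * b * q') = 0 := by
        have : p' * (q * b * q') = (p' * q) * b * q' := by noncomm_ring
        rw [this, hpq]; simp
      have c1 : Commute (F.x i l (p * a)) (F.x j i (q * b * q')) :=
        (F.comm_of_mul_zero h' hi hj e3).symm
      have c2 : Commute (F.x l j p') (F.x j i (q * b * q')) :=
        F.comm_of_mul_zero hj.symm h' hi.symm e4
      rw [← F.mul hi hj.symm h, commutatorElement_def]
      exact ((c1.mul_left c2).mul_left c1.inv_left).mul_left c2.inv_left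
    · exact F.comm_of_mul_zero h h' him e1
  · by_cases him : i = m
    · subst him
      exact (F.comm_of_mul_zero h' h (Ne.symm hjk) e2).symm
    · exact F.comm h h' hjk him _ _

theorem SFam.gen_commute {J : Type} (F G : SFam R J H)
    (h : ∀ i j k m a b, i ≠ j → k ≠ m → Commute (F.x i j a) (G.x k m b)) {g k : H}
    (hg : g ∈ F.gen) (hk : k ∈ G.gen) : Commute g k := by
  induction hg using Subgroup.closure_induction with
  | mem g hg =>
    obtain ⟨i, j, a, hij, rfl⟩ := hg
    induction hk using Subgroup.closure_induction with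
    | mem k hk =>
      obtain ⟨k, m, b, hkm, rfl⟩ := hk
      exact h _ _ _ _ _ _ hij hkm
    | one => exact Commute.one_right _
    | mul a b _ _ ha hb => exact ha.mul_right hb
    | inv a _ ha => exact ha.inv_right
  | one => exact Commute.one_left _
  | mul a b _ _ ha hb => exact ha.mul_left hb
  | inv a _ ha => exact ha.inv_left

/-- Conjugation realising the corner map at one index. -/
theorem SFam.conj_one {F : SFam R I H} {fr : Frame R I} {π : H →* Rˣ} (hπ : Rep F fr π)
    {l i : I} (hi : i ≠ l) {p p' : R} (hp : p' * p = 1) :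
    ∃ U : H, ∀ j k a, j ≠ k → j ≠ l → k ≠ l →
      U * F.x j k a * U⁻¹ = F.x j k ((if j = i then p else 1) * a * (if k = i then p' else 1)) := by
  have hil := fr.cb_ne hi
  have hli := fr.cb_ne hi.symm
  have hii := fr.cb_self i
  have hll := fr.cb_self l
  have k1 : ∀ x, fr.c i * (fr.b l * x) = 0 := fun x => by rw [← mul_assoc, hil, zero_mul]
  have k2 : ∀ x, fr.c l * (fr.b i * x) = 0 := fun x => by rw [← mul_assoc, hli, zero_mul]
  have k3 : ∀ x, fr.c i * (fr.b i * x) = x := fun x => by rw [← mul_assoc, hii, one_mul]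
  have k4 : ∀ x, fr.c l * (fr.b l * x) = x := fun x => by rw [← mul_assoc, hll, one_mul]
  have k5 : ∀ x, p' * (p * x) = x := fun x => by rw [← mul_assoc, hp, one_mul]
  refine ⟨F.x i l p * F.x l i (-p') * F.x i l p * (F.x l i 1 * F.x i l (-1) * F.x l i 1), ?_⟩
  set U := F.x i l p * F.x l i (-p') * F.x i l p * (F.x l i 1 * F.x i l (-1) * F.x l i 1) with hU
  have hmem : ∀ j, j ≠ i → j ≠ l → U ∈ F.sub j := by
    intro j hji hjl
    have m1 := fun a => F.x_mem_sub hi hji.symm hjl.symm a
    have m2 := fun a => F.x_mem_sub hi.symm hjl.symm hji.symm a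
    exact mul_mem (mul_mem (mul_mem (m1 _) (m2 _)) (m1 _)) (mul_mem (mul_mem (m2 _) (m1 _)) (m2 _))
  have hb : ((π U : Rˣ) : R) * fr.b i = fr.b i * p := by
    simp only [hU, map_mul, Units.val_mul, hπ i l hi, hπ l i hi.symm]
    simp only [mul_add, add_mul, mul_assoc, k1, k2, k3, k4, k5, hil, hli, hii, hll, hp, mul_one,
      one_mul, mul_zero, mul_neg, neg_mul, neg_zero, add_zero, zero_add]
    abel
  have hUi : U⁻¹ = F.x l i (-1) * F.x i l 1 * F.x l i (-1) *
      (F.x i l (-p) * F.x l i p' * F.x i l (-p)) := by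
    rw [hU, F.x_neg hi, F.x_neg hi, F.x_neg hi.symm, F.x_neg hi.symm]
    group
  have hc : fr.c i * (((π U)⁻¹ : Rˣ) : R) = p' * fr.c i := by
    rw [← map_inv, hUi]
    simp only [map_mul, Units.val_mul, hπ i l hi, hπ l i hi.symm]
    simp only [mul_add, add_mul, mul_assoc, k1, k2, k3, k4, k5, hil, hli, hii, hll, hp, mul_one,
      one_mul, mul_zero, mul_neg, neg_mul, neg_zero, add_zero, zero_add]
    abel
  intro j k a hjk hjl hkl
  by_cases hj : j = i
  · subst hj
    have := SFam.col_conj hπ (hmem k hjk.symm hkl) (fr.b j * a)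
    rw [F.col_b fr hjk, ← mul_assoc, hb, mul_assoc (fr.b j), F.col_b fr hjk] at this
    rw [this, if_pos rfl, if_neg hjk.symm, mul_one]
  · by_cases hk : k = i
    · subst hk
      have := SFam.row_conj' hπ (hmem j hjk hjl) (a * fr.c k)
      rw [F.row_c fr hjk.symm, mul_assoc a, hc, ← mul_assoc a, F.row_c fr hjk.symm] at this
      rw [this, if_neg hj, if_pos rfl, one_mul]
    · rw [if_neg hj, if_neg hk, one_mul, mul_one]
      have c1 : ∀ r, Commute (F.x i l r) (F.x j k a) := fun r =>
        F.comm hi hjk hjl.symm (Ne.symm hk) _ _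
      have c2 : ∀ r, Commute (F.x l i r) (F.x j k a) := fun r =>
        F.comm hi.symm hjk (Ne.symm hj) hkl.symm _ _
      have c : Commute U (F.x j k a) :=
        (((c1 _).mul_left (c2 _)).mul_left (c1 _)).mul_left
          (((c2 _).mul_left (c1 _)).mul_left (c2 _))
      rw [c.eq, mul_assoc, mul_inv_cancel, mul_one]

theorem SFam.conj_set {F : SFam R I H} {fr : Frame R I} {π : H →* Rˣ} (hπ : Rep F fr π)
    {l : I} {p p' : R} (hp : p' * p = 1) (S : Finset I) (hS : l ∉ S) :
    ∃ U : H, ∀ j k a, j ≠ k → j ≠ l → k ≠ l →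
      U * F.x j k a * U⁻¹ = F.x j k ((if j ∈ S then p else 1) * a * (if k ∈ S then p' else 1)) := by
  induction S using Finset.induction_on with
  | empty => exact ⟨1, fun j k a _ _ _ => by simp⟩
  | insert i S hiS ih =>
    obtain ⟨U, hU⟩ := ih (fun h => hS (Finset.mem_insert_of_mem h))
    have hi : i ≠ l := fun e => hS (e ▸ Finset.mem_insert_self _ _)
    obtain ⟨V, hV⟩ := SFam.conj_one hπ hi hp
    refine ⟨V * U, fun j k a hjk hj hk => ?_⟩
    have : V * U * F.x j k a * (V * U)⁻¹ = V * (U * F.x j k a * U⁻¹) * V⁻¹ := by group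
    rw [this, hU j k a hjk hj hk, hV j k _ hjk hj hk]
    congr 1
    by_cases h1 : j = i
    · subst h1
      have h2 : k ≠ j := hjk.symm
      simp [hiS, h2, mul_assoc]
    · by_cases h2 : k = i
      · subst h2
        simp [hiS, h1]
      · simp [h1, h2]

theorem SFam.conj_twist {F : SFam R I H} {fr : Frame R I} {π : H →* Rˣ} (hπ : Rep F fr π)
    (l : I) {p p' : R} (hp : p' * p = 1) (f : R →ₙ+* R) :
    ∃ U : H, ∀ y, stLift (F.twist l ((corner p p' hp).comp f)) y
      = U * stLift (F.twist l f) y * U⁻¹ := by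
  obtain ⟨U, hU⟩ := SFam.conj_set hπ (l := l) hp (Finset.univ.erase l) (by simp)
  refine ⟨U, fun y => ?_⟩
  have : stLift (F.twist l ((corner p p' hp).comp f))
      = (MulAut.conj U).toMonoidHom.comp (stLift (F.twist l f)) := by
    apply st_ext
    intro i j h a
    rw [MonoidHom.comp_apply, stLift_x _ h, stLift_x _ h]
    have := hU i.1 j.1 (f a) (fun e => h (Subtype.ext e)) i.2 j.2
    rw [if_pos (by simpa using i.2), if_pos (by simpa using j.2)] at this
    exact this.symm
  rw [this]
  rfl

/-- The unit intertwining a ring endomorphism with its entrywise action. -/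
def Frame.inter (fr : Frame R I) (φ : R →+* R) : Rˣ where
  val := ∑ i, fr.b i * φ (fr.c i)
  inv := ∑ i, φ (fr.b i) * fr.c i
  val_inv := by
    rw [Finset.sum_mul_sum, ← fr.sum]
    refine Finset.sum_congr rfl fun i _ => ?_
    rw [Finset.sum_eq_single i]
    · rw [mul_assoc, ← mul_assoc (φ _), ← map_mul, fr.cb_self, map_one, one_mul]
    · intro j _ hj
      rw [mul_assoc, ← mul_assoc (φ _), ← map_mul, fr.cb_ne hj.symm, map_zero, zero_mul, mul_zero]
    · simp
  inv_val := by
    rw [Finset.sum_mul_sum, ← map_one φ, ← fr.sum, map_sum]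
    refine Finset.sum_congr rfl fun i _ => ?_
    rw [Finset.sum_eq_single i]
    · rw [mul_assoc, ← mul_assoc (fr.c i), fr.cb_self, one_mul, map_mul]
    · intro j _ hj
      rw [mul_assoc, ← mul_assoc (fr.c i), fr.cb_ne hj.symm, zero_mul, mul_zero]
    · simp

theorem Frame.inter_b (fr : Frame R I) (φ : R →+* R) (i : I) :
    (fr.inter φ : R) * φ (fr.b i) = fr.b i := by
  change (∑ k, fr.b k * φ (fr.c k)) * φ (fr.b i) = fr.b i
  rw [Finset.sum_mul, Finset.sum_eq_single i]
  · rw [mul_assoc, ← map_mul, fr.cb_self, map_one, mul_one]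
  · intro j _ hj
    rw [mul_assoc, ← map_mul, fr.cb_ne hj, map_zero, mul_zero]
  · simp

theorem Frame.c_inter (fr : Frame R I) (φ : R →+* R) (i : I) :
    φ (fr.c i) * (((fr.inter φ)⁻¹ : Rˣ) : R) = fr.c i := by
  change φ (fr.c i) * (∑ k, φ (fr.b k) * fr.c k) = fr.c i
  rw [Finset.mul_sum, Finset.sum_eq_single i]
  · rw [← mul_assoc, ← map_mul, fr.cb_self, map_one, one_mul]
  · intro j _ hj
    rw [← mul_assoc, ← map_mul, fr.cb_ne hj.symm, map_zero, zero_mul]
  · simp

theorem SFam.pi_twist {F : SFam R I H} {fr : Frame R I} {π : H →* Rˣ} (hπ : Rep F fr π)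
    (l : I) (φ : R →+* R) (y : St {i // i ≠ l} R) :
    π (stLift (F.twist l φ.toNonUnitalRingHom) y) = fr.inter φ *
      Units.map φ.toMonoidHom (π (stLift (F.twist l (NonUnitalRingHom.id R)) y)) *
        (fr.inter φ)⁻¹ := by
  have : π.comp (stLift (F.twist l φ.toNonUnitalRingHom))
      = (MulAut.conj (fr.inter φ)).toMonoidHom.comp ((Units.map φ.toMonoidHom).comp
        (π.comp (stLift (F.twist l (NonUnitalRingHom.id R))))) := by
    apply st_ext
    intro i j h a
    simp only [MonoidHom.comp_apply]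
    rw [stLift_x _ h, stLift_x _ h]
    have h' : i.1 ≠ j.1 := fun e => h (Subtype.ext e)
    ext
    change ((π (F.x i.1 j.1 (φ a)) : Rˣ) : R)
      = (fr.inter φ : R) * φ ((π (F.x i.1 j.1 a) : Rˣ) : R) * (((fr.inter φ)⁻¹ : Rˣ) : R)
    rw [hπ _ _ h', hπ _ _ h', map_add, map_one, map_mul, map_mul, mul_add, add_mul, mul_one,
      Units.mul_inv, ← mul_assoc, ← mul_assoc, fr.inter_b, mul_assoc _ (φ (fr.c _)), fr.c_inter]
  exact DFunLike.congr_fun this y

theorem stLift_mem {J : Type} (G : SFam R J H) (y : St J R) : stLift G y ∈ G.gen := by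
  rw [← stLift_range]; exact ⟨y, rfl⟩

set_option linter.unusedVariables false in
theorem swindle (N : NiceRing R) (F : SFam R I H) (fr : Frame R I) (π : H →* Rˣ)
    (hπ : Rep F fr π) (hgen : F.gen = ⊤) (h4 : Four I) (l : I) {g : H} (hg : g ∈ F.sub l)
    (h1 : π g = 1) : g = 1 := by
  have hg' := F.sub_le_twist_gen l hg
  rw [← stLift_range] at hg'
  obtain ⟨y, rfl⟩ := hg'
  set s := stLift (F.twist l (NonUnitalRingHom.id R)) with hs
  set t := stLift (F.twist l N.φ.toNonUnitalRingHom) with ht
  set sz := stLift (F.twist l ((corner N.z N.z' N.hz).comp (NonUnitalRingHom.id R))) with hsz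
  set tu := stLift (F.twist l ((corner N.u N.u' N.hu).comp N.φ.toNonUnitalRingHom)) with htu
  have hcomm : ∀ a b, Commute (sz a) (tu b) := by
    intro a b
    refine SFam.gen_commute _ _ ?_ (stLift_mem _ a) (stLift_mem _ b)
    intro i j k m a b h h'
    exact F.comm_orth (fun e => h (Subtype.ext e)) (fun e => h' (Subtype.ext e)) i.2 j.2
      N.hz'u N.hu'z a (N.φ b)
  let prod : St {i // i ≠ l} R →* H :=
    { toFun := fun a => sz a * tu a
      map_one' := by simp
      map_mul' := fun a b => by
        rw [map_mul, map_mul, mul_assoc, mul_assoc, ← mul_assoc (sz b), (hcomm b a).eq, mul_assoc] }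
  have hprod : t = prod := by
    apply st_ext
    intro i j h a
    change t _ = sz _ * tu _
    rw [ht, hsz, htu, stLift_x _ h, stLift_x _ h, stLift_x _ h]
    change F.x i.1 j.1 (N.φ a) = F.x i.1 j.1 (N.z * a * N.z') * F.x i.1 j.1 (N.u * N.φ a * N.u')
    rw [← F.add (fun e => h (Subtype.ext e)), ← N.hφ]
  have hty : π (t y) = 1 := by
    rw [ht, SFam.pi_twist hπ, ← hs, h1]; simp
  have htm : t y ∈ F.sub l := F.twist_gen_le l _ (stLift_mem _ y)
  obtain ⟨U, hU⟩ := SFam.conj_twist hπ l N.hz (NonUnitalRingHom.id R)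
  obtain ⟨V, hV⟩ := SFam.conj_twist hπ l N.hu N.φ.toNonUnitalRingHom
  have e1 : sz y = s y := by
    rw [hsz, hU, ← hs, ← (SFam.central hπ hgen hg h1 U).eq, mul_assoc, mul_inv_cancel, mul_one]
  have e2 : tu y = t y := by
    rw [htu, hV, ← ht, ← (SFam.central hπ hgen htm hty V).eq, mul_assoc, mul_inv_cancel, mul_one]
  have e3 : t y = sz y * tu y := by rw [hprod]; rfl
  rw [e1, e2] at e3
  exact right_eq_mul.mp e3

end Vale.Agent.P193
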