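import Vale.Agent.P193.GRefine
import Vale.Agent.P193.GSwindle
import Vale.Agent.P193.GGeneric

/-!
TASK G3. Surjective stability: `π` is injective.

Proof plan. Work first with one family `Y` on an index type with two distinct indices `Q`, `Q'`.
Call `v : R` admissible if `c Q * v = 0`, `c Q' * v = 0` and `∃ μ, μ * v = 1` (then `μ` can be chosen
with `μ * b Q = 0 = μ * b Q'`: replace `μ` by `μ (1 - b Q c Q - b Q' c Q')`).
`Pp = {h * row Q ρ | h ∈ sub Q}` and `Pm = {h * col Q w | h ∈ sub Q}` are subgroups (L1).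
`U v μ = row Q (-μ) * col Q v`, lying in `sub Q'`, `π U * b Q = v`, `c Q * π U = -μ`.
Facts: every `col Q' w ∈ Pp`; `row Q' ρ ∈ sub Q` if `ρ * b Q = 0`.
(1) `ρ * v = 0 → (col Q v)⁻¹ * row Q ρ * col Q v ∈ Pp`: split `ρ` into its `Q'` part (`x Q Q' r`, a
`col Q'`) and the rest `ρ₁`, `row Q ρ₁ = ` a commutator of `x Q Q' 1 = row Q (c Q')` and `row Q' ρ₁`.
(2) `(U v μ)⁻¹ * col Q w * U v μ ∈ Pp`: split `w` into its `Q'` part (`x Q' Q r = row Q' (r c Q)`) and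
the rest `w₁`, `col Q w₁ =` a commutator of `col Q' w₁` and `x Q' Q 1`.
(3) for `h ∈ sub Q`: `h * U v μ * h⁻¹ = U (π h * v) (μ * (π h)⁻¹)` up to changing `μ`, allowed by (1).
So for `g ∈ Pp ∪ Pm` with `v` and `π g * v` admissible, `(U (π g v) μ')⁻¹ * g * U v μ ∈ Pp`.
`Pp ∩ ker π = 1` by `swindle`.
Now given `k ∈ ker π`, write `k` as a product of a list of generators of `F` (inverses are generators
by `x_neg`), choose `i0 ≠ i1`, take `T` = all `c i0 * π(suffix product)`, `c i1 * π(suffix product)`,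
get `γ, P` from `generic_cone`, refine `F` at `i1` (new index `Q'`) and then at `some i0` (new index
`Q = none`); every generator of `F` lies in `Pp ∪ Pm`; telescoping gives `U⁻¹ k U ∈ Pp ∩ ker π`.
-/

namespace Vale.Agent.P193

set_option linter.unusedSectionVars false

namespace SFam

variable {R : Type} [Ring R] {I : Type} [Fintype I] {H : Type} [Group H]
variable {F : SFam R I H} {fr : Frame R I} {π : H →* Rˣ}

theorem c_mul_sub (hπ : Rep F fr π) {l : I} {g : H} (hg : g ∈ F.sub l) :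
    fr.c l * (π g : Rˣ) = fr.c l := by
  induction hg using Subgroup.closure_induction with
  | mem g hg =>
    obtain ⟨i, j, a, h, hi, hj, rfl⟩ := hg
    rw [hπ i j h, mul_add, ← mul_assoc, ← mul_assoc, fr.cb_ne (Ne.symm hi)]
    simp
  | one => simp
  | mul g g' _ _ ih ih' => rw [map_mul, Units.val_mul, ← mul_assoc, ih, ih']
  | inv g _ ih =>
    rw [map_inv]
    nth_rewrite 1 [← ih]
    rw [mul_assoc, Units.mul_inv, mul_one]

theorem col_mem_sub {l m : I} (h : l ≠ m) {v : R} (hv : fr.c m * v = 0) :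
    F.col fr l v ∈ F.sub m := by
  refine F.col_mem fr _ l v fun i hi => ?_
  by_cases him : i = m
  · subst him
    rw [hv, F.x_zero hi]
    exact Subgroup.one_mem _
  · exact F.x_mem_sub hi him h _

theorem row_mem_sub {l m : I} (h : l ≠ m) {w : R} (hw : w * fr.b m = 0) :
    F.row fr l w ∈ F.sub m := by
  refine F.row_mem fr _ l w fun i hi => ?_
  by_cases him : i = m
  · subst him
    rw [hw, F.x_zero hi.symm]
    exact Subgroup.one_mem _
  · exact F.x_mem_sub hi.symm h him _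

/-- The parabolic subgroup fixing the column `b Q`. -/
def Pp (hπ : Rep F fr π) (Q : I) : Subgroup H where
  carrier := {g | ∃ h ∈ F.sub Q, ∃ ρ, g = h * F.row fr Q ρ}
  one_mem' := ⟨1, Subgroup.one_mem _, 0, by simp [F.row_zero]⟩
  mul_mem' := by
    rintro _ _ ⟨h, hh, ρ, rfl⟩ ⟨h', hh', ρ', rfl⟩
    refine ⟨h * h', Subgroup.mul_mem _ hh hh', ρ * (π h' : Rˣ) + ρ', ?_⟩
    rw [F.row_add, ← row_conj hπ hh']
    group
  inv_mem' := by
    rintro _ ⟨h, hh, ρ, rfl⟩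
    refine ⟨h⁻¹, Subgroup.inv_mem _ hh, -(ρ * ((π h)⁻¹ : Rˣ)), ?_⟩
    rw [F.row_neg, ← row_conj' hπ hh]
    group

/-- The parabolic subgroup fixing the row `c Q`. -/
def Pm (hπ : Rep F fr π) (Q : I) : Subgroup H where
  carrier := {g | ∃ h ∈ F.sub Q, ∃ w, g = h * F.col fr Q w}
  one_mem' := ⟨1, Subgroup.one_mem _, 0, by simp [F.col_zero]⟩
  mul_mem' := by
    rintro _ _ ⟨h, hh, ρ, rfl⟩ ⟨h', hh', ρ', rfl⟩
    refine ⟨h * h', Subgroup.mul_mem _ hh hh', (π h'⁻¹ : Rˣ) * ρ + ρ', ?_⟩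
    rw [F.col_add, ← col_conj hπ ((F.sub Q).inv_mem hh')]
    group
  inv_mem' := by
    rintro _ ⟨h, hh, ρ, rfl⟩
    refine ⟨h⁻¹, Subgroup.inv_mem _ hh, -((π h : Rˣ) * ρ), ?_⟩
    rw [F.col_neg, ← col_conj hπ hh]
    group

theorem sub_mem_Pp (hπ : Rep F fr π) {Q : I} {h : H} (hh : h ∈ F.sub Q) : h ∈ Pp hπ Q :=
  ⟨h, hh, 0, by simp [F.row_zero]⟩

theorem sub_mem_Pm (hπ : Rep F fr π) {Q : I} {h : H} (hh : h ∈ F.sub Q) : h ∈ Pm hπ Q :=
  ⟨h, hh, 0, by simp [F.col_zero]⟩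

theorem row_mem_Pp (hπ : Rep F fr π) (Q : I) (ρ : R) : F.row fr Q ρ ∈ Pp hπ Q :=
  ⟨1, Subgroup.one_mem _, ρ, by simp⟩

theorem col_mem_Pm (hπ : Rep F fr π) (Q : I) (ρ : R) : F.col fr Q ρ ∈ Pm hπ Q :=
  ⟨1, Subgroup.one_mem _, ρ, by simp⟩

theorem x_mem_Pp (hπ : Rep F fr π) {Q i j : I} (h : i ≠ j) (hj : j ≠ Q) (a : R) :
    F.x i j a ∈ Pp hπ Q := by
  by_cases hi : i = Q
  · subst hi
    rw [← F.row_c fr hj]
    exact row_mem_Pp hπ _ _
  · exact sub_mem_Pp hπ (F.x_mem_sub h hi hj a)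

theorem x_mem_Pm (hπ : Rep F fr π) {Q i j : I} (h : i ≠ j) (hi : i ≠ Q) (a : R) :
    F.x i j a ∈ Pm hπ Q := by
  by_cases hj : j = Q
  · subst hj
    rw [← F.col_b fr hi]
    exact col_mem_Pm hπ _ _
  · exact sub_mem_Pm hπ (F.x_mem_sub h hi hj a)

theorem col_mem_Pp (hπ : Rep F fr π) {Q Q' : I} (h : Q' ≠ Q) (w : R) :
    F.col fr Q' w ∈ Pp hπ Q :=
  F.col_mem fr _ _ _ fun _ hi => x_mem_Pp hπ hi h _

theorem rep_col' (hπ : Rep F fr π) {l : I} {v : R} (hv : fr.c l * v = 0) :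
    ((π (F.col fr l v) : Rˣ) : R) = 1 + v * fr.c l := by
  rw [rep_col hπ, sub_mul, mul_assoc (fr.b l), hv]
  simp

theorem rep_row' (hπ : Rep F fr π) {l : I} {w : R} (hw : w * fr.b l = 0) :
    ((π (F.row fr l w) : Rˣ) : R) = 1 + fr.b l * w := by
  rw [rep_row hπ, mul_assoc (fr.b l), mul_sub, ← mul_assoc w, hw]
  simp

/-- Fact (1). -/
theorem conj_row_mem (hπ : Rep F fr π) {Q Q' : I} (h : Q ≠ Q') {v ρ : R}
    (hv : fr.c Q * v = 0) (hv' : fr.c Q' * v = 0) (hρ : ρ * v = 0) :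
    (F.col fr Q v)⁻¹ * F.row fr Q ρ * F.col fr Q v ∈ Pp hπ Q := by
  set C := F.col fr Q v with hC
  have hCm : C ∈ F.sub Q' := col_mem_sub h hv'
  have hX : ∀ r, C⁻¹ * F.row fr Q (r * fr.c Q') * C ∈ Pp hπ Q := by
    intro r
    rw [F.row_c fr h.symm, ← F.col_b fr h]
    have := col_conj hπ ((F.sub Q').inv_mem hCm) (fr.b Q * r)
    rw [inv_inv] at this
    rw [this]
    exact col_mem_Pp hπ h.symm _
  set ρ₁ := ρ - ρ * fr.b Q * fr.c Q - ρ * fr.b Q' * fr.c Q' with hρ₁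
  have e1 : ρ₁ * fr.b Q = 0 := by
    rw [hρ₁, sub_mul, sub_mul, mul_assoc _ (fr.c Q), mul_assoc _ (fr.c Q'), fr.cb_self,
      fr.cb_ne h.symm]
    simp
  have e2 : ρ₁ * fr.b Q' = 0 := by
    rw [hρ₁, sub_mul, sub_mul, mul_assoc _ (fr.c Q), mul_assoc _ (fr.c Q'), fr.cb_self,
      fr.cb_ne h]
    simp
  have e3 : ρ₁ * v = 0 := by
    rw [hρ₁, sub_mul, sub_mul, mul_assoc _ (fr.c Q), mul_assoc _ (fr.c Q'), hv, hv', hρ]
    simp
  have hg : F.row fr Q' ρ₁ ∈ F.sub Q := row_mem_sub h.symm e1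
  have hgC : C⁻¹ * F.row fr Q' ρ₁ * C = F.row fr Q' ρ₁ := by
    rw [row_conj hπ hCm, hC, rep_col' hπ hv, mul_add, ← mul_assoc, e3]
    simp
  have key : F.row fr Q ρ₁ = (F.row fr Q' ρ₁)⁻¹ * F.row fr Q (1 * fr.c Q') * F.row fr Q' ρ₁ *
      (F.row fr Q (1 * fr.c Q'))⁻¹ := by
    rw [row_conj hπ hg, rep_row' hπ e2, ← F.row_neg, ← F.row_add, one_mul, mul_add, ← mul_assoc,
      fr.cb_self]
    congr 1
    noncomm_ring
  have split : F.row fr Q ρ = F.row fr Q (ρ * fr.b Q' * fr.c Q') * F.row fr Q ρ₁ := by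
    rw [← mul_one (F.row fr Q ρ₁), ← F.row_c_self fr Q (ρ * fr.b Q), ← F.row_add, ← F.row_add]
    congr 1
    rw [hρ₁]
    abel
  have : C⁻¹ * F.row fr Q ρ * C = (C⁻¹ * F.row fr Q (ρ * fr.b Q' * fr.c Q') * C) *
      ((C⁻¹ * F.row fr Q' ρ₁ * C)⁻¹ * (C⁻¹ * F.row fr Q (1 * fr.c Q') * C) *
        (C⁻¹ * F.row fr Q' ρ₁ * C) * (C⁻¹ * F.row fr Q (1 * fr.c Q') * C)⁻¹) := by
    rw [split, key]
    group
  rw [this, hgC]
  have h1 := sub_mem_Pp hπ hg
  exact Subgroup.mul_mem _ (hX _) (Subgroup.mul_mem _ (Subgroup.mul_mem _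
    (Subgroup.mul_mem _ (Subgroup.inv_mem _ h1) (hX _)) h1) (Subgroup.inv_mem _ (hX _)))

variable (F fr) in
/-- The element moving `b Q` to `v`. -/
noncomputable def U (Q : I) (v μ : R) : H := F.row fr Q (-μ) * F.col fr Q v

theorem U_change (hπ : Rep F fr π) {Q Q' : I} (h : Q ≠ Q') {v μ μ' ρ : R}
    (hv : fr.c Q * v = 0) (hv' : fr.c Q' * v = 0) (hμ : μ * v = 1) (hμ' : μ' * v = 1)
    (hρ : ρ * v = 0) : (F.U fr Q v μ')⁻¹ * F.row fr Q ρ * F.U fr Q v μ ∈ Pp hπ Q := by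
  have := conj_row_mem hπ h hv hv' (ρ := μ' + ρ + -μ)
    (by rw [add_mul, add_mul, neg_mul, hμ, hμ', hρ]; simp)
  convert this using 1
  rw [F.row_add, F.row_add, U, U, F.row_neg fr Q μ']
  group

theorem U_change' (hπ : Rep F fr π) {Q Q' : I} (h : Q ≠ Q') {v μ μ' : R}
    (hv : fr.c Q * v = 0) (hv' : fr.c Q' * v = 0) (hμ : μ * v = 1) (hμ' : μ' * v = 1) :
    (F.U fr Q v μ')⁻¹ * F.U fr Q v μ ∈ Pp hπ Q := by
  have := U_change hπ h hv hv' hμ hμ' (zero_mul v)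
  rwa [F.row_zero, mul_one] at this

/-- Fact (2), normalised form. -/
theorem U_col_aux (hπ : Rep F fr π) {Q Q' : I} (h : Q ≠ Q') {v μ : R}
    (hv : fr.c Q * v = 0) (hv' : fr.c Q' * v = 0) (hμ : μ * v = 1) (h1 : μ * fr.b Q = 0)
    (h2 : μ * fr.b Q' = 0) (w : R) :
    (F.U fr Q v μ)⁻¹ * F.col fr Q w * F.U fr Q v μ ∈ Pp hπ Q := by
  set V := F.U fr Q v μ with hV
  have hVm : V ∈ F.sub Q' :=
    Subgroup.mul_mem _ (row_mem_sub h (by rw [neg_mul, h2, neg_zero])) (col_mem_sub h hv')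
  have hcV : fr.c Q * (π V : Rˣ) = -μ := by
    rw [hV, U, map_mul, Units.val_mul, rep_row' hπ (by rw [neg_mul, h1, neg_zero]),
      rep_col' hπ hv]
    have : fr.c Q * ((1 + fr.b Q * -μ) * (1 + v * fr.c Q)) = fr.c Q - (fr.c Q * fr.b Q) * μ
        + (fr.c Q * v) * fr.c Q - (fr.c Q * fr.b Q) * (μ * v) * fr.c Q := by noncomm_ring
    rw [this, fr.cb_self, hv, hμ]
    noncomm_ring
  have hX : ∀ r, V⁻¹ * F.col fr Q (fr.b Q' * r) * V ∈ Pp hπ Q := by
    intro r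
    rw [F.col_b fr h.symm, ← F.row_c fr h, row_conj hπ hVm, mul_assoc, hcV]
    exact sub_mem_Pp hπ (row_mem_sub h.symm (by rw [mul_assoc, neg_mul, h1]; simp))
  set w₁ := w - fr.b Q * (fr.c Q * w) - fr.b Q' * (fr.c Q' * w) with hw₁
  have e1 : fr.c Q * w₁ = 0 := by
    rw [hw₁, mul_sub, mul_sub, ← mul_assoc _ (fr.b Q), ← mul_assoc _ (fr.b Q'), fr.cb_self,
      fr.cb_ne h]
    simp
  have e2 : fr.c Q' * w₁ = 0 := by
    rw [hw₁, mul_sub, mul_sub, ← mul_assoc _ (fr.b Q), ← mul_assoc _ (fr.b Q'), fr.cb_self,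
      fr.cb_ne h.symm]
    simp
  have hg : F.col fr Q' w₁ ∈ F.sub Q := col_mem_sub h.symm e1
  have hgV : V⁻¹ * F.col fr Q' w₁ * V ∈ Pp hπ Q := by
    have := col_conj hπ ((F.sub Q').inv_mem hVm) w₁
    rw [inv_inv] at this
    rw [this]
    exact col_mem_Pp hπ h.symm _
  have key : F.col fr Q w₁ = F.col fr Q' w₁ * F.col fr Q (fr.b Q' * 1) * (F.col fr Q' w₁)⁻¹ *
      (F.col fr Q (fr.b Q' * 1))⁻¹ := by
    rw [col_conj hπ hg, rep_col' hπ e2, ← F.col_neg, ← F.col_add, mul_one, add_mul,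
      mul_assoc w₁ (fr.c Q'), fr.cb_self]
    congr 1
    noncomm_ring
  have split : F.col fr Q w = F.col fr Q (fr.b Q' * (fr.c Q' * w)) * F.col fr Q w₁ := by
    rw [← mul_one (F.col fr Q w₁), ← F.col_b_self fr Q (fr.c Q * w), ← F.col_add, ← F.col_add]
    congr 1
    rw [hw₁]
    abel
  have : V⁻¹ * F.col fr Q w * V = (V⁻¹ * F.col fr Q (fr.b Q' * (fr.c Q' * w)) * V) *
      ((V⁻¹ * F.col fr Q' w₁ * V) * (V⁻¹ * F.col fr Q (fr.b Q' * 1) * V) *
        (V⁻¹ * F.col fr Q' w₁ * V)⁻¹ * (V⁻¹ * F.col fr Q (fr.b Q' * 1) * V)⁻¹) := by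
    rw [split, key]
    group
  rw [this]
  exact Subgroup.mul_mem _ (hX _) (Subgroup.mul_mem _ (Subgroup.mul_mem _
    (Subgroup.mul_mem _ hgV (hX _)) (Subgroup.inv_mem _ hgV)) (Subgroup.inv_mem _ (hX _)))

theorem U_col (hπ : Rep F fr π) {Q Q' : I} (h : Q ≠ Q') {v μ μ' : R}
    (hv : fr.c Q * v = 0) (hv' : fr.c Q' * v = 0) (hμ : μ * v = 1) (hμ' : μ' * v = 1) (w : R) :
    (F.U fr Q v μ')⁻¹ * F.col fr Q w * F.U fr Q v μ ∈ Pp hπ Q := by
  set ν := μ - μ * fr.b Q * fr.c Q - μ * fr.b Q' * fr.c Q' with hν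
  have e1 : ν * fr.b Q = 0 := by
    rw [hν, sub_mul, sub_mul, mul_assoc _ (fr.c Q), mul_assoc _ (fr.c Q'), fr.cb_self,
      fr.cb_ne h.symm]
    simp
  have e2 : ν * fr.b Q' = 0 := by
    rw [hν, sub_mul, sub_mul, mul_assoc _ (fr.c Q), mul_assoc _ (fr.c Q'), fr.cb_self,
      fr.cb_ne h]
    simp
  have e3 : ν * v = 1 := by
    rw [hν, sub_mul, sub_mul, mul_assoc _ (fr.c Q), mul_assoc _ (fr.c Q'), hv, hv', hμ]
    simp
  have := Subgroup.mul_mem _ (Subgroup.mul_mem _ (U_change' hπ h hv hv' e3 hμ')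
    (U_col_aux hπ h hv hv' e3 e1 e2 w)) (U_change' hπ h hv hv' hμ e3)
  convert this using 1
  group

theorem U_sub (hπ : Rep F fr π) {Q Q' : I} (h : Q ≠ Q') {v μ μ' : R} {g : H} (hg : g ∈ F.sub Q)
    (hv : fr.c Q * ((π g : Rˣ) * v) = 0) (hv' : fr.c Q' * ((π g : Rˣ) * v) = 0) (hμ : μ * v = 1)
    (hμ' : μ' * ((π g : Rˣ) * v) = 1) :
    (F.U fr Q ((π g : Rˣ) * v) μ')⁻¹ * g * F.U fr Q v μ ∈ Pp hπ Q := by
  have e : g * F.U fr Q v μ = F.U fr Q ((π g : Rˣ) * v) (μ * ((π g)⁻¹ : Rˣ)) * g := by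
    rw [U, U, ← neg_mul, ← row_conj' hπ hg, ← col_conj hπ hg]
    group
  rw [mul_assoc, e, ← mul_assoc]
  refine Subgroup.mul_mem _ (U_change' hπ h hv hv' ?_ hμ') (sub_mem_Pp hπ hg)
  rw [mul_assoc, ← mul_assoc _ _ v, Units.inv_mul, one_mul, hμ]

theorem U_step (hπ : Rep F fr π) {Q Q' : I} (h : Q ≠ Q') {v μ μ' : R} {g : H}
    (hg : g ∈ Pp hπ Q ∨ g ∈ Pm hπ Q) (h1 : fr.c Q * v = 0) (h2 : fr.c Q' * v = 0)
    (hv : fr.c Q * ((π g : Rˣ) * v) = 0) (hv' : fr.c Q' * ((π g : Rˣ) * v) = 0) (hμ : μ * v = 1)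
    (hμ' : μ' * ((π g : Rˣ) * v) = 1) :
    (F.U fr Q ((π g : Rˣ) * v) μ')⁻¹ * g * F.U fr Q v μ ∈ Pp hπ Q := by
  rcases hg with ⟨k, hk, ρ, rfl⟩ | ⟨k, hk, w, rfl⟩
  · have e0 : ((π (F.row fr Q ρ) : Rˣ) : R) * v = v + fr.b Q * (ρ * v) := by
      rw [rep_row hπ, add_mul, mul_assoc, sub_mul, mul_assoc (fr.b Q) (fr.c Q), h1]
      noncomm_ring
    have hρ : ρ * v = 0 := by
      rw [map_mul, Units.val_mul, mul_assoc, ← mul_assoc, c_mul_sub hπ hk, e0, mul_add, h1,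
        ← mul_assoc, fr.cb_self] at hv
      simpa using hv
    have e : ((π (k * F.row fr Q ρ) : Rˣ) : R) * v = (π k : Rˣ) * v := by
      rw [map_mul, Units.val_mul, mul_assoc, e0, hρ]
      simp
    rw [e] at hv hv' hμ' ⊢
    have := Subgroup.mul_mem _ (U_sub hπ h hk hv hv' hμ hμ') (U_change hπ h h1 h2 hμ hμ hρ)
    convert this using 1
    group
  · have e : ((π (k * F.col fr Q w) : Rˣ) : R) * v = (π k : Rˣ) * v := by
      rw [map_mul, Units.val_mul, mul_assoc, rep_col hπ, add_mul, mul_assoc _ (fr.c Q), h1]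
      simp
    rw [e] at hv hv' hμ' ⊢
    have := Subgroup.mul_mem _ (U_sub hπ h hk hv hv' hμ hμ') (U_col hπ h h1 h2 hμ hμ w)
    convert this using 1
    group

theorem U_list (hπ : Rep F fr π) {Q Q' : I} (h : Q ≠ Q') {v μ : R} (hμ : μ * v = 1) (L : List H)
    (hL : ∀ g ∈ L, g ∈ Pp hπ Q ∨ g ∈ Pm hπ Q)
    (hv : ∀ L' ∈ L.tails, fr.c Q * ((π L'.prod : Rˣ) * v) = 0 ∧
      fr.c Q' * ((π L'.prod : Rˣ) * v) = 0) :
    ∀ μ', μ' * ((π L.prod : Rˣ) * v) = 1 →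
      (F.U fr Q ((π L.prod : Rˣ) * v) μ')⁻¹ * L.prod * F.U fr Q v μ ∈ Pp hπ Q := by
  induction L with
  | nil =>
    intro μ' hμ'
    have := hv [] (by simp)
    simp only [List.prod_nil, map_one, Units.val_one, one_mul, mul_one] at *
    exact U_change' hπ h this.1 this.2 hμ hμ'
  | cons g L ih =>
    intro μ' hμ'
    have hν : (μ * ((π L.prod)⁻¹ : Rˣ)) * ((π L.prod : Rˣ) * v) = 1 := by
      rw [mul_assoc, ← mul_assoc _ _ v, Units.inv_mul, one_mul, hμ]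
    have ih' := ih (fun g hg => hL g (List.mem_cons_of_mem _ hg))
      (fun L' hL' => hv L' (by rw [List.tails_cons]; exact List.mem_cons_of_mem _ hL')) _ hν
    have a1 := hv L (by rw [List.tails_cons]; exact List.mem_cons_of_mem _ (by simp))
    have a2 := hv (g :: L) (by simp)
    rw [List.prod_cons, map_mul, Units.val_mul, mul_assoc _ _ v] at a2 hμ' ⊢
    have := Subgroup.mul_mem _ (U_step hπ h (hL g (by simp)) a1.1 a1.2 a2.1 a2.2 hν hμ') ih'
    convert this using 1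
    group

theorem exists_list {g : H} (hg : g ∈ F.gen) :
    ∃ L : List H, (∀ k ∈ L, ∃ i j a, i ≠ j ∧ k = F.x i j a) ∧ L.prod = g := by
  induction hg using Subgroup.closure_induction_left with
  | one => exact ⟨[], by simp, rfl⟩
  | mul_left x hx y _ ih =>
    obtain ⟨L, h1, h2⟩ := ih
    refine ⟨x :: L, ?_, by rw [List.prod_cons, h2]⟩
    intro k hk
    rcases List.mem_cons.mp hk with rfl | hk
    · exact hx
    · exact h1 k hk
  | inv_mul_cancel x hx y _ ih =>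
    obtain ⟨L, h1, h2⟩ := ih
    refine ⟨x⁻¹ :: L, ?_, by rw [List.prod_cons, h2]⟩
    intro k hk
    rcases List.mem_cons.mp hk with rfl | hk
    · obtain ⟨i, j, a, hij, rfl⟩ := hx
      exact ⟨i, j, -a, hij, (F.x_neg hij a).symm⟩
    · exact h1 k hk

end SFam

variable {R : Type} [Ring R] {I : Type} [Fintype I] [DecidableEq I] {H : Type} [Group H]

theorem Pp_ker (N : NiceRing R) {F : SFam R I H} {fr : Frame R I} {π : H →* Rˣ}
    (hπ : Rep F fr π) (hgen : F.gen = ⊤) (h4 : Four I) {Q : I} {g : H} (hg : g ∈ SFam.Pp hπ Q)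
    (h1 : π g = 1) : g = 1 := by
  obtain ⟨h, hh, ρ, rfl⟩ := hg
  have e : fr.c Q * (π (h * F.row fr Q ρ) : Rˣ) = fr.c Q + ρ * (1 - fr.b Q * fr.c Q) := by
    rw [map_mul, Units.val_mul, ← mul_assoc, SFam.c_mul_sub hπ hh, SFam.rep_row hπ, mul_add,
      ← mul_assoc, ← mul_assoc, fr.cb_self]
    simp
  rw [h1, Units.val_one, mul_one, left_eq_add, mul_sub, mul_one, sub_eq_zero, ← mul_assoc] at e
  have e2 : F.row fr Q ρ = 1 := by rw [e, F.row_c_self]
  rw [e2, mul_one] at h1 ⊢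
  exact swindle N F fr π hπ hgen h4 Q hh h1

theorem refine_exists' (F : SFam R I H) (fr : Frame R I) (π : H →* Rˣ) (hπ : Rep F fr π)
    (h3 : Three I) (i0 : I) (P : LPair R) :
    ∃ F' : SFam R (Option I) H, Rep F' (fr.refine i0 P) π ∧
      ∀ (S : Subgroup H) (i j : I), i ≠ j →
        (∀ o o' : Option I, o ≠ o' → o.getD i0 = i → o'.getD i0 = j → ∀ a, F'.x o o' a ∈ S) →
        ∀ a, F.x i j a ∈ S := by
  obtain ⟨F', h0, h1, h2, h3⟩ := refine_exists F fr π hπ h3 i0 P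
  refine ⟨F', h0, fun S i j hij hS a => ?_⟩
  by_cases hi : i = i0
  · subst hi
    rw [h2 j hij.symm]
    exact S.mul_mem (hS _ _ (by simpa using hij) rfl rfl _) (hS _ _ (by simp) rfl rfl _)
  · by_cases hj : j = i0
    · subst hj
      rw [h3 i hij]
      exact S.mul_mem (hS _ _ (by simpa using hij) rfl rfl _) (hS _ _ (by simp) rfl rfl _)
    · rw [h1 i j hij hi hj]
      exact hS _ _ (by simpa using hij) rfl rfl _

omit [Fintype I] [DecidableEq I] in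
theorem Three.option (h3 : Three I) [Nonempty I] : Four (Option I) := by
  intro a b c
  by_cases h : a ≠ none ∧ b ≠ none ∧ c ≠ none
  · exact ⟨none, h.1.symm, h.2.1.symm, h.2.2.symm⟩
  · obtain ⟨i⟩ := ‹Nonempty I›
    have aux : ∀ p q : Option I, ∃ m : I, some m ≠ p ∧ some m ≠ q := by
      intro p q
      obtain ⟨m, h1, h2⟩ := h3 (p.getD i) (q.getD i)
      exact ⟨m, fun e => h1 (by rw [← e]; rfl), fun e => h2 (by rw [← e]; rfl)⟩
    by_cases ha : a = none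
    · obtain ⟨m, h1, h2⟩ := aux b c
      exact ⟨some m, by simp [ha], h1, h2⟩
    · by_cases hb : b = none
      · obtain ⟨m, h1, h2⟩ := aux a c
        exact ⟨some m, h1, by simp [hb], h2⟩
      · have hc : c = none := by
          by_contra hc
          exact h ⟨ha, hb, hc⟩
        obtain ⟨m, h1, h2⟩ := aux a b
        exact ⟨some m, h1, h2, by simp [hc]⟩

omit [Fintype I] [DecidableEq I] in
theorem Four.three (h4 : Four I) : Three I := fun i j =>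
  let ⟨m, h1, h2, _⟩ := h4 i j j
  ⟨m, h1, h2⟩

theorem fam_injective (N : NiceRing R) (F : SFam R I H) (fr : Frame R I) (π : H →* Rˣ)
    (hπ : Rep F fr π) (hgen : F.gen = ⊤) (h3 : Three I) [Nonempty I] :
    Function.Injective π := by
  rw [injective_iff_map_eq_one]
  intro k hk
  obtain ⟨L, hL, rfl⟩ := SFam.exists_list (F := F) (g := k) (hgen ▸ Subgroup.mem_top k)
  obtain ⟨i0⟩ := ‹Nonempty I›
  obtain ⟨i1, h10, -⟩ := h3 i0 i0
  obtain ⟨γ, γ', P, hγ, hT⟩ := generic_cone N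
    (L.tails.map (fun L' => fr.c i0 * (π L'.prod : Rˣ)) ++
      L.tails.map (fun L' => fr.c i1 * (π L'.prod : Rˣ)))
  obtain ⟨F1, hπ1, hF1⟩ := refine_exists' F fr π hπ h3 i1 P
  have h31 : Three (Option I) := h3.option.three
  obtain ⟨F2, hπ2, hF2⟩ := refine_exists' F1 _ π hπ1 h31 (some i0) P
  have hgen2 : F2.gen = ⊤ := by
    rw [eq_top_iff, ← hgen, SFam.gen, Subgroup.closure_le]
    rintro _ ⟨i, j, a, hij, rfl⟩
    exact hF1 _ i j hij (fun o o' hoo _ _ a => hF2 _ o o' hoo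
      (fun p p' hpp _ _ a => F2.x_mem_gen hpp a) a) a
  have hQ : (none : Option (Option I)) ≠ some none := by simp
  have main := SFam.U_list hπ2 hQ hγ L ?_ ?_ γ' (by rw [hk]; simpa using hγ)
  · rw [hk, Units.val_one, one_mul] at main
    have := Pp_ker N hπ2 hgen2 h31.option main (by simp [hk])
    rw [mul_assoc, inv_mul_eq_one] at this
    exact right_eq_mul.mp this
  · intro g hg
    obtain ⟨i, j, a, hij, rfl⟩ := hL g hg
    by_cases hj : j = i0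
    · right
      refine hF1 _ i j hij (fun o o' hoo ho _ a => hF2 _ o o' hoo
        (fun p p' hpp hp _ a => SFam.x_mem_Pm hπ2 hpp ?_ a) a) a
      rintro rfl
      subst hp
      exact hij (by rw [← ho, hj]; rfl)
    · left
      refine hF1 _ i j hij (fun o o' hoo _ ho a => hF2 _ o o' hoo
        (fun p p' hpp _ hp a => SFam.x_mem_Pp hπ2 hpp ?_ a) a) a
      rintro rfl
      subst hp
      exact hj (by rw [← ho]; rfl)
  · intro L' hL'
    have a0 := hT _ (List.mem_append_left _ (List.mem_map_of_mem hL'))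
    have a1 := hT _ (List.mem_append_right _ (List.mem_map_of_mem hL'))
    constructor
    · change P.p1' * (if i0 = i1 then P.p0' * fr.c i1 else fr.c i0) * _ = 0
      rw [if_neg h10.symm]
      simpa only [mul_assoc] using a0
    · change (if none = some i0 then P.p0' * (fr.refine i1 P).c (some i0)
        else P.p1' * fr.c i1) * _ = 0
      rw [if_neg (by simp)]
      simpa only [mul_assoc] using a1

end Vale.Agent.P193
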