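import Vale.Agent.P193.RDefs

/-! Abstract machines that read one register and push words, as rule systems. -/

namespace Vale.Agent.P193

universe v

namespace RMachAux

open Turing Turing.PartrecToTM2

/-- Registers. -/
inductive Reg : Type
  | k (x : K') | inp | u | t
  deriving DecidableEq

/-- The work registers. -/
def wregs : List Reg := [.k .main, .k .rev, .k .aux, .k .stack, .inp]

/-- All registers in order. -/
def regs : List Reg := wregs ++ [.u, .t]

theorem mem_regs (r : Reg) : r ∈ regs := by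
  cases r with
  | k x => cases x <;> simp [regs, wregs]
  | _ => simp [regs, wregs]

/-- Letters that the machine reads and writes. -/
abbrev L0 (n : ℕ) : Type := Bas n ⊕ Γ'

/-- An abstract machine: read one register, then push words. -/
structure AM (n : ℕ) where
  Q : Type
  [fQ : Fintype Q]
  start : Q
  one : Q
  zero : Q
  rd : Q → Reg
  δ : Q → Option (L0 n) → Option (Q × (Reg → List (L0 n)))

/-- Embedding of the letters. -/
def emb {n : ℕ} {σ : Sig} (e : Γ' → σ.W) : L0 n → Al n σ
  | .inl b => .bas b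
  | .inr g => .wk (e g)

/-- Register patterns. -/
def pat {Λ : Type} (o : Option Λ) : SP Λ := (o.toList, o.isSome)

/-- Reading the top of a term. -/
def Rd {G : Type v} {Λ : Type} : Option Λ → Tm G Λ → Tm G Λ → Prop
  | some a, t, t' => t = Tm.psh a t'
  | none, t, t' => t = Tm.atom 0 ∧ t' = Tm.atom 0

section
variable {G : Type v} {Λ : Type}

theorem isZ_iff {t : Tm G Λ} : t.isZ = true ↔ t = Tm.atom 0 := by
  cases t with
  | atom k => cases k <;> simp [Tm.isZ]
  | _ => simp [Tm.isZ]

theorem er_pushW (w : List Λ) (t : Tm G Λ) : (Tm.pushW w t).Er ↔ t.Er := by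
  induction w with
  | nil => rfl
  | cons a w ih => exact ih

theorem pushW_append (w w' : List Λ) (t : Tm G Λ) :
    Tm.pushW (w ++ w') t = Tm.pushW w (Tm.pushW w' t) := by
  induction w with
  | nil => rfl
  | cons a w ih => simp [Tm.pushW, ih]

theorem Rd.er {o : Option Λ} {t t' : Tm G Λ} (h : Rd o t t') (ht : t.Er) : t'.Er := by
  cases o with
  | none => rw [h.2]; trivial
  | some a => rw [show t = Tm.psh a t' from h] at ht; exact ht

theorem Rd.unique {o o' : Option Λ} {t t' t'' : Tm G Λ} (h : Rd o t t') (h' : Rd o' t t'') :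
    o = o' ∧ t' = t'' := by
  cases o with
  | none =>
    cases o' with
    | none => exact ⟨rfl, h.2.trans h'.2.symm⟩
    | some a => have := h.1.symm.trans (show t = Tm.psh a t'' from h'); cases this
  | some b =>
    cases o' with
    | none => have := h'.1.symm.trans (show t = Tm.psh b t' from h); cases this
    | some a =>
      have := (show t = Tm.psh b t' from h).symm.trans (show t = Tm.psh a t'' from h')
      cases this
      exact ⟨rfl, rfl⟩

theorem rd_list (l : List Λ) :
    Rd l.head? (Tm.pushW l (Tm.atom 0) : Tm G Λ) (Tm.pushW l.tail (Tm.atom 0)) := by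
  cases l with
  | nil => exact ⟨rfl, rfl⟩
  | cons a l => rfl

variable [DecidableEq Λ]

theorem regStep_pat (o : Option Λ) (p : List Λ) (b : Bool) (t s : Tm G Λ) :
    Tm.regStep (pat o) (p, b) t = some s ↔ ∃ t', Rd o t t' ∧ s = Tm.pushW p t' := by
  cases o with
  | none =>
    have e : Tm.regStep (pat none) (p, b) t
        = if false = true ∨ t.isZ = true then some (Tm.pushW p t) else none := rfl
    rw [e]
    constructor
    · intro h
      by_cases h1 : t.isZ = true
      · rw [if_pos (Or.inr h1)] at h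
        rw [isZ_iff] at h1
        subst h1
        exact ⟨_, ⟨rfl, rfl⟩, (Option.some.inj h).symm⟩
      · rw [if_neg (by simp [h1])] at h
        cases h
    · rintro ⟨t', ⟨rfl, rfl⟩, rfl⟩
      exact if_pos (Or.inr rfl)
  | some a =>
    cases t with
    | psh b t =>
      by_cases hab : a = b
      · subst hab
        simp only [Tm.regStep, pat, Tm.strip, Rd, Option.toList_some, if_true,
          Option.isSome_some, true_or, Option.some.injEq, Tm.psh.injEq, true_and, exists_eq_left']
        exact eq_comm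
      · simp [Tm.regStep, pat, Tm.strip, Rd, hab, Ne.symm hab]
    | _ => simp [Tm.regStep, pat, Tm.strip, Rd]

theorem regStep_free (p : List Λ) (b : Bool) (t : Tm G Λ) :
    Tm.regStep ([], true) (p, b) t = some (Tm.pushW p t) := by
  simp [Tm.regStep, Tm.strip]

theorem stepS_map {ρ : Type} (A B : ρ → SP Λ) (f : ρ → Tm G Λ) (l : List ρ) :
    ∀ T' : List (Tm G Λ), Tm.stepS (l.map A) (l.map B) (l.map f) = some T' ↔
      (∀ r ∈ l, (Tm.regStep (A r) (B r) (f r)).isSome = true) ∧
        T' = l.map (fun r => (Tm.regStep (A r) (B r) (f r)).getD (f r)) := by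
  induction l with
  | nil =>
    intro T'
    simp only [List.map_nil, Tm.stepS, Option.some.injEq, List.not_mem_nil, false_imp_iff,
      implies_true, true_and]
    exact eq_comm
  | cons r l ih =>
    intro T'
    simp only [List.map_cons, Tm.stepS, List.mem_cons, forall_eq_or_imp]
    cases h1 : Tm.regStep (A r) (B r) (f r) with
    | none => simp
    | some t' =>
      cases h2 : Tm.stepS (l.map A) (l.map B) (l.map f) with
      | none =>
        simp only [reduceCtorEq, Option.isSome_some, true_and, false_iff, not_and]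
        intro h3 _
        have := (ih _).2 ⟨h3, rfl⟩
        rw [h2] at this
        cases this
      | some T'' =>
        obtain ⟨h3, h4⟩ := (ih T'').1 h2
        simp only [Option.some.injEq, Option.isSome_some, true_and, Option.getD_some]
        rw [← h4]
        exact ⟨fun h => ⟨h3, h.symm⟩, fun h => h.2.symm⟩

omit [DecidableEq Λ] in
theorem clashL_map {ρ : Type} (A B : ρ → SP Λ) (l : List ρ) (r : ρ) (hr : r ∈ l)
    (h : Clash (A r).1 (A r).2 (B r).1 (B r).2) : ClashL (l.map A) (l.map B) := by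
  induction l with
  | nil => simp at hr
  | cons x l ih =>
    rcases List.mem_cons.1 hr with rfl | hr
    · exact Or.inl h
    · exact Or.inr (ih hr)

omit [DecidableEq Λ] in
theorem clash_pat {o o' : Option Λ} (h : o ≠ o') :
    Clash (pat o).1 (pat o).2 (pat o').1 (pat o').2 := by
  cases o <;> cases o' <;> simp_all [pat, Clash]

end

namespace AM

variable {n : ℕ} (M : AM n)

attribute [local instance] AM.fQ

/-- The finite types of the rule system of an abstract machine. -/
noncomputable abbrev sig : Sig where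
  Q := M.Q
  Rl := {p : M.Q × Option (L0 n) // (M.δ p.1 p.2).isSome = true}
  W := Γ'
  dQ := Classical.decEq _
  dR := Classical.decEq _

/-- Embedding of the letters. -/
noncomputable def e : L0 n → Al n M.sig := emb (σ := M.sig) id

theorem e_inj : Function.Injective M.e := by
  intro a b h
  cases a <;> cases b <;> simp only [e, emb] at h <;> cases h <;> rfl

/-- Left patterns. -/
noncomputable def A (q : M.Q) (o : Option (L0 n)) (r : Reg) : SP (Al n M.sig) :=
  if r = M.rd q then pat (o.map M.e) else ([], true)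

/-- The rule system of an abstract machine. -/
noncomputable abbrev sys : Sys n where
  toSig := M.sig
  K := 5
  start := M.start
  one := M.one
  zero := M.zero
  src ρ := ρ.1.1
  tgt ρ := ((M.δ ρ.1.1 ρ.1.2).get ρ.2).1
  L ρ := regs.map (M.A ρ.1.1 ρ.1.2)
  L' ρ := regs.map (fun r => ((((M.δ ρ.1.1 ρ.1.2).get ρ.2).2 r).map M.e, (M.A ρ.1.1 ρ.1.2 r).2))

theorem wf (h : M.one ≠ M.zero) : M.sys.WF where
  len _ := by simp [sys, regs, wregs]
  len' _ := by simp [sys, regs, wregs]
  bot _ := by simp [sys]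
  det := by
    rintro ⟨⟨q, o⟩, h1⟩ ⟨⟨q', o'⟩, h2⟩ hne hq
    have hq' : q = q' := hq
    subst hq'
    have ho : o ≠ o' := fun h => hne (by subst h; rfl)
    refine clashL_map _ _ regs (M.rd q) (mem_regs _) ?_
    simp only [A, if_true]
    exact clash_pat fun h => ho (Option.map_injective M.e_inj h)
  one_ne := h

/-- The rule of a transition. -/
def rule (q : M.Q) (o : Option (L0 n)) {x : M.Q × (Reg → List (L0 n))} (h : M.δ q o = some x) :
    M.sig.Rl := ⟨(q, o), by rw [h]; rfl⟩

variable {G : Type v}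

theorem step_iff (q q' : M.Q) (h : Tm G (Al n M.sig)) (f : Reg → Tm G (Al n M.sig))
    (T' : List (Tm G (Al n M.sig))) :
    M.sys.Step (q, h :: regs.map f) (q', T') ↔
      ∃ (o : Option (L0 n)) (t' : Tm G (Al n M.sig)) (p : Reg → List (L0 n))
        (hδ : M.δ q o = some (q', p)), Rd (o.map M.e) (f (M.rd q)) t' ∧
        T' = Tm.psh (Al.log (σ := M.sig) (M.rule q o hδ)) h ::
          regs.map (fun r => Tm.pushW ((p r).map M.e) (if r = M.rd q then t' else f r)) := by
  have key : ∀ (o : Option (L0 n)) (p : Reg → List (L0 n)) (t' : Tm G (Al n M.sig)),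
      Rd (o.map M.e) (f (M.rd q)) t' → ∀ r,
      Tm.regStep (M.A q o r) ((p r).map M.e, (M.A q o r).2) (f r)
        = some (Tm.pushW ((p r).map M.e) (if r = M.rd q then t' else f r)) := by
    intro o p t' ht r
    by_cases hr : r = M.rd q
    · subst hr
      simp only [A, if_true]
      exact (regStep_pat _ _ _ _ _).2 ⟨t', ht, rfl⟩
    · simp only [A, if_neg hr]
      exact regStep_free _ _ _
  constructor
  · rintro ⟨⟨⟨q0, o⟩, hρ⟩, h1, h2, h3⟩
    have h1' : q0 = q := h1
    subst h1'
    obtain ⟨⟨q1, p⟩, hδ⟩ := Option.isSome_iff_exists.1 hρ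
    have hget : (M.δ q0 o).get hρ = (q1, p) := Option.get_of_eq_some _ hδ
    have h2' : ((M.δ q0 o).get hρ).1 = q' := h2
    rw [hget] at h2'
    subst h2'
    have h3' : Tm.stepS (([], true) :: regs.map (M.A q0 o))
        (([Al.log ⟨(q0, o), hρ⟩], true) :: regs.map
          (fun r => ((((M.δ q0 o).get hρ).2 r).map M.e, (M.A q0 o r).2)))
        (h :: regs.map f) = some T' := h3
    rw [hget, Tm.stepS, regStep_free] at h3'
    cases h4 : Tm.stepS (regs.map (M.A q0 o))
        (regs.map (fun r => ((p r).map M.e, (M.A q0 o r).2))) (regs.map f) with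
    | none => rw [h4] at h3'; cases h3'
    | some T'' =>
      rw [h4] at h3'
      obtain ⟨h5, h6⟩ := (stepS_map _ _ _ _ _).1 h4
      obtain ⟨s, hs⟩ := Option.isSome_iff_exists.1 (h5 (M.rd q0) (mem_regs _))
      simp only [A, if_true] at hs
      obtain ⟨t', ht', -⟩ := (regStep_pat _ _ _ _ _).1 hs
      refine ⟨o, t', p, hδ, ht', ?_⟩
      rw [← Option.some.inj h3', h6]
      simp only [key o p t' ht', Option.getD_some]
      rfl
  · rintro ⟨o, t', p, hδ, ht', rfl⟩
    have hρ : (M.δ q o).isSome = true := by rw [hδ]; rfl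
    have hget : (M.δ q o).get hρ = (q', p) := Option.get_of_eq_some _ hδ
    refine ⟨⟨(q, o), hρ⟩, rfl, congrArg Prod.fst hget, ?_⟩
    change Tm.stepS (([], true) :: regs.map (M.A q o))
        (([Al.log ⟨(q, o), hρ⟩], true) :: regs.map
          (fun r => ((((M.δ q o).get hρ).2 r).map M.e, (M.A q o r).2)))
        (h :: regs.map f) = _
    rw [hget, Tm.stepS, regStep_free, (stepS_map _ _ _ _ _).2 ⟨fun r _ => by
      rw [key o p t' ht']; rfl, rfl⟩]
    simp only [key o p t' ht', Option.getD_some]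
    rfl

/-- Configurations with the right number of registers. -/
def Shape (c : M.Q × List (Tm G (Al n M.sig))) : Prop :=
  ∃ (h : Tm G (Al n M.sig)) (f : Reg → Tm G (Al n M.sig)), c.2 = h :: regs.map f

theorem Shape.step {c c' : M.Q × List (Tm G (Al n M.sig))} (hc : M.Shape c) (h : M.sys.Step c c') :
    M.Shape c' := by
  obtain ⟨q, T⟩ := c
  obtain ⟨q', T'⟩ := c'
  obtain ⟨h0, f, rfl⟩ := hc
  obtain ⟨o, t', p, hδ, -, rfl⟩ := (M.step_iff q q' h0 f T').1 h
  exact ⟨_, _, rfl⟩

theorem step_unique {c c' c'' : M.Q × List (Tm G (Al n M.sig))} (hc : M.Shape c)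
    (h : M.sys.Step c c') (h' : M.sys.Step c c'') : c' = c'' := by
  obtain ⟨q, T⟩ := c
  obtain ⟨q', T'⟩ := c'
  obtain ⟨q'', T''⟩ := c''
  obtain ⟨h0, f, rfl⟩ := hc
  obtain ⟨o, t', p, hδ, h1, rfl⟩ := (M.step_iff q q' h0 f T').1 h
  obtain ⟨o', t'', p', hδ', h1', rfl⟩ := (M.step_iff q q'' h0 f T'').1 h'
  obtain ⟨h2, rfl⟩ := h1.unique h1'
  obtain rfl := Option.map_injective M.e_inj h2
  have := hδ.symm.trans hδ'
  cases this
  rfl

theorem no_step {c c' : M.Q × List (Tm G (Al n M.sig))} (hq : ∀ o, M.δ c.1 o = none) :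
    ¬ M.sys.Step c c' := by
  rintro ⟨⟨⟨q0, o⟩, hρ⟩, h1, -, -⟩
  have h1' : q0 = c.1 := h1
  subst h1'
  have h2 : (M.δ c.1 o).isSome = true := hρ
  rw [hq o] at h2
  cases h2

theorem final_unique {c c' c'' : M.Q × List (Tm G (Al n M.sig))} (hc : M.Shape c)
    (h : Relation.ReflTransGen M.sys.Step c c') (h' : Relation.ReflTransGen M.sys.Step c c'')
    (hq : ∀ o, M.δ c'.1 o = none) (hq' : ∀ o, M.δ c''.1 o = none) : c' = c'' := by
  induction h using Relation.ReflTransGen.head_induction_on with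
  | refl =>
    rcases h'.cases_head with h1 | ⟨d, h1, -⟩
    · exact h1
    · exact absurd h1 (M.no_step hq)
  | head h1 h2 ih =>
    rcases h'.cases_head with h3 | ⟨d, h3, h4⟩
    · subst h3
      exact absurd h1 (M.no_step hq')
    · obtain rfl := M.step_unique hc h1 h3
      exact ih (hc.step M h1) h4

/-- Steps on registers that hold words. -/
def LStep (c c' : M.Q × (Reg → List (L0 n))) : Prop :=
  ∃ p, M.δ c.1 (c.2 (M.rd c.1)).head? = some (c'.1, p) ∧
    c'.2 = fun r => p r ++ if r = M.rd c.1 then (c.2 r).tail else c.2 r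

/-- A word as a term. -/
noncomputable def tm (l : List (L0 n)) : Tm G (Al n M.sig) := Tm.pushW (l.map M.e) (Tm.atom 0)

theorem reach_of_lreach {c c' : M.Q × (Reg → List (L0 n))}
    (h : Relation.ReflTransGen M.LStep c c') (h0 : Tm G (Al n M.sig)) :
    ∃ h1 : Tm G (Al n M.sig), Relation.ReflTransGen M.sys.Step
      (c.1, h0 :: regs.map (fun r => M.tm (c.2 r))) (c'.1, h1 :: regs.map (fun r => M.tm (c'.2 r))) := by
  induction h with
  | refl => exact ⟨h0, Relation.ReflTransGen.refl⟩
  | @tail b c'' _ h2 ih =>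
    obtain ⟨h1, ih⟩ := ih
    obtain ⟨p, hδ, hp⟩ := h2
    refine ⟨Tm.psh (Al.log (σ := M.sig) (M.rule _ _ hδ)) h1,
      ih.tail ((M.step_iff b.1 c''.1 h1 _ _).2
      ⟨_, M.tm (b.2 (M.rd b.1)).tail, p, hδ, ?_, ?_⟩)⟩
    · have := rd_list (G := G) ((b.2 (M.rd b.1)).map M.e)
      rwa [List.head?_map, ← List.map_tail] at this
    · congr 1
      refine List.map_congr_left fun r _ => ?_
      rw [hp]
      simp only [tm, List.map_append, pushW_append]
      by_cases hr : r = M.rd b.1
      · subst hr; simp only [if_true]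
      · simp only [if_neg hr]

/-- The registers at the start. -/
def f0 (t : Tm G (Al n M.sig)) : Reg → Tm G (Al n M.sig) := fun r => if r = Reg.t then t else Tm.atom 0

theorem ini_eq (t : Tm G (Al n M.sig)) : M.sys.ini t = (M.start, Tm.atom 0 :: regs.map (M.f0 t)) := rfl

/-- The machine first moves its input to `u` and then leaves `u` and `t` alone. -/
structure Keeps : Prop where
  rd_u : ∀ q, M.rd q ≠ Reg.u
  rd_t : ∀ q, M.rd q = Reg.t ↔ q = M.start
  push_t : ∀ q o q' p, M.δ q o = some (q', p) → p Reg.t = []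
  push_u : ∀ q o q' p, M.δ q o = some (q', p) → q ≠ M.start → p Reg.u = [] ∧ q' ≠ M.start
  scan : ∀ o q' p, M.δ M.start o = some (q', p) →
    (∃ b, o = some (Sum.inl b) ∧ p Reg.u = [Sum.inl b] ∧ q' = M.start) ∨
      (o = none ∧ p Reg.u = [])

theorem map_e_inl (w : List (Bas n)) : (w.map Sum.inl).map M.e = w.map Al.bas := by
  rw [List.map_map]; rfl

theorem inv (hK : M.Keeps) (t : Tm G (Al n M.sig)) (c : M.Q × List (Tm G (Al n M.sig)))
    (hc : M.sys.Reach t c) :
    ∃ (h : Tm G (Al n M.sig)) (f : Reg → Tm G (Al n M.sig)) (w : List (Bas n)), c.2 = h :: regs.map f ∧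
      h.Er ∧ (∀ r, r ≠ Reg.t → (f r).Er) ∧
      f Reg.u = Tm.pushW (w.map Al.bas).reverse (Tm.atom 0) ∧
      t = Tm.pushW (w.map Al.bas) (f Reg.t) ∧ (c.1 ≠ M.start → f Reg.t = Tm.atom 0) := by
  induction hc with
  | refl =>
    refine ⟨Tm.atom 0, M.f0 t, [], rfl, trivial, fun r hr => ?_, rfl, rfl, fun h => absurd rfl h⟩
    simp only [f0, if_neg hr]
    trivial
  | @tail b c' _ h2 ih =>
    obtain ⟨q, T⟩ := b
    obtain ⟨q', T'⟩ := c'
    obtain ⟨h, f, w, rfl, a1, a2, a3, a4, a5⟩ := ih
    obtain ⟨o, t', p, hδ, h1, rfl⟩ := (M.step_iff q q' h f T').1 h2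
    have hEr : ∀ r, r ≠ Reg.t →
        (Tm.pushW ((p r).map M.e) (if r = M.rd q then t' else f r)).Er := by
      intro r hr
      rw [er_pushW]
      split_ifs with h3
      · exact h1.er (h3 ▸ a2 r hr)
      · exact a2 r hr
    have hu : Reg.u ≠ M.rd q := (hK.rd_u q).symm
    have ht := hK.push_t _ _ _ _ hδ
    by_cases hq : q = M.start
    · subst hq
      have hr : M.rd M.start = Reg.t := (hK.rd_t _).2 rfl
      rw [hr] at h1
      rcases hK.scan _ _ _ hδ with ⟨b, rfl, h3, rfl⟩ | ⟨rfl, h3⟩
      · refine ⟨_, _, w ++ [b], rfl, a1, hEr, ?_, ?_, fun h => absurd rfl h⟩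
        · simp only [if_neg hu, h3, a3, List.map_append, List.reverse_append]
          rfl
        · have h4 : f Reg.t = Tm.psh (Al.bas b) t' := h1
          simp only [ht, hr, if_true, List.map_append, pushW_append]
          rw [a4, h4]
          rfl
      · refine ⟨_, _, w, rfl, a1, hEr, ?_, ?_, fun _ => ?_⟩
        · simp only [if_neg hu, h3, a3]
          rfl
        · simp only [ht, hr, if_true]
          rw [a4, h1.1, h1.2]
          rfl
        · simp only [ht, hr, if_true]
          exact h1.2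
    · have hr : Reg.t ≠ M.rd q := fun h => hq ((hK.rd_t _).1 h.symm)
      obtain ⟨h3, -⟩ := hK.push_u _ _ _ _ hδ hq
      refine ⟨_, _, w, rfl, a1, hEr, ?_, ?_, fun _ => ?_⟩
      · simp only [if_neg hu, h3, a3]
        rfl
      · simp only [ht, if_neg hr]
        exact a4
      · simp only [ht, if_neg hr]
        exact a5 hq

theorem ok [Group G] (s : Fin n → G) (hK : M.Keeps) (h10 : M.one ≠ M.zero)
    (h1 : M.one ≠ M.start) (h0 : M.zero ≠ M.start)
    (t1 : ∀ o, M.δ M.one o = none) (t0 : ∀ o, M.δ M.zero o = none)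
    (hrun : ∀ w : List (Bas n), ∃ q F, Relation.ReflTransGen M.LStep
      (M.start, fun r => if r = Reg.t then w.map Sum.inl else []) (q, F) ∧
      (∀ o, M.δ q o = none) ∧ (q = M.one ↔ One s w) ∧ (q = M.zero ↔ Zero s w)) :
    M.sys.OK s := by
  have hrun' : ∀ w : List (Bas n), ∃ q, ∃ T : List (Tm G (Al n M.sig)),
      M.sys.Reach (M.sys.listTm w) (q, T) ∧
      (∀ o, M.δ q o = none) ∧ (q = M.one ↔ One s w) ∧ (q = M.zero ↔ Zero s w) := by
    intro w
    obtain ⟨q, F, a1, a2⟩ := hrun w
    obtain ⟨h, a3⟩ := M.reach_of_lreach (G := G) a1 (Tm.atom 0)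
    refine ⟨q, h :: regs.map (fun r => M.tm (F r)), ?_, a2⟩
    unfold Sys.Reach
    rw [ini_eq]
    have e : M.f0 (G := G) (M.sys.listTm w)
        = fun r => M.tm (if r = Reg.t then w.map Sum.inl else []) := by
      funext r
      simp only [f0]
      split_ifs
      · simp only [tm, map_e_inl]
        rfl
      · rfl
    rw [e]
    exact a3
  have hfin : ∀ (t : Tm G (Al n M.sig)) q T, M.sys.Reach t (q, T) → q ≠ M.start →
      (∀ o, M.δ q o = none) → ∃ w, t = M.sys.listTm w ∧ (q = M.one ↔ One s w) ∧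
        (q = M.zero ↔ Zero s w) ∧ ∀ x ∈ T, x.Er := by
    intro t q T hr hq hδ
    obtain ⟨h, f, w, b1, b2, b3, -, b5, b6⟩ := M.inv hK t _ hr
    have b7 := b6 hq
    rw [b7] at b5
    obtain ⟨q', T', c1, c2, c3⟩ := hrun' w
    have b8 : t = M.sys.listTm w := b5
    rw [← b8] at c1
    have := M.final_unique ⟨_, _, congrArg Prod.snd (M.ini_eq t)⟩ hr c1 hδ c2
    cases this
    refine ⟨w, b8, c3.1, c3.2, fun x hx => ?_⟩
    have b1' : T = h :: regs.map f := b1
    rw [b1'] at hx
    rcases List.mem_cons.1 hx with rfl | hx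
    · exact b2
    · obtain ⟨r, -, rfl⟩ := List.mem_map.1 hx
      by_cases hr : r = Reg.t
      · rw [hr, b7]; trivial
      · exact b3 r hr
  refine ⟨M.wf h10, ?_, ?_, ?_, ?_, ?_⟩
  · intro t q T hr
    obtain ⟨h, f, w, b1, b2, b3, b4, b5, -⟩ := M.inv hK t _ hr
    refine ⟨h, wregs.map f, (w.map Al.bas).reverse, f Reg.t, ?_, rfl, b2, ?_, ?_⟩
    · rw [← b4]; exact b1
    · intro x hx
      obtain ⟨r, hr, rfl⟩ := List.mem_map.1 hx
      exact b3 r (by rintro rfl; simp [wregs] at hr)
    · rw [List.reverse_reverse]; exact b5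
  · intro t T hr
    obtain ⟨w, a1, a2, -, a4⟩ := hfin t _ T hr h1 t1
    exact ⟨⟨w, a2.1 rfl, a1⟩, a4⟩
  · intro t T hr
    obtain ⟨w, a1, -, a3, -⟩ := hfin t _ T hr h0 t0
    exact ⟨w, a3.1 rfl, a1⟩
  · intro w hw
    obtain ⟨q, T, c1, -, c3, -⟩ := hrun' w
    rw [c3.2 hw] at c1
    exact ⟨T, c1⟩
  · intro w hw
    obtain ⟨q, T, c1, -, -, c3⟩ := hrun' w
    rw [c3.2 hw] at c1
    exact ⟨T, c1⟩

end AM

end RMachAux

end Vale.Agent.P193
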