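import Vale.Agent.P193.RDec
import Vale.Agent.P193.RMachA

/-!
TASK M2. A rule system deciding `One` and `Zero`.

Proof plan. Take `f` from `exists_decider`, a `Turing.ToPartrec.Code` for it
(`Nat.Partrec'.of_part`, `Turing.ToPartrec.Code.exists_code` with one argument) and Mathlib's TM2 machine
`Turing.PartrecToTM2.tr` (`tr_eval`, `tr_supports`, `TM2.stmts`). Work alphabet `W = Γ'`, `K = 5` work
registers (the four stacks and an input stack `inp`). States: `scan` (= `start`), `prep`, `mv`, pairs
(statement in the finite set `stmts`, local state), `one`, `zero`, `other`. Every rule reads one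
register: its `L` has `([a], true)` or `([], false)` there and `([], true)` elsewhere; `L'` pushes words.
`scan` reads `t`: a letter `bas a` is moved to `u` and the bits `0^(code a) 1` are pushed on `inp` (so
that moving `inp` to `main` afterwards yields `trNat (wcode w)`); at `([], false)` go to `prep`, which
pushes `cons` on `main`; `mv` moves `inp` to `main`; then simulate the TM2 statements one micro-step
at a time; at `halt` read the top of `main` (`cons`: `zero`, `bit1`: `one`, `bit0`: `other`).
No rule leaves `one`, `zero`, `other`. It is convenient to first define an abstract work machine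
(`rd : Q → Fin (K+2)`, `δ : Q → Option letter → Option (Q × pushes)`), with `Rl` the subtype of pairs
`(q, o)` where `δ` is defined, and to prove a characterisation of `Step` on configurations
`h :: List.ofFn regs`. Soundness (`sone`, `szero`) follows from completeness, determinism of `Step`
and the fact that for an input `t` which is not a `listTm w` the run never leaves `scan`.
-/

namespace Vale.Agent.P193

universe v

namespace RMachAux

open Turing Turing.PartrecToTM2 Turing.ToPartrec

/-- Statements of the simulated machine. -/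
abbrev ST : Type := TM2.Stmt (fun _ : K' => Γ') Λ' (Option Γ')

/-- States. -/
inductive St (X : Type) : Type
  | scan | mv | one | zero | other | run (x : X)
  deriving Fintype

/-- Push on one register. -/
def sg {n : ℕ} (r : Reg) (l : List (L0 n)) : Reg → List (L0 n) := fun r' => if r' = r then l else []

/-- The register read by a statement. -/
def rdS : Option ST → Reg
  | some (.peek k _ _) => .k k
  | some (.pop k _ _) => .k k
  | none => .k .main
  | _ => .inp

/-- One micro step of a statement. -/
def nextS {n : ℕ} : ST → Option Γ' → Option Γ' → Option ST × Option Γ' × (Reg → List (L0 n))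
  | .push k f q, v, _ => (some q, v, sg (.k k) [.inr (f v)])
  | .peek k f q, v, o => (some q, f v o, sg (.k k) (o.toList.map .inr))
  | .pop _ f q, v, o => (some q, f v o, fun _ => [])
  | .load a q, v, _ => (some q, a v, fun _ => [])
  | .branch f q₁ q₂, v, _ => (some (bif f v then q₁ else q₂), v, fun _ => [])
  | .goto f, v, _ => (some (tr (f v)), v, fun _ => [])
  | .halt, v, _ => (none, v, fun _ => [])

/-- Binary digits of a letter. -/
def bits {n : ℕ} (b : Bas n) : List Γ' := List.replicate b.code Γ'.bit0 ++ [Γ'.bit1]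

/-- The verdict read from the top of the main stack. -/
def out {n : ℕ} {X : Type} : Option (L0 n) → St X
  | some (.inr .cons) => .zero
  | some (.inr .bit1) => .one
  | _ => .other

open Classical in
/-- Transition of the simulation phase. -/
noncomputable def runδ {n : ℕ} (SS : Finset (Option ST)) :
    Option ST → Option Γ' → Option (L0 n) → Option (St (SS × Option Γ') × (Reg → List (L0 n)))
  | none, _, o => some (out o, fun _ => [])
  | some Q, v, o =>
    if h : (nextS (n := n) Q v (o.bind Sum.getRight?)).1 ∈ SS then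
      some (.run (⟨_, h⟩, (nextS (n := n) Q v (o.bind Sum.getRight?)).2.1),
        (nextS Q v (o.bind Sum.getRight?)).2.2)
    else none

/-- The register read in a state. -/
def rdM {SS : Finset (Option ST)} : St (SS × Option Γ') → Reg
  | .scan => .t
  | .run x => rdS x.1.1
  | _ => .inp

/-- The transition function. -/
noncomputable def δM {n : ℕ} (SS : Finset (Option ST)) (x0 : SS) :
    St (SS × Option Γ') → Option (L0 n) → Option (St (SS × Option Γ') × (Reg → List (L0 n)))
  | .scan, some (.inl b) => some (.scan, fun r => if r = Reg.u then [.inl b]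
      else if r = Reg.inp then (bits b).reverse.map .inr else [])
  | .scan, none => some (.mv, sg (.k .main) [.inr .cons])
  | .mv, some (.inr g) => some (.mv, sg (.k .main) [.inr g])
  | .mv, none => some (.run (x0, none), fun _ => [])
  | .run x, o => runδ SS x.1.1 x.2 o
  | _, _ => none

/-- The machine. -/
noncomputable abbrev mach (n : ℕ) (SS : Finset (Option ST)) (x0 : SS) : AM n where
  Q := St (SS × Option Γ')
  start := .scan
  one := .one
  zero := .zero
  rd := rdM
  δ := δM SS x0

theorem rdS_ne (x : Option ST) : rdS x ≠ Reg.u ∧ rdS x ≠ Reg.t := by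
  cases x with
  | none => simp [rdS]
  | some Q => cases Q <;> simp [rdS]

theorem nextS_ut {n : ℕ} (Q : ST) (v o : Option Γ') :
    (nextS (n := n) Q v o).2.2 Reg.u = [] ∧ (nextS (n := n) Q v o).2.2 Reg.t = [] := by
  cases Q <;> simp [nextS, sg]

theorem out_ne {n : ℕ} {X : Type} (o : Option (L0 n)) : (out o : St X) ≠ St.scan := by
  unfold out
  split <;> simp

theorem runδ_facts {n : ℕ} {SS : Finset (Option ST)} {x : Option ST} {v : Option Γ'}
    {o : Option (L0 n)} {q' : St (SS × Option Γ')} {p : Reg → List (L0 n)}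
    (h : runδ SS x v o = some (q', p)) : p Reg.u = [] ∧ p Reg.t = [] ∧ q' ≠ St.scan := by
  cases x with
  | none =>
    simp only [runδ, Option.some.injEq, Prod.mk.injEq] at h
    obtain ⟨rfl, rfl⟩ := h
    exact ⟨rfl, rfl, out_ne o⟩
  | some Q =>
    simp only [runδ] at h
    split_ifs at h with h1
    simp only [Option.some.injEq, Prod.mk.injEq] at h
    obtain ⟨rfl, rfl⟩ := h
    exact ⟨(nextS_ut _ _ _).1, (nextS_ut _ _ _).2, by simp⟩

theorem keeps (n : ℕ) (SS : Finset (Option ST)) (x0 : SS) : (mach n SS x0).Keeps := by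
  have key : ∀ q o q' p, δM (n := n) SS x0 q o = some (q', p) →
      p Reg.t = [] ∧ (q ≠ St.scan → p Reg.u = [] ∧ q' ≠ St.scan) ∧ (q = St.scan →
        (∃ b, o = some (Sum.inl b) ∧ p Reg.u = [Sum.inl b] ∧ q' = St.scan) ∨
          (o = none ∧ p Reg.u = [])) := by
    intro q o q' p h
    cases q with
    | run x =>
      have := runδ_facts (show runδ SS x.1.1 x.2 o = some (q', p) from h)
      exact ⟨this.2.1, fun _ => ⟨this.1, this.2.2⟩, fun h => by cases h⟩
    | scan =>
      rcases o with _ | b | g
      · simp only [δM, Option.some.injEq, Prod.mk.injEq] at h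
        obtain ⟨rfl, rfl⟩ := h
        simp [sg]
      · simp only [δM, Option.some.injEq, Prod.mk.injEq] at h
        obtain ⟨rfl, rfl⟩ := h
        simp
      · simp [δM] at h
    | mv =>
      rcases o with _ | b | g
      · simp only [δM, Option.some.injEq, Prod.mk.injEq] at h
        obtain ⟨rfl, rfl⟩ := h
        simp
      · simp [δM] at h
      · simp only [δM, Option.some.injEq, Prod.mk.injEq] at h
        obtain ⟨rfl, rfl⟩ := h
        simp [sg]
    | _ => simp [δM] at h
  refine ⟨fun q => ?_, fun q => ?_, fun q o q' p h => (key q o q' p h).1,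
    fun q o q' p h => (key q o q' p h).2.1, fun o q' p h => (key _ o q' p h).2.2 rfl⟩
  · cases q with
    | run x => exact (rdS_ne _).1
    | _ => simp [rdM]
  · cases q with
    | run x => exact ⟨fun h => absurd h (rdS_ne _).2, fun h => by cases h⟩
    | _ => simp [rdM]

/-- Register contents. -/
def FF {n : ℕ} (S : K' → List Γ') (i : List Γ') (ul tl : List (L0 n)) : Reg → List (L0 n)
  | .k x => (S x).map .inr
  | .inp => i.map .inr
  | .u => ul
  | .t => tl

variable {n : ℕ} {SS : Finset (Option ST)} {x0 : SS}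

theorem scan_run (w : List (Bas n)) : ∀ (i : List Γ') (ul : List (L0 n)), ∃ ul',
    Relation.ReflTransGen (mach n SS x0).LStep
      (St.scan, FF (fun _ => []) i ul (w.map Sum.inl))
      (St.mv, FF (K'.elim [Γ'.cons] [] [] []) ((w.flatMap bits).reverse ++ i) ul' []) := by
  induction w with
  | nil =>
    intro i ul
    refine ⟨ul, Relation.ReflTransGen.single ⟨_, rfl, ?_⟩⟩
    funext r
    cases r with
    | k x => cases x <;> simp [FF, sg, rdM, K'.elim]
    | _ => simp [FF, sg, rdM]
  | cons b w ih =>
    intro i ul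
    obtain ⟨ul', h⟩ := ih ((bits b).reverse ++ i) (Sum.inl b :: ul)
    refine ⟨ul', Relation.ReflTransGen.head ⟨_, rfl, ?_⟩ (by simpa using h)⟩
    funext r
    cases r <;> simp [FF, rdM]

theorem mv_run (ul : List (L0 n)) (i : List Γ') : ∀ (m : List Γ'),
    Relation.ReflTransGen (mach n SS x0).LStep
      (St.mv, FF (K'.elim m [] [] []) i ul [])
      (St.run (x0, none), FF (K'.elim (i.reverse ++ m) [] [] []) [] ul []) := by
  induction i with
  | nil =>
    intro m
    refine Relation.ReflTransGen.single ⟨_, rfl, ?_⟩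
    funext r
    cases r <;> simp [FF, rdM]
  | cons g i ih =>
    intro m
    refine Relation.ReflTransGen.head ⟨_, rfl, ?_⟩ (by simpa using ih (g :: m))
    funext r
    cases r with
    | k x => cases x <;> simp [FF, sg, rdM, K'.elim]
    | _ => simp [FF, sg, rdM]

theorem head_map_inr (l : List Γ') :
    ((l.map (Sum.inr : Γ' → L0 n)).head?).bind Sum.getRight? = l.head? := by
  cases l <;> rfl

theorem micro (ul : List (L0 n)) (Q : ST) (hQ : some Q ∈ SS) (v : Option Γ') (S S' : K' → List Γ')
    (x : Option ST) (v' : Option Γ') (hx : x ∈ SS) (p : Reg → List (L0 n))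
    (h : nextS Q v (((FF S [] ul [] (rdS (some Q))).head?).bind Sum.getRight?) = (x, v', p))
    (h' : FF S' [] ul [] = fun r => p r ++
      if r = rdS (some Q) then (FF S [] ul [] r).tail else FF S [] ul [] r) :
    (mach n SS x0).LStep (St.run (⟨some Q, hQ⟩, v), FF S [] ul [])
      (St.run (⟨x, hx⟩, v'), FF S' [] ul []) := by
  refine ⟨p, ?_, h'⟩
  change runδ SS (some Q) v (FF S [] ul [] (rdS (some Q))).head? = _
  simp only [runδ]
  rw [dif_pos (by rw [h]; exact hx)]
  simp only [h]

theorem aux_run (S0 : Finset Λ') (hS0 : ∀ q ∈ S0, TM2.SupportsStmt S0 (tr q))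
    (x0 : TM2.stmts tr S0) (ul : List (L0 n)) (Q : ST) :
    ∀ (hQ : some Q ∈ TM2.stmts tr S0) (v : Option Γ') (S : K' → List Γ'),
      ∃ h : (TM2.stepAux Q v S).l.map tr ∈ TM2.stmts tr S0,
        Relation.ReflTransGen (mach n (TM2.stmts tr S0) x0).LStep
          (St.run (⟨some Q, hQ⟩, v), FF S [] ul [])
          (St.run (⟨_, h⟩, (TM2.stepAux Q v S).var), FF (TM2.stepAux Q v S).stk [] ul []) := by
  classical
  induction Q with
  | push k f q ih =>
    intro hQ v S
    have hq : some q ∈ TM2.stmts tr S0 :=
      TM2.stmts_trans (Finset.mem_insert_of_mem TM2.stmts₁_self) hQ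
    obtain ⟨h, hr⟩ := ih hq v (Function.update S k (f v :: S k))
    refine ⟨h, Relation.ReflTransGen.head (micro ul _ hQ v S _ _ _ hq _ rfl ?_) hr⟩
    funext r
    cases r with
    | k x => by_cases hx : x = k <;> simp [FF, sg, rdS, hx]
    | _ => simp [FF, sg, rdS]
  | peek k f q ih =>
    intro hQ v S
    have hq : some q ∈ TM2.stmts tr S0 :=
      TM2.stmts_trans (Finset.mem_insert_of_mem TM2.stmts₁_self) hQ
    obtain ⟨h, hr⟩ := ih hq (f v (S k).head?) S
    refine ⟨h, Relation.ReflTransGen.head (micro ul _ hQ v S _ _ _ hq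
      (sg (.k k) ((S k).head?.toList.map .inr)) ?_ ?_) hr⟩
    · simp only [rdS, FF, head_map_inr, nextS]
    · funext r
      cases r with
      | k x =>
        by_cases hx : x = k
        · subst hx
          cases h : S x <;> simp [FF, sg, rdS, h]
        · simp [FF, sg, rdS, hx]
      | _ => simp [FF, sg, rdS]
  | pop k f q ih =>
    intro hQ v S
    have hq : some q ∈ TM2.stmts tr S0 :=
      TM2.stmts_trans (Finset.mem_insert_of_mem TM2.stmts₁_self) hQ
    obtain ⟨h, hr⟩ := ih hq (f v (S k).head?) (Function.update S k (S k).tail)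
    refine ⟨h, Relation.ReflTransGen.head (micro ul _ hQ v S _ _ _ hq (fun _ => []) ?_ ?_) hr⟩
    · simp only [rdS, FF, head_map_inr, nextS]
    · funext r
      cases r with
      | k x => by_cases hx : x = k <;> simp [FF, rdS, hx]
      | _ => simp [FF, rdS]
  | load a q ih =>
    intro hQ v S
    have hq : some q ∈ TM2.stmts tr S0 :=
      TM2.stmts_trans (Finset.mem_insert_of_mem TM2.stmts₁_self) hQ
    obtain ⟨h, hr⟩ := ih hq (a v) S
    refine ⟨h, Relation.ReflTransGen.head (micro ul _ hQ v S _ _ _ hq _ rfl ?_) hr⟩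
    funext r
    cases r <;> simp [FF, rdS]
  | branch f q₁ q₂ ih₁ ih₂ =>
    intro hQ v S
    have hq₁ : some q₁ ∈ TM2.stmts tr S0 :=
      TM2.stmts_trans (Finset.mem_insert_of_mem (Finset.mem_union_left _ TM2.stmts₁_self)) hQ
    have hq₂ : some q₂ ∈ TM2.stmts tr S0 :=
      TM2.stmts_trans (Finset.mem_insert_of_mem (Finset.mem_union_right _ TM2.stmts₁_self)) hQ
    have e : FF S [] ul [] = fun r => (fun _ => []) r ++
        if r = rdS (some (TM2.Stmt.branch f q₁ q₂)) then (FF S [] ul [] r).tail
        else FF S [] ul [] r := by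
      funext r
      cases r <;> simp [FF, rdS]
    cases hf : f v with
    | false =>
      have e2 : TM2.stepAux (TM2.Stmt.branch f q₁ q₂) v S = TM2.stepAux q₂ v S := by simp [hf]
      rw [e2]
      obtain ⟨h, hr⟩ := ih₂ hq₂ v S
      exact ⟨h, Relation.ReflTransGen.head
        (micro ul _ hQ v S _ _ _ hq₂ _ (by simp only [nextS, hf, cond_false]) e) hr⟩
    | true =>
      have e2 : TM2.stepAux (TM2.Stmt.branch f q₁ q₂) v S = TM2.stepAux q₁ v S := by simp [hf]
      rw [e2]
      obtain ⟨h, hr⟩ := ih₁ hq₁ v S
      exact ⟨h, Relation.ReflTransGen.head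
        (micro ul _ hQ v S _ _ _ hq₁ _ (by simp only [nextS, hf, cond_true]) e) hr⟩
  | goto f =>
    intro hQ v S
    have h1 : f v ∈ S0 := by
      simp only [TM2.stmts, Finset.mem_insertNone, Finset.mem_biUnion, Option.mem_def,
        Option.some.injEq, forall_eq'] at hQ
      obtain ⟨l, hl, h2⟩ := hQ
      exact TM2.stmts₁_supportsStmt_mono h2 (hS0 l hl) v
    have hq : some (tr (f v)) ∈ TM2.stmts tr S0 :=
      Finset.some_mem_insertNone.2 (Finset.mem_biUnion.2 ⟨_, h1, TM2.stmts₁_self⟩)
    refine ⟨hq, Relation.ReflTransGen.single (micro ul _ hQ v S _ _ _ hq _ rfl ?_)⟩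
    funext r
    cases r <;> simp [FF, rdS]
  | halt =>
    intro hQ v S
    refine ⟨Finset.none_mem_insertNone, Relation.ReflTransGen.single
      (micro ul _ hQ v S _ _ _ Finset.none_mem_insertNone _ rfl ?_)⟩
    funext r
    cases r <;> simp [FF, rdS]

theorem tm_run (S0 : Finset Λ') (hS0 : ∀ q ∈ S0, TM2.SupportsStmt S0 (tr q))
    (x0 : TM2.stmts tr S0) (ul : List (L0 n)) {c c' : Cfg'}
    (h : StateTransition.Reaches (TM2.step tr) c c') (hc : c.l.map tr ∈ TM2.stmts tr S0) :
    ∃ hc' : c'.l.map tr ∈ TM2.stmts tr S0,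
      Relation.ReflTransGen (mach n (TM2.stmts tr S0) x0).LStep
        (St.run (⟨_, hc⟩, c.var), FF c.stk [] ul []) (St.run (⟨_, hc'⟩, c'.var), FF c'.stk [] ul []) := by
  induction h with
  | refl => exact ⟨hc, Relation.ReflTransGen.refl⟩
  | @tail b d _ h2 ih =>
    obtain ⟨hb, ih⟩ := ih
    obtain ⟨l, v, S⟩ := b
    cases l with
    | none => cases h2
    | some l =>
      have e : TM2.stepAux (tr l) v S = d := Option.some.inj h2
      subst e
      obtain ⟨h3, h4⟩ := aux_run S0 hS0 x0 ul (tr l) hb v S
      exact ⟨h3, ih.trans h4⟩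

theorem trNat_odd (x : ℕ) : trNat (2 * x + 1) = Γ'.bit1 :: trNat x := by
  have e : ((2 * x + 1 : ℕ) : Num) = Num.bit1 (x : Num) := by
    rw [← Num.to_nat_inj, Num.to_of_nat, Num.cast_bit1, Num.to_of_nat]
  rw [trNat, trNat, e]
  cases (x : Num) <;> rfl

theorem trNat_even (x : ℕ) (hx : x ≠ 0) : trNat (2 * x) = Γ'.bit0 :: trNat x := by
  have e : ((2 * x : ℕ) : Num) = Num.bit0 (x : Num) := by
    rw [← Num.to_nat_inj, Num.to_of_nat, Num.cast_bit0, Num.to_of_nat]
  rw [trNat, trNat, e]
  cases h : (x : Num) with
  | zero =>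
    have := congrArg (fun m : Num => (m : ℕ)) h
    simp only [Num.to_of_nat] at this
    exact absurd this hx
  | pos p => rfl

theorem trNat_pow (x : ℕ) (hx : x ≠ 0) (k : ℕ) :
    trNat (2 ^ k * x) = List.replicate k Γ'.bit0 ++ trNat x := by
  induction k with
  | zero => simp
  | succ k ih =>
    rw [pow_succ', mul_assoc, trNat_even _ (by positivity), ih]
    rfl

theorem trNat_wcode (w : List (Bas n)) : trNat (wcode w) = w.flatMap bits := by
  induction w with
  | nil => exact trNat_zero
  | cons a w ih =>
    rw [wcode, trNat_pow _ (by omega), trNat_odd, ih]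
    simp [bits]

end RMachAux

open RMachAux Turing Turing.PartrecToTM2 Turing.ToPartrec in
theorem exists_sys {n : ℕ} {G : Type v} [Group G] (s : Fin n → G)
    (hWP : ComputablePred fun w : List (Fin n × Bool) =>
      (w.map fun p => if p.2 then s p.1 else (s p.1)⁻¹).prod = 1) :
    ∃ S : Sys n, S.OK s := by
  classical
  obtain ⟨f, hf, hf'⟩ := exists_decider s hWP
  obtain ⟨c, hc⟩ := Code.exists_code (Nat.Partrec'.part_iff₁.2 hf.partrec)
  let S0 := codeSupp c Cont'.halt
  have hsup := tr_supports c Cont'.halt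
  have hx0 : some (tr (trNormal c Cont'.halt)) ∈ TM2.stmts tr S0 :=
    Finset.some_mem_insertNone.2 (Finset.mem_biUnion.2 ⟨_, hsup.1, TM2.stmts₁_self⟩)
  refine ⟨(mach n (TM2.stmts tr S0) ⟨_, hx0⟩).sys, AM.ok _ s (keeps _ _ _) (by simp) (by simp)
    (by simp) (fun o => by simp [δM]) (fun o => by simp [δM]) fun w => ?_⟩
  obtain ⟨ul, h1⟩ := scan_run (SS := TM2.stmts tr S0) (x0 := ⟨_, hx0⟩) w [] []
  have h2 := mv_run (SS := TM2.stmts tr S0) (x0 := ⟨_, hx0⟩) ul
    ((w.flatMap bits).reverse ++ []) [Γ'.cons]
  have h3 : halt [f (wcode w)] ∈ StateTransition.eval (TM2.step tr) (init c [wcode w]) := by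
    rw [tr_eval]
    have := hc (wcode w ::ᵥ List.Vector.nil)
    simp only [List.Vector.cons_val, List.Vector.head_cons] at this
    rw [show c.eval [wcode w] = _ from this]
    simp only [pure, PFun.coe_val, Part.map_eq_map, Part.map_some]
    exact Part.mem_some _
  obtain ⟨h4, h5⟩ := tm_run S0 hsup.2 ⟨_, hx0⟩ ul (StateTransition.mem_eval.1 h3).1 hx0
  have e0 : (fun r => if r = Reg.t then w.map Sum.inl else [])
      = FF (n := n) (fun _ => []) [] [] (w.map Sum.inl) := by
    funext r
    cases r <;> simp [FF]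
  have e1 : ((w.flatMap bits).reverse ++ []).reverse ++ [Γ'.cons] = trList [wcode w] := by
    simp [trNat_wcode]
  rw [e1] at h2
  have h6 := (h1.trans h2).trans h5
  rw [e0]
  refine ⟨out (n := n) ((trList [f (wcode w)]).map Sum.inr).head?, _,
    h6.tail ⟨fun _ => [], rfl, rfl⟩, ?_⟩
  have t0 : trList [0] = [Γ'.cons] := by simp
  have t1 : trList [1] = [Γ'.bit1, Γ'.cons] := by
    have := trNat_odd 0
    simp only [mul_zero, zero_add, trNat_zero] at this
    simp [this]
  have t2 : trList [2] = [Γ'.bit0, Γ'.bit1, Γ'.cons] := by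
    have h7 := trNat_odd 0
    simp only [mul_zero, zero_add, trNat_zero] at h7
    have h8 := trNat_even 1 one_ne_zero
    simp only [mul_one, h7] at h8
    simp [h8]
  obtain ⟨a1, a0, a2⟩ := hf' w
  by_cases b1 : One s w
  · have b0 : ¬ Zero s w := fun h => RDecAux.not_one_of_zero s h b1
    rw [a1 b1, t1]
    simp [out, δM, b1, b0]
  · by_cases b0 : Zero s w
    · rw [a0 b0, t0]
      simp [out, δM, b1, b0]
    · rw [a2 b1 b0, t2]
      simp [out, δM, b1, b0]

end Vale.Agent.P193
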