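import Vale.Agent.P193.RModelA

/-!
TASK R2. A nonzero model of the relations.

Proof plan. `Ω = Stream' (Tm G S.Λ)` (holes are inert junk values), `V = Ω → ZMod 2`,
`A = (Module.End (ZMod 2) V)ᵐᵒᵖ` (or `AddMonoid.End`). A partial map `f : Ω → Option Ω` gives
`opf f = op (w ↦ fun ω => (f ω).elim 0 w)`, and `opf f * opf g = opf (fun ω => g ω >>= f)`.
`φ T w ω = T (fun ω' => w (cons ω.head ω')) ω.tail`; `φ (opf f) = opf (f on the tail)`.
Local generators act on the top: `γ i b` multiplies the label `g` of `hole`, `nd` on the left by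
`gval s i b` and fixes `atom`, `psh`; `u` sends `atom k ↦ atom (k+1)`, raises `k` of `hole`, `nd` by one,
fixes `psh`; `u'` is the inverse (undefined on `atom 0`); `z` pushes `atom 0`; `nd` builds `nd 1 0 t t'`;
`nd'` destructs only `nd 1 0 t t'`; `eps` removes the top iff it is `Er`.
The states are defined by structural recursion on the top term `t` (rest `ω`):
`valEv (psh a t) m ω = evOp m a ω >>= valEv t (nxt m a)`, `valEv (atom _) m ω = if m = main then ω`,
`valEv (nd _ _ t s) m ω = valEv t main (cons (psh (tag (Ev m)) s) ω)`, `hole ↦ none`; `valRs` likewise;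
`valM (psh a κ) q ω` makes the forward step if some rule from `q` matches (unique by `det`), else stays;
`valM (nd _ _ κ s) q ω` is `none` unless `isZ s`, and then makes the backward step if some rule into
`q` matches backwards (unique: the log letters differ), else stays if `q = start` and the first `K+2`
entries are `atom 0`, else `valEv κ main (psh (tag (M q)) on the top of ω)`; `valM (atom _)` as in `halt`.
`opS A B = opf (stepS A B on the first |A| entries)`.
The only non-local relation is `link`: show by induction on `κ` that for every reachable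
`(q, T)` (from input `t`) `valM κ q (T ++ₛ ω) = if κ.Er then valEv t main ω else none`, using
`inv`, `sone`, `szero`: a reachable configuration is `ini t` (history `atom 0`) or comes from a
reachable one by a rule `ρ` (history `psh (log ρ) _`), which the backward step undoes (`bot`).
`valRs (pushW l (atom 0)) (cons tt ω) = valEv (pushW l.reverse tt) main ω`; for `One w` the program
`listTm w` acts as the identity, for `Zero w` it is nowhere defined.
-/

namespace Vale.Agent.P193

universe v

set_option linter.unusedSectionVars false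

namespace Stk

variable {n : ℕ} {G : Type v} [Group G] (s : Fin n → G) {S : Sys n} {A : Type v} [Ring A]
  (P : Stk (Tm G S.Λ) A)

/-- The local generators with dummy states. -/
noncomputable abbrev g0 : Gens S A := P.gens s fun _ => 0

/-- The evaluator reading the top term. -/
noncomputable def valEv : Tm G S.Λ → Mode → A
  | Tm.hole _ _, _ => 0
  | Tm.atom _, m => if m = Mode.main then 1 else 0
  | Tm.psh a t, m => valEv t (nxt m a) * (P.g0 s).evOp m a
  | Tm.nd _ _ t t', m => valEv t Mode.main * P.put (Tm.psh (Al.tag (Sta.Ev m)) t')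

/-- The state `Ev m`. -/
noncomputable def EEv (m : Mode) : A := P.disp fun t => P.valEv s t m

/-- The restorer reading the top term. -/
noncomputable def valRs : Tm G S.Λ → A
  | Tm.hole _ _ => 0
  | Tm.atom _ => P.EEv s Mode.main
  | Tm.psh a t => valRs t * (P.g0 s).psh a
  | Tm.nd _ _ t t' => P.valEv s t Mode.main * P.put (Tm.psh (Al.tag Sta.Rs) t')

/-- The machine reading the top term. -/
noncomputable def valM : Tm G S.Λ → S.Q → A
  | Tm.hole _ _, _ => 0
  | Tm.atom _, q => if q = S.one then (P.g0 s).eps ^ (S.K + 3) else if q = S.zero then 0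
      else P.disp (P.valRs s) * (P.g0 s).eps ^ (S.K + 1)
  | Tm.psh _ κ, q =>
      (∑ ρ, if S.src ρ = q then valM κ (S.tgt ρ) * (P.g0 s).opS (S.Lf ρ) (S.Lf' ρ) else 0) +
        valM κ q * (1 - ∑ ρ, if S.src ρ = q then (P.g0 s).opS (S.Lf ρ) (S.Lf ρ) else 0)
  | Tm.nd _ _ κ t', q => if t'.isZ = true then
      ((∑ ρ, if S.tgt ρ = q then valM κ (S.src ρ) * (P.g0 s).opS (S.Lf' ρ) (S.Lf ρ) else 0) +
        valM κ q * (P.g0 s).stP q +
        P.valEv s κ Mode.main * ((P.g0 s).psh (Al.tag (Sta.M q)) *
          (1 - (∑ ρ, if S.tgt ρ = q then (P.g0 s).opS (S.Lf' ρ) (S.Lf' ρ) else 0) -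
            (P.g0 s).stP q))) else 0

/-- The value of a state on a top term. -/
noncomputable def val : Sta S.Q → Tm G S.Λ → A
  | Sta.M q, t => P.valM s t q
  | Sta.Ev m, t => P.valEv s t m
  | Sta.Rs, t => P.valRs s t

/-- The model. -/
noncomputable def model : Gens S A := P.gens s fun σ => P.disp (P.val s σ)

section Prog

/-- The operation of a program (first letter applied first). -/
noncomputable def prog : List (Bas n) → A
  | [] => 1
  | b :: w => prog w * (P.g0 s).basOp b

theorem valEv_listTm (w : List (Bas n)) : P.valEv s (S.listTm w) Mode.main = P.prog s w := by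
  induction w with
  | nil => simp [Sys.listTm, Tm.pushW, valEv, prog]
  | cons b w ih =>
    change P.valEv s (S.listTm w) Mode.main * _ = _
    rw [ih]
    rfl

theorem prog_append (w w' : List (Bas n)) : P.prog s (w ++ w') = P.prog s w' * P.prog s w := by
  induction w with
  | nil => simp [prog]
  | cons b w ih => simp [prog, ih, mul_assoc]

theorem lab_lab (g g' : G) (k k' : ℤ) (t : Tm G S.Λ) :
    (t.lab g k).lab g' k' = t.lab (g' * g) (k + k') := by
  cases t <;> simp [Tm.lab, mul_assoc, add_assoc]

theorem lab_one (t : Tm G S.Λ) : t.lab 1 0 = t := by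
  cases t <;> simp [Tm.lab]

theorem prog_gen (w : List (Bas n)) (hw : ∀ a ∈ w, a.isGen = true) (t : Tm G S.Λ) :
    P.prog s w * P.put t = P.put (t.lab (lblG s w) 0) := by
  induction w generalizing t with
  | nil => simp [prog, lblG, lab_one]
  | cons b w ih =>
    have hb := hw b (by simp)
    cases b with
    | gen i b =>
      rw [prog, mul_assoc]
      change _ * (P.disp _ * _) = _
      rw [P.disp_put, ih (fun a ha => hw a (by simp [ha])), lab_lab]
      simp [lblG]
    | _ => simp [Bas.isGen] at hb

theorem prog_one {w : List (Bas n)} (hw : One s w) : P.prog s w = 1 :=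
  P.ext' _ _ fun t => by rw [prog_gen s P w hw.1, hw.2, lab_one, one_mul]

theorem prog_lab_nd (w : List (Bas n)) (hw : ∀ a ∈ w, a.isLab = true) (g : G) (k : ℤ)
    (t t' : Tm G S.Λ) :
    P.prog s w * P.put (Tm.nd g k t t') = P.put (Tm.nd (lblG s w * g) (k + lblZ w) t t') := by
  induction w generalizing g k with
  | nil => simp [prog, lblG, lblZ]
  | cons b w ih =>
    have hb := hw b (by simp)
    have ih' := ih (fun a ha => hw a (by simp [ha]))
    rw [prog, mul_assoc]
    cases b with
    | gen i b =>
      change _ * (P.disp _ * _) = _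
      rw [P.disp_put, Tm.lab, ih']
      simp [lblG, lblZ, mul_assoc]
    | u =>
      change _ * (P.disp _ * _) = _
      rw [P.disp_put]
      simp only [Tm.up, Tm.lab, ih', lblG, lblZ, one_mul]
      congr 2
      ring
    | u' =>
      change _ * (P.disp _ * _) = _
      rw [P.disp_put]
      simp only [Tm.lab, ih', lblG, lblZ, one_mul]
      congr 2
      ring
    | _ => simp [Bas.isLab] at hb

theorem nd'_prog_atom (w : List (Bas n)) (hw : ∀ a ∈ w, a.isLab = true) (k : ℕ) :
    (P.g0 s).nd' * (P.prog s w * P.put (Tm.atom k)) = 0 := by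
  induction w generalizing k with
  | nil =>
    rw [prog, one_mul]
    exact P.disp_put _ _
  | cons b w ih =>
    have hb := hw b (by simp)
    have ih' := ih (fun a ha => hw a (by simp [ha]))
    rw [prog, mul_assoc]
    cases b with
    | gen i b =>
      change _ * (_ * (P.disp _ * _)) = _
      rw [P.disp_put]
      exact ih' k
    | u =>
      change _ * (_ * (P.disp _ * _)) = _
      rw [P.disp_put]
      exact ih' (k + 1)
    | u' =>
      change _ * (_ * (P.disp _ * _)) = _
      rw [P.disp_put]
      cases k with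
      | zero => simp
      | succ k => exact ih' k
    | _ => simp [Bas.isLab] at hb

theorem prog_zero {w : List (Bas n)} (hw : Zero s w) : P.prog s w = 0 := by
  obtain ⟨c, d, mid, rfl, hmid, h⟩ := hw
  rw [prog, prog_append, prog, prog, one_mul, mul_assoc]
  rcases h with ⟨rfl, rfl⟩ | ⟨rfl, rfl⟩ | ⟨rfl, rfl, h⟩
  · refine P.ext' _ _ fun t => P.ext' _ _ fun t' => ?_
    change P.disp _ * (_ * P.disp _) * _ * _ = _
    rw [mul_assoc, mul_assoc, mul_assoc, P.disp_put', P.disp_put, prog_lab_nd s P mid hmid,
      P.disp_put]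
    simp [Tm.isZ]
  · exact nd'_prog_atom s P mid hmid 0
  · refine P.ext' _ _ fun t => P.ext' _ _ fun t' => ?_
    change P.disp _ * (_ * P.disp _) * _ * _ = _
    rw [mul_assoc, mul_assoc, mul_assoc, P.disp_put', P.disp_put, prog_lab_nd s P mid hmid,
      P.disp_put]
    simp [h]

end Prog

theorem valRs_pushW (l : List S.Λ) (tt : Tm G S.Λ) :
    P.valRs s (Tm.pushW l (Tm.atom 0)) * P.put tt =
      P.valEv s (Tm.pushW l.reverse tt) Mode.main := by
  induction l generalizing tt with
  | nil => exact P.disp_put _ _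
  | cons a l ih =>
    rw [Tm.pushW, valRs, mul_assoc]
    change _ * (P.disp _ * _) = _
    rw [P.disp_put, ih]
    congr 1
    rw [List.reverse_cons]
    generalize l.reverse = m
    induction m with
    | nil => rfl
    | cons b m ihm => simp only [List.cons_append, Tm.pushW, ihm]

theorem eps_pow_putL (T : List (Tm G S.Λ)) (hT : ∀ x ∈ T, x.Er) :
    (P.g0 s).eps ^ T.length * P.putL T = 1 := by
  induction T with
  | nil => simp [putL]
  | cons t T ih =>
    rw [List.length_cons, pow_succ, putL, mul_assoc]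
    change _ * (P.disp _ * _) = _
    rw [P.disp_put', if_pos (hT t (by simp)), one_mul, ih fun x hx => hT x (by simp [hx])]

theorem putL_replicate (k : ℕ) : P.putL (List.replicate k (Tm.atom 0)) = (P.g0 s).z ^ k := by
  induction k with
  | zero => simp [putL]
  | succ k ih =>
    rw [List.replicate_succ, putL, ih, pow_succ']
    rfl

theorem z'_pow_z_pow (k : ℕ) : (P.g0 s).z' ^ k * (P.g0 s).z ^ k = 1 := by
  induction k with
  | zero => simp
  | succ k ih =>
    have : (P.g0 s).z' * (P.g0 s).z = 1 := by
      change P.disp _ * P.put _ = _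
      rw [P.disp_put]
      simp [Tm.isZ]
    rw [pow_succ, pow_succ', mul_assoc, ← mul_assoc _ (P.g0 s).z, this, one_mul, ih]

theorem stepS_log {ρ ρ' : S.Rl} (h : ρ ≠ ρ') (L : List (SP S.Λ)) (a : SP S.Λ) (x : Tm G S.Λ)
    (T : List (Tm G S.Λ)) :
    Tm.stepS (S.Lf' ρ) (a :: L) (Tm.psh (Al.log ρ') x :: T) = none := by
  simp [Sys.Lf', Tm.stepS, Tm.regStep, Tm.strip, h]

theorem stepS_atom (ρ : S.Rl) (L : List (SP S.Λ)) (a : SP S.Λ) (T : List (Tm G S.Λ)) :
    Tm.stepS (S.Lf' ρ) (a :: L) (Tm.atom 0 :: T) = none := by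
  simp [Sys.Lf', Tm.stepS, Tm.regStep, Tm.strip]

theorem step_top {ρ : S.Rl} {T T' : List (Tm G S.Λ)}
    (h : Tm.stepS (S.Lf ρ) (S.Lf' ρ) T = some T') :
    ∃ x T'', T' = Tm.psh (Al.log ρ) x :: T'' := by
  cases T with
  | nil => simp [Sys.Lf, Sys.Lf', Tm.stepS] at h
  | cons t T =>
    cases h2 : Tm.stepS (S.L ρ) (S.L' ρ) T with
    | none => simp [Sys.Lf, Sys.Lf', Tm.stepS, h2] at h
    | some T'' =>
      simp only [Sys.Lf, Sys.Lf', Tm.stepS, h2, Tm.regStep, Tm.strip, true_or, if_true,
        Option.some.injEq, Tm.pushW] at h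
      exact ⟨t, T'', h.symm⟩

variable {s}

theorem reach_length (ok : S.OK s) {t : Tm G S.Λ} {q : S.Q} {T : List (Tm G S.Λ)}
    (h : S.Reach t (q, T)) : T.length = S.K + 3 := by
  obtain ⟨h, ws, l, tt, rfl, hws, -⟩ := ok.inv t q T h
  simp [hws]

open Classical in
theorem valM_reach (ok : S.OK s) (t κ : Tm G S.Λ) : ∀ (q : S.Q) (T : List (Tm G S.Λ)),
    S.Reach t (q, T) →
      P.valM s κ q * P.putL T = if κ.Er then P.valEv s t Mode.main else 0 := by
  have hLf : ∀ ρ, (S.Lf ρ).length = S.K + 3 := fun ρ => by simp [Sys.Lf, ok.len]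
  have hLf' : ∀ ρ, (S.Lf' ρ).length = S.K + 3 := fun ρ => by simp [Sys.Lf', ok.len']
  have hbot : ∀ ρ, (S.Lf ρ).map Prod.snd = (S.Lf' ρ).map Prod.snd := fun ρ => by
    simp [Sys.Lf, Sys.Lf', ok.bot]
  induction κ with
  | hole g k => intro q T _; simp [valM, Tm.Er]
  | atom k =>
    intro q T h
    have hlen := reach_length ok h
    rw [valM, if_pos (show (Tm.atom k : Tm G S.Λ).Er from trivial)]
    by_cases h1 : q = S.one
    · subst h1
      obtain ⟨⟨w, hw, rfl⟩, hT⟩ := ok.sone t T h
      rw [if_pos rfl, ← hlen, eps_pow_putL s P T hT, valEv_listTm, prog_one s P hw]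
    · rw [if_neg h1]
      by_cases h0 : q = S.zero
      · subst h0
        obtain ⟨w, hw, rfl⟩ := ok.szero t T h
        rw [if_pos rfl, zero_mul, valEv_listTm, prog_zero s P hw]
      · rw [if_neg h0]
        obtain ⟨x, ws, l, tt, rfl, hws, hx, hw, rfl⟩ := ok.inv t q T h
        have e := eps_pow_putL s P (x :: ws) (by
          intro y hy
          rcases List.mem_cons.mp hy with rfl | hy
          · exact hx
          · exact hw y hy)
        rw [List.length_cons, hws] at e
        rw [← List.cons_append, putL_append, mul_assoc, ← mul_assoc _ (P.putL (x :: ws)), e,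
          one_mul, putL, putL, putL, mul_one, P.disp_put', valRs_pushW]
  | psh a κ ih =>
    intro q T h
    have hlen := reach_length ok h
    set X := if κ.Er then P.valEv s t Mode.main else 0 with hX
    have e1 : ∀ ρ, (if S.src ρ = q then P.valM s κ (S.tgt ρ) *
          (P.g0 s).opS (S.Lf ρ) (S.Lf' ρ) else 0) * P.putL T =
        P.valM s κ q * ((if S.src ρ = q then (P.g0 s).opS (S.Lf ρ) (S.Lf ρ) else 0) *
          P.putL T) := by
      intro ρ
      by_cases hρ : S.src ρ = q
      · rw [if_pos hρ, if_pos hρ, mul_assoc, opS_putL _ _ _ _ _ _ (by rw [hLf, hlen]),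
          opS_putL _ _ _ _ _ _ (by rw [hLf, hlen])]
        cases hs : Tm.stepS (S.Lf ρ) (S.Lf' ρ) T with
        | none => rw [Tm.stepS_none (by rw [hLf, hLf']) hs]; simp
        | some T' =>
          rw [(Tm.stepS_back (hbot ρ) hs).2.1]
          simp only [Option.elim]
          rw [ih q T h, ih (S.tgt ρ) T' (Relation.ReflTransGen.tail h ⟨ρ, hρ, rfl, hs⟩)]
      · simp [hρ]
    rw [valM, add_mul, Finset.sum_mul, mul_assoc, sub_mul, one_mul, mul_sub, Finset.sum_mul,
      Finset.mul_sum, Finset.sum_congr rfl fun ρ _ => e1 ρ, add_sub_cancel, ih q T h]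
    rfl
  | nd g k κ t' ih _ =>
    intro q T h
    have hlen := reach_length ok h
    rw [valM]
    by_cases hz : t'.isZ = true
    swap
    · simp [hz, Tm.Er]
    rw [if_pos hz]
    have hEr : (Tm.nd g k κ t').Er ↔ κ.Er := by simp [Tm.Er, hz]
    rw [if_congr hEr rfl rfl, add_mul, add_mul, Finset.sum_mul, mul_assoc, mul_assoc, mul_assoc,
      sub_mul, sub_mul, one_mul, Finset.sum_mul]
    rcases Relation.ReflTransGen.cases_tail h with h0 | ⟨⟨q0, T0⟩, h0, ρ0, hs, ht, hst⟩
    · simp only [Sys.ini, Prod.mk.injEq] at h0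
      obtain ⟨hq, hT⟩ := h0
      have e0 : (P.g0 s).stP q * P.putL T = P.putL T := by
        rw [Gens.stP, if_pos hq, hT, putL_append, putL_replicate s, mul_assoc,
          ← mul_assoc _ ((P.g0 s).z ^ _), z'_pow_z_pow, one_mul]
      have e1 : ∀ ρ a L, (P.g0 s).opS (S.Lf' ρ) (a :: L) * P.putL T = 0 := by
        intro ρ a L
        rw [opS_putL _ _ _ _ _ _ (by rw [hLf', hlen]), hT, List.replicate_succ, List.cons_append,
          stepS_atom]
        rfl
      rw [e0, Finset.sum_eq_zero, Finset.sum_eq_zero, ih q T h]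
      · simp
      · intro ρ _
        split_ifs
        · exact e1 ρ _ _
        · simp
      · intro ρ _
        split_ifs
        · rw [mul_assoc, Sys.Lf, e1, mul_zero]
        · simp
    · simp only at hs ht hst
      obtain ⟨x, T'', hT⟩ := step_top hst
      obtain ⟨b1, -, b3⟩ := Tm.stepS_back (hbot ρ0) hst
      have e0 : (P.g0 s).stP q * P.putL T = 0 := by
        rw [Gens.stP]
        split_ifs
        · rw [hT, putL, pow_succ (P.g0 s).z', mul_assoc, mul_assoc]
          change _ * (_ * (P.disp _ * _)) = _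
          rw [P.disp_put']
          simp [Tm.isZ]
        · simp
      have e1 : ∀ ρ a L, ρ ≠ ρ0 → (P.g0 s).opS (S.Lf' ρ) (a :: L) * P.putL T = 0 := by
        intro ρ a L hρ
        rw [opS_putL _ _ _ _ _ _ (by rw [hLf', hlen]), hT, stepS_log hρ]
        rfl
      rw [e0, Finset.sum_eq_single ρ0, Finset.sum_eq_single ρ0, if_pos ht, if_pos ht, mul_assoc,
        opS_putL _ _ _ _ _ _ (by rw [hLf', hlen]), opS_putL _ _ _ _ _ _ (by rw [hLf', hlen]),
        b1, b3]
      · simp only [Option.elim]
        rw [hs, ih q0 T0 h0]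
        simp
      · intro ρ _ hρ
        split_ifs
        · exact e1 ρ _ _ hρ
        · simp
      · simp
      · intro ρ _ hρ
        split_ifs
        · rw [mul_assoc, Sys.Lf, e1 _ _ _ hρ, mul_zero]
        · simp
      · simp

theorem val_lab (σ : Sta S.Q) (g : G) (k : ℤ) (t : Tm G S.Λ) :
    P.val s σ (t.lab g k) = P.val s σ t := by
  cases σ <;> cases t <;> simp [Tm.lab, val, valM, valEv, valRs]

theorem val_up (σ : Sta S.Q) (t : Tm G S.Λ) : P.val s σ t.up = P.val s σ t := by
  cases σ <;> cases t <;> simp [Tm.up, Tm.lab, val, valM, valEv, valRs]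

theorem er_lab (g : G) (k : ℤ) (t : Tm G S.Λ) : (t.lab g k).Er ↔ t.Er := by
  cases t <;> simp [Tm.lab, Tm.Er]

theorem er_up (t : Tm G S.Λ) : t.up.Er ↔ t.Er := by
  cases t <;> simp [Tm.up, Tm.lab, Tm.Er]

theorem model_good (ok : S.OK s) : (P.model s).Good where
  two := P.two
  nat_γ i b r := P.ext' _ _ fun t => by
    simp only [model, gens, mul_assoc, P.φ_put, P.disp_put, P.disp_put']
  nat_u r := P.ext' _ _ fun t => by
    simp only [model, gens, mul_assoc, P.φ_put, P.disp_put, P.disp_put']
  nat_u' r := P.ext' _ _ fun t => by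
    simp only [model, gens, mul_assoc, P.φ_put, P.disp_put, P.disp_put']
    rcases t with _ | (_ | _) | _ | _ <;> simp [P.φ_put]
  nat_psh a r := P.ext' _ _ fun t => by
    simp only [model, gens, mul_assoc, P.φ_put, P.disp_put, P.disp_put']
  nat_pop a r := P.ext' _ _ fun t => by
    simp only [model, gens, mul_assoc, P.φ_put, P.disp_put, P.disp_put']
    cases t <;> simp [P.φ_put]
  nat_z r := (P.φ_put r _).symm
  nat_z' r := P.ext' _ _ fun t => by
    simp only [model, gens, mul_assoc, P.φ_put, P.disp_put, P.disp_put']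
    split_ifs <;> simp
  nat_eps r := P.ext' _ _ fun t => by
    simp only [model, gens, mul_assoc, P.φ_put, P.disp_put, P.disp_put']
    split_ifs <;> simp
  nat_nd r := P.ext' _ _ fun t => P.ext' _ _ fun t' => by
    simp only [model, gens, mul_assoc, P.φ_put, P.φ_put', P.disp_put, P.disp_put']
  nat_nd' r := P.ext' _ _ fun t => by
    simp only [model, gens, mul_assoc, P.φ_put, P.disp_put, P.disp_put']
    cases t <;> simp [P.φ_put, P.φ_put', mul_assoc]
  z'z := by simp [model, gens, P.disp_put, Tm.isZ]
  nd'nd := P.ext' _ _ fun t => P.ext' _ _ fun t' => by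
    simp [model, gens, mul_assoc, P.disp_put, P.disp_put']
  pop_psh a b := P.ext' _ _ fun t => by
    simp [model, gens, mul_assoc, P.disp_put]
  z'psh a := P.ext' _ _ fun t => by
    simp [model, gens, mul_assoc, P.disp_put, Tm.isZ]
  pop_z a := by simp [model, gens, P.disp_put]
  pop_nd a := P.ext' _ _ fun t => P.ext' _ _ fun t' => by
    simp [model, gens, mul_assoc, P.disp_put, P.disp_put']
  nd'psh a := P.ext' _ _ fun t => by
    simp [model, gens, mul_assoc, P.disp_put]
  u'u := P.ext' _ _ fun t => by
    cases t <;> simp [model, gens, mul_assoc, P.disp_put, Tm.up, Tm.lab]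
  uu' := P.ext' _ _ fun t => by
    rcases t with _ | (_ | _) | _ | _ <;>
      simp [model, gens, add_mul, mul_assoc, P.disp_put, Tm.up, Tm.lab, Tm.isZ]
  γu i b := P.ext' _ _ fun t => by
    cases t <;> simp [model, gens, mul_assoc, P.disp_put, Tm.up, Tm.lab]
  γz i b := by simp [model, gens, P.disp_put, Tm.lab]
  z'γ i b := P.ext' _ _ fun t => by
    cases t <;> simp [model, gens, mul_assoc, P.disp_put, Tm.lab, Tm.isZ]
  γpsh i b a := P.ext' _ _ fun t => by
    simp [model, gens, mul_assoc, P.disp_put, Tm.lab]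
  upsh a := P.ext' _ _ fun t => by
    simp [model, gens, mul_assoc, P.disp_put, Tm.up, Tm.lab]
  popγ i b a := P.ext' _ _ fun t => by
    cases t <;> simp [model, gens, mul_assoc, P.disp_put, Tm.lab]
  popu a := P.ext' _ _ fun t => by
    cases t <;> simp [model, gens, mul_assoc, P.disp_put, Tm.up, Tm.lab]
  eps_z := by simp [model, gens, P.disp_put, Tm.Er]
  eps_psh a := P.ext' _ _ fun t => by
    simp only [model, gens, mul_assoc, P.disp_put]
    by_cases h : t.Er <;> simp [Tm.Er, h]
  eps_γ i b := P.ext' _ _ fun t => by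
    simp only [model, gens, mul_assoc, P.disp_put]
    by_cases h : t.Er
    · rw [if_pos h, if_pos ((er_lab _ _ t).mpr h)]
    · rw [if_neg h, if_neg fun h' => h ((er_lab _ _ t).mp h')]
  eps_u := P.ext' _ _ fun t => by
    simp only [model, gens, mul_assoc, P.disp_put]
    by_cases h : t.Er
    · rw [if_pos h, if_pos ((er_up t).mpr h)]
    · rw [if_neg h, if_neg fun h' => h ((er_up t).mp h')]
  eps_nd := P.ext' _ _ fun t => P.ext' _ _ fun t' => by
    simp only [model, gens, mul_assoc, P.disp_put, P.disp_put', P.φ_put', Tm.Er]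
    by_cases h1 : t.Er <;> by_cases h2 : t'.isZ = true <;> simp [h1, h2]
  E_γ σ i b := P.ext' _ _ fun t => by
    simp [model, gens, mul_assoc, P.disp_put, val_lab]
  E_u σ := P.ext' _ _ fun t => by
    simp [model, gens, mul_assoc, P.disp_put, val_up]
  ev_psh m a := P.ext' _ _ fun t => by
    rw [model, evOp_congr s P _ fun _ => 0]
    simp only [gens, mul_assoc, P.disp_put, P.disp_put', P.φ_put, val, valEv]
  ev_z m := by simp [model, gens, P.disp_put, val, valEv]
  ev_nd m := P.ext' _ _ fun t => P.ext' _ _ fun t' => by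
    simp only [model, gens, mul_assoc, P.disp_put, P.disp_put', P.φ_put', val, valEv]
  rs_psh a := P.ext' _ _ fun t => by
    simp only [model, gens, mul_assoc, P.disp_put, P.disp_put', P.φ_put, val, valRs]
  rs_z := by
    simp only [model, gens, P.disp_put, val, valRs]
    rfl
  rs_nd := P.ext' _ _ fun t => P.ext' _ _ fun t' => by
    simp only [model, gens, mul_assoc, P.disp_put, P.disp_put', P.φ_put', val, valRs]
  fwd q a := P.ext' _ _ fun t => by
    simp only [model, opS_congr s P _ fun _ => 0]
    change P.disp _ * P.disp _ * _ = ((∑ ρ, if S.src ρ = q then P.disp _ * P.φ _ else 0) +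
      P.disp _ * P.φ _) * _
    rw [mul_assoc, P.disp_put, P.disp_put, add_mul, Finset.sum_mul, mul_assoc, P.φ_put,
      P.disp_put', val, valM, val]
    congr 1
    refine Finset.sum_congr rfl fun ρ _ => ?_
    split_ifs
    · rw [mul_assoc, P.φ_put, P.disp_put', val]
    · simp
  bwd q := P.ext' _ _ fun t => P.ext' _ _ fun t' => by
    simp only [model, opS_congr s P _ fun _ => 0]
    change P.disp _ * P.disp _ * _ * _ = ((∑ ρ, if S.tgt ρ = q then P.disp _ * P.φ _ else 0) +
      P.disp _ * P.φ _ + P.disp _ * P.φ _) * P.φ (P.disp _) * _ * _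
    rw [mul_assoc, mul_assoc, P.disp_put', P.disp_put, P.disp_put, mul_assoc, mul_assoc,
      P.φ_put', P.disp_put, val, valM]
    split_ifs
    · rw [mul_one, add_mul, add_mul, Finset.sum_mul, mul_assoc, mul_assoc, P.φ_put, P.φ_put,
        P.disp_put', P.disp_put', val, val]
      congr 2
      refine Finset.sum_congr rfl fun ρ _ => ?_
      split_ifs
      · rw [mul_assoc, P.φ_put, P.disp_put', val]
      · simp
    · simp
  halt q := P.disp_put _ _
  link := P.ext' _ _ fun κ => P.ext' _ _ fun t => by
    have := valM_reach P ok t κ S.start _ Relation.ReflTransGen.refl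
    rw [putL_append, putL_replicate s, putL, putL, mul_one] at this
    change P.disp _ * P.φ ((P.g0 s).z ^ _) * _ * _ = P.disp _ * P.disp _ * _ * _
    rw [mul_assoc, mul_assoc, P.φ_put', P.disp_put', val, this, mul_assoc, mul_assoc,
      P.disp_put']
    split_ifs
    · rw [one_mul, P.disp_put, val]
    · simp

end Stk

theorem exists_model {n : ℕ} {G : Type v} [Group G] (s : Fin n → G) (S : Sys n) (ok : S.OK s) :
    ∃ (A : Type v) (_ : Ring A) (D : Gens S A), D.Good ∧ (1 : A) ≠ 0 := by
  have : Nonempty (Tm G S.Λ) := ⟨Tm.atom 0⟩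
  obtain ⟨A, _, ⟨P⟩⟩ := exists_stk (Tm G S.Λ)
  exact ⟨A, inferInstance, P.model s, P.model_good ok, P.nontriv⟩

end Vale.Agent.P193
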