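import Vale.Agent.P193.RB6

/-!
Pure infiniteness of a ring with `Good` generators.
-/

namespace Vale.Agent.P193

universe v

variable {n : ℕ} {G : Type v} [Group G] {s : Fin n → G} {S : Sys n} {A : Type} [Ring A]

theorem nice_of_good (ok : S.OK s) (hs : Subgroup.closure (Set.range s) = ⊤) (D : Gens S A)
    (hD : D.Good) (hG : D.Gend) (h1 : (1 : A) ≠ 0) :
    Nonempty (NiceRing A) ∧ ∃ ρ : G →* Aˣ, Function.Injective ρ := by
  let C : Ctx G S A := ⟨s, hs, ok, D, hD⟩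
  refine ⟨⟨⟨D.z, D.z', D.u, D.u', D.φ, hD.z'z, hD.u'u, hD.uu', fun x => ?_, fun a ha => ?_,
    C.center hG h1, h1⟩⟩, ?_⟩
  · rw [hD.nat_z, hD.nat_u, mul_assoc, mul_assoc, ← mul_add, hD.uu', mul_one]
  · obtain ⟨Y, Z, -, -, e⟩ := C.sep hG ha
    exact ⟨_, _, e⟩
  · let f : G →* A := ⟨⟨C.gr, C.gr_one⟩, C.gr_mul⟩
    refine ⟨f.toHomUnits, (injective_iff_map_eq_one _).mpr fun g hg => ?_⟩
    by_contra hne
    have h2 : C.gr g = 1 := congrArg Units.val hg
    have h3 := C.nd'_lab_nd_ne (g := g) (k := 0) (fun h => hne h.1)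
    have h4 := C.lab_nat_eq g 0
    rw [Nat.cast_zero, pow_zero, mul_one, h2] at h4
    rw [h4, mul_one] at h3
    exact h1 (hD.nd'nd.symm.trans h3)

end Vale.Agent.P193
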