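import Vale.Agent.P193.RDefs

/-!
TASK R1. The universal ring with `Good` generators is finitely presented.

Proof plan. Let `X = XG S × Bool`, `F = FreeRing X`, `Φ : F →+* F` the lift of
`(x, false) ↦ of (x, true)`, `(x, true) ↦ nd' * of (x, true) * nd` (`nd = of (XG.nd, false)`), and `DF`
the generators `of (x, false)` with `φ = Φ`. Define a finite index type `RI S` (one constructor per
field of `Good`; the naturality fields `nat_*` take `r = y` for `y : X` only, where the value of `y` is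
`gen x` or `φ (gen x)`) and, for any `D : Gens S A`, a map `rel D : RI S → A × A` (left and right
side). `rel` is natural for ring maps commuting with the generators and with `φ` (prove this for
`pshW`, `popW`, `regOp`, `opS`, `evOp`, `stP` first). Let `I` be the two-sided ideal spanned by the
differences `l - r` and their images `Φ (l - r)`; `R = F / I`. From the naturality relations of `nd`
get `nd * Φ (Φ a) = Φ a * nd` mod `I` for all `a` (induction on `a`), so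
`Φ (Φ a) = nd' * Φ a * nd` mod `I`, so `Φ I ⊆ I` and `Φ` descends to `φ : R →+* R`. Naturality for all
`r` follows by induction on `r`. For a `Good` family `D'` in `A`, the lift `ev` of
`(x, false) ↦ gen x`, `(x, true) ↦ φ (gen x)` satisfies `ev ∘ Φ = φ ∘ ev` (use `nat_nd`, `nd'nd`), so it
kills `I`.
-/

set_option linter.unusedVariables false

namespace Vale.Agent.P193

universe v

/-- Names of relations, part 1. -/
inductive RI1 {n : ℕ} (S : Sys n) : Type
  | c0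
  | c1 (i : Fin n) (b : Bool) (r : XG S × Bool)
  | c2 (r : XG S × Bool)
  | c3 (r : XG S × Bool)
  | c4 (a : S.Λ) (r : XG S × Bool)
  | c5 (a : S.Λ) (r : XG S × Bool)
  | c6 (r : XG S × Bool)
  | c7 (r : XG S × Bool)
  | c8 (r : XG S × Bool)
  | c9 (r : XG S × Bool)
  | c10 (r : XG S × Bool)
  | c11
  | c12
  | c13 (a : S.Λ) (b : S.Λ)
  | c14 (a : S.Λ)
  deriving Fintype

/-- Names of relations, part 2. -/
inductive RI2 {n : ℕ} (S : Sys n) : Type
  | c15 (a : S.Λ)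
  | c16 (a : S.Λ)
  | c17 (a : S.Λ)
  | c18
  | c19
  | c20 (i : Fin n) (b : Bool)
  | c21 (i : Fin n) (b : Bool)
  | c22 (i : Fin n) (b : Bool)
  | c23 (i : Fin n) (b : Bool) (a : S.Λ)
  | c24 (a : S.Λ)
  | c25 (i : Fin n) (b : Bool) (a : S.Λ)
  | c26 (a : S.Λ)
  | c27
  | c28 (a : S.Λ)
  | c29 (i : Fin n) (b : Bool)
  deriving Fintype

/-- Names of relations, part 3. -/
inductive RI3 {n : ℕ} (S : Sys n) : Type
  | c30
  | c31
  | c32 (s : Sta S.Q) (i : Fin n) (b : Bool)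
  | c33 (s : Sta S.Q)
  | c34 (m : Mode) (a : S.Λ)
  | c35 (m : Mode)
  | c36 (m : Mode)
  | c37 (a : S.Λ)
  | c38
  | c39
  | c40 (q : S.Q) (a : S.Λ)
  | c41 (q : S.Q)
  | c42 (q : S.Q)
  | c43
  deriving Fintype

/-- Names of all relations. -/
abbrev RI {n : ℕ} (S : Sys n) : Type := RI1 S ⊕ RI2 S ⊕ RI3 S

namespace Gens

section

variable {n : ℕ} {S : Sys n} {A : Type*} [Ring A] (D : Gens S A)

/-- Value of a free generator. -/
def val : XG S × Bool → A
  | (x, false) => D.gen x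
  | (x, true) => D.φ (D.gen x)

/-- The relations, part 1. -/
def rel1 : RI1 S → A
  | RI1.c0 => (1 : A) + 1 - (0)
  | RI1.c1 i b r => D.γ i b * D.φ (D.val r) - (D.φ (D.val r) * D.γ i b)
  | RI1.c2 r => D.u * D.φ (D.val r) - (D.φ (D.val r) * D.u)
  | RI1.c3 r => D.u' * D.φ (D.val r) - (D.φ (D.val r) * D.u')
  | RI1.c4 a r => D.psh a * D.φ (D.val r) - (D.φ (D.val r) * D.psh a)
  | RI1.c5 a r => D.pop a * D.φ (D.val r) - (D.φ (D.val r) * D.pop a)
  | RI1.c6 r => D.z * (D.val r) - (D.φ (D.val r) * D.z)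
  | RI1.c7 r => D.z' * D.φ (D.val r) - ((D.val r) * D.z')
  | RI1.c8 r => D.eps * D.φ (D.val r) - ((D.val r) * D.eps)
  | RI1.c9 r => D.nd * D.φ (D.φ (D.val r)) - (D.φ (D.val r) * D.nd)
  | RI1.c10 r => D.nd' * D.φ (D.val r) - (D.φ (D.φ (D.val r)) * D.nd')
  | RI1.c11 => D.z' * D.z - (1)
  | RI1.c12 => D.nd' * D.nd - (1)
  | RI1.c13 a b => D.pop a * D.psh b - (if a = b then 1 else 0)
  | RI1.c14 a => D.z' * D.psh a - (0)

/-- The relations, part 2. -/
def rel2 : RI2 S → A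
  | RI2.c15 a => D.pop a * D.z - (0)
  | RI2.c16 a => D.pop a * D.nd - (0)
  | RI2.c17 a => D.nd' * D.psh a - (0)
  | RI2.c18 => D.u' * D.u - (1)
  | RI2.c19 => D.z * D.z' + D.u * D.u' - (1)
  | RI2.c20 i b => D.γ i b * D.u - (D.u * D.γ i b)
  | RI2.c21 i b => D.γ i b * D.z - (D.z)
  | RI2.c22 i b => D.z' * D.γ i b - (D.z')
  | RI2.c23 i b a => D.γ i b * D.psh a - (D.psh a)
  | RI2.c24 a => D.u * D.psh a - (D.psh a)
  | RI2.c25 i b a => D.pop a * D.γ i b - (D.pop a)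
  | RI2.c26 a => D.pop a * D.u - (D.pop a)
  | RI2.c27 => D.eps * D.z - (1)
  | RI2.c28 a => D.eps * D.psh a - (D.eps)
  | RI2.c29 i b => D.eps * D.γ i b - (D.eps)

/-- The relations, part 3. -/
def rel3 : RI3 S → A
  | RI3.c30 => D.eps * D.u - (D.eps)
  | RI3.c31 => D.eps * D.nd - (D.eps * D.φ D.z')
  | RI3.c32 s i b => D.E s * D.γ i b - (D.E s)
  | RI3.c33 s => D.E s * D.u - (D.E s)
  | RI3.c34 m a => D.E (Sta.Ev m) * D.psh a - (D.E (Sta.Ev (nxt m a)) * D.φ (D.evOp m a))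
  | RI3.c35 m => D.E (Sta.Ev m) * D.z - (if m = Mode.main then 1 else 0)
  | RI3.c36 m => D.E (Sta.Ev m) * D.nd - (D.E (Sta.Ev Mode.main) * D.φ (D.psh (Al.tag (Sta.Ev m))))
  | RI3.c37 a => D.E Sta.Rs * D.psh a - (D.E Sta.Rs * D.φ (D.psh a))
  | RI3.c38 => D.E Sta.Rs * D.z - (D.E (Sta.Ev Mode.main))
  | RI3.c39 => D.E Sta.Rs * D.nd - (D.E (Sta.Ev Mode.main) * D.φ (D.psh (Al.tag Sta.Rs)))
  | RI3.c40 q a => D.E (Sta.M q) * D.psh a - ((∑ ρ, if S.src ρ = q then D.E (Sta.M (S.tgt ρ)) * D.φ (D.opS (S.Lf ρ) (S.Lf' ρ)) else 0) + D.E (Sta.M q) * D.φ (1 - ∑ ρ, if S.src ρ = q then D.opS (S.Lf ρ) (S.Lf ρ) else 0))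
  | RI3.c41 q => D.E (Sta.M q) * D.nd - (((∑ ρ, if S.tgt ρ = q then D.E (Sta.M (S.src ρ)) * D.φ (D.opS (S.Lf' ρ) (S.Lf ρ)) else 0) + D.E (Sta.M q) * D.φ (D.stP q) + D.E (Sta.Ev Mode.main) * D.φ (D.psh (Al.tag (Sta.M q)) * (1 - (∑ ρ, if S.tgt ρ = q then D.opS (S.Lf' ρ) (S.Lf' ρ) else 0) - D.stP q))) * D.φ D.z')
  | RI3.c42 q => D.E (Sta.M q) * D.z - (if q = S.one then D.eps ^ (S.K + 3) else if q = S.zero then 0 else D.E Sta.Rs * D.eps ^ (S.K + 1))
  | RI3.c43 => D.E (Sta.M S.start) * D.φ (D.z ^ (S.K + 2)) - (D.E (Sta.Ev Mode.main) * D.eps)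

/-- All relations. -/
def rel : RI S → A := Sum.elim D.rel1 (Sum.elim D.rel2 D.rel3)

variable {D}

theorem rel1_eq_zero (h : D.Good) : ∀ i, D.rel1 i = 0
  | RI1.c0 => sub_eq_zero.2 (h.two)
  | RI1.c1 i b r => sub_eq_zero.2 (h.nat_γ i b _)
  | RI1.c2 r => sub_eq_zero.2 (h.nat_u _)
  | RI1.c3 r => sub_eq_zero.2 (h.nat_u' _)
  | RI1.c4 a r => sub_eq_zero.2 (h.nat_psh a _)
  | RI1.c5 a r => sub_eq_zero.2 (h.nat_pop a _)
  | RI1.c6 r => sub_eq_zero.2 (h.nat_z _)
  | RI1.c7 r => sub_eq_zero.2 (h.nat_z' _)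
  | RI1.c8 r => sub_eq_zero.2 (h.nat_eps _)
  | RI1.c9 r => sub_eq_zero.2 (h.nat_nd _)
  | RI1.c10 r => sub_eq_zero.2 (h.nat_nd' _)
  | RI1.c11 => sub_eq_zero.2 (h.z'z)
  | RI1.c12 => sub_eq_zero.2 (h.nd'nd)
  | RI1.c13 a b => sub_eq_zero.2 (h.pop_psh a b)
  | RI1.c14 a => sub_eq_zero.2 (h.z'psh a)

theorem rel2_eq_zero (h : D.Good) : ∀ i, D.rel2 i = 0
  | RI2.c15 a => sub_eq_zero.2 (h.pop_z a)
  | RI2.c16 a => sub_eq_zero.2 (h.pop_nd a)
  | RI2.c17 a => sub_eq_zero.2 (h.nd'psh a)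
  | RI2.c18 => sub_eq_zero.2 (h.u'u)
  | RI2.c19 => sub_eq_zero.2 (h.uu')
  | RI2.c20 i b => sub_eq_zero.2 (h.γu i b)
  | RI2.c21 i b => sub_eq_zero.2 (h.γz i b)
  | RI2.c22 i b => sub_eq_zero.2 (h.z'γ i b)
  | RI2.c23 i b a => sub_eq_zero.2 (h.γpsh i b a)
  | RI2.c24 a => sub_eq_zero.2 (h.upsh a)
  | RI2.c25 i b a => sub_eq_zero.2 (h.popγ i b a)
  | RI2.c26 a => sub_eq_zero.2 (h.popu a)
  | RI2.c27 => sub_eq_zero.2 (h.eps_z)
  | RI2.c28 a => sub_eq_zero.2 (h.eps_psh a)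
  | RI2.c29 i b => sub_eq_zero.2 (h.eps_γ i b)

theorem rel3_eq_zero (h : D.Good) : ∀ i, D.rel3 i = 0
  | RI3.c30 => sub_eq_zero.2 (h.eps_u)
  | RI3.c31 => sub_eq_zero.2 (h.eps_nd)
  | RI3.c32 s i b => sub_eq_zero.2 (h.E_γ s i b)
  | RI3.c33 s => sub_eq_zero.2 (h.E_u s)
  | RI3.c34 m a => sub_eq_zero.2 (h.ev_psh m a)
  | RI3.c35 m => sub_eq_zero.2 (h.ev_z m)
  | RI3.c36 m => sub_eq_zero.2 (h.ev_nd m)
  | RI3.c37 a => sub_eq_zero.2 (h.rs_psh a)
  | RI3.c38 => sub_eq_zero.2 (h.rs_z)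
  | RI3.c39 => sub_eq_zero.2 (h.rs_nd)
  | RI3.c40 q a => sub_eq_zero.2 (h.fwd q a)
  | RI3.c41 q => sub_eq_zero.2 (h.bwd q)
  | RI3.c42 q => sub_eq_zero.2 (h.halt q)
  | RI3.c43 => sub_eq_zero.2 (h.link)

theorem rel_eq_zero (h : D.Good) : ∀ i, D.rel i = 0
  | Sum.inl i => rel1_eq_zero h i
  | Sum.inr (Sum.inl i) => rel2_eq_zero h i
  | Sum.inr (Sum.inr i) => rel3_eq_zero h i

theorem inter (hg : D.Gend) (f g : A →+* A) (x : A) (h : ∀ y, x * f (D.val y) = g (D.val y) * x)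
    (r : A) : x * f r = g r * x := by
  induction hg r using Subring.closure_induction with
  | mem a ha =>
    rcases ha with ⟨y, rfl⟩ | ⟨y, rfl⟩
    · exact h (y, false)
    · exact h (y, true)
  | zero => simp
  | one => simp
  | add a b _ _ ha hb => rw [map_add, map_add, mul_add, add_mul, ha, hb]
  | neg a _ ha => rw [map_neg, map_neg, mul_neg, neg_mul, ha]
  | mul a b _ _ ha hb => rw [map_mul, map_mul, ← mul_assoc, ha, mul_assoc, hb, mul_assoc]

theorem good_of_rel123 (hg : D.Gend) (h1 : ∀ i, D.rel1 i = 0) (h2 : ∀ i, D.rel2 i = 0)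
    (h3 : ∀ i, D.rel3 i = 0) : D.Good where
  two := sub_eq_zero.1 (h1 RI1.c0)
  nat_γ := fun i b => inter hg D.φ D.φ _ fun y => sub_eq_zero.1 (h1 (RI1.c1 i b y))
  nat_u := inter hg D.φ D.φ _ fun y => sub_eq_zero.1 (h1 (RI1.c2 y))
  nat_u' := inter hg D.φ D.φ _ fun y => sub_eq_zero.1 (h1 (RI1.c3 y))
  nat_psh := fun a => inter hg D.φ D.φ _ fun y => sub_eq_zero.1 (h1 (RI1.c4 a y))
  nat_pop := fun a => inter hg D.φ D.φ _ fun y => sub_eq_zero.1 (h1 (RI1.c5 a y))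
  nat_z := inter hg (RingHom.id A) D.φ _ fun y => sub_eq_zero.1 (h1 (RI1.c6 y))
  nat_z' := inter hg D.φ (RingHom.id A) _ fun y => sub_eq_zero.1 (h1 (RI1.c7 y))
  nat_eps := inter hg D.φ (RingHom.id A) _ fun y => sub_eq_zero.1 (h1 (RI1.c8 y))
  nat_nd := inter hg (D.φ.comp D.φ) D.φ _ fun y => sub_eq_zero.1 (h1 (RI1.c9 y))
  nat_nd' := inter hg D.φ (D.φ.comp D.φ) _ fun y => sub_eq_zero.1 (h1 (RI1.c10 y))
  z'z := sub_eq_zero.1 (h1 RI1.c11)
  nd'nd := sub_eq_zero.1 (h1 RI1.c12)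
  pop_psh := fun a b => sub_eq_zero.1 (h1 (RI1.c13 a b))
  z'psh := fun a => sub_eq_zero.1 (h1 (RI1.c14 a))
  pop_z := fun a => sub_eq_zero.1 (h2 (RI2.c15 a))
  pop_nd := fun a => sub_eq_zero.1 (h2 (RI2.c16 a))
  nd'psh := fun a => sub_eq_zero.1 (h2 (RI2.c17 a))
  u'u := sub_eq_zero.1 (h2 RI2.c18)
  uu' := sub_eq_zero.1 (h2 RI2.c19)
  γu := fun i b => sub_eq_zero.1 (h2 (RI2.c20 i b))
  γz := fun i b => sub_eq_zero.1 (h2 (RI2.c21 i b))
  z'γ := fun i b => sub_eq_zero.1 (h2 (RI2.c22 i b))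
  γpsh := fun i b a => sub_eq_zero.1 (h2 (RI2.c23 i b a))
  upsh := fun a => sub_eq_zero.1 (h2 (RI2.c24 a))
  popγ := fun i b a => sub_eq_zero.1 (h2 (RI2.c25 i b a))
  popu := fun a => sub_eq_zero.1 (h2 (RI2.c26 a))
  eps_z := sub_eq_zero.1 (h2 RI2.c27)
  eps_psh := fun a => sub_eq_zero.1 (h2 (RI2.c28 a))
  eps_γ := fun i b => sub_eq_zero.1 (h2 (RI2.c29 i b))
  eps_u := sub_eq_zero.1 (h3 RI3.c30)
  eps_nd := sub_eq_zero.1 (h3 RI3.c31)
  E_γ := fun s i b => sub_eq_zero.1 (h3 (RI3.c32 s i b))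
  E_u := fun s => sub_eq_zero.1 (h3 (RI3.c33 s))
  ev_psh := fun m a => sub_eq_zero.1 (h3 (RI3.c34 m a))
  ev_z := fun m => sub_eq_zero.1 (h3 (RI3.c35 m))
  ev_nd := fun m => sub_eq_zero.1 (h3 (RI3.c36 m))
  rs_psh := fun a => sub_eq_zero.1 (h3 (RI3.c37 a))
  rs_z := sub_eq_zero.1 (h3 RI3.c38)
  rs_nd := sub_eq_zero.1 (h3 RI3.c39)
  fwd := fun q a => sub_eq_zero.1 (h3 (RI3.c40 q a))
  bwd := fun q => sub_eq_zero.1 (h3 (RI3.c41 q))
  halt := fun q => sub_eq_zero.1 (h3 (RI3.c42 q))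
  link := sub_eq_zero.1 (h3 RI3.c43)

theorem good_of_rel (hg : D.Gend) (h : ∀ i, D.rel i = 0) : D.Good :=
  good_of_rel123 hg (fun i => h (Sum.inl i)) (fun i => h (Sum.inr (Sum.inl i)))
    (fun i => h (Sum.inr (Sum.inr i)))

end

/-- A family of generators from a function on names. -/
def ofFun {n : ℕ} {S : Sys n} {A : Type*} [Ring A] (φ : A →+* A) (g : XG S → A) : Gens S A where
  φ := φ
  γ := fun i b => g (XG.γ i b)
  u := g XG.u
  u' := g XG.u'
  z := g XG.z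
  z' := g XG.z'
  nd := g XG.nd
  nd' := g XG.nd'
  eps := g XG.eps
  psh := fun a => g (XG.psh a)
  pop := fun a => g (XG.pop a)
  E := fun s => g (XG.E s)

theorem gen_ofFun {n : ℕ} {S : Sys n} {A : Type*} [Ring A] (φ : A →+* A) (g : XG S → A)
    (x : XG S) : (ofFun φ g).gen x = g x := by
  cases x <;> rfl

section

variable {n : ℕ} {S : Sys n} {A B : Type*} [Ring A] [Ring B]

/-- Ring maps compatible with the generators. -/
structure IsHom (f : A →+* B) (D : Gens S A) (D' : Gens S B) : Prop where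
  gen : ∀ x, f (D.gen x) = D'.gen x
  phi : ∀ a, f (D.φ a) = D'.φ (f a)

variable {f : A →+* B} {D : Gens S A} {D' : Gens S B} (h : IsHom f D D')
include h

theorem IsHom.γ (i : Fin n) (b : Bool) : f (D.γ i b) = D'.γ i b := h.gen (XG.γ i b)
theorem IsHom.u : f D.u = D'.u := h.gen XG.u
theorem IsHom.u' : f D.u' = D'.u' := h.gen XG.u'
theorem IsHom.z : f D.z = D'.z := h.gen XG.z
theorem IsHom.z' : f D.z' = D'.z' := h.gen XG.z'
theorem IsHom.nd : f D.nd = D'.nd := h.gen XG.nd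
theorem IsHom.nd' : f D.nd' = D'.nd' := h.gen XG.nd'
theorem IsHom.eps : f D.eps = D'.eps := h.gen XG.eps
theorem IsHom.psh (a : S.Λ) : f (D.psh a) = D'.psh a := h.gen (XG.psh a)
theorem IsHom.pop (a : S.Λ) : f (D.pop a) = D'.pop a := h.gen (XG.pop a)
theorem IsHom.E (s : Sta S.Q) : f (D.E s) = D'.E s := h.gen (XG.E s)

theorem IsHom.val : ∀ y, f (D.val y) = D'.val y
  | (x, false) => h.gen x
  | (x, true) => (h.phi _).trans (congrArg D'.φ (h.gen x))

theorem IsHom.basOp (b : Bas n) : f (D.basOp b) = D'.basOp b := by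
  cases b
  exacts [h.γ _ _, h.u, h.u', h.z, h.z', h.nd, h.nd']

theorem IsHom.evOp (m : Mode) (a : S.Λ) : f (D.evOp m a) = D'.evOp m a := by
  cases m
  · cases a
    exacts [h.basOp _, map_one f, map_one f, map_zero f, map_zero f, map_zero f]
  · exact h.psh a
  · exact h.pop a

theorem IsHom.pshW (w : List S.Λ) : f (D.pshW w) = D'.pshW w := by
  induction w with
  | nil => exact map_one f
  | cons a w ih => rw [Gens.pshW, Gens.pshW, map_mul, h.psh, ih]

theorem IsHom.popW (w : List S.Λ) : f (D.popW w) = D'.popW w := by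
  induction w with
  | nil => exact map_one f
  | cons a w ih => rw [Gens.popW, Gens.popW, map_mul, h.pop, ih]

theorem IsHom.regOp (a b : SP S.Λ) : f (D.regOp a b) = D'.regOp a b := by
  unfold Gens.regOp
  rw [map_mul, map_mul, h.pshW, h.popW]
  split_ifs
  · rw [map_one]
  · rw [map_mul, h.z, h.z']

theorem IsHom.opS : ∀ (L L' : List (SP S.Λ)), f (D.opS L L') = D'.opS L L'
  | [], _ => map_one f
  | _ :: _, [] => map_one f
  | a :: L, b :: L' => by rw [Gens.opS, Gens.opS, map_mul, h.regOp, h.phi, IsHom.opS L L']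

theorem IsHom.stP (q : S.Q) : f (D.stP q) = D'.stP q := by
  unfold Gens.stP
  split_ifs
  · rw [map_mul, map_pow, map_pow, h.z, h.z']
  · exact map_zero f

theorem IsHom.rel1 (i : RI1 S) : f (D.rel1 i) = D'.rel1 i := by
  cases i <;> simp only [Gens.rel1, map_sub, map_mul, map_add, map_one, map_zero, apply_ite f,
    h.γ, h.u, h.u', h.z, h.z', h.nd, h.nd', h.eps, h.psh, h.pop, h.phi, h.val]

theorem IsHom.rel2 (i : RI2 S) : f (D.rel2 i) = D'.rel2 i := by
  cases i <;> simp only [Gens.rel2, map_sub, map_mul, map_add, map_one, map_zero,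
    h.γ, h.u, h.u', h.z, h.z', h.nd, h.nd', h.eps, h.psh, h.pop]

theorem IsHom.rel3 (i : RI3 S) : f (D.rel3 i) = D'.rel3 i := by
  cases i <;> simp only [Gens.rel3, map_sub f, map_mul f, map_add f, map_one f, map_zero f,
    map_pow f, map_sum f, apply_ite f, h.γ, h.u, h.z, h.z', h.nd, h.eps, h.psh, h.phi, h.E,
    h.evOp, h.opS, h.stP]

theorem IsHom.rel : ∀ i : RI S, f (D.rel i) = D'.rel i
  | Sum.inl i => h.rel1 i
  | Sum.inr (Sum.inl i) => h.rel2 i
  | Sum.inr (Sum.inr i) => h.rel3 i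

end

end Gens

section

variable {n : ℕ} (S : Sys n)

/-- The shift on free generators. -/
def shF : XG S × Bool → FreeRing (XG S × Bool)
  | (x, false) => FreeRing.of (x, true)
  | (x, true) => FreeRing.of (XG.nd', false) * FreeRing.of (x, true) * FreeRing.of (XG.nd, false)

/-- The free family of generators. -/
def gensF : Gens S (FreeRing (XG S × Bool)) :=
  Gens.ofFun (FreeRing.lift (shF S)) (fun x => FreeRing.of (x, false))

theorem val_gensF : ∀ y, (gensF S).val y = FreeRing.of y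
  | (x, false) => Gens.gen_ofFun _ _ x
  | (x, true) => by
    show FreeRing.lift (shF S) ((gensF S).gen x) = _
    rw [gensF, Gens.gen_ofFun, FreeRing.lift_of]; rfl

/-- The finite set of relators. -/
def relSet : Set (FreeRing (XG S × Bool)) :=
  Set.range (gensF S).rel ∪ Set.range (fun i => (gensF S).φ ((gensF S).rel i))

/-- The relation defining the universal ring. -/
def relR (a b : FreeRing (XG S × Bool)) : Prop := a ∈ relSet S ∧ b = 0

theorem mk_relSet {a : FreeRing (XG S × Bool)} (ha : a ∈ relSet S) :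
    RingQuot.mkRingHom (relR S) a = 0 :=
  (RingQuot.mkRingHom_rel (r := relR S) ⟨ha, rfl⟩).trans (map_zero _)

theorem mk_phi_phi (a : FreeRing (XG S × Bool)) :
    RingQuot.mkRingHom (relR S) ((gensF S).φ ((gensF S).φ a)) =
      RingQuot.mkRingHom (relR S) (gensF S).nd' * RingQuot.mkRingHom (relR S) ((gensF S).φ a) *
        RingQuot.mkRingHom (relR S) (gensF S).nd := by
  set π := RingQuot.mkRingHom (relR S)
  have h1 : π (gensF S).nd' * π (gensF S).nd = 1 := by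
    have := mk_relSet S (Or.inl ⟨Sum.inl RI1.c12, rfl⟩)
    change π ((gensF S).nd' * (gensF S).nd - 1) = 0 at this
    rwa [map_sub, map_mul, map_one, sub_eq_zero] at this
  have h2 : π (gensF S).nd * π ((gensF S).φ ((gensF S).φ a)) = π ((gensF S).φ a) * π (gensF S).nd := by
    induction a using FreeRing.induction_on with
    | hn1 => simp
    | hb y =>
      have := mk_relSet S (Or.inl ⟨Sum.inl (RI1.c9 y), rfl⟩)
      change π ((gensF S).nd * (gensF S).φ ((gensF S).φ ((gensF S).val y))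
        - (gensF S).φ ((gensF S).val y) * (gensF S).nd) = 0 at this
      rwa [map_sub, map_mul, map_mul, sub_eq_zero, val_gensF] at this
    | ha a b ha hb => simp only [map_add, mul_add, add_mul, ha, hb]
    | hm a b ha hb =>
      simp only [map_mul]
      rw [← mul_assoc, ha, mul_assoc, hb, mul_assoc]
  rw [mul_assoc, ← h2, ← mul_assoc, h1, one_mul]

/-- The shift on the universal ring. -/
def shR : RingQuot (relR S) →+* RingQuot (relR S) :=
  RingQuot.lift ⟨(RingQuot.mkRingHom (relR S)).comp (gensF S).φ, by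
    rintro a b ⟨ha, rfl⟩
    rw [map_zero, RingHom.comp_apply]
    rcases ha with ⟨i, rfl⟩ | ⟨i, rfl⟩
    · exact mk_relSet S (Or.inr ⟨i, rfl⟩)
    · rw [mk_phi_phi, mk_relSet S (Or.inr ⟨i, rfl⟩), mul_zero, zero_mul]⟩

/-- The universal family of generators. -/
def gensR : Gens S (RingQuot (relR S)) :=
  Gens.ofFun (shR S) (fun x => RingQuot.mkRingHom (relR S) (FreeRing.of (x, false)))

theorem isHom_mk : Gens.IsHom (RingQuot.mkRingHom (relR S)) (gensF S) (gensR S) where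
  gen := fun x => by rw [gensF, gensR, Gens.gen_ofFun, Gens.gen_ofFun]
  phi := fun a => by
    show _ = shR S _
    rw [shR, RingQuot.lift_mkRingHom_apply]; rfl

theorem gend_gensR : (gensR S).Gend := by
  intro r
  obtain ⟨a, rfl⟩ := RingQuot.mkRingHom_surjective (relR S) r
  induction a using FreeRing.induction_on with
  | hn1 => rw [map_neg, map_one]; exact neg_mem (one_mem _)
  | hb y =>
    rw [← val_gensF, (isHom_mk S).val]
    obtain ⟨x, _ | _⟩ := y
    · exact Subring.subset_closure (Or.inl ⟨x, rfl⟩)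
    · exact Subring.subset_closure (Or.inr ⟨x, rfl⟩)
  | ha a b ha hb => rw [map_add]; exact add_mem ha hb
  | hm a b ha hb => rw [map_mul]; exact mul_mem ha hb

theorem isHom_ev {A : Type*} [Ring A] {D : Gens S A} (h : D.Good) :
    Gens.IsHom (FreeRing.lift D.val) (gensF S) D where
  gen := fun x => by rw [gensF, Gens.gen_ofFun, FreeRing.lift_of]; rfl
  phi := fun a => by
    have : (FreeRing.lift D.val).comp (FreeRing.lift (shF S)) = D.φ.comp (FreeRing.lift D.val) := by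
      refine FreeRing.hom_ext fun y => ?_
      rw [RingHom.comp_apply, RingHom.comp_apply, FreeRing.lift_of, FreeRing.lift_of]
      obtain ⟨x, _ | _⟩ := y
      · exact FreeRing.lift_of _ _
      · rw [shF, map_mul, map_mul, FreeRing.lift_of, FreeRing.lift_of, FreeRing.lift_of]
        show D.nd' * D.φ (D.gen x) * D.nd = D.φ (D.φ (D.gen x))
        rw [mul_assoc, ← h.nat_nd, ← mul_assoc, h.nd'nd, one_mul]
    exact RingHom.congr_fun this a

end

theorem exists_pres {n : ℕ} (S : Sys n) :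
    ∃ (R : Type) (_ : Ring R) (D : Gens S R), D.Good ∧ D.Gend ∧ RingFP R ∧
      ∀ (A : Type v) [Ring A] (D' : Gens S A), D'.Good → Nonempty (R →+* A) := by
  have hl : FreeRing.lift (fun y => RingQuot.mkRingHom (relR S) (FreeRing.of y))
      = RingQuot.mkRingHom (relR S) := FreeRing.hom_ext fun y => FreeRing.lift_of _ _
  refine ⟨RingQuot (relR S), inferInstance, gensR S, Gens.good_of_rel (gend_gensR S) fun i => ?_,
    gend_gensR S, ⟨XG S × Bool, inferInstance,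
      fun y => RingQuot.mkRingHom (relR S) (FreeRing.of y), relSet S,
      (Set.finite_range _).union (Set.finite_range _), ?_, fun r hr => ?_, fun A _ f hf => ?_⟩,
    fun A _ D' h => ?_⟩
  · rw [← (isHom_mk S).rel]; exact mk_relSet S (Or.inl ⟨i, rfl⟩)
  · rw [hl]; exact RingQuot.mkRingHom_surjective _
  · rw [hl]; exact mk_relSet S hr
  · refine ⟨RingQuot.lift ⟨FreeRing.lift f, ?_⟩, fun x => ?_⟩
    · rintro a b ⟨ha, rfl⟩
      rw [hf a ha, map_zero]
    · rw [RingQuot.lift_mkRingHom_apply, FreeRing.lift_of]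
  · refine ⟨RingQuot.lift ⟨FreeRing.lift D'.val, ?_⟩⟩
    rintro a b ⟨ha, rfl⟩
    rw [map_zero]
    rcases ha with ⟨i, rfl⟩ | ⟨i, rfl⟩
    · rw [(isHom_ev S h).rel, Gens.rel_eq_zero h]
    · rw [(isHom_ev S h).phi, (isHom_ev S h).rel, Gens.rel_eq_zero h, map_zero]

end Vale.Agent.P193
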