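import Vale.Agent.P193.GMain
import Vale.Agent.P193.RPres
import Vale.Agent.P193.RModel
import Vale.Agent.P193.RMach
import Vale.Agent.P193.RPI

/-!
The Boone-Higman theorem.
-/

namespace Vale.Agent.P193

universe v

theorem boone_higman (G : Type v) [Group G] (n : ℕ) (s : Fin n → G)
    (hs : Subgroup.closure (Set.range s) = ⊤)
    (hWP : ComputablePred fun w : List (Fin n × Bool) =>
      (w.map fun p => if p.2 then s p.1 else (s p.1)⁻¹).prod = 1) :
    ∃ (H : Type) (_ : Group H), IsSimpleGroup H ∧ Group.IsFinitelyPresented H ∧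
      ∃ f : G →* H, Function.Injective f := by
  obtain ⟨S, ok⟩ := exists_sys s hWP
  obtain ⟨R, _, D, hD, hG, hfp, huniv⟩ := exists_pres.{v} S
  obtain ⟨A, _, D', hD', hA⟩ := exists_model s S ok
  obtain ⟨g⟩ := huniv A D' hD'
  have h1 : (1 : R) ≠ 0 := by
    intro h
    apply hA
    rw [← map_one g, h, map_zero]
  obtain ⟨⟨N⟩, ρ, hρ⟩ := nice_of_good ok hs D hD hG h1
  obtain ⟨H, _, hsimple, hH, f, hf⟩ := group_main N hfp
  exact ⟨H, inferInstance, hsimple, hH, f.comp ρ, hf.comp hρ⟩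

end Vale.Agent.P193
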