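import Vale.Agent.P193.RDefs

/-!
Kets and bras: terms and patterns as ring elements, naturality.
-/

namespace Vale.Agent.P193

universe v

/-- Patterns. -/
inductive Pat (G : Type v) (Λ : Type) : Type v
  | hole
  | eps
  | atom (k : ℕ)
  | psh (a : Λ) (p : Pat G Λ)
  | nd (g : G) (k : ℤ) (p p' : Pat G Λ)

namespace Tm

variable {G : Type v} {Λ : Type}

/-- Number of holes. -/
def holes : Tm G Λ → ℕ
  | hole _ _ => 1
  | atom _ => 0
  | psh _ t => holes t
  | nd _ _ t t' => holes t + holes t'

/-- Number of holes of a list. -/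
def holesL : List (Tm G Λ) → ℕ
  | [] => 0
  | t :: T => holes t + holesL T

theorem holesL_append (T T' : List (Tm G Λ)) : holesL (T ++ T') = holesL T + holesL T' := by
  induction T with
  | nil => simp [holesL]
  | cons t T ih => simp [holesL, ih, add_assoc]

theorem holesL_replicate_hole (g : G) (k : ℤ) (j : ℕ) :
    holesL (List.replicate j (hole g k : Tm G Λ)) = j := by
  induction j with
  | zero => rfl
  | succ j ih => simp [List.replicate_succ, holesL, holes, ih, add_comm]

theorem holes_pushW (w : List Λ) (t : Tm G Λ) : holes (pushW w t) = holes t := by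
  induction w with
  | nil => rfl
  | cons a w ih => simpa [pushW, holes] using ih

theorem pushW_append (w w' : List Λ) (t : Tm G Λ) :
    pushW (w ++ w') t = pushW w (pushW w' t) := by
  induction w with
  | nil => rfl
  | cons a w ih => simp [pushW, ih]

theorem er_pushW (w : List Λ) (t : Tm G Λ) : Er (pushW w t) ↔ Er t := by
  induction w with
  | nil => rfl
  | cons a w ih => simpa [pushW, Er] using ih

theorem isZ_iff (t : Tm G Λ) : isZ t = true ↔ t = atom 0 := by
  cases t with
  | atom k => cases k <;> simp [isZ]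
  | _ => simp [isZ]

end Tm

namespace Pat

variable {G : Type v} {Λ : Type}

/-- Number of holes. -/
def holes : Pat G Λ → ℕ
  | hole => 1
  | eps => 0
  | atom _ => 0
  | psh _ t => holes t
  | nd _ _ t t' => holes t + holes t'

/-- Number of holes of a list. -/
def holesL : List (Pat G Λ) → ℕ
  | [] => 0
  | t :: T => holes t + holesL T

theorem holesL_append (T T' : List (Pat G Λ)) : holesL (T ++ T') = holesL T + holesL T' := by
  induction T with
  | nil => simp [holesL]
  | cons t T ih => simp [holesL, ih, add_assoc]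

theorem holesL_replicate_hole (j : ℕ) : holesL (List.replicate j (hole : Pat G Λ)) = j := by
  induction j with
  | zero => rfl
  | succ j ih => simp [List.replicate_succ, holesL, holes, ih, add_comm]

end Pat

section Words

variable {n : ℕ} {G : Type v} [Group G] (s : Fin n → G)

theorem lblG_append (w w' : List (Bas n)) : lblG s (w ++ w') = lblG s w' * lblG s w := by
  induction w with
  | nil => simp [lblG]
  | cons a w ih => cases a <;> simp [lblG, ih, mul_assoc]

theorem lblZ_append (w w' : List (Bas n)) : lblZ (w ++ w') = lblZ w + lblZ w' := by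
  induction w with
  | nil => simp [lblZ]
  | cons a w ih => cases a <;> simp [lblZ, ih] <;> ring

theorem lblZ_gen {w : List (Bas n)} (h : ∀ a ∈ w, a.isGen = true) : lblZ w = 0 := by
  induction w with
  | nil => rfl
  | cons a w ih =>
    have ha := h a (by simp)
    have := ih (fun b hb => h b (by simp [hb]))
    cases a <;> simp_all [lblZ, Bas.isGen]

theorem isLab_of_isGen {a : Bas n} (h : a.isGen = true) : a.isLab = true := by
  cases a <;> simp_all [Bas.isGen, Bas.isLab]

theorem exists_rep (hs : Subgroup.closure (Set.range s) = ⊤) (g : G) :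
    ∃ w : List (Bas n), (∀ a ∈ w, a.isGen = true) ∧ lblG s w = g ∧ (g = 1 → w = []) := by
  by_cases h1 : g = 1
  · exact ⟨[], by simp, by simp [lblG, h1], fun _ => rfl⟩
  suffices ∃ w : List (Bas n), (∀ a ∈ w, a.isGen = true) ∧ lblG s w = g by
    obtain ⟨w, h, h'⟩ := this
    exact ⟨w, h, h', fun e => (h1 e).elim⟩
  clear h1
  have hg : g ∈ Subgroup.closure (Set.range s) := hs ▸ Subgroup.mem_top g
  induction hg using Subgroup.closure_induction'' with
  | mem x hx =>
    obtain ⟨i, rfl⟩ := hx
    exact ⟨[Bas.gen i true], by simp [Bas.isGen], by simp [lblG, gval]⟩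
  | inv_mem x hx =>
    obtain ⟨i, rfl⟩ := hx
    exact ⟨[Bas.gen i false], by simp [Bas.isGen], by simp [lblG, gval]⟩
  | one => exact ⟨[], by simp, rfl⟩
  | mul x y _ _ hx hy =>
    obtain ⟨w, h, rfl⟩ := hx
    obtain ⟨w', h', rfl⟩ := hy
    refine ⟨w' ++ w, ?_, lblG_append s _ _⟩
    intro a ha
    rcases List.mem_append.mp ha with ha | ha
    exacts [h' a ha, h a ha]

end Words

/-- The data of the normal form theory. -/
structure Ctx {n : ℕ} (G : Type v) [Group G] (S : Sys n) (A : Type) [Ring A] where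
  s : Fin n → G
  hs : Subgroup.closure (Set.range s) = ⊤
  ok : S.OK s
  D : Gens S A
  hD : D.Good

namespace Ctx

variable {n : ℕ} {G : Type v} [Group G] {S : Sys n} {A : Type} [Ring A] (C : Ctx G S A)

/-- A program as a ring element (the first letter acts first). -/
def run : List (Bas n) → A
  | [] => 1
  | a :: w => run w * C.D.basOp a

theorem run_append (w w' : List (Bas n)) : C.run (w ++ w') = C.run w' * C.run w := by
  induction w with
  | nil => simp [run]
  | cons a w ih => simp [run, ih, mul_assoc]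

/-- A chosen word for a group element. -/
noncomputable def rep (g : G) : List (Bas n) := (exists_rep C.s C.hs g).choose

theorem rep_gen (g : G) : ∀ a ∈ C.rep g, a.isGen = true := (exists_rep C.s C.hs g).choose_spec.1

theorem rep_lbl (g : G) : lblG C.s (C.rep g) = g := (exists_rep C.s C.hs g).choose_spec.2.1

theorem rep_one : C.rep 1 = [] := (exists_rep C.s C.hs 1).choose_spec.2.2 rfl

/-- The word for a power of `u`. -/
def uW : ℤ → List (Bas n)
  | Int.ofNat k => List.replicate k Bas.u
  | Int.negSucc k => List.replicate (k + 1) Bas.u'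

/-- The word of a label. -/
noncomputable def labW (g : G) (k : ℤ) : List (Bas n) := uW k ++ C.rep g

theorem labW_lab (g : G) (k : ℤ) : ∀ a ∈ C.labW g k, a.isLab = true := by
  intro a ha
  rcases List.mem_append.mp ha with ha | ha
  · cases k <;> simp only [uW, List.mem_replicate] at ha <;> rw [ha.2] <;> rfl
  · exact isLab_of_isGen (C.rep_gen g a ha)

theorem lblG_replicate_u (k : ℕ) : lblG C.s (List.replicate k Bas.u) = 1 := by
  induction k with
  | zero => rfl
  | succ k ih => simpa [List.replicate_succ, lblG] using ih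

theorem lblG_replicate_u' (k : ℕ) : lblG C.s (List.replicate k Bas.u') = 1 := by
  induction k with
  | zero => rfl
  | succ k ih => simpa [List.replicate_succ, lblG] using ih

theorem lblZ_replicate_u (k : ℕ) : lblZ (List.replicate k (Bas.u : Bas n)) = k := by
  induction k with
  | zero => rfl
  | succ k ih => simp [List.replicate_succ, lblZ, ih]

theorem lblZ_replicate_u' (k : ℕ) : lblZ (List.replicate k (Bas.u' : Bas n)) = -k := by
  induction k with
  | zero => rfl
  | succ k ih => simp [List.replicate_succ, lblZ, ih]; ring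

theorem labW_G (g : G) (k : ℤ) : lblG C.s (C.labW g k) = g := by
  rw [labW, lblG_append, C.rep_lbl]
  cases k <;> simp [uW, lblG_replicate_u, lblG_replicate_u']

theorem labW_Z (g : G) (k : ℤ) : lblZ (C.labW g k) = k := by
  rw [labW, lblZ_append, lblZ_gen (C.rep_gen g), add_zero]
  cases k with
  | ofNat k => simp [uW, lblZ_replicate_u]
  | negSucc k => rw [uW, lblZ_replicate_u', Int.negSucc_eq]; push_cast; ring

theorem run_replicate (a : Bas n) (k : ℕ) : C.run (List.replicate k a) = C.D.basOp a ^ k := by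
  induction k with
  | zero => simp [run]
  | succ k ih => simp [List.replicate_succ, run, ih, pow_succ]

/-- A label as a ring element. -/
noncomputable def lab (g : G) (k : ℤ) : A := C.run (C.labW g k)

theorem lab_one : C.lab 1 0 = 1 := by
  have : (uW 0 : List (Bas n)) = [] := rfl
  simp [lab, labW, C.rep_one, this, run]

/-- Iterates of `φ`. -/
def φp : ℕ → (A →+* A)
  | 0 => RingHom.id A
  | j + 1 => C.D.φ.comp (φp j)

@[simp] theorem φp_zero (r : A) : C.φp 0 r = r := rfl

theorem φp_succ (j : ℕ) (r : A) : C.φp (j + 1) r = C.D.φ (C.φp j r) := rfl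

theorem φp_add (i j : ℕ) (r : A) : C.φp (i + j) r = C.φp i (C.φp j r) := by
  induction i with
  | zero => simp
  | succ i ih => rw [Nat.succ_add, φp_succ, φp_succ, ih]

theorem φp_succ' (j : ℕ) (r : A) : C.φp (j + 1) r = C.φp j (C.D.φ r) := C.φp_add j 1 r

/-! Consequences of the relations. -/

theorem z'u : C.D.z' * C.D.u = 0 := by
  have h : C.D.z' * (C.D.z * C.D.z' + C.D.u * C.D.u') * C.D.u = C.D.z' * C.D.u := by
    rw [C.hD.uu', mul_one]
  have e : C.D.z' * (C.D.z * C.D.z' + C.D.u * C.D.u') * C.D.u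
      = (C.D.z' * C.D.z) * C.D.z' * C.D.u + C.D.z' * C.D.u * (C.D.u' * C.D.u) := by noncomm_ring
  rw [e, C.hD.z'z, C.hD.u'u, one_mul, mul_one] at h
  exact left_eq_add.mp h.symm

theorem u'z : C.D.u' * C.D.z = 0 := by
  have h : C.D.u' * (C.D.z * C.D.z' + C.D.u * C.D.u') * C.D.z = C.D.u' * C.D.z := by
    rw [C.hD.uu', mul_one]
  have e : C.D.u' * (C.D.z * C.D.z' + C.D.u * C.D.u') * C.D.z
      = C.D.u' * C.D.z * (C.D.z' * C.D.z) + (C.D.u' * C.D.u) * C.D.u' * C.D.z := by noncomm_ring
  rw [e, C.hD.z'z, C.hD.u'u, one_mul, mul_one] at h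
  exact left_eq_add.mp h.symm

theorem uu'_eq : C.D.u * C.D.u' = 1 - C.D.z * C.D.z' := by
  rw [← C.hD.uu']; abel

theorem u'psh (a : S.Λ) : C.D.u' * C.D.psh a = C.D.psh a := by
  conv_lhs => rw [← C.hD.upsh a, ← mul_assoc, C.hD.u'u, one_mul]

theorem popu' (a : S.Λ) : C.D.pop a * C.D.u' = C.D.pop a := by
  conv_lhs => rw [← C.hD.popu a, mul_assoc, C.uu'_eq, mul_sub, mul_one, ← mul_assoc,
    C.hD.pop_z, zero_mul, sub_zero]

theorem γu' (i : Fin n) (b : Bool) : C.D.γ i b * C.D.u' = C.D.u' * C.D.γ i b := by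
  calc C.D.γ i b * C.D.u' = (C.D.u' * C.D.u) * C.D.γ i b * C.D.u' := by rw [C.hD.u'u, one_mul]
    _ = C.D.u' * (C.D.γ i b * (C.D.u * C.D.u')) := by
        rw [mul_assoc C.D.u', ← C.hD.γu]; simp only [mul_assoc]
    _ = C.D.u' * C.D.γ i b := by
        rw [C.uu'_eq, mul_sub, mul_one, ← mul_assoc _ C.D.z, C.hD.γz, mul_sub, ← mul_assoc,
          C.u'z, zero_mul, sub_zero]

include C in
theorem neg_eq (x : A) : -x = x := by
  have : x + x = 0 := by rw [← one_mul x, ← add_mul, C.hD.two, zero_mul]
  exact neg_eq_of_add_eq_zero_left this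

theorem run_nat {w : List (Bas n)} (h : ∀ a ∈ w, a.isLab = true) (r : A) :
    C.run w * C.D.φ r = C.D.φ r * C.run w := by
  induction w with
  | nil => simp [run]
  | cons a w ih =>
    have ha := h a (by simp)
    have ih := ih (fun b hb => h b (by simp [hb]))
    have : C.D.basOp a * C.D.φ r = C.D.φ r * C.D.basOp a := by
      cases a <;> simp [Bas.isLab] at ha <;> simp [Gens.basOp, C.hD.nat_γ, C.hD.nat_u, C.hD.nat_u']
    rw [run, mul_assoc, this, ← mul_assoc, ih, mul_assoc]

theorem run_psh {w : List (Bas n)} (h : ∀ a ∈ w, a.isLab = true) (c : S.Λ) :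
    C.run w * C.D.psh c = C.D.psh c := by
  induction w with
  | nil => simp [run]
  | cons a w ih =>
    have ha := h a (by simp)
    have ih := ih (fun b hb => h b (by simp [hb]))
    have : C.D.basOp a * C.D.psh c = C.D.psh c := by
      cases a <;> simp [Bas.isLab] at ha <;> simp [Gens.basOp, C.hD.γpsh, C.hD.upsh, C.u'psh]
    rw [run, mul_assoc, this, ih]

theorem pop_run {w : List (Bas n)} (h : ∀ a ∈ w, a.isLab = true) (c : S.Λ) :
    C.D.pop c * C.run w = C.D.pop c := by
  induction w with
  | nil => simp [run]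
  | cons a w ih =>
    have ha := h a (by simp)
    have ih := ih (fun b hb => h b (by simp [hb]))
    have : C.D.pop c * C.D.basOp a = C.D.pop c := by
      cases a <;> simp [Bas.isLab] at ha <;> simp [Gens.basOp, C.hD.popγ, C.hD.popu, C.popu']
    rw [run, ← mul_assoc, ih, this]

theorem lab_nat (g : G) (k : ℤ) (r : A) : C.lab g k * C.D.φ r = C.D.φ r * C.lab g k :=
  C.run_nat (C.labW_lab g k) r

theorem lab_psh (g : G) (k : ℤ) (c : S.Λ) : C.lab g k * C.D.psh c = C.D.psh c :=
  C.run_psh (C.labW_lab g k) c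

theorem pop_lab (g : G) (k : ℤ) (c : S.Λ) : C.D.pop c * C.lab g k = C.D.pop c :=
  C.pop_run (C.labW_lab g k) c

theorem upow_nat (k : ℕ) (r : A) : C.D.u ^ k * C.D.φ r = C.D.φ r * C.D.u ^ k :=
  (Commute.pow_left (C.hD.nat_u r) k).eq

theorem u'pow_nat (k : ℕ) (r : A) : C.D.u' ^ k * C.D.φ r = C.D.φ r * C.D.u' ^ k :=
  (Commute.pow_left (C.hD.nat_u' r) k).eq

/-- A term on top of the continuation `r`. -/
noncomputable def ket : Tm G S.Λ → A → A
  | Tm.hole g k, r => C.lab g k * C.D.φ r
  | Tm.atom k, r => C.D.u ^ k * C.D.z * r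
  | Tm.psh a t, r => C.D.psh a * ket t r
  | Tm.nd g k t t', r => C.lab g k * C.D.nd * ket t (ket t' r)

/-- A list of terms as a ring element. -/
noncomputable def ketL : List (Tm G S.Λ) → A
  | [] => 1
  | t :: T => C.ket t (ketL T)

/-- A pattern followed by the continuation `r`. -/
noncomputable def bra : Pat G S.Λ → A → A
  | Pat.hole, r => C.D.φ r
  | Pat.eps, r => r * C.D.eps
  | Pat.atom k, r => r * C.D.z' * C.D.u' ^ k
  | Pat.psh a p, r => bra p r * C.D.pop a
  | Pat.nd g k p p', r => bra p (bra p' r) * C.D.nd' * C.lab g⁻¹ (-k)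

/-- A list of patterns as a ring element. -/
noncomputable def braL : List (Pat G S.Λ) → A
  | [] => 1
  | p :: P => C.bra p (braL P)

theorem φ_ket (t : Tm G S.Λ) (r x : A) : C.D.φ r * C.ket t x = C.ket t (r * x) := by
  induction t generalizing r x with
  | hole g k => rw [ket, ket, ← mul_assoc, ← C.lab_nat, mul_assoc, map_mul]
  | atom k =>
    rw [ket, ket, mul_assoc (C.D.u ^ k), ← mul_assoc, ← C.upow_nat, mul_assoc, ← mul_assoc _ C.D.z,
      ← C.hD.nat_z]
    simp only [mul_assoc]
  | psh a t ih => rw [ket, ket, ← mul_assoc, ← C.hD.nat_psh, mul_assoc, ih]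
  | nd g k t t' ih ih' =>
    rw [ket, ket, ← ih', ← ih, ← mul_assoc, ← mul_assoc, ← C.lab_nat, mul_assoc (C.lab g k),
      ← C.hD.nat_nd]
    simp only [mul_assoc]

theorem ket_φp (t : Tm G S.Λ) (x y : A) : C.ket t x * C.φp t.holes y = C.ket t (x * y) := by
  induction t generalizing x y with
  | hole g k => simp [ket, Tm.holes, φp_succ, mul_assoc]
  | atom k => simp [ket, Tm.holes, mul_assoc]
  | psh a t ih => rw [ket, ket, Tm.holes, mul_assoc, ih]
  | nd g k t t' ih ih' => rw [ket, ket, Tm.holes, mul_assoc, φp_add, ih, ih']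

theorem ket_eq (t : Tm G S.Λ) (x : A) : C.ket t x = C.D.φ x * C.ket t 1 := by
  rw [φ_ket, mul_one]

theorem ket_zero (t : Tm G S.Λ) : C.ket t 0 = 0 := by rw [ket_eq]; simp

theorem ket_add (t : Tm G S.Λ) (x y : A) : C.ket t (x + y) = C.ket t x + C.ket t y := by
  rw [ket_eq, C.ket_eq t x, C.ket_eq t y, map_add, add_mul]

theorem ket_closed {t : Tm G S.Λ} (h : t.holes = 0) (x y : A) :
    C.ket t x * y = C.ket t (x * y) := by
  rw [← C.ket_φp, h, φp_zero]

theorem bra_φ (p : Pat G S.Λ) (x r : A) : C.bra p x * C.D.φ r = C.bra p (x * r) := by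
  induction p generalizing r x with
  | hole => simp [bra]
  | eps => rw [bra, bra, mul_assoc, C.hD.nat_eps, mul_assoc]
  | atom k =>
    rw [bra, bra, mul_assoc, C.u'pow_nat, ← mul_assoc, mul_assoc x, C.hD.nat_z']
    simp only [mul_assoc]
  | psh a t ih => rw [bra, bra, mul_assoc, C.hD.nat_pop, ← mul_assoc, ih]
  | nd g k t t' ih ih' =>
    rw [bra, bra, ← ih', ← ih, mul_assoc, C.lab_nat, ← mul_assoc, mul_assoc _ C.D.nd',
      C.hD.nat_nd']
    simp only [mul_assoc]

theorem φp_bra (p : Pat G S.Λ) (x y : A) : C.φp p.holes y * C.bra p x = C.bra p (y * x) := by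
  induction p generalizing x y with
  | hole => simp [bra, Pat.holes, φp_succ]
  | eps => simp [bra, Pat.holes, mul_assoc]
  | atom k => simp [bra, Pat.holes, mul_assoc]
  | psh a t ih => rw [bra, bra, Pat.holes, ← mul_assoc, ih]
  | nd g k t t' ih ih' =>
    rw [bra, bra, Pat.holes, ← mul_assoc, ← mul_assoc, φp_add, ih, ih']

theorem bra_eq (p : Pat G S.Λ) (x : A) : C.bra p x = C.bra p 1 * C.D.φ x := by
  rw [bra_φ, one_mul]

theorem bra_ket_zero (p : Pat G S.Λ) (t : Tm G S.Λ) {x y : A} (h : x * y = 0) :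
    C.bra p x * C.ket t y = 0 := by
  rw [bra_eq, ket_eq, mul_assoc, ← mul_assoc (C.D.φ x), ← map_mul, h]; simp

theorem φp_ketL (T : List (Tm G S.Λ)) (y : A) :
    C.φp T.length y * C.ketL T = C.ketL T * C.φp (Tm.holesL T) y := by
  induction T generalizing y with
  | nil => simp [ketL, Tm.holesL]
  | cons t T ih =>
    rw [List.length_cons, φp_succ, ketL, φ_ket, ih, Tm.holesL, φp_add, ket_φp]

theorem ketL_append (T T' : List (Tm G S.Λ)) :
    C.ketL (T ++ T') = C.ketL T * C.φp (Tm.holesL T) (C.ketL T') := by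
  induction T with
  | nil => simp [ketL, Tm.holesL]
  | cons t T ih => rw [List.cons_append, ketL, ih, ketL, Tm.holesL, φp_add, ket_φp]

theorem braL_φp (P : List (Pat G S.Λ)) (y : A) :
    C.braL P * C.φp P.length y = C.φp (Pat.holesL P) y * C.braL P := by
  induction P generalizing y with
  | nil => simp [braL, Pat.holesL]
  | cons t T ih =>
    rw [List.length_cons, φp_succ, braL, bra_φ, ih, Pat.holesL, φp_add, φp_bra]

theorem braL_append (P P' : List (Pat G S.Λ)) :
    C.braL (P ++ P') = C.φp (Pat.holesL P) (C.braL P') * C.braL P := by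
  induction P with
  | nil => simp [braL, Pat.holesL]
  | cons t T ih => rw [List.cons_append, braL, ih, braL, Pat.holesL, φp_add, φp_bra]

theorem ketL_holes (j : ℕ) : C.ketL (List.replicate j (Tm.hole 1 0)) = 1 := by
  induction j with
  | zero => rfl
  | succ j ih => simp [List.replicate_succ, ketL, ket, ih, C.lab_one]

theorem braL_holes (j : ℕ) : C.braL (List.replicate j Pat.hole) = 1 := by
  induction j with
  | zero => rfl
  | succ j ih => simp [List.replicate_succ, braL, bra, ih]

theorem ketL_pad (T : List (Tm G S.Λ)) (j : ℕ) :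
    C.ketL (T ++ List.replicate j (Tm.hole 1 0)) = C.ketL T := by
  rw [ketL_append, ketL_holes]; simp

theorem braL_pad (P : List (Pat G S.Λ)) (j : ℕ) :
    C.braL (P ++ List.replicate j Pat.hole) = C.braL P := by
  rw [braL_append, braL_holes]; simp

theorem braL_shift (P : List (Pat G S.Λ)) (j : ℕ) :
    C.braL (List.replicate j Pat.hole ++ P) = C.φp j (C.braL P) := by
  rw [braL_append, braL_holes, Pat.holesL_replicate_hole, mul_one]

theorem ketL_append_closed {T : List (Tm G S.Λ)} (h : Tm.holesL T = 0) (T' : List (Tm G S.Λ)) :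
    C.ketL (T ++ T') = C.ketL T * C.ketL T' := by
  rw [ketL_append, h, φp_zero]

theorem ket_pushW (w : List S.Λ) (t : Tm G S.Λ) (x : A) :
    C.ket (Tm.pushW w t) x = C.D.pshW w * C.ket t x := by
  induction w with
  | nil => simp [Tm.pushW, Gens.pshW]
  | cons a w ih => simp [Tm.pushW, Gens.pshW, ket, ih, mul_assoc]

theorem ket_atom0 (x : A) : C.ket (Tm.atom 0) x = C.D.z * x := by simp [ket]

theorem ketL_atoms (j : ℕ) : C.ketL (List.replicate j (Tm.atom 0)) = C.D.z ^ j := by
  induction j with
  | zero => simp [ketL]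
  | succ j ih => simp [List.replicate_succ, ketL, ket, ih, pow_succ']

end Ctx

end Vale.Agent.P193
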