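import Vale.Agent.P193.RB1

/-!
Rules as ring elements, the forward run, and the relations derived from the machine.
-/

namespace Vale.Agent.P193

universe v

namespace Tm

variable {G : Type v} {Λ : Type} [DecidableEq Λ]

theorem strip_some {w : List Λ} {t r : Tm G Λ} (h : strip w t = some r) : t = pushW w r := by
  induction w generalizing t with
  | nil => simpa [strip, pushW] using h
  | cons a w ih =>
    cases t with
    | psh b t =>
      simp only [strip] at h
      split_ifs at h with hab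
      rw [pushW, hab, ← ih h]
    | _ => simp [strip] at h

theorem strip_pushW (w : List Λ) (r : Tm G Λ) : strip w (pushW w r) = some r := by
  induction w with
  | nil => simp [strip, pushW]
  | cons a w ih => simp [strip, pushW, ih]

theorem regStep_some {a b : SP Λ} {t t' : Tm G Λ} (h : regStep a b t = some t') :
    ∃ r, t = pushW a.1 r ∧ t' = pushW b.1 r ∧ (a.2 = true ∨ r = atom 0) := by
  unfold regStep at h
  split at h
  · simp at h
  · rename_i r hr
    split_ifs at h with hc
    refine ⟨r, strip_some hr, by simpa using h.symm, ?_⟩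
    rwa [isZ_iff] at hc

theorem regStep_pushW (a b : SP Λ) (r : Tm G Λ) (h : a.2 = true ∨ r = atom 0) :
    regStep a b (pushW a.1 r) = some (pushW b.1 r) := by
  unfold regStep
  rw [strip_pushW]
  exact if_pos (h.imp id (isZ_iff r).mpr)

theorem stepS_nil_left (B : List (SP Λ)) (T : List (Tm G Λ)) : stepS [] B T = some T := by
  cases B <;> cases T <;> rfl

theorem stepS_cons_nil (a b : SP Λ) (A B : List (SP Λ)) :
    stepS (a :: A) (b :: B) ([] : List (Tm G Λ)) = none := rfl

theorem stepS_cons_some {a b : SP Λ} {A B : List (SP Λ)} {t : Tm G Λ} {T U : List (Tm G Λ)} :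
    stepS (a :: A) (b :: B) (t :: T) = some U ↔
      ∃ t' T', regStep a b t = some t' ∧ stepS A B T = some T' ∧ U = t' :: T' := by
  rw [stepS]
  cases h1 : regStep a b t <;> cases h2 : stepS A B T <;> simp [eq_comm]

theorem stepS_cons_none {a b : SP Λ} {A B : List (SP Λ)} {t : Tm G Λ} {T : List (Tm G Λ)} :
    stepS (a :: A) (b :: B) (t :: T) = none ↔ regStep a b t = none ∨ stepS A B T = none := by
  rw [stepS]
  cases h1 : regStep a b t <;> cases h2 : stepS A B T <;> simp

theorem stepS_self {A B : List (SP Λ)} {T T' : List (Tm G Λ)} (hl : A.length = B.length)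
    (h : stepS A B T = some T') : stepS A A T = some T := by
  induction A generalizing B T T' with
  | nil => exact stepS_nil_left _ _
  | cons a A ih =>
    cases B with
    | nil => simp at hl
    | cons b B =>
      cases T with
      | nil => simp [stepS_cons_nil] at h
      | cons t T =>
        obtain ⟨t', T', h1, h2, rfl⟩ := stepS_cons_some.mp h
        obtain ⟨r, rfl, -, hr⟩ := regStep_some h1
        exact stepS_cons_some.mpr ⟨_, _, regStep_pushW a a r hr, ih (by simpa using hl) h2, rfl⟩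

theorem stepS_symm {A B : List (SP Λ)} {T T' : List (Tm G Λ)}
    (hb : A.map Prod.snd = B.map Prod.snd) (h : stepS A B T = some T') :
    stepS B A T' = some T := by
  induction A generalizing B T T' with
  | nil =>
    cases B with
    | nil => rw [stepS_nil_left] at h ⊢; simpa using h.symm
    | cons b B => simp at hb
  | cons a A ih =>
    cases B with
    | nil => simp at hb
    | cons b B =>
      cases T with
      | nil => simp [stepS_cons_nil] at h
      | cons t T =>
        obtain ⟨t', T', h1, h2, rfl⟩ := stepS_cons_some.mp h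
        obtain ⟨r, rfl, rfl, hr⟩ := regStep_some h1
        simp only [List.map_cons, List.cons.injEq] at hb
        exact stepS_cons_some.mpr ⟨_, _, regStep_pushW b a r (hb.1 ▸ hr), ih hb.2 h2, rfl⟩

theorem stepS_none_of_none {A B B' : List (SP Λ)} {T : List (Tm G Λ)} (hl : A.length = B.length)
    (hl' : A.length = B'.length) (h : stepS A B T = none) : stepS A B' T = none := by
  cases h' : stepS A B' T with
  | none => rfl
  | some T' =>
    exfalso
    induction A generalizing B B' T T' with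
    | nil => simp [stepS_nil_left] at h
    | cons a A ih =>
      cases B with
      | nil => simp at hl
      | cons b B =>
        cases B' with
        | nil => simp at hl'
        | cons b' B' =>
          cases T with
          | nil => simp [stepS_cons_nil] at h'
          | cons t T =>
            obtain ⟨t', T'', h1, h2, rfl⟩ := stepS_cons_some.mp h'
            obtain ⟨r, rfl, rfl, hr⟩ := regStep_some h1
            rcases stepS_cons_none.mp h with h | h
            · simp [regStep_pushW a b r hr] at h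
            · exact ih (by simpa using hl) (by simpa using hl') h _ h2

theorem stepS_length {A B : List (SP Λ)} {T T' : List (Tm G Λ)} (hl : A.length = B.length)
    (h : stepS A B T = some T') :
    T'.length = T.length ∧ holesL T' = holesL T ∧ A.length ≤ T.length := by
  induction A generalizing B T T' with
  | nil => rw [stepS_nil_left] at h; simp at h; simp [h]
  | cons a A ih =>
    cases B with
    | nil => simp at hl
    | cons b B =>
      cases T with
      | nil => simp [stepS_cons_nil] at h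
      | cons t T =>
        obtain ⟨t', T', h1, h2, rfl⟩ := stepS_cons_some.mp h
        obtain ⟨r, rfl, rfl, hr⟩ := regStep_some h1
        obtain ⟨e1, e2, e3⟩ := ih (by simpa using hl) h2
        simp [e1, e2, e3, holesL, holes_pushW]

theorem stepS_append {A B : List (SP Λ)} {T : List (Tm G Λ)} (hl : A.length = B.length)
    (hT : A.length ≤ T.length) (Z : List (Tm G Λ)) :
    stepS A B (T ++ Z) = (stepS A B T).map (· ++ Z) := by
  induction A generalizing B T with
  | nil => simp [stepS_nil_left]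
  | cons a A ih =>
    cases B with
    | nil => simp at hl
    | cons b B =>
      cases T with
      | nil => simp at hT
      | cons t T =>
        have := ih (B := B) (T := T) (by simpa using hl) (by simpa using hT)
        rw [List.cons_append, stepS, stepS, this]
        cases regStep a b t <;> cases stepS A B T <;> simp

theorem stepS_atoms {m : ℕ} {T T' : List (Tm G Λ)}
    (h : stepS (List.replicate m (([], false) : SP Λ)) (List.replicate m ([], false)) T = some T') :
    ∃ Z, T = List.replicate m (atom 0) ++ Z := by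
  induction m generalizing T T' with
  | zero => exact ⟨T, rfl⟩
  | succ m ih =>
    rw [List.replicate_succ] at h
    cases T with
    | nil => simp [stepS_cons_nil] at h
    | cons t T =>
      obtain ⟨t', T', h1, h2, rfl⟩ := stepS_cons_some.mp h
      obtain ⟨r, rfl, -, hr⟩ := regStep_some h1
      obtain ⟨Z, rfl⟩ := ih h2
      simp only [Bool.false_eq_true, false_or] at hr
      exact ⟨Z, by simp [hr, pushW, List.replicate_succ]⟩

end Tm

namespace Sys

variable {n : ℕ} {S : Sys n}

theorem WF.lenf (h : S.WF) (ρ : S.Rl) : (S.Lf ρ).length = S.K + 3 := by simp [Lf, h.len]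

theorem WF.lenf' (h : S.WF) (ρ : S.Rl) : (S.Lf' ρ).length = S.K + 3 := by simp [Lf', h.len']

theorem WF.botf (h : S.WF) (ρ : S.Rl) : (S.Lf ρ).map Prod.snd = (S.Lf' ρ).map Prod.snd := by
  simp [Lf, Lf', h.bot]

/-- The start pattern. -/
def stL (S : Sys n) : List (SP S.Λ) := List.replicate (S.K + 2) ([], false)

end Sys

namespace Ctx

variable {n : ℕ} {G : Type v} [Group G] {S : Sys n} {A : Type} [Ring A] (C : Ctx G S A)

include C in
theorem wf : S.WF := C.ok.toWF

theorem popW_pshW (w : List S.Λ) : C.D.popW w * C.D.pshW w = 1 := by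
  induction w with
  | nil => simp [Gens.popW, Gens.pshW]
  | cons a w ih =>
    rw [Gens.popW, Gens.pshW, mul_assoc, ← mul_assoc (C.D.pop a), C.hD.pop_psh, if_pos rfl,
      one_mul, ih]

theorem popW_ket (w : List S.Λ) (r : Tm G S.Λ) (x : A) :
    C.D.popW w * C.ket (Tm.pushW w r) x = C.ket r x := by
  rw [ket_pushW, ← mul_assoc, popW_pshW, one_mul]

theorem regOp_some {a b : SP S.Λ} {t t' : Tm G S.Λ} (h : Tm.regStep a b t = some t') (x : A) :
    C.D.regOp a b * C.ket t x = C.ket t' x := by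
  obtain ⟨r, rfl, rfl, hr⟩ := Tm.regStep_some h
  rw [Gens.regOp, mul_assoc, popW_ket, ket_pushW, mul_assoc]
  congr 1
  split_ifs with h2
  · rw [one_mul]
  · rcases hr with hr | rfl
    · exact (h2 hr).elim
    · rw [ket_atom0, mul_assoc, ← mul_assoc C.D.z', C.hD.z'z, one_mul]

theorem opS_cons (a b : SP S.Λ) (A' B : List (SP S.Λ)) (t : Tm G S.Λ) (x : A) :
    C.D.opS (a :: A') (b :: B) * C.ket t x = C.D.regOp a b * C.ket t (C.D.opS A' B * x) := by
  rw [Gens.opS, mul_assoc, φ_ket]

theorem opS_nil_left (B : List (SP S.Λ)) : C.D.opS [] B = 1 := by cases B <;> rfl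

theorem opS_some {A' B : List (SP S.Λ)} {T T' : List (Tm G S.Λ)} (hl : A'.length = B.length)
    (h : Tm.stepS A' B T = some T') : C.D.opS A' B * C.ketL T = C.ketL T' := by
  induction A' generalizing B T T' with
  | nil => rw [Tm.stepS_nil_left] at h; simp at h; simp [h, opS_nil_left]
  | cons a A' ih =>
    cases B with
    | nil => simp at hl
    | cons b B =>
      cases T with
      | nil => simp [Tm.stepS_cons_nil] at h
      | cons t T =>
        obtain ⟨t', T', h1, h2, rfl⟩ := Tm.stepS_cons_some.mp h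
        rw [ketL, opS_cons, ih (by simpa using hl) h2, C.regOp_some h1, ketL]

theorem clash_zero {w w0 : List S.Λ} {b b0 : Bool} (h : Clash w b w0 b0) (r : Tm G S.Λ)
    (hr : b0 = true ∨ r = Tm.atom 0) (x : A) :
    (if b = true then 1 else C.D.z * C.D.z') * C.D.popW w * C.ket (Tm.pushW w0 r) x = 0 := by
  induction w generalizing w0 with
  | nil =>
    cases w0 with
    | nil => exact h.elim
    | cons a w0 =>
      simp only [Clash] at h
      subst h
      simp only [Bool.false_eq_true, if_false, Gens.popW, Tm.pushW, ket, mul_one]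
      rw [mul_assoc, ← mul_assoc C.D.z', C.hD.z'psh]; simp
  | cons a w ih =>
    cases w0 with
    | nil =>
      simp only [Clash] at h
      subst h
      simp only [Bool.false_eq_true, false_or] at hr
      subst hr
      rw [Tm.pushW, ket_atom0, Gens.popW, mul_assoc, mul_assoc, ← mul_assoc (C.D.pop a),
        C.hD.pop_z]; simp
    | cons a0 w0 =>
      rw [Tm.pushW, ket, Gens.popW, mul_assoc, mul_assoc, ← mul_assoc (C.D.pop a), C.hD.pop_psh]
      by_cases ha : a = a0
      · simp only [Clash] at h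
        rw [if_pos ha, one_mul, ← mul_assoc]
        exact ih (h.resolve_left (fun h => h ha))
      · simp [ha]

theorem opS_clash {A' B A0 B0 : List (SP S.Λ)} {T T' : List (Tm G S.Λ)} (hc : ClashL A' A0)
    (hl : A'.length = B.length) (hl0 : A0.length = B0.length)
    (h : Tm.stepS A0 B0 T = some T') : C.D.opS A' B * C.ketL T = 0 := by
  induction A' generalizing B A0 B0 T T' with
  | nil => exact hc.elim
  | cons a A' ih =>
    cases B with
    | nil => simp at hl
    | cons b B =>
      cases A0 with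
      | nil => exact hc.elim
      | cons a0 A0 =>
        cases B0 with
        | nil => simp at hl0
        | cons b0 B0 =>
          cases T with
          | nil => simp [Tm.stepS_cons_nil] at h
          | cons t T =>
            obtain ⟨t', T', h1, h2, rfl⟩ := Tm.stepS_cons_some.mp h
            rw [ketL, opS_cons]
            rcases hc with hc | hc
            · obtain ⟨r, rfl, -, hr⟩ := Tm.regStep_some h1
              rw [Gens.regOp, mul_assoc, mul_assoc, ← mul_assoc _ (C.D.popW _),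
                C.clash_zero hc r hr, mul_zero]
            · rw [ih hc (by simpa using hl) (by simpa using hl0) h2, ket_zero, mul_zero]

theorem opS_atoms (m : ℕ) :
    C.D.opS (List.replicate m ([], false)) (List.replicate m ([], false))
      = C.D.z ^ m * C.D.z' ^ m := by
  induction m with
  | zero => simp [opS_nil_left]
  | succ m ih =>
    rw [List.replicate_succ, Gens.opS, ih]
    simp only [Gens.regOp, Gens.pshW, Gens.popW, Bool.false_eq_true, if_false, one_mul, mul_one]
    rw [mul_assoc, C.hD.nat_z', pow_succ', pow_succ]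
    simp only [mul_assoc]

theorem stP_eq (q : S.Q) : C.D.stP q = if q = S.start then C.D.opS S.stL S.stL else 0 := by
  rw [Gens.stP, Sys.stL, opS_atoms]

theorem fwd_step {ρ : S.Rl} {T T' : List (Tm G S.Λ)}
    (h : Tm.stepS (S.Lf ρ) (S.Lf' ρ) T = some T') (a : S.Λ) (κ : Tm G S.Λ) :
    C.D.E (Sta.M (S.src ρ)) * C.ket (Tm.psh a κ) (C.ketL T)
      = C.D.E (Sta.M (S.tgt ρ)) * C.ket κ (C.ketL T') := by
  have hl : ∀ ρ, (S.Lf ρ).length = (S.Lf' ρ).length := fun ρ => by
    rw [C.wf.lenf, C.wf.lenf']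
  have hc : ∀ ρ', ρ' ≠ ρ → S.src ρ' = S.src ρ → ClashL (S.Lf ρ') (S.Lf ρ) :=
    fun ρ' h1 h2 => Or.inr (C.wf.det ρ' ρ h1 h2)
  rw [ket, ← mul_assoc, C.hD.fwd, add_mul, Finset.sum_mul, Finset.sum_eq_single ρ, if_pos rfl,
    mul_assoc, φ_ket, C.opS_some (hl ρ) h, mul_assoc, φ_ket, sub_mul, Finset.sum_mul,
    Finset.sum_eq_single ρ, if_pos rfl, C.opS_some rfl (Tm.stepS_self (hl ρ) h), one_mul, sub_self,
    ket_zero, mul_zero, add_zero]
  · intro ρ' _ h1
    split_ifs with h2
    · exact C.opS_clash (hc ρ' h1 h2) rfl (hl ρ) h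
    · simp
  · simp
  · intro ρ' _ h1
    split_ifs with h2
    · rw [mul_assoc, φ_ket, C.opS_clash (hc ρ' h1 h2) (hl ρ') (hl ρ) h, ket_zero, mul_zero]
    · simp
  · simp

theorem bwd_step {ρ : S.Rl} {T T' : List (Tm G S.Λ)}
    (h : Tm.stepS (S.Lf' ρ) (S.Lf ρ) T = some T') (κ : Tm G S.Λ) :
    C.D.E (Sta.M (S.tgt ρ)) * C.D.nd * C.ket κ (C.ket (Tm.atom 0) (C.ketL T))
      = C.D.E (Sta.M (S.src ρ)) * C.ket κ (C.ketL T') := by
  have hl : ∀ ρ, (S.Lf' ρ).length = (S.Lf ρ).length := fun ρ => by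
    rw [C.wf.lenf, C.wf.lenf']
  have hc : ∀ ρ', ρ' ≠ ρ → ClashL (S.Lf' ρ') (S.Lf' ρ) :=
    fun ρ' h1 => Or.inl (Or.inl (fun e => h1 (by simpa using e)))
  have hst : C.D.stP (S.tgt ρ) * C.ketL T = 0 := by
    rw [stP_eq]
    split_ifs
    · refine C.opS_clash ?_ rfl (hl ρ) h
      rw [Sys.stL, List.replicate_succ]
      exact Or.inl rfl
    · simp
  rw [C.hD.bwd, mul_assoc, φ_ket, ket_atom0, ← mul_assoc C.D.z', C.hD.z'z, one_mul, add_mul,
    add_mul, Finset.sum_mul, Finset.sum_eq_single ρ, if_pos rfl, mul_assoc, φ_ket,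
    C.opS_some (hl ρ) h, mul_assoc, φ_ket, hst, mul_assoc, φ_ket, mul_assoc, sub_mul, sub_mul, hst,
    Finset.sum_mul, Finset.sum_eq_single ρ, if_pos rfl,
    C.opS_some rfl (Tm.stepS_self (hl ρ) h), one_mul, sub_self, sub_zero, mul_zero, ket_zero]
  · simp
  · intro ρ' _ h1
    split_ifs with h2
    · exact C.opS_clash (hc ρ' h1) rfl (hl ρ) h
    · simp
  · simp
  · intro ρ' _ h1
    split_ifs with h2
    · rw [mul_assoc, φ_ket, C.opS_clash (hc ρ' h1) (hl ρ') (hl ρ) h, ket_zero, mul_zero]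
    · simp
  · simp

/-- The clock letter. -/
def tick (S : Sys n) : S.Λ := Al.tag Sta.Rs

theorem reach_run {t : Tm G S.Λ} {c : S.Q × List (Tm G S.Λ)} (h : S.Reach t c) :
    ∃ N, ∀ κ, C.D.E (Sta.M S.start) * C.ket (Tm.pushW (List.replicate N (tick S)) κ)
      (C.ketL (S.ini t).2) = C.D.E (Sta.M c.1) * C.ket κ (C.ketL c.2) := by
  induction h with
  | refl => exact ⟨0, fun κ => rfl⟩
  | tail _ hs ih =>
    obtain ⟨N, ih⟩ := ih
    obtain ⟨ρ, h1, h2, h3⟩ := hs
    refine ⟨N + 1, fun κ => ?_⟩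
    rw [List.replicate_succ', Tm.pushW_append, ih, ← h1, ← h2]
    exact C.fwd_step h3 _ κ

theorem link_inst (κ : Tm G S.Λ) (T : List (Tm G S.Λ)) :
    C.D.E (Sta.M S.start) * C.ket κ (C.ketL (List.replicate (S.K + 2) (Tm.atom 0) ++ T))
      = C.D.E (Sta.Ev Mode.main) * C.D.eps * C.ket κ (C.ketL T) := by
  have h0 : ∀ m, Tm.holesL (List.replicate m (Tm.atom 0 : Tm G S.Λ)) = 0 := by
    intro m
    induction m with
    | zero => rfl
    | succ m ih => simp [List.replicate_succ, Tm.holesL, Tm.holes, ih]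
  rw [C.ketL_append_closed (h0 _), ketL_atoms, ← φ_ket, ← mul_assoc, C.hD.link]

theorem eps_pushW (w : List S.Λ) (t : Tm G S.Λ) (x : A) :
    C.D.eps * C.ket (Tm.pushW w t) x = C.D.eps * C.ket t x := by
  induction w with
  | nil => rfl
  | cons a w ih => rw [Tm.pushW, ket, ← mul_assoc, C.hD.eps_psh, ih]

theorem ev_list (w : List (Bas n)) (x : A) :
    C.D.E (Sta.Ev Mode.main) * C.ket (S.listTm w) x = C.run w * x := by
  induction w generalizing x with
  | nil => rw [Sys.listTm, List.map_nil, Tm.pushW, ket_atom0, ← mul_assoc, C.hD.ev_z]; simp [run]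
  | cons a w ih =>
    rw [Sys.listTm, List.map_cons, Tm.pushW, ket, ← mul_assoc, C.hD.ev_psh, mul_assoc, φ_ket]
    exact (ih _).trans (by rw [run, mul_assoc]; rfl)

theorem run_eq_halt {w : List (Bas n)} {q : S.Q} {T : List (Tm G S.Λ)}
    (h : S.Reach (S.listTm w) (q, T)) : C.run w = C.D.E (Sta.M q) * C.D.z * C.ketL T := by
  obtain ⟨N, hN⟩ := C.reach_run h
  have := hN (Tm.atom 0)
  rw [Sys.ini, link_inst, mul_assoc, eps_pushW, ket_atom0, ← mul_assoc C.D.eps, C.hD.eps_z,
    one_mul, ketL, ev_list, ketL, mul_one, ket_atom0, ← mul_assoc] at this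
  exact this

theorem run_zero {w : List (Bas n)} (h : Zero C.s w) : C.run w = 0 := by
  obtain ⟨T, hT⟩ := C.ok.czero w h
  rw [C.run_eq_halt hT, C.hD.halt, if_neg C.wf.one_ne.symm, if_pos rfl, zero_mul]

theorem run_sandwich (c d : Bas n) (mid : List (Bas n)) :
    C.run (c :: (mid ++ [d])) = C.D.basOp d * C.run mid * C.D.basOp c := by
  simp [run, run_append]

theorem F3 {w : List (Bas n)} (h : ∀ a ∈ w, a.isLab = true) : C.D.z' * C.run w * C.D.nd = 0 :=
  (C.run_sandwich Bas.nd Bas.z' w).symm.trans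
    (C.run_zero ⟨_, _, w, rfl, h, Or.inl ⟨rfl, rfl⟩⟩)

theorem F4 {w : List (Bas n)} (h : ∀ a ∈ w, a.isLab = true) : C.D.nd' * C.run w * C.D.z = 0 :=
  (C.run_sandwich Bas.z Bas.nd' w).symm.trans
    (C.run_zero ⟨_, _, w, rfl, h, Or.inr (Or.inl ⟨rfl, rfl⟩)⟩)

theorem F2 {w : List (Bas n)} (h : ∀ a ∈ w, a.isLab = true)
    (h' : ¬ (lblG C.s w = 1 ∧ lblZ w = 0)) : C.D.nd' * C.run w * C.D.nd = 0 :=
  (C.run_sandwich Bas.nd Bas.nd' w).symm.trans
    (C.run_zero ⟨_, _, w, rfl, h, Or.inr (Or.inr ⟨rfl, rfl, h'⟩)⟩)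

/-- Elements invariant under relabelling. -/
def Inv (e : A) : Prop := (∀ i b, e * C.D.γ i b = e) ∧ e * C.D.u = e

theorem Inv.u' {C : Ctx G S A} {e : A} (h : C.Inv e) : e * C.D.u' = e - e * C.D.z * C.D.z' := by
  conv_lhs => rw [← h.2, mul_assoc, C.uu'_eq, mul_sub, mul_one, ← mul_assoc]

theorem inv_eps : C.Inv C.D.eps := ⟨C.hD.eps_γ, C.hD.eps_u⟩

theorem inv_E (s : Sta S.Q) : C.Inv (C.D.E s) := ⟨C.hD.E_γ s, C.hD.E_u s⟩

theorem Inv.run_nd {C : Ctx G S A} {e : A} (he : C.Inv e) {w : List (Bas n)}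
    (h : ∀ a ∈ w, a.isLab = true) : e * C.run w * C.D.nd = e * C.D.nd := by
  induction w using List.reverseRecOn with
  | nil => simp [run]
  | append_singleton w a ih =>
    have ha := h a (by simp)
    have hw : ∀ b ∈ w, b.isLab = true := fun b hb => h b (by simp [hb])
    have ih := ih hw
    rw [run_append]
    simp only [run, one_mul]
    rw [← mul_assoc]
    cases a <;> simp [Bas.isLab] at ha <;> simp only [Gens.basOp]
    · rw [he.1, ih]
    · rw [he.2, ih]
    · rw [he.u', sub_mul, sub_mul, ih, mul_assoc _ C.D.z', mul_assoc _ (C.D.z' * _), C.F3 hw]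
      simp

theorem Inv.lab_nd {C : Ctx G S A} {e : A} (he : C.Inv e) (g : G) (k : ℤ) :
    e * C.lab g k * C.D.nd = e * C.D.nd := he.run_nd (C.labW_lab g k)

theorem Inv.upow {C : Ctx G S A} {e : A} (he : C.Inv e) (k : ℕ) : e * C.D.u ^ k = e := by
  induction k with
  | zero => simp
  | succ k ih => rw [pow_succ, ← mul_assoc, ih, he.2]

theorem Inv.ket_nd {C : Ctx G S A} {e : A} (he : C.Inv e) (g : G) (k : ℤ) (t t' : Tm G S.Λ)
    (x : A) : e * C.ket (Tm.nd g k t t') x = e * C.D.nd * C.ket t (C.ket t' x) := by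
  rw [ket, ← mul_assoc, ← mul_assoc, he.lab_nd]

theorem Inv.ket_atom {C : Ctx G S A} {e : A} (he : C.Inv e) (k : ℕ) (x : A) :
    e * C.ket (Tm.atom k) x = e * C.D.z * x := by
  rw [ket, ← mul_assoc, ← mul_assoc, he.upow]

theorem eps_er {t : Tm G S.Λ} (h : t.Er) (x : A) : C.D.eps * C.ket t x = x := by
  induction t generalizing x with
  | hole g k => exact h.elim
  | atom k => rw [C.inv_eps.ket_atom, C.hD.eps_z, one_mul]
  | psh a t ih => rw [ket, ← mul_assoc, C.hD.eps_psh, ih h]
  | nd g k t t' ih _ =>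
    obtain ⟨h1, h2⟩ := h
    rw [Tm.isZ_iff] at h2
    subst h2
    rw [C.inv_eps.ket_nd, C.hD.eps_nd, mul_assoc, φ_ket, ket_atom0, ← mul_assoc C.D.z', C.hD.z'z,
      one_mul, ih h1]

theorem eps_pow_er {T : List (Tm G S.Λ)} (h : ∀ t ∈ T, t.Er) :
    C.D.eps ^ T.length * C.ketL T = 1 := by
  induction T with
  | nil => simp [ketL]
  | cons t T ih =>
    rw [List.length_cons, pow_succ, ketL, mul_assoc, C.eps_er (h t (by simp)),
      ih (fun b hb => h b (by simp [hb]))]

theorem run_one {w : List (Bas n)} (h : One C.s w) : C.run w = 1 := by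
  obtain ⟨T, hT⟩ := C.ok.cone w h
  obtain ⟨h0, ws, l, tt, e, hl, -⟩ := C.ok.inv _ _ _ hT
  have hlen : T.length = S.K + 3 := by rw [e]; simp [hl]
  rw [C.run_eq_halt hT, C.hD.halt, if_pos rfl, ← hlen, C.eps_pow_er (C.ok.sone _ _ hT).2]

theorem run_gen_eq {w w' : List (Bas n)} (h : ∀ a ∈ w, a.isGen = true)
    (h' : ∀ a ∈ w', a.isGen = true) (e : lblG C.s w = lblG C.s w') : C.run w = C.run w' := by
  have hi := C.rep_gen (lblG C.s w)⁻¹
  have h1 : C.run (w ++ C.rep (lblG C.s w)⁻¹) = 1 := by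
    refine C.run_one ⟨?_, by rw [lblG_append, C.rep_lbl, inv_mul_cancel]⟩
    intro a ha
    rcases List.mem_append.mp ha with ha | ha
    exacts [h a ha, hi a ha]
  have h2 : C.run (C.rep (lblG C.s w)⁻¹ ++ w') = 1 := by
    refine C.run_one ⟨?_, by rw [lblG_append, C.rep_lbl, ← e, mul_inv_cancel]⟩
    intro a ha
    rcases List.mem_append.mp ha with ha | ha
    exacts [hi a ha, h' a ha]
  rw [run_append] at h1 h2
  rw [← one_mul (C.run w), ← h2, mul_assoc, h1, mul_one]

/-- The image of a group element. -/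
noncomputable def gr (g : G) : A := C.run (C.rep g)

theorem gr_one : C.gr 1 = 1 := by simp [gr, C.rep_one, run]

theorem gr_mul (g h : G) : C.gr (g * h) = C.gr g * C.gr h := by
  rw [gr, gr, gr, ← run_append]
  refine C.run_gen_eq (C.rep_gen _) ?_ (by rw [lblG_append, C.rep_lbl, C.rep_lbl, C.rep_lbl])
  intro a ha
  rcases List.mem_append.mp ha with ha | ha
  exacts [C.rep_gen _ a ha, C.rep_gen _ a ha]

theorem gr_gval (i : Fin n) (b : Bool) : C.gr (gval C.s i b) = C.D.γ i b := by
  rw [gr, C.run_gen_eq (w' := [Bas.gen i b]) (C.rep_gen _) (by simp [Bas.isGen])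
    (by simp [C.rep_lbl, lblG])]
  simp [run, Gens.basOp]

theorem run_gen_ind {P : A → Prop} (h1 : P 1) (hm : ∀ x i b, P x → P (x * C.D.γ i b))
    {w : List (Bas n)} (h : ∀ a ∈ w, a.isGen = true) : P (C.run w) := by
  induction w with
  | nil => exact h1
  | cons a w ih =>
    have ha := h a (by simp)
    have ih := ih (fun b hb => h b (by simp [hb]))
    cases a <;> simp [Bas.isGen] at ha
    exact hm _ _ _ ih

theorem gr_u (g : G) : C.gr g * C.D.u = C.D.u * C.gr g :=
  C.run_gen_ind (P := fun x => x * C.D.u = C.D.u * x) (by simp)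
    (fun x i b hx => by rw [mul_assoc, C.hD.γu, ← mul_assoc, hx, mul_assoc]) (C.rep_gen g)

theorem gr_u' (g : G) : C.gr g * C.D.u' = C.D.u' * C.gr g :=
  C.run_gen_ind (P := fun x => x * C.D.u' = C.D.u' * x) (by simp)
    (fun x i b hx => by rw [mul_assoc, C.γu', ← mul_assoc, hx, mul_assoc]) (C.rep_gen g)

theorem gr_z (g : G) : C.gr g * C.D.z = C.D.z :=
  C.run_gen_ind (P := fun x => x * C.D.z = C.D.z) (by simp)
    (fun x i b hx => by rw [mul_assoc, C.hD.γz, hx]) (C.rep_gen g)

theorem z'_gr (g : G) : C.D.z' * C.gr g = C.D.z' :=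
  C.run_gen_ind (P := fun x => C.D.z' * x = C.D.z') (by simp)
    (fun x i b hx => by rw [← mul_assoc, hx, C.hD.z'γ]) (C.rep_gen g)

theorem Inv.gr {C : Ctx G S A} {e : A} (he : C.Inv e) (g : G) : e * C.gr g = e :=
  C.run_gen_ind (P := fun x => e * x = e) (by simp)
    (fun x i b hx => by rw [← mul_assoc, hx, he.1]) (C.rep_gen g)

theorem lab_nat_eq (g : G) (k : ℕ) : C.lab g k = C.gr g * C.D.u ^ k := by
  have : (uW (k : ℤ) : List (Bas n)) = List.replicate k Bas.u := rfl
  rw [lab, labW, run_append, this, run_replicate]; rfl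

theorem lab_neg_eq (g : G) (k : ℕ) : C.lab g (-(k : ℤ)) = C.gr g * C.D.u' ^ k := by
  cases k with
  | zero => simpa using C.lab_nat_eq g 0
  | succ k =>
    have : (uW (-((k + 1 : ℕ) : ℤ)) : List (Bas n)) = List.replicate (k + 1) Bas.u' := rfl
    rw [lab, labW, run_append, this, run_replicate]; rfl

theorem int_cases (k : ℤ) : (∃ m : ℕ, k = m) ∨ ∃ m : ℕ, k = -((m + 1 : ℕ) : ℤ) := by
  cases k with
  | ofNat m => exact Or.inl ⟨m, rfl⟩
  | negSucc m => exact Or.inr ⟨m, rfl⟩

theorem γ_lab (i : Fin n) (b : Bool) (g : G) (k : ℤ) :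
    C.D.γ i b * C.lab g k = C.lab (gval C.s i b * g) k := by
  rcases int_cases k with ⟨m, rfl⟩ | ⟨m, rfl⟩
  · rw [lab_nat_eq, lab_nat_eq, gr_mul, gr_gval, mul_assoc]
  · rw [lab_neg_eq, lab_neg_eq, gr_mul, gr_gval, mul_assoc]

theorem u'_lab (g : G) (k : ℤ) : C.D.u' * C.lab g k = C.lab g (k - 1) := by
  rcases int_cases k with ⟨m, rfl⟩ | ⟨m, rfl⟩
  · cases m with
    | zero =>
      have : ((0 : ℕ) : ℤ) - 1 = -((1 : ℕ) : ℤ) := by simp
      rw [this, lab_nat_eq, lab_neg_eq, pow_zero, pow_one, mul_one, gr_u']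
    | succ m =>
      have : ((m + 1 : ℕ) : ℤ) - 1 = (m : ℕ) := by simp
      rw [this, lab_nat_eq, lab_nat_eq, ← mul_assoc, ← gr_u', pow_succ', mul_assoc,
        ← mul_assoc C.D.u', C.hD.u'u, one_mul]
  · have : -((m + 1 : ℕ) : ℤ) - 1 = -((m + 2 : ℕ) : ℤ) := by push_cast; ring
    rw [this, lab_neg_eq, lab_neg_eq, ← mul_assoc, ← gr_u', mul_assoc, ← pow_succ']

theorem u_lab_nat (g : G) (m : ℕ) : C.D.u * C.lab g m = C.lab g (m + 1) := by
  have : (m : ℤ) + 1 = ((m + 1 : ℕ) : ℤ) := by simp
  rw [this, lab_nat_eq, lab_nat_eq, ← mul_assoc, ← gr_u, mul_assoc, ← pow_succ']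

theorem u_lab_neg (g : G) (m : ℕ) : C.D.u * C.lab g (-((m + 1 : ℕ) : ℤ))
    = C.lab g (-((m + 1 : ℕ) : ℤ) + 1) - C.D.z * C.D.z' * C.D.u' ^ m := by
  have : -((m + 1 : ℕ) : ℤ) + 1 = -((m : ℕ) : ℤ) := by push_cast; ring
  rw [this, lab_neg_eq, lab_neg_eq, ← mul_assoc, ← gr_u, pow_succ', mul_assoc,
    ← mul_assoc C.D.u, C.uu'_eq, sub_mul, one_mul, mul_sub, ← mul_assoc, ← mul_assoc, gr_z]

theorem z'_u'pow_run_nd (m : ℕ) {w : List (Bas n)} (h : ∀ a ∈ w, a.isLab = true) :
    C.D.z' * C.D.u' ^ m * C.run w * C.D.nd = 0 := by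
  have := C.F3 (w := w ++ List.replicate m Bas.u') (by
    intro a ha
    rcases List.mem_append.mp ha with ha | ha
    · exact h a ha
    · rw [(List.mem_replicate.mp ha).2]; rfl)
  rw [run_append, run_replicate, ← mul_assoc] at this
  exact this

theorem nd'_run_upow_z (m : ℕ) {w : List (Bas n)} (h : ∀ a ∈ w, a.isLab = true) :
    C.D.nd' * C.run w * C.D.u ^ m * C.D.z = 0 := by
  have := C.F4 (w := List.replicate m Bas.u ++ w) (by
    intro a ha
    rcases List.mem_append.mp ha with ha | ha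
    · rw [(List.mem_replicate.mp ha).2]; rfl
    · exact h a ha)
  rw [run_append, run_replicate, ← mul_assoc] at this
  exact this

theorem u_lab_nd (g : G) (k : ℤ) : C.D.u * C.lab g k * C.D.nd = C.lab g (k + 1) * C.D.nd := by
  rcases int_cases k with ⟨m, rfl⟩ | ⟨m, rfl⟩
  · rw [u_lab_nat]
  · have := C.z'_u'pow_run_nd m (w := []) (by simp)
    rw [run, mul_one] at this
    rw [u_lab_neg, sub_mul, mul_assoc C.D.z, mul_assoc C.D.z, this, mul_zero, sub_zero]

theorem run_lab_nd {w : List (Bas n)} (h : ∀ a ∈ w, a.isLab = true) (g : G) (k : ℤ) :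
    C.run w * C.lab g k * C.D.nd = C.lab (lblG C.s w * g) (lblZ w + k) * C.D.nd := by
  induction w generalizing g k with
  | nil => simp [run, lblG, lblZ]
  | cons a w ih =>
    have ha := h a (by simp)
    have ih := ih (fun b hb => h b (by simp [hb]))
    cases a <;> simp [Bas.isLab] at ha <;> simp only [run, Gens.basOp, lblG, lblZ]
    · rw [mul_assoc (C.run w), γ_lab, ih, mul_assoc]
    · rw [mul_assoc (C.run w), mul_assoc (C.run w), u_lab_nd, ← mul_assoc, ih]
      congr 2; ring
    · rw [mul_assoc (C.run w), u'_lab, ih]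
      congr 2; ring

theorem lab_lab_nd (g g' : G) (k k' : ℤ) :
    C.lab g k * C.lab g' k' * C.D.nd = C.lab (g * g') (k + k') * C.D.nd := by
  have := C.run_lab_nd (C.labW_lab g k) g' k'
  rwa [labW_G, labW_Z] at this

theorem nd'_lab_nd_ne {g : G} {k : ℤ} (h : ¬ (g = 1 ∧ k = 0)) :
    C.D.nd' * C.lab g k * C.D.nd = 0 :=
  C.F2 (C.labW_lab g k) (by rwa [labW_G, labW_Z])

theorem z'_upow_succ (k : ℕ) : C.D.z' * C.D.u ^ (k + 1) = 0 := by
  rw [pow_succ', ← mul_assoc, C.z'u, zero_mul]

theorem u'pow_upow (k : ℕ) : C.D.u' ^ k * C.D.u ^ k = 1 := by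
  induction k with
  | zero => simp
  | succ k ih => rw [pow_succ, pow_succ', mul_assoc, ← mul_assoc C.D.u', C.hD.u'u, one_mul, ih]

theorem atom_atom_ne {k k' : ℕ} (h : k ≠ k') :
    C.D.z' * C.D.u' ^ k * (C.D.u ^ k' * C.D.z) = 0 := by
  rcases Nat.lt_or_gt_of_ne h with h | h
  · obtain ⟨d, rfl⟩ := Nat.exists_eq_add_of_lt h
    rw [add_assoc, pow_add, mul_assoc, mul_assoc, ← mul_assoc (C.D.u' ^ k), u'pow_upow, one_mul,
      ← mul_assoc, z'_upow_succ, zero_mul]
  · obtain ⟨d, rfl⟩ := Nat.exists_eq_add_of_lt h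
    rw [add_assoc, add_comm k', pow_add, mul_assoc, mul_assoc, ← mul_assoc (C.D.u' ^ k'),
      u'pow_upow, one_mul, pow_succ, mul_assoc, C.u'z]
    simp

theorem atom_atom (k : ℕ) : C.D.z' * C.D.u' ^ k * (C.D.u ^ k * C.D.z) = 1 := by
  rw [mul_assoc, ← mul_assoc (C.D.u' ^ k), u'pow_upow, one_mul, C.hD.z'z]

theorem z'_ket_closed {t : Tm G S.Λ} (hc : t.holes = 0) (hz : t ≠ Tm.atom 0) (x : A) :
    C.D.z' * C.ket t x = 0 := by
  cases t with
  | hole g k => simp [Tm.holes] at hc
  | atom k =>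
    cases k with
    | zero => exact (hz rfl).elim
    | succ k => rw [ket, ← mul_assoc, ← mul_assoc, z'_upow_succ]; simp
  | psh a t => rw [ket, ← mul_assoc, C.hD.z'psh, zero_mul]
  | nd g k t t' => rw [ket, ← mul_assoc, ← mul_assoc, lab, C.F3 (C.labW_lab g k), zero_mul]

theorem pop_upow (a : S.Λ) (k : ℕ) : C.D.pop a * C.D.u ^ k = C.D.pop a := by
  induction k with
  | zero => simp
  | succ k ih => rw [pow_succ, ← mul_assoc, ih, C.hD.popu]

theorem pop_ket_atom (a : S.Λ) (k : ℕ) (x : A) : C.D.pop a * C.ket (Tm.atom k) x = 0 := by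
  rw [ket, ← mul_assoc, ← mul_assoc, pop_upow, C.hD.pop_z, zero_mul]

theorem pop_ket_nd (a : S.Λ) (g : G) (k : ℤ) (t t' : Tm G S.Λ) (x : A) :
    C.D.pop a * C.ket (Tm.nd g k t t') x = 0 := by
  rw [ket, ← mul_assoc, ← mul_assoc, pop_lab, C.hD.pop_nd, zero_mul]

theorem popW_none {w : List S.Λ} {t : Tm G S.Λ} (hc : t.holes = 0) (h : Tm.strip w t = none)
    (x : A) : C.D.popW w * C.ket t x = 0 := by
  induction w generalizing t with
  | nil => simp [Tm.strip] at h
  | cons a w ih =>
    rw [Gens.popW, mul_assoc]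
    cases t with
    | hole g k => simp [Tm.holes] at hc
    | atom k => rw [pop_ket_atom, mul_zero]
    | nd g k t t' => rw [pop_ket_nd, mul_zero]
    | psh b t =>
      rw [ket, ← mul_assoc (C.D.pop a), C.hD.pop_psh]
      simp only [Tm.strip] at h
      split_ifs with hab
      · rw [if_pos hab] at h
        rw [one_mul, ih (t := t) (by simpa [Tm.holes] using hc) h]
      · simp

theorem regOp_none {a b : SP S.Λ} {t : Tm G S.Λ} (hc : t.holes = 0)
    (h : Tm.regStep a b t = none) (x : A) : C.D.regOp a b * C.ket t x = 0 := by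
  rw [Gens.regOp, mul_assoc]
  cases hs : Tm.strip a.1 t with
  | none => rw [C.popW_none hc hs, mul_zero]
  | some r =>
    have ht := Tm.strip_some hs
    subst ht
    simp only [Tm.regStep, hs] at h
    split_ifs at h with h2
    rw [Tm.isZ_iff, not_or] at h2
    rw [Tm.holes_pushW] at hc
    rw [popW_ket, if_neg h2.1, mul_assoc, mul_assoc, C.z'_ket_closed hc h2.2]
    simp

theorem opS_none {A' B : List (SP S.Λ)} {T : List (Tm G S.Λ)} (hc : Tm.holesL T = 0)
    (hl : A'.length = B.length) (hT : A'.length ≤ T.length) (h : Tm.stepS A' B T = none) :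
    C.D.opS A' B * C.ketL T = 0 := by
  induction A' generalizing B T with
  | nil => simp [Tm.stepS_nil_left] at h
  | cons a A' ih =>
    cases B with
    | nil => simp at hl
    | cons b B =>
      cases T with
      | nil => simp at hT
      | cons t T =>
        simp only [Tm.holesL, Nat.add_eq_zero_iff] at hc
        rw [ketL, opS_cons]
        rcases Tm.stepS_cons_none.mp h with h | h
        · exact C.regOp_none hc.1 h _
        · rw [ih hc.2 (by simpa using hl) (by simpa using hT) h, ket_zero, mul_zero]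

theorem eps_not_er {t : Tm G S.Λ} (hc : t.holes = 0) (h : ¬ t.Er) (x : A) :
    C.D.eps * C.ket t x = 0 := by
  induction t generalizing x with
  | hole g k => simp [Tm.holes] at hc
  | atom k => exact (h trivial).elim
  | psh a t ih => rw [ket, ← mul_assoc, C.hD.eps_psh, ih hc h]
  | nd g k t t' ih _ =>
    simp only [Tm.holes, Nat.add_eq_zero_iff] at hc
    rw [C.inv_eps.ket_nd, C.hD.eps_nd, mul_assoc, φ_ket]
    by_cases ht : t.Er
    · have : t' ≠ Tm.atom 0 := fun e => h ⟨ht, (Tm.isZ_iff _).mpr e⟩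
      rw [C.z'_ket_closed hc.2 this, ket_zero, mul_zero]
    · exact ih hc.1 ht _

end Ctx

end Vale.Agent.P193
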