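import Vale.Agent.P193.RB2

/-!
Neutral elements, chains, and the spanning theorem.
-/

namespace Vale.Agent.P193

universe v

namespace Sys

variable {n : ℕ} (S : Sys n) {G : Type v}

/-- `j` forward steps are possible. -/
def CanF : ℕ → S.Q × List (Tm G S.Λ) → Prop
  | 0, _ => True
  | j + 1, c => ∃ c', S.Step c c' ∧ CanF j c'

/-- No backward step is possible. -/
def NoBk (q : S.Q) (T : List (Tm G S.Λ)) : Prop :=
  ∀ ρ, S.tgt ρ = q → Tm.stepS (S.Lf' ρ) (S.Lf ρ) T = none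

/-- Data of a neutral element. -/
def Valid : Sta S.Q → ℕ → List (Tm G S.Λ) → Prop
  | Sta.M q, j, T => S.CanF j (q, T) ∧ S.NoBk q T ∧
      (q = S.start → Tm.stepS S.stL S.stL T = none) ∧ S.K + 3 ≤ T.length
  | Sta.Ev _, j, _ => j = 0
  | Sta.Rs, j, _ => j = 0

end Sys

/-- Neutral elements: a state waiting for its control wire. -/
structure Neu {n : ℕ} (G : Type v) (S : Sys n) where
  s : Sta S.Q
  j : ℕ
  T : List (Tm G S.Λ)
  valid : S.Valid s j T

/-- Chains of neutral elements. -/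
inductive Ch {n : ℕ} (G : Type v) (S : Sys n) : Type v
  | fin (T : List (Tm G S.Λ))
  | step (c : Ch G S) (P : List (Pat G S.Λ)) (j : ℕ) (N : Neu G S)

/-- Depth of the word on top of a term. -/
def Tm.dep {G : Type v} {Λ : Type} : Tm G Λ → ℕ
  | Tm.psh _ t => dep t + 1
  | _ => 0

namespace Ctx

variable {n : ℕ} {G : Type v} [Group G] {S : Sys n} {A : Type} [Ring A] (C : Ctx G S A)

/-- Value of a neutral element. -/
noncomputable def nval (N : Neu G S) : A :=
  C.D.E N.s * C.D.pshW (List.replicate N.j (tick S)) * C.D.φ (C.ketL N.T)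

/-- Value of a chain. -/
noncomputable def val : Ch G S → A
  | Ch.fin T => C.ketL T
  | Ch.step c P j N => val c * C.φp j (C.braL P * C.nval N)

/-- The span of the normal forms. -/
def RN : AddSubgroup A := AddSubgroup.closure {x | ∃ c P, x = C.val c * C.braL P}

theorem braL_bra (p : Pat G S.Λ) (σ : List (Pat G S.Λ)) :
    ∃ (p' : Pat G S.Λ) (σ' : List (Pat G S.Λ)), ∀ r,
      C.braL σ * C.bra p r = C.bra p' (C.braL σ' * r) := by
  induction p generalizing σ with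
  | hole =>
    cases σ with
    | nil => exact ⟨Pat.hole, [], fun r => by simp [braL]⟩
    | cons s σ => exact ⟨s, σ, fun r => by rw [braL, bra, bra_φ]⟩
  | eps => exact ⟨Pat.eps, σ, fun r => by simp [bra, mul_assoc]⟩
  | atom k => exact ⟨Pat.atom k, σ, fun r => by simp [bra, mul_assoc]⟩
  | psh a p ih =>
    obtain ⟨p', σ', h⟩ := ih σ
    exact ⟨Pat.psh a p', σ', fun r => by rw [bra, bra, ← mul_assoc, h]⟩
  | nd g k p q ih ih' =>
    obtain ⟨p', σ', h⟩ := ih σ
    obtain ⟨q', σ'', h'⟩ := ih' σ'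
    exact ⟨Pat.nd g k p' q', σ'', fun r => by rw [bra, bra, ← mul_assoc, ← mul_assoc, h, h']⟩

theorem braL_braL (σ P : List (Pat G S.Λ)) : ∃ P', C.braL σ * C.braL P = C.braL P' := by
  induction P generalizing σ with
  | nil => exact ⟨σ, by simp [braL]⟩
  | cons p P ih =>
    obtain ⟨p', σ', h⟩ := C.braL_bra p σ
    obtain ⟨P', h'⟩ := ih σ'
    exact ⟨p' :: P', by rw [braL, h, h', braL]⟩

theorem RN_ind {Q : A → Prop} (h0 : Q 0) (hadd : ∀ x y, Q x → Q y → Q (x + y))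
    (hg : ∀ c P, Q (C.val c * C.braL P)) {x : A} (hx : x ∈ C.RN) : Q x := by
  induction hx using AddSubgroup.closure_induction with
  | mem x hx => obtain ⟨c, P, rfl⟩ := hx; exact hg c P
  | zero => exact h0
  | add x y _ _ hx hy => exact hadd x y hx hy
  | neg x _ hx => rwa [C.neg_eq]

theorem mem_RN (c : Ch G S) (P : List (Pat G S.Λ)) : C.val c * C.braL P ∈ C.RN :=
  AddSubgroup.subset_closure ⟨c, P, rfl⟩

theorem ketL_mem (T : List (Tm G S.Λ)) : C.ketL T ∈ C.RN := by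
  simpa [braL, val] using C.mem_RN (Ch.fin T) []

theorem ket_ketL_mem (t : Tm G S.Λ) (T : List (Tm G S.Λ)) : C.ket t (C.ketL T) ∈ C.RN :=
  C.ketL_mem (t :: T)

theorem nval_mem (N : Neu G S) : C.nval N ∈ C.RN := by
  simpa [braL, val, ketL] using C.mem_RN (Ch.step (Ch.fin []) [] 0 N) []

theorem mul_braL_mem {x : A} (hx : x ∈ C.RN) (j : ℕ) (P : List (Pat G S.Λ)) :
    x * C.φp j (C.braL P) ∈ C.RN := by
  refine C.RN_ind (Q := fun x => x * C.φp j (C.braL P) ∈ C.RN) (by simp)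
    (fun x y hx hy => by rw [add_mul]; exact add_mem hx hy) (fun c P1 => ?_) hx
  obtain ⟨P', h⟩ := C.braL_braL P1 (List.replicate j Pat.hole ++ P)
  rw [← braL_shift, mul_assoc, h]
  exact C.mem_RN c P'

theorem mul_bra_mem {x : A} (hx : x ∈ C.RN) (p : Pat G S.Λ) : x * C.bra p 1 ∈ C.RN :=
  C.mul_braL_mem hx 0 [p]

theorem mul_step_mem {x : A} (hx : x ∈ C.RN) (j : ℕ) (P : List (Pat G S.Λ)) (N : Neu G S) :
    x * C.φp j (C.braL P * C.nval N) ∈ C.RN := by
  refine C.RN_ind (Q := fun x => x * C.φp j (C.braL P * C.nval N) ∈ C.RN) (by simp)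
    (fun x y hx hy => by rw [add_mul]; exact add_mem hx hy) (fun c P1 => ?_) hx
  obtain ⟨Pa, Pb, hl, e⟩ : ∃ Pa Pb : List (Pat G S.Λ), Pa.length = j ∧
      C.braL P1 = C.braL (Pa ++ Pb) :=
    ⟨(P1 ++ List.replicate j Pat.hole).take j, (P1 ++ List.replicate j Pat.hole).drop j,
      by simp, by rw [List.take_append_drop, braL_pad]⟩
  obtain ⟨P', h⟩ := C.braL_braL Pb P
  have := C.mem_RN (Ch.step c P' (Pat.holesL Pa) N) Pa
  rw [val, ← h] at this
  rw [e, braL_append, ← hl, mul_assoc, mul_assoc, braL_φp, ← mul_assoc (C.φp _ _), ← map_mul,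
    ← mul_assoc, ← mul_assoc]
  exact this

theorem lift_mem {a : A} {h : ℕ} (ha : ∀ T, a * C.φp h (C.ketL T) ∈ C.RN) {y : A}
    (hy : y ∈ C.RN) : a * C.φp h y ∈ C.RN := by
  refine C.RN_ind (Q := fun y => a * C.φp h y ∈ C.RN) (by simp)
    (fun x y hx hy => by rw [map_add, mul_add]; exact add_mem hx hy) (fun c P1 => ?_) hy
  rw [map_mul, ← mul_assoc]
  refine C.mul_braL_mem ?_ _ _
  induction c with
  | fin T => exact ha T
  | step c P j N ih =>
    rw [val, map_mul, ← mul_assoc, ← φp_add]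
    exact C.mul_step_mem ih _ _ _

theorem lift_ket {a : A} {t : Tm G S.Λ} (ha : ∀ T, a * C.ket t (C.ketL T) ∈ C.RN) {y : A}
    (hy : y ∈ C.RN) : a * C.ket t y ∈ C.RN := by
  have e : ∀ y, a * C.ket t y = a * C.ket t 1 * C.φp t.holes y := fun y => by
    rw [mul_assoc, ket_φp, one_mul]
  rw [e]
  exact C.lift_mem (fun T => e _ ▸ ha T) hy

theorem ket_mem (t : Tm G S.Λ) {y : A} (hy : y ∈ C.RN) : C.ket t y ∈ C.RN := by
  have := C.lift_ket (a := 1) (t := t) (fun T => by rw [one_mul]; exact C.ket_ketL_mem t T) hy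
  rwa [one_mul] at this

/-- Elements that preserve the span. -/
def W : Subring A where
  carrier := {x | ∀ y ∈ C.RN, x * y ∈ C.RN}
  mul_mem' := fun ha hb y hy => by rw [mul_assoc]; exact ha _ (hb y hy)
  one_mem' := fun y hy => by rwa [one_mul]
  add_mem' := fun ha hb y hy => by rw [add_mul]; exact add_mem (ha y hy) (hb y hy)
  zero_mem' := fun y hy => by simp
  neg_mem' := fun ha y hy => by rw [neg_mul]; exact neg_mem (ha y hy)

theorem W_mul {x y : A} (hx : x ∈ C.W) (hy : y ∈ C.RN) : x * y ∈ C.RN := hx y hy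

theorem W_of {x : A} (h : ∀ T, x * C.ketL T ∈ C.RN) : x ∈ C.W :=
  fun _ hy => C.lift_mem (h := 0) h hy

theorem W_of_ket {x : A} (h : ∀ t T, x * C.ket t (C.ketL T) ∈ C.RN) : x ∈ C.W := by
  refine C.W_of fun T => ?_
  cases T with
  | nil => simpa [ket, ketL, C.lab_one] using h (Tm.hole 1 0) []
  | cons t T => exact h t T

theorem W_φ {x : A} (hx : x ∈ C.W) : C.D.φ x ∈ C.W :=
  C.W_of_ket fun t T => by
    rw [φ_ket]
    exact C.ket_mem t (C.W_mul hx (C.ketL_mem T))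

theorem γ_upow (i : Fin n) (b : Bool) (k : ℕ) :
    C.D.γ i b * C.D.u ^ k = C.D.u ^ k * C.D.γ i b :=
  (Commute.pow_right (C.hD.γu i b) k).eq

theorem W_γ (i : Fin n) (b : Bool) : C.D.γ i b ∈ C.W := by
  refine C.W_of_ket fun t T => ?_
  cases t with
  | hole g k =>
    rw [ket, ← mul_assoc, γ_lab]
    exact C.ket_ketL_mem (Tm.hole _ _) T
  | atom k =>
    rw [ket, ← mul_assoc, ← mul_assoc, γ_upow, mul_assoc _ _ C.D.z, C.hD.γz]
    exact C.ket_ketL_mem (Tm.atom _) T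
  | psh a t =>
    rw [ket, ← mul_assoc, C.hD.γpsh]
    exact C.ket_ketL_mem (Tm.psh _ _) T
  | nd g k t t' =>
    rw [ket, ← mul_assoc, ← mul_assoc, γ_lab]
    exact C.ket_ketL_mem (Tm.nd _ _ _ _) T

theorem z'u'_φ (m : ℕ) (y : A) :
    C.D.z' * C.D.u' ^ m * C.D.φ y = y * C.bra (Pat.atom m) 1 := by
  have := C.bra_φ (Pat.atom m) 1 y
  simpa [bra, mul_assoc] using this

theorem W_u : C.D.u ∈ C.W := by
  refine C.W_of_ket fun t T => ?_
  cases t with
  | hole g k =>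
    rw [ket, ← mul_assoc]
    rcases int_cases k with ⟨m, rfl⟩ | ⟨m, rfl⟩
    · rw [u_lab_nat]
      exact C.ket_ketL_mem (Tm.hole _ _) T
    · rw [u_lab_neg, sub_mul, mul_assoc C.D.z, mul_assoc C.D.z, z'u'_φ, ← mul_assoc, ← ket_atom0]
      exact sub_mem (C.ket_ketL_mem (Tm.hole _ _) T) (C.mul_bra_mem (C.ket_ketL_mem _ T) _)
  | atom k =>
    rw [ket, ← mul_assoc, ← mul_assoc, ← pow_succ']
    exact C.ket_ketL_mem (Tm.atom _) T
  | psh a t =>
    rw [ket, ← mul_assoc, C.hD.upsh]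
    exact C.ket_ketL_mem (Tm.psh _ _) T
  | nd g k t t' =>
    rw [ket, ← mul_assoc, ← mul_assoc, u_lab_nd]
    exact C.ket_ketL_mem (Tm.nd _ _ _ _) T

theorem W_u' : C.D.u' ∈ C.W := by
  refine C.W_of_ket fun t T => ?_
  cases t with
  | hole g k =>
    rw [ket, ← mul_assoc, u'_lab]
    exact C.ket_ketL_mem (Tm.hole _ _) T
  | atom k =>
    rw [ket, ← mul_assoc, ← mul_assoc]
    cases k with
    | zero => simp [C.u'z]
    | succ k =>
      rw [pow_succ', ← mul_assoc, C.hD.u'u, one_mul]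
      exact C.ket_ketL_mem (Tm.atom _) T
  | psh a t =>
    rw [ket, ← mul_assoc, C.u'psh]
    exact C.ket_ketL_mem (Tm.psh _ _) T
  | nd g k t t' =>
    rw [ket, ← mul_assoc, ← mul_assoc, u'_lab]
    exact C.ket_ketL_mem (Tm.nd _ _ _ _) T

theorem W_z : C.D.z ∈ C.W :=
  C.W_of fun T => by rw [← ket_atom0]; exact C.ket_ketL_mem _ T

theorem W_z' : C.D.z' ∈ C.W := by
  refine C.W_of_ket fun t T => ?_
  cases t with
  | hole g k =>
    rw [ket, ← mul_assoc]
    have h1 : ∀ m : ℕ, C.D.z' * C.lab g (-(m : ℤ)) * C.D.φ (C.ketL T) ∈ C.RN := fun m => by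
      rw [lab_neg_eq, ← mul_assoc, z'_gr, z'u'_φ]
      exact C.mul_bra_mem (C.ketL_mem T) _
    rcases int_cases k with ⟨m, rfl⟩ | ⟨m, rfl⟩
    · cases m with
      | zero => simpa using h1 0
      | succ m => rw [lab_nat_eq, ← mul_assoc, z'_gr, z'_upow_succ]; simp
    · exact h1 _
  | atom k =>
    cases k with
    | zero => rw [ket_atom0, ← mul_assoc, C.hD.z'z, one_mul]; exact C.ketL_mem T
    | succ k => rw [ket, ← mul_assoc, ← mul_assoc, z'_upow_succ]; simp
  | psh a t => rw [ket, ← mul_assoc, C.hD.z'psh]; simp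
  | nd g k t t' => rw [ket, ← mul_assoc, ← mul_assoc, lab, C.F3 (C.labW_lab g k)]; simp

theorem W_nd : C.D.nd ∈ C.W := by
  refine C.W_of_ket fun t T => ?_
  have h : ∀ t' T, C.D.nd * C.ket t (C.ket t' (C.ketL T)) ∈ C.RN := fun t' T => by
    simpa [ket, C.lab_one] using C.ket_ketL_mem (Tm.nd 1 0 t t') T
  cases T with
  | nil => simpa [ket, ketL, C.lab_one] using h (Tm.hole 1 0) []
  | cons t' T => exact h t' T

theorem W_nd' : C.D.nd' ∈ C.W := by
  refine C.W_of_ket fun t T => ?_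
  cases t with
  | hole g k =>
    have := C.mul_bra_mem (C.ket_mem (Tm.hole 1 0) (C.ket_ketL_mem (Tm.hole 1 0) T))
      (Pat.nd g⁻¹ (-k) Pat.hole Pat.hole)
    rw [ket, C.lab_nat, ← mul_assoc, C.hD.nat_nd']
    simpa [ket, bra, C.lab_one, mul_assoc] using this
  | atom k =>
    have := C.nd'_run_upow_z k (w := []) (by simp)
    rw [run, mul_one] at this
    rw [ket, ← mul_assoc, ← mul_assoc, this]; simp
  | psh a t => rw [ket, ← mul_assoc, C.hD.nd'psh]; simp
  | nd g k t t' =>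
    rw [ket, ← mul_assoc, ← mul_assoc]
    by_cases h : g = 1 ∧ k = 0
    · rw [h.1, h.2, C.lab_one, mul_one, C.hD.nd'nd, one_mul]
      exact C.ket_mem _ (C.ket_ketL_mem _ T)
    · rw [C.nd'_lab_nd_ne h]; simp

theorem W_psh (a : S.Λ) : C.D.psh a ∈ C.W :=
  C.W_of_ket fun t T => C.ket_ketL_mem (Tm.psh a t) T

theorem W_pop (a : S.Λ) : C.D.pop a ∈ C.W := by
  refine C.W_of_ket fun t T => ?_
  cases t with
  | hole g k =>
    have := C.mul_bra_mem (C.ket_ketL_mem (Tm.hole 1 0) T) (Pat.psh a Pat.hole)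
    rw [ket, ← mul_assoc, pop_lab, C.hD.nat_pop]
    simpa [ket, bra, C.lab_one, mul_assoc] using this
  | atom k => rw [pop_ket_atom]; simp
  | psh b t =>
    rw [ket, ← mul_assoc, C.hD.pop_psh]
    split_ifs
    · rw [one_mul]; exact C.ket_ketL_mem _ T
    · simp
  | nd g k t t' => rw [pop_ket_nd]; simp

theorem Inv.hole_mem {C : Ctx G S A} {e : A} (he : C.Inv e) (hz : e * C.D.z ∈ C.W)
    {T : List (Tm G S.Λ)} (h : e * C.D.φ (C.ketL T) ∈ C.RN) (g : G) (k : ℤ) :
    e * C.ket (Tm.hole g k) (C.ketL T) ∈ C.RN := by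
  rw [ket, ← mul_assoc]
  have h1 : ∀ m : ℕ, e * C.D.u' ^ m * C.D.φ (C.ketL T) ∈ C.RN := by
    intro m
    induction m with
    | zero => simpa using h
    | succ m ih =>
      rw [pow_succ', ← mul_assoc, he.u', sub_mul, sub_mul, mul_assoc (e * C.D.z),
        mul_assoc (e * C.D.z), z'u'_φ]
      exact sub_mem ih (C.W_mul hz (C.mul_bra_mem (C.ketL_mem T) _))
  rcases int_cases k with ⟨m, rfl⟩ | ⟨m, rfl⟩
  · rw [lab_nat_eq, ← mul_assoc, he.gr, he.upow]; exact h
  · rw [lab_neg_eq, ← mul_assoc, he.gr]; exact h1 _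

theorem Inv.atom_mem {C : Ctx G S A} {e : A} (he : C.Inv e) (hz : e * C.D.z ∈ C.W)
    (T : List (Tm G S.Λ)) (k : ℕ) : e * C.ket (Tm.atom k) (C.ketL T) ∈ C.RN := by
  rw [he.ket_atom]
  exact C.W_mul hz (C.ketL_mem T)

theorem W_eps : C.D.eps ∈ C.W := by
  have hz : C.D.eps * C.D.z ∈ C.W := by rw [C.hD.eps_z]; exact one_mem _
  refine C.W_of_ket fun t => ?_
  induction t with
  | hole g k =>
    intro T
    refine C.inv_eps.hole_mem hz ?_ g k
    rw [C.hD.nat_eps]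
    simpa [bra] using C.mul_bra_mem (C.ketL_mem T) Pat.eps
  | atom k => exact fun T => C.inv_eps.atom_mem hz T k
  | psh a t ih => intro T; rw [ket, ← mul_assoc, C.hD.eps_psh]; exact ih T
  | nd g k t t' ih _ =>
    intro T
    rw [C.inv_eps.ket_nd, C.hD.eps_nd, mul_assoc, φ_ket]
    exact C.lift_ket ih (C.W_mul C.W_z' (C.ket_ketL_mem _ T))

theorem W_basOp (b : Bas n) : C.D.basOp b ∈ C.W := by
  cases b
  exacts [C.W_γ _ _, C.W_u, C.W_u', C.W_z, C.W_z', C.W_nd, C.W_nd']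

theorem W_evOp (m : Mode) (a : S.Λ) : C.D.evOp m a ∈ C.W := by
  cases m
  · cases a
    exacts [C.W_basOp _, one_mem _, one_mem _, zero_mem _, zero_mem _, zero_mem _]
  · exact C.W_psh a
  · exact C.W_pop a

theorem W_pshW (w : List S.Λ) : C.D.pshW w ∈ C.W := by
  induction w with
  | nil => exact one_mem _
  | cons a w ih => exact mul_mem (C.W_psh a) ih

theorem W_popW (w : List S.Λ) : C.D.popW w ∈ C.W := by
  induction w with
  | nil => exact one_mem _
  | cons a w ih => exact mul_mem ih (C.W_pop a)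

theorem W_opS (L L' : List (SP S.Λ)) : C.D.opS L L' ∈ C.W := by
  induction L generalizing L' with
  | nil => rw [opS_nil_left]; exact one_mem _
  | cons a L ih =>
    cases L' with
    | nil => exact one_mem _
    | cons b L' =>
      refine mul_mem (mul_mem (mul_mem (C.W_pshW _) ?_) (C.W_popW _)) (C.W_φ (ih L'))
      split_ifs
      exacts [one_mem _, mul_mem C.W_z C.W_z']

theorem W_stP (q : S.Q) : C.D.stP q ∈ C.W := by
  rw [stP_eq]
  split_ifs
  exacts [C.W_opS _ _, zero_mem _]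

theorem W_Ev (m : Mode) : C.D.E (Sta.Ev m) ∈ C.W := by
  have hz : ∀ m, C.D.E (Sta.Ev m) * C.D.z ∈ C.W := fun m => by
    rw [C.hD.ev_z]
    split_ifs
    exacts [one_mem _, zero_mem _]
  refine C.W_of_ket fun t => ?_
  induction t generalizing m with
  | hole g k =>
    intro T
    refine (C.inv_E _).hole_mem (hz m) ?_ g k
    simpa [nval, Gens.pshW] using C.nval_mem ⟨Sta.Ev m, 0, T, rfl⟩
  | atom k => exact fun T => (C.inv_E _).atom_mem (hz m) T k
  | psh a t ih =>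
    intro T
    rw [ket, ← mul_assoc, C.hD.ev_psh, mul_assoc, φ_ket]
    exact C.lift_ket (ih _) (C.W_mul (C.W_evOp m a) (C.ketL_mem T))
  | nd g k t t' ih _ =>
    intro T
    rw [(C.inv_E _).ket_nd, C.hD.ev_nd, mul_assoc, φ_ket]
    exact C.lift_ket (ih _) (C.W_mul (C.W_psh _) (C.ket_ketL_mem _ T))

theorem W_Rs : C.D.E Sta.Rs ∈ C.W := by
  have hz : C.D.E Sta.Rs * C.D.z ∈ C.W := by rw [C.hD.rs_z]; exact C.W_Ev _
  refine C.W_of_ket fun t => ?_
  induction t with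
  | hole g k =>
    intro T
    refine (C.inv_E _).hole_mem hz ?_ g k
    simpa [nval, Gens.pshW] using C.nval_mem ⟨Sta.Rs, 0, T, rfl⟩
  | atom k => exact fun T => (C.inv_E _).atom_mem hz T k
  | psh a t ih =>
    intro T
    rw [ket, ← mul_assoc, C.hD.rs_psh, mul_assoc, φ_ket]
    exact C.lift_ket ih (C.W_mul (C.W_psh a) (C.ketL_mem T))
  | nd g k t t' _ _ =>
    intro T
    rw [(C.inv_E _).ket_nd, C.hD.rs_nd, mul_assoc, φ_ket]
    exact C.W_mul (C.W_Ev _) (C.ket_mem _ (C.W_mul (C.W_psh _) (C.ket_ketL_mem _ T)))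

theorem back_run (m : ℕ) : ∀ (q : S.Q) (h : Tm G S.Λ) (R : List (Tm G S.Λ)), h.dep ≤ m →
    ∃ (j : ℕ) (q0 : S.Q) (T0 : List (Tm G S.Λ)), S.NoBk q0 T0 ∧ T0.length = R.length + 1 ∧
      (∀ i, S.CanF i (q, h :: R) → S.CanF (j + i) (q0, T0)) ∧
      ∀ κ, C.D.E (Sta.M q) * C.ket κ (C.ketL (h :: R))
        = C.D.E (Sta.M q0) * C.ket (Tm.pushW (List.replicate j (tick S)) κ) (C.ketL T0) := by
  induction m using Nat.strong_induction_on with
  | _ m ih =>
    intro q h R hm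
    by_cases hb : S.NoBk q (h :: R)
    · exact ⟨0, q, h :: R, hb, rfl, fun i hi => by simpa using hi, fun κ => rfl⟩
    · simp only [Sys.NoBk, not_forall] at hb
      obtain ⟨ρ, rfl, hb⟩ := hb
      obtain ⟨T', hT'⟩ := Option.ne_none_iff_exists'.mp hb
      have hf := Tm.stepS_symm (C.wf.botf ρ).symm hT'
      have hlen := (Tm.stepS_length (by rw [C.wf.lenf, C.wf.lenf']) hT').1
      obtain ⟨h', R', h1, -, rfl⟩ := Tm.stepS_cons_some.mp hT'
      obtain ⟨r, rfl, rfl, -⟩ := Tm.regStep_some h1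
      simp only [Tm.pushW, Tm.dep] at hm
      obtain ⟨j, q0, T0, e1, e2, e3, e4⟩ := ih h'.dep (by omega) (S.src ρ) h' R' le_rfl
      refine ⟨j + 1, q0, T0, e1, by simpa [e2] using hlen, fun i hi => ?_, fun κ => ?_⟩
      · have := e3 (i + 1) ⟨_, ⟨ρ, rfl, rfl, hf⟩, hi⟩
        rwa [add_right_comm, add_assoc]
      · rw [List.replicate_succ', Tm.pushW_append, ← e4]
        exact (C.fwd_step hf (tick S) κ).symm

theorem M_hole_mem (q : S.Q) (T : List (Tm G S.Λ)) :
    C.D.E (Sta.M q) * C.D.φ (C.ketL T) ∈ C.RN := by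
  obtain ⟨h, R, e, hl⟩ : ∃ h R, C.ketL T = C.ketL (h :: R) ∧ S.K + 2 ≤ R.length := by
    rw [← C.ketL_pad T (S.K + 3)]
    have : S.K + 3 ≤ (T ++ List.replicate (S.K + 3) (Tm.hole (1 : G) 0)).length := by simp
    cases hT : T ++ List.replicate (S.K + 3) (Tm.hole (1 : G) 0) with
    | nil => rw [hT] at this; simp at this
    | cons h R => rw [hT] at this; exact ⟨h, R, rfl, by simpa using this⟩
  obtain ⟨j, q0, T0, e1, e2, e3, e4⟩ := C.back_run _ q h R le_rfl
  have e5 := e4 (Tm.hole 1 0)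
  rw [ket, C.lab_one, one_mul] at e5
  rw [e, e5]
  by_cases hs : q0 = S.start → Tm.stepS S.stL S.stL T0 = none
  · have := C.nval_mem ⟨Sta.M q0, j, T0, e3 0 trivial, e1, hs, by omega⟩
    rw [ket_pushW, ket, C.lab_one, one_mul, ← mul_assoc]
    exact this
  · rw [Classical.not_imp] at hs
    obtain ⟨rfl, hs⟩ := hs
    obtain ⟨T', hT'⟩ := Option.ne_none_iff_exists'.mp hs
    obtain ⟨Z, rfl⟩ := Tm.stepS_atoms hT'
    rw [link_inst, mul_assoc, eps_pushW]
    exact C.W_mul (C.W_Ev _) (C.W_mul C.W_eps (C.ket_ketL_mem _ _))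

theorem W_M (q : S.Q) : C.D.E (Sta.M q) ∈ C.W := by
  have hz : ∀ q, C.D.E (Sta.M q) * C.D.z ∈ C.W := fun q => by
    rw [C.hD.halt]
    split_ifs
    exacts [pow_mem C.W_eps _, zero_mem _, mul_mem C.W_Rs (pow_mem C.W_eps _)]
  refine C.W_of_ket fun t => ?_
  induction t generalizing q with
  | hole g k => exact fun T => (C.inv_E _).hole_mem (hz q) (C.M_hole_mem q T) g k
  | atom k => exact fun T => (C.inv_E _).atom_mem (hz q) T k
  | psh a t ih =>
    intro T
    have key : ∀ q' x, x ∈ C.W → C.D.E (Sta.M q') * C.D.φ x * C.ket t (C.ketL T) ∈ C.RN :=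
      fun q' x hx => by
        rw [mul_assoc, φ_ket]
        exact C.lift_ket (ih q') (C.W_mul hx (C.ketL_mem T))
    rw [ket, ← mul_assoc, C.hD.fwd, add_mul, Finset.sum_mul]
    refine add_mem (sum_mem fun ρ _ => ?_) (key _ _ (sub_mem (one_mem _) (sum_mem fun ρ _ => ?_)))
    · split_ifs
      · exact key _ _ (C.W_opS _ _)
      · simp
    · split_ifs
      exacts [C.W_opS _ _, zero_mem _]
  | nd g k t t' ih _ =>
    intro T
    have hy : C.D.z' * C.ket t' (C.ketL T) ∈ C.RN := C.W_mul C.W_z' (C.ket_ketL_mem _ T)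
    have key : ∀ q' x, x ∈ C.W →
        C.D.E (Sta.M q') * C.D.φ x * C.ket t (C.D.z' * C.ket t' (C.ketL T)) ∈ C.RN :=
      fun q' x hx => by
        rw [mul_assoc, φ_ket]
        exact C.lift_ket (ih q') (C.W_mul hx hy)
    rw [(C.inv_E _).ket_nd, C.hD.bwd, mul_assoc, φ_ket, add_mul, add_mul, Finset.sum_mul]
    refine add_mem (add_mem (sum_mem fun ρ _ => ?_) (key _ _ (C.W_stP q))) ?_
    · split_ifs
      · exact key _ _ (C.W_opS _ _)
      · simp
    · refine C.W_mul (mul_mem (C.W_Ev _) (C.W_φ (mul_mem (C.W_psh _) (sub_mem (sub_mem (one_mem _)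
        (sum_mem fun ρ _ => ?_)) (C.W_stP q))))) (C.ket_mem _ hy)
      split_ifs
      exacts [C.W_opS _ _, zero_mem _]

theorem W_gen (x : XG S) : C.D.gen x ∈ C.W := by
  cases x with
  | E s => cases s; exacts [C.W_M _, C.W_Ev _, C.W_Rs]
  | γ i b => exact C.W_γ i b
  | u => exact C.W_u
  | u' => exact C.W_u'
  | z => exact C.W_z
  | z' => exact C.W_z'
  | nd => exact C.W_nd
  | nd' => exact C.W_nd'
  | eps => exact C.W_eps
  | psh a => exact C.W_psh a
  | pop a => exact C.W_pop a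

theorem span (hG : C.D.Gend) (a : A) : a ∈ C.RN := by
  have h : Subring.closure (Set.range C.D.gen ∪ Set.range (fun x => C.D.φ (C.D.gen x))) ≤ C.W := by
    rw [Subring.closure_le]
    rintro _ (⟨x, rfl⟩ | ⟨x, rfl⟩)
    exacts [C.W_gen x, C.W_φ (C.W_gen x)]
  simpa [ketL] using C.W_mul (h (hG a)) (C.ketL_mem [])

end Ctx

end Vale.Agent.P193
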