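import Vale.Agent.P193.RB3

/-!
Matching patterns against closed terms, generic values, programs.
-/

namespace Vale.Agent.P193

universe v

namespace Tm

variable {G : Type v} {Λ : Type}

/-- The pattern of a term. -/
def toPat : Tm G Λ → Pat G Λ
  | hole _ _ => Pat.hole
  | atom k => Pat.atom k
  | psh a t => Pat.psh a (toPat t)
  | nd g k t t' => Pat.nd g k (toPat t) (toPat t')

/-- Bound on the labels. -/
def bd : Tm G Λ → ℕ
  | hole _ k => k.natAbs
  | atom _ => 0
  | psh _ t => bd t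
  | nd _ k t t' => k.natAbs + bd t + bd t'

/-- Bound on the labels of a list. -/
def bdL : List (Tm G Λ) → ℕ
  | [] => 0
  | t :: T => bd t + bdL T

theorem bdL_pad (g : G) (T : List (Tm G Λ)) (j : ℕ) :
    bdL (T ++ List.replicate j (hole g 0)) = bdL T := by
  induction T with
  | nil =>
    induction j with
    | zero => rfl
    | succ j ih => simpa [List.replicate_succ, bdL, bd] using ih
  | cons t T ih => simp [bdL, ih]

/-- Plug the generic value with label `K` and parts `a`, `a` into all holes. -/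
def fill (K : ℕ) (a : Tm G Λ) : Tm G Λ → Tm G Λ
  | hole g k => nd g (k + K) a a
  | atom k => atom k
  | psh b t => psh b (fill K a t)
  | nd g k t t' => nd g k (fill K a t) (fill K a t')

theorem holes_fill (K : ℕ) {a : Tm G Λ} (ha : a.holes = 0) (t : Tm G Λ) :
    (fill K a t).holes = 0 := by
  induction t <;> simp_all [fill, holes]

theorem holesL_eq_zero {T : List (Tm G Λ)} : holesL T = 0 ↔ ∀ t ∈ T, t.holes = 0 := by
  induction T with
  | nil => simp [holesL]
  | cons t T ih => simp [holesL, ih]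

theorem fill_inj {K : ℕ} {a t t' : Tm G Λ} (hK : t.bd + t'.bd < K)
    (h : fill K a t = fill K a t') : t = t' := by
  induction t generalizing t' with
  | hole g k =>
    cases t' <;> simp [fill, bd] at h hK ⊢
    · exact h
    · omega
  | atom k => cases t' <;> simp_all [fill]
  | psh b t ih =>
    cases t' <;> simp [fill, bd] at h hK ⊢
    exact ⟨h.1, ih hK h.2⟩
  | nd g k t s ih ih' =>
    cases t' <;> simp [fill, bd] at h hK ⊢
    · omega
    · exact ⟨h.1, h.2.1, ih (by omega) h.2.2.1, ih' (by omega) h.2.2.2⟩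

theorem fillL_inj {K : ℕ} {a : Tm G Λ} {T T' : List (Tm G Λ)} (hK : bdL T + bdL T' < K)
    (h : T.map (fill K a) = T'.map (fill K a)) : T = T' := by
  induction T generalizing T' with
  | nil => simpa using h.symm
  | cons t T ih =>
    cases T' with
    | nil => simp at h
    | cons t' T' =>
      simp only [List.map_cons, List.cons.injEq, bdL] at h hK ⊢
      exact ⟨fill_inj (by omega) h.1, ih (by omega) h.2⟩

theorem fill_pushW (K : ℕ) (a : Tm G Λ) (w : List Λ) (t : Tm G Λ) :
    fill K a (pushW w t) = pushW w (fill K a t) := by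
  induction w with
  | nil => rfl
  | cons b w ih => simp [pushW, fill, ih]

theorem isZ_fill (K : ℕ) (a t : Tm G Λ) : isZ (fill K a t) = isZ t := by
  cases t with
  | atom k => rfl
  | _ => simp [fill, isZ]

variable [DecidableEq Λ]

theorem strip_fill (K : ℕ) (a : Tm G Λ) (w : List Λ) (t : Tm G Λ) :
    strip w (fill K a t) = (strip w t).map (fill K a) := by
  induction w generalizing t with
  | nil => simp [strip]
  | cons b w ih =>
    cases t with
    | psh c t =>
      simp only [fill, strip]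
      split_ifs
      · exact ih t
      · rfl
    | _ => simp [fill, strip]

theorem regStep_fill (K : ℕ) (a : Tm G Λ) (x y : SP Λ) (t : Tm G Λ) :
    regStep x y (fill K a t) = (regStep x y t).map (fill K a) := by
  unfold regStep
  rw [strip_fill]
  cases strip x.1 t with
  | none => rfl
  | some r =>
    simp only [Option.map_some, isZ_fill]
    split_ifs
    · simp [fill_pushW]
    · rfl

theorem stepS_fill (K : ℕ) (a : Tm G Λ) (L L' : List (SP Λ)) (T : List (Tm G Λ)) :
    stepS L L' (T.map (fill K a)) = (stepS L L' T).map (List.map (fill K a)) := by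
  induction L generalizing L' T with
  | nil => simp [stepS_nil_left]
  | cons x L ih =>
    cases L' with
    | nil => cases T <;> simp [stepS]
    | cons y L' =>
      cases T with
      | nil => simp [stepS_cons_nil]
      | cons t T =>
        rw [List.map_cons, stepS, stepS, regStep_fill, ih]
        cases regStep x y t <;> cases stepS L L' T <;> simp

end Tm

namespace Pat

variable {G : Type v} {Λ : Type}

/-- Bound on the labels. -/
def bd : Pat G Λ → ℕ
  | nd _ k t t' => k.natAbs + bd t + bd t'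
  | psh _ t => bd t
  | _ => 0

/-- Bound on the labels of a list. -/
def bdL : List (Pat G Λ) → ℕ
  | [] => 0
  | t :: T => bd t + bdL T

/-- Size of a pattern. -/
def size : Pat G Λ → ℕ
  | hole => 0
  | eps => 1
  | atom _ => 2
  | psh _ t => 2 + size t
  | nd _ _ t t' => 2 + size t + size t'

/-- Size of a list of patterns. -/
def sizeL : List (Pat G Λ) → ℕ
  | [] => 0
  | t :: T => size t + sizeL T

theorem size_eq_zero {p : Pat G Λ} (h : p.size = 0) : p = hole := by
  cases p <;> simp [size] at h ⊢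

end Pat

/-- Fresh values. -/
def Fr {G : Type v} [Group G] {Λ : Type} (F : ℕ) (v : Tm G Λ) : Prop :=
  v.holes = 0 ∧ ¬ v.Er ∧ ∃ (K : ℕ) (a b : Tm G Λ), F < K ∧ v = Tm.nd 1 K a b

theorem Fr.mono {G : Type v} [Group G] {Λ : Type} {F F' : ℕ} {v : Tm G Λ} (h : Fr F' v)
    (hF : F ≤ F') : Fr F v := by
  obtain ⟨h1, h2, K, a, b, h3, h4⟩ := h
  exact ⟨h1, h2, K, a, b, by omega, h4⟩

theorem Fr.closed {G : Type v} [Group G] {Λ : Type} {F : ℕ} {V : List (Tm G Λ)}
    (h : ∀ v ∈ V, Fr F v) : Tm.holesL V = 0 :=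
  Tm.holesL_eq_zero.mpr fun v hv => (h v hv).1

namespace Ctx

variable {n : ℕ} {G : Type v} [Group G] {S : Sys n} {A : Type} [Ring A] (C : Ctx G S A)

theorem bra_atom_atom (k k' : ℕ) (x y : A) :
    C.bra (Pat.atom k) x * C.ket (Tm.atom k') y = if k = k' then x * y else 0 := by
  have : C.bra (Pat.atom k) x * C.ket (Tm.atom k') y
      = x * (C.D.z' * C.D.u' ^ k * (C.D.u ^ k' * C.D.z)) * y := by simp [bra, ket, mul_assoc]
  rw [this]
  split_ifs with h
  · rw [h, atom_atom, mul_one]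
  · rw [C.atom_atom_ne h]; simp

theorem z'_u'pow_psh (k : ℕ) (a : S.Λ) : C.D.z' * C.D.u' ^ k * C.D.psh a = 0 := by
  induction k with
  | zero => simp [C.hD.z'psh]
  | succ k ih => rw [pow_succ, mul_assoc, mul_assoc, C.u'psh, ← mul_assoc, ih]

theorem bra_atom_psh (k : ℕ) (a : S.Λ) (t : Tm G S.Λ) (x y : A) :
    C.bra (Pat.atom k) x * C.ket (Tm.psh a t) y = 0 := by
  have : C.bra (Pat.atom k) x * C.ket (Tm.psh a t) y
      = x * (C.D.z' * C.D.u' ^ k * C.D.psh a) * C.ket t y := by simp [bra, ket, mul_assoc]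
  rw [this, z'_u'pow_psh]; simp

theorem bra_atom_nd (k : ℕ) (g : G) (k' : ℤ) (t t' : Tm G S.Λ) (x y : A) :
    C.bra (Pat.atom k) x * C.ket (Tm.nd g k' t t') y = 0 := by
  have : C.bra (Pat.atom k) x * C.ket (Tm.nd g k' t t') y
      = x * (C.D.z' * C.D.u' ^ k * C.lab g k' * C.D.nd) * C.ket t (C.ket t' y) := by
    simp [bra, ket, mul_assoc]
  rw [this, lab, C.z'_u'pow_run_nd k (C.labW_lab g k')]; simp

theorem bra_psh_atom (a : S.Λ) (p : Pat G S.Λ) (k : ℕ) (x y : A) :
    C.bra (Pat.psh a p) x * C.ket (Tm.atom k) y = 0 := by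
  rw [bra, mul_assoc, pop_ket_atom, mul_zero]

theorem bra_psh_nd (a : S.Λ) (p : Pat G S.Λ) (g : G) (k : ℤ) (t t' : Tm G S.Λ) (x y : A) :
    C.bra (Pat.psh a p) x * C.ket (Tm.nd g k t t') y = 0 := by
  rw [bra, mul_assoc, pop_ket_nd, mul_zero]

theorem bra_psh_psh (a b : S.Λ) (p : Pat G S.Λ) (t : Tm G S.Λ) (x y : A) :
    C.bra (Pat.psh a p) x * C.ket (Tm.psh b t) y
      = if a = b then C.bra p x * C.ket t y else 0 := by
  rw [bra, ket, mul_assoc, ← mul_assoc (C.D.pop a), C.hD.pop_psh]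
  split_ifs <;> simp

theorem bra_nd_atom (g : G) (k : ℤ) (p p' : Pat G S.Λ) (m : ℕ) (x y : A) :
    C.bra (Pat.nd g k p p') x * C.ket (Tm.atom m) y = 0 := by
  have : C.bra (Pat.nd g k p p') x * C.ket (Tm.atom m) y
      = C.bra p (C.bra p' x) * (C.D.nd' * C.lab g⁻¹ (-k) * C.D.u ^ m * C.D.z) * y := by
    simp [bra, ket, mul_assoc]
  rw [this, lab, C.nd'_run_upow_z m (C.labW_lab _ _)]; simp

theorem bra_nd_psh (g : G) (k : ℤ) (p p' : Pat G S.Λ) (a : S.Λ) (t : Tm G S.Λ) (x y : A) :
    C.bra (Pat.nd g k p p') x * C.ket (Tm.psh a t) y = 0 := by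
  have : C.bra (Pat.nd g k p p') x * C.ket (Tm.psh a t) y
      = C.bra p (C.bra p' x) * (C.D.nd' * (C.lab g⁻¹ (-k) * C.D.psh a)) * C.ket t y := by
    simp [bra, ket, mul_assoc]
  rw [this, lab_psh, C.hD.nd'psh]; simp

open Classical in
theorem bra_nd_nd (g g' : G) (k k' : ℤ) (p p' : Pat G S.Λ) (t t' : Tm G S.Λ) (x y : A) :
    C.bra (Pat.nd g k p p') x * C.ket (Tm.nd g' k' t t') y
      = if g = g' ∧ k = k' then C.bra p (C.bra p' x) * C.ket t (C.ket t' y) else 0 := by
  have : C.bra (Pat.nd g k p p') x * C.ket (Tm.nd g' k' t t') y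
      = C.bra p (C.bra p' x) * (C.D.nd' * (C.lab g⁻¹ (-k) * C.lab g' k' * C.D.nd))
        * C.ket t (C.ket t' y) := by
    simp [bra, ket, mul_assoc]
  rw [this, lab_lab_nd]
  split_ifs with h
  · rw [h.1, h.2, inv_mul_cancel, neg_add_cancel, lab_one, one_mul, C.hD.nd'nd, mul_one]
  · rw [← mul_assoc C.D.nd', C.nd'_lab_nd_ne]
    · simp
    · rintro ⟨h1, h2⟩
      exact h ⟨inv_mul_eq_one.mp h1, by omega⟩

theorem bra_toPat_self {t : Tm G S.Λ} (h : t.holes = 0) (x y : A) :
    C.bra t.toPat x * C.ket t y = x * y := by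
  induction t generalizing x y with
  | hole g k => simp [Tm.holes] at h
  | atom k => simp [Tm.toPat, bra_atom_atom]
  | psh a t ih => simp [Tm.toPat, bra_psh_psh, ih h]
  | nd g k t t' ih ih' =>
    simp only [Tm.holes, Nat.add_eq_zero_iff] at h
    simp [Tm.toPat, bra_nd_nd, ih h.1, ih' h.2]

theorem bra_toPat_ne {t t' : Tm G S.Λ} (h : t.holes = 0) (h' : t'.holes = 0) (hne : t ≠ t')
    (x y : A) : C.bra t.toPat x * C.ket t' y = 0 := by
  induction t generalizing x y t' with
  | hole g k => simp [Tm.holes] at h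
  | atom k =>
    cases t' with
    | hole g k => simp [Tm.holes] at h'
    | atom k' => rw [Tm.toPat, bra_atom_atom, if_neg (fun e => hne (by rw [e]))]
    | psh a t => exact C.bra_atom_psh _ _ _ _ _
    | nd g k t t' => exact C.bra_atom_nd _ _ _ _ _ _ _
  | psh a t ih =>
    cases t' with
    | hole g k => simp [Tm.holes] at h'
    | atom k' => exact C.bra_psh_atom _ _ _ _ _
    | psh b t' =>
      rw [Tm.toPat, bra_psh_psh]
      split_ifs with e
      · exact ih (t' := t') h h' (fun e' => hne (by rw [e, e'])) _ _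
      · rfl
    | nd g k t t' => exact C.bra_psh_nd _ _ _ _ _ _ _ _
  | nd g k t s ih ih' =>
    cases t' with
    | hole g k => simp [Tm.holes] at h'
    | atom k' => exact C.bra_nd_atom _ _ _ _ _ _ _
    | psh b t' => exact C.bra_nd_psh _ _ _ _ _ _ _ _
    | nd g' k' t' s' =>
      simp only [Tm.holes, Nat.add_eq_zero_iff] at h h'
      rw [Tm.toPat, bra_nd_nd]
      split_ifs with e
      · by_cases e1 : t = t'
        · refine C.bra_ket_zero _ _ (ih' h.2 h'.2 (fun e2 => hne ?_) _ _)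
          rw [e.1, e.2, e1, e2]
        · exact ih h.1 h'.1 e1 _ _
      · rfl

/-- The destructor of a list of closed terms. -/
noncomputable def brc (Y : List (Tm G S.Λ)) : A := C.braL (Y.map Tm.toPat)

theorem brc_self {Y : List (Tm G S.Λ)} (h : Tm.holesL Y = 0) : C.brc Y * C.ketL Y = 1 := by
  induction Y with
  | nil => simp [brc, braL, ketL]
  | cons t Y ih =>
    simp only [Tm.holesL, Nat.add_eq_zero_iff] at h
    exact (C.bra_toPat_self h.1 _ _).trans (ih h.2)

theorem brc_ne {Y Y' : List (Tm G S.Λ)} (h : Tm.holesL Y = 0) (h' : Tm.holesL Y' = 0)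
    (hl : Y.length = Y'.length) (hne : Y ≠ Y') (Z Z' : List (Tm G S.Λ)) :
    C.brc (Y ++ Z) * C.ketL (Y' ++ Z') = 0 := by
  induction Y generalizing Y' with
  | nil => cases Y' with
    | nil => exact (hne rfl).elim
    | cons => simp at hl
  | cons t Y ih =>
    cases Y' with
    | nil => simp at hl
    | cons t' Y' =>
      simp only [Tm.holesL, Nat.add_eq_zero_iff] at h h'
      by_cases e : t = t'
      · exact C.bra_ket_zero _ _ (ih h.2 h'.2 (by simpa using hl) (fun e' => hne (by rw [e, e'])))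
      · exact C.bra_toPat_ne h.1 h'.1 e _ _

theorem bra_fresh {F : ℕ} {a b : Tm G S.Λ} {K : ℕ} (hK : F < K) {p : Pat G S.Λ} (hp : p.bd ≤ F)
    (h1 : p ≠ Pat.hole) (h2 : p ≠ Pat.eps) (x y : A) : C.bra p x * C.ket (Tm.nd 1 K a b) y = 0 := by
  cases p with
  | hole => exact (h1 rfl).elim
  | eps => exact (h2 rfl).elim
  | atom k => exact C.bra_atom_nd _ _ _ _ _ _ _
  | psh a t => exact C.bra_psh_nd _ _ _ _ _ _ _ _
  | nd g k t t' =>
    rw [bra_nd_nd, if_neg]
    rintro ⟨-, rfl⟩
    simp [Pat.bd] at hp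
    omega

theorem inst_pat (F : ℕ) (p : Pat G S.Λ) (U : List (Tm G S.Λ)) (hl : U.length = p.holes)
    (hU : ∀ v ∈ U, Fr F v) :
    ∃ y : Tm G S.Λ, y.holes = 0 ∧ (∀ x x', C.bra p x * C.ket y x' = C.ketL U * (x * x')) ∧
      ∀ p' : Pat G S.Λ, p'.bd ≤ F → (∀ x x', C.bra p' x * C.ket y x' = 0) ∨
        (p'.size ≤ p.size ∧ (p'.size = p.size → p' = p)) := by
  induction p generalizing U with
  | hole =>
    obtain ⟨v, rfl⟩ := List.length_eq_one_iff.mp hl
    obtain ⟨h1, h2, K, a, b, hK, e⟩ := hU v (by simp)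
    refine ⟨v, h1, fun x x' => ?_, fun p' hp' => ?_⟩
    · rw [bra, φ_ket, ketL, ketL, C.ket_closed h1, one_mul]
    · by_cases e1 : p' = Pat.hole
      · exact Or.inr ⟨by rw [e1], fun _ => e1⟩
      · left
        intro x x'
        by_cases e2 : p' = Pat.eps
        · rw [e2, bra, mul_assoc, C.eps_not_er h1 h2, mul_zero]
        · rw [e]; exact C.bra_fresh hK hp' e1 e2 _ _
  | eps =>
    obtain rfl := List.length_eq_zero_iff.mp hl
    refine ⟨Tm.nd 1 (F + 1 : ℕ) (Tm.atom 0) (Tm.atom 0), rfl, fun x x' => ?_, fun p' hp' => ?_⟩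
    · rw [bra, mul_assoc, C.eps_er (t := Tm.nd _ _ (Tm.atom 0) (Tm.atom 0)) ⟨trivial, rfl⟩, ketL,
        one_mul]
    · by_cases e1 : p' = Pat.hole
      · exact Or.inr (by simp [e1, Pat.size])
      · by_cases e2 : p' = Pat.eps
        · exact Or.inr (by simp [e2])
        · exact Or.inl (C.bra_fresh (Nat.lt_succ_self F) hp' e1 e2)
  | atom k =>
    obtain rfl := List.length_eq_zero_iff.mp hl
    refine ⟨Tm.atom k, rfl, fun x x' => by simp [bra_atom_atom, ketL], fun p' _ => ?_⟩
    cases p' with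
    | hole => exact Or.inr (by simp [Pat.size])
    | eps => exact Or.inr (by simp [Pat.size])
    | atom k' =>
      by_cases e : k' = k
      · exact Or.inr (by simp [e])
      · exact Or.inl (fun x x' => by rw [bra_atom_atom, if_neg e])
    | psh a t => exact Or.inl (C.bra_psh_atom _ _ _)
    | nd g k t t' => exact Or.inl (C.bra_nd_atom _ _ _ _ _)
  | psh a p ih =>
    obtain ⟨y, h1, h2, h3⟩ := ih U hl hU
    refine ⟨Tm.psh a y, h1, fun x x' => by simp [bra_psh_psh, h2], fun p' hp' => ?_⟩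
    cases p' with
    | hole => exact Or.inr (by simp [Pat.size]; omega)
    | eps => exact Or.inr (by simp [Pat.size]; omega)
    | atom k' => exact Or.inl (C.bra_atom_psh _ _ _)
    | psh b t =>
      by_cases e : b = a
      · rcases h3 t hp' with h | h
        · exact Or.inl (fun x x' => by rw [bra_psh_psh, if_pos e, h])
        · exact Or.inr ⟨by simpa [Pat.size] using h.1,
            fun hs => by rw [e, h.2 (by simpa [Pat.size] using hs)]⟩
      · exact Or.inl (fun x x' => by rw [bra_psh_psh, if_neg e])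
    | nd g k t t' => exact Or.inl (C.bra_nd_psh _ _ _ _ _ _)
  | nd g k p q ih ih' =>
    obtain ⟨U1, U2, rfl, l1, l2⟩ : ∃ U1 U2 : List (Tm G S.Λ), U = U1 ++ U2 ∧ U1.length = p.holes ∧
        U2.length = q.holes :=
      ⟨U.take p.holes, U.drop p.holes, by simp, by simp [hl, Pat.holes], by simp [hl, Pat.holes]⟩
    have hU1 : ∀ v ∈ U1, Fr F v := fun v hv => hU v (by simp [hv])
    obtain ⟨y, h1, h2, h3⟩ := ih U1 l1 hU1
    obtain ⟨y', h1', h2', h3'⟩ := ih' U2 l2 (fun v hv => hU v (by simp [hv]))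
    refine ⟨Tm.nd g k y y', by simp [Tm.holes, h1, h1'], fun x x' => ?_, fun p' hp' => ?_⟩
    · rw [bra_nd_nd, if_pos (And.intro rfl rfl), h2, h2', C.ketL_append_closed (Fr.closed hU1), mul_assoc]
    cases p' with
    | hole => exact Or.inr (by simp [Pat.size]; omega)
    | eps => exact Or.inr (by simp [Pat.size]; omega)
    | atom k' => exact Or.inl (C.bra_atom_nd _ _ _ _ _)
    | psh b t => exact Or.inl (C.bra_psh_nd _ _ _ _ _ _)
    | nd g' k' t t' =>
      simp only [Pat.bd] at hp'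
      by_cases e : g' = g ∧ k' = k
      · rcases h3 t (by omega) with h | h
        · exact Or.inl (fun x x' => by rw [bra_nd_nd, if_pos e, h])
        · rcases h3' t' (by omega) with h' | h'
          · exact Or.inl (fun x x' => by rw [bra_nd_nd, if_pos e, C.bra_ket_zero _ _ (h' _ _)])
          · simp only [Pat.size]
            exact Or.inr ⟨by omega, fun hs => by rw [e.1, e.2, h.2 (by omega), h'.2 (by omega)]⟩
      · exact Or.inl (fun x x' => by rw [bra_nd_nd, if_neg e])

theorem inst_patL (F : ℕ) (P : List (Pat G S.Λ)) (U : List (Tm G S.Λ))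
    (hl : U.length = Pat.holesL P) (hU : ∀ v ∈ U, Fr F v) :
    ∃ Y : List (Tm G S.Λ), Tm.holesL Y = 0 ∧ C.braL P * C.ketL Y = C.ketL U ∧
      ∀ P' : List (Pat G S.Λ), P'.length = P.length → Pat.bdL P' ≤ F → C.braL P' * C.ketL Y = 0 ∨
        (Pat.sizeL P' ≤ Pat.sizeL P ∧ (Pat.sizeL P' = Pat.sizeL P → P' = P)) := by
  induction P generalizing U with
  | nil =>
    obtain rfl := List.length_eq_zero_iff.mp hl
    refine ⟨[], rfl, by simp [braL], fun P' h _ => Or.inr ?_⟩
    simp [List.length_eq_zero_iff.mp h]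
  | cons p P ih =>
    obtain ⟨U1, U2, rfl, l1, l2⟩ : ∃ U1 U2 : List (Tm G S.Λ), U = U1 ++ U2 ∧ U1.length = p.holes ∧
        U2.length = Pat.holesL P :=
      ⟨U.take p.holes, U.drop p.holes, by simp, by simp [hl, Pat.holesL], by simp [hl, Pat.holesL]⟩
    have hU1 : ∀ v ∈ U1, Fr F v := fun v hv => hU v (by simp [hv])
    obtain ⟨y, h1, h2, h3⟩ := C.inst_pat F p U1 l1 hU1
    obtain ⟨Y, h1', h2', h3'⟩ := ih U2 l2 (fun v hv => hU v (by simp [hv]))
    refine ⟨y :: Y, by simp [Tm.holesL, h1, h1'], ?_, fun P' hP hb => ?_⟩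
    · rw [braL, ketL, h2, h2', C.ketL_append_closed (Fr.closed hU1)]
    · cases P' with
      | nil => simp at hP
      | cons p' P' =>
        simp only [Pat.bdL] at hb
        rw [braL, ketL]
        rcases h3 p' (by omega) with h | h
        · exact Or.inl (h _ _)
        · rcases h3' P' (by simpa using hP) (by omega) with h' | h'
          · exact Or.inl (C.bra_ket_zero _ _ h')
          · simp only [Pat.sizeL]
            exact Or.inr ⟨by omega, fun hs => by rw [h.2 (by omega), h'.2 (by omega)]⟩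

/-- Elements computed by programs. -/
def PV (a : A) : Prop := ∃ w : List S.Λ, ∀ (κ : Tm G S.Λ) (x : A),
  C.D.E (Sta.Ev Mode.main) * C.ket (Tm.pushW w κ) x = C.D.E (Sta.Ev Mode.main) * C.ket κ (a * x)

theorem PV_one : C.PV 1 := ⟨[], fun κ x => by simp [Tm.pushW]⟩

theorem PV.mul {C : Ctx G S A} {a b : A} (ha : C.PV a) (hb : C.PV b) : C.PV (a * b) := by
  obtain ⟨w, hw⟩ := ha
  obtain ⟨w', hw'⟩ := hb
  exact ⟨w' ++ w, fun κ x => by rw [Tm.pushW_append, hw', hw, mul_assoc]⟩

theorem ev_psh' (m : Mode) (a : S.Λ) (κ : Tm G S.Λ) (x : A) :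
    C.D.E (Sta.Ev m) * C.ket (Tm.psh a κ) x
      = C.D.E (Sta.Ev (nxt m a)) * C.ket κ (C.D.evOp m a * x) := by
  rw [ket, ← mul_assoc, C.hD.ev_psh, mul_assoc, φ_ket]

theorem PV_bas (b : Bas n) : C.PV (C.D.basOp b) :=
  ⟨[Al.bas b], fun κ x => by rw [Tm.pushW, Tm.pushW, ev_psh']; rfl⟩

theorem PV_psh (a : S.Λ) : C.PV (C.D.psh a) :=
  ⟨[Al.push, a], fun κ x => by
    rw [Tm.pushW, Tm.pushW, Tm.pushW, ev_psh', ev_psh']
    simp [nxt, Gens.evOp]⟩

theorem PV_pop (a : S.Λ) : C.PV (C.D.pop a) :=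
  ⟨[Al.pop, a], fun κ x => by
    rw [Tm.pushW, Tm.pushW, Tm.pushW, ev_psh', ev_psh']
    simp [nxt, Gens.evOp]⟩

theorem PV_run (w : List (Bas n)) : C.PV (C.run w) := by
  induction w with
  | nil => exact C.PV_one
  | cons a w ih => exact ih.mul (C.PV_bas a)

theorem PV.pow {C : Ctx G S A} {a : A} (ha : C.PV a) (k : ℕ) : C.PV (a ^ k) := by
  induction k with
  | zero => simpa using C.PV_one
  | succ k ih => rw [pow_succ]; exact ih.mul ha

theorem PV_ket {t : Tm G S.Λ} (h : t.holes = 0) {x : A} (hx : C.PV x) : C.PV (C.ket t x) := by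
  induction t generalizing x with
  | hole g k => simp [Tm.holes] at h
  | atom k => exact (((C.PV_bas Bas.u).pow k).mul (C.PV_bas Bas.z)).mul hx
  | psh a t ih => exact (C.PV_psh a).mul (ih h hx)
  | nd g k t t' ih ih' =>
    simp only [Tm.holes, Nat.add_eq_zero_iff] at h
    exact ((C.PV_run _).mul (C.PV_bas Bas.nd)).mul (ih h.1 (ih' h.2 hx))

theorem PV_bra {t : Tm G S.Λ} (h : t.holes = 0) {x : A} (hx : C.PV x) :
    C.PV (C.bra t.toPat x) := by
  induction t generalizing x with
  | hole g k => simp [Tm.holes] at h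
  | atom k => exact (hx.mul (C.PV_bas Bas.z')).mul ((C.PV_bas Bas.u').pow k)
  | psh a t ih => exact (ih h hx).mul (C.PV_pop a)
  | nd g k t t' ih ih' =>
    simp only [Tm.holes, Nat.add_eq_zero_iff] at h
    exact ((ih h.1 (ih' h.2 hx)).mul (C.PV_bas Bas.nd')).mul (C.PV_run _)

theorem PV_ketL {Y : List (Tm G S.Λ)} (h : Tm.holesL Y = 0) : C.PV (C.ketL Y) := by
  induction Y with
  | nil => exact C.PV_one
  | cons t Y ih =>
    simp only [Tm.holesL, Nat.add_eq_zero_iff] at h
    exact C.PV_ket h.1 (ih h.2)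

theorem PV_brc {Y : List (Tm G S.Λ)} (h : Tm.holesL Y = 0) : C.PV (C.brc Y) := by
  induction Y with
  | nil => exact C.PV_one
  | cons t Y ih =>
    simp only [Tm.holesL, Nat.add_eq_zero_iff] at h
    exact C.PV_bra h.1 (ih h.2)

theorem ket_fill (K : ℕ) {a : Tm G S.Λ} (ha : a.holes = 0) (t : Tm G S.Λ) (x y : A) :
    C.ket t x * (C.ket (Tm.nd 1 K a a) 1 ^ t.holes * y) = C.ket (Tm.fill K a t) (x * y) := by
  induction t generalizing x y with
  | hole g k =>
    rw [Tm.holes, pow_one, C.ket_closed (t := Tm.nd 1 K a a) (by simp [Tm.holes, ha]), one_mul, ket,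
      mul_assoc, φ_ket,
      Tm.fill, ket, ket, ← mul_assoc, ← mul_assoc, lab_lab_nd, mul_one]
  | atom k => simp [Tm.holes, Tm.fill, ket, mul_assoc]
  | psh b t ih => rw [Tm.holes, Tm.fill, ket, mul_assoc, ih, ket]
  | nd g k t t' ih ih' =>
    rw [Tm.holes, Tm.fill, ket, mul_assoc, pow_add, mul_assoc _ _ y, ih, ih', ket]

theorem ketL_replicate {v : Tm G S.Λ} (hv : v.holes = 0) (m : ℕ) :
    C.ketL (List.replicate m v) = C.ket v 1 ^ m := by
  induction m with
  | zero => simp [ketL]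
  | succ m ih => rw [List.replicate_succ, ketL, ih, pow_succ', C.ket_closed hv, one_mul]

theorem ketL_fill (K : ℕ) {a : Tm G S.Λ} (ha : a.holes = 0) (T : List (Tm G S.Λ)) :
    C.ketL T * C.ket (Tm.nd 1 K a a) 1 ^ Tm.holesL T = C.ketL (T.map (Tm.fill K a)) := by
  induction T with
  | nil => simp [ketL, Tm.holesL]
  | cons t T ih => rw [ketL, Tm.holesL, pow_add, C.ket_fill K ha, ih, List.map_cons, ketL]

end Ctx

end Vale.Agent.P193
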