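import Vale.Agent.P193.RB4

/-!
Tailored control values for neutral elements.
-/

namespace Vale.Agent.P193

universe v

namespace Sys

variable {n : ℕ} {S : Sys n} {G : Type v}

theorem CanF.append (wf : S.WF) {j : ℕ} {q : S.Q} {T : List (Tm G S.Λ)} (h : S.CanF j (q, T))
    (Z : List (Tm G S.Λ)) : S.CanF j (q, T ++ Z) := by
  induction j generalizing q T with
  | zero => trivial
  | succ j ih =>
    obtain ⟨⟨q', T'⟩, ⟨ρ, h1, h2, h3⟩, h4⟩ := h
    have hl : (S.Lf ρ).length = (S.Lf' ρ).length := by rw [wf.lenf, wf.lenf']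
    refine ⟨(q', T' ++ Z), ⟨ρ, h1, h2, ?_⟩, ih h4⟩
    rw [Tm.stepS_append hl (Tm.stepS_length hl h3).2.2]
    simp only at h3
    simp [h3]

theorem CanF.fill {j : ℕ} {q : S.Q} {T : List (Tm G S.Λ)} (h : S.CanF j (q, T)) (K : ℕ)
    (a : Tm G S.Λ) : S.CanF j (q, T.map (Tm.fill K a)) := by
  induction j generalizing q T with
  | zero => trivial
  | succ j ih =>
    obtain ⟨⟨q', T'⟩, ⟨ρ, h1, h2, h3⟩, h4⟩ := h
    refine ⟨(q', T'.map (Tm.fill K a)), ⟨ρ, h1, h2, ?_⟩, ih h4⟩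
    rw [Tm.stepS_fill]
    simp only at h3
    simp [h3]

theorem Valid.append (wf : S.WF) {s : Sta S.Q} {j : ℕ} {T : List (Tm G S.Λ)} (h : S.Valid s j T)
    (Z : List (Tm G S.Λ)) : S.Valid s j (T ++ Z) := by
  cases s with
  | Ev m => exact h
  | Rs => exact h
  | M q =>
    obtain ⟨h1, h2, h3, h4⟩ := h
    refine ⟨h1.append wf Z, fun ρ hρ => ?_, fun hq => ?_, by simp; omega⟩
    · rw [Tm.stepS_append (by rw [wf.lenf, wf.lenf']) (by rw [wf.lenf']; exact h4), h2 ρ hρ]; rfl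
    · rw [Tm.stepS_append rfl (by simp [stL]; omega), h3 hq]; rfl

theorem Valid.fill {s : Sta S.Q} {j : ℕ} {T : List (Tm G S.Λ)} (h : S.Valid s j T) (K : ℕ)
    (a : Tm G S.Λ) : S.Valid s j (T.map (Tm.fill K a)) := by
  cases s with
  | Ev m => exact h
  | Rs => exact h
  | M q =>
    obtain ⟨h1, h2, h3, h4⟩ := h
    refine ⟨h1.fill K a, fun ρ hρ => ?_, fun hq => ?_, by simpa using h4⟩
    · rw [Tm.stepS_fill, h2 ρ hρ]; rfl
    · rw [Tm.stepS_fill, h3 hq]; rfl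

end Sys

/-- States that are not machine states. -/
def NM {Q : Type} (s : Sta Q) : Prop := ∀ q, s ≠ Sta.M q

theorem Sys.Valid.nm {n : ℕ} {S : Sys n} {G : Type v} {s : Sta S.Q} {j : ℕ}
    {T : List (Tm G S.Λ)} (h : S.Valid s j T) (hs : NM s) : j = 0 := by
  cases s with
  | M q => exact (hs q rfl).elim
  | Ev m => exact h
  | Rs => exact h

/-- Number of wrappers of the tailored control value. -/
def Jof {Q : Type} : Sta Q → ℕ → ℕ
  | Sta.M _, j => j + 1
  | _, _ => 0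

/-- Total size of a list of terms. -/
def Tm.szL {G : Type v} {Λ : Type} (T : List (Tm G Λ)) : ℕ := Tm.bdL T + T.length + Tm.holesL T

namespace Ctx

variable {n : ℕ} {G : Type v} [Group G] {S : Sys n} {A : Type} [Ring A] (C : Ctx G S A)

/-- The marker term. -/
def s0 (G : Type v) (S : Sys n) : Tm G S.Λ := Tm.psh (tick S) (Tm.atom 0)

/-- One wrapper. -/
def wrap (K : ℕ) (κ : Tm G S.Λ) : Tm G S.Λ := Tm.nd 1 K κ (Tm.atom 0)

/-- Control values. -/
def ctl (K J : ℕ) (w : List S.Λ) : Tm G S.Λ :=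
  (wrap K)^[J] (Tm.nd 1 K (Tm.pushW w (Tm.atom 0)) (s0 G S))

/-- The generic value. -/
def gv (G : Type v) [Group G] (S : Sys n) (K : ℕ) : Tm G S.Λ := Tm.nd 1 K (s0 G S) (s0 G S)

theorem ctl_succ (K J : ℕ) (w : List S.Λ) : (ctl K (J + 1) w : Tm G S.Λ) = wrap K (ctl K J w) :=
  Function.iterate_succ_apply' _ _ _

theorem ctl_add (K i J : ℕ) (w : List S.Λ) :
    (ctl K (i + J) w : Tm G S.Λ) = (wrap K)^[i] (ctl K J w) :=
  Function.iterate_add_apply _ _ _ _

theorem fr_ctl {F K : ℕ} (h : F < K) (J : ℕ) (w : List S.Λ) : Fr F (ctl K J w : Tm G S.Λ) := by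
  induction J with
  | zero =>
    refine ⟨?_, ?_, K, _, _, h, rfl⟩
    · simp [ctl, Tm.holes, Tm.holes_pushW, s0]
    · simp [ctl, Tm.Er, s0, Tm.isZ]
  | succ J ih =>
    rw [ctl_succ]
    exact ⟨by simpa [wrap, Tm.holes] using ih.1, fun e => ih.2.1 e.1, K, _, _, h, rfl⟩

theorem fr_gv {F K : ℕ} (h : F < K) : Fr F (gv G S K) := fr_ctl h 0 [tick S]

theorem fr_gvs {F K : ℕ} (h : F < K) (H : ℕ) : ∀ v ∈ List.replicate H (gv G S K), Fr F v :=
  fun v hv => by rw [(List.mem_replicate.mp hv).2]; exact fr_gv h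

/-- `w` is a program for `a`. -/
def PW (w : List S.Λ) (a : A) : Prop := ∀ (κ : Tm G S.Λ) (x : A),
  C.D.E (Sta.Ev Mode.main) * C.ket (Tm.pushW w κ) x = C.D.E (Sta.Ev Mode.main) * C.ket κ (a * x)

theorem E_nd {s : Sta S.Q} (hs : NM s) (g : G) (k : ℤ) (t t' : Tm G S.Λ) (y : A) :
    C.D.E s * C.ket (Tm.nd g k t t') y
      = C.D.E (Sta.Ev Mode.main) * C.ket t (C.ket (Tm.psh (Al.tag s) t') y) := by
  rw [(C.inv_E _).ket_nd, ket, ← φ_ket, ← mul_assoc]
  cases s with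
  | M q => exact (hs q rfl).elim
  | Ev m => rw [C.hD.ev_nd]
  | Rs => rw [C.hD.rs_nd]

theorem ctl_zero {s : Sta S.Q} (hs : NM s) {w : List S.Λ} {a : A} (hw : C.PW w a) (K : ℕ) (y : A) :
    C.D.E s * C.ket (ctl K 0 w) y = a * C.ket (Tm.psh (Al.tag s) (s0 G S)) y := by
  rw [ctl, Function.iterate_zero_apply, C.E_nd hs, hw, ket_atom0, ← mul_assoc, C.hD.ev_z,
    if_pos rfl, one_mul]

theorem nm_main : NM (Sta.Ev Mode.main : Sta S.Q) := fun _ h => by cases h

theorem ctl_pos {s : Sta S.Q} (hs : NM s) {w : List S.Λ} {a : A} (hw : C.PW w a) (K d : ℕ) (y : A) :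
    ∃ (s' : Sta S.Q) (y' : A), NM s' ∧ C.D.E s * C.ket (ctl K (d + 1) w) y
      = a * C.ket (Tm.psh (Al.tag (Sta.Ev Mode.main)) (s0 G S)) (C.D.psh (Al.tag s') * y') := by
  induction d generalizing s y with
  | zero => exact ⟨s, _, hs, by rw [ctl_succ, wrap, C.E_nd hs, C.ctl_zero nm_main hw]; rfl⟩
  | succ d ih =>
    obtain ⟨s', y', h1, h2⟩ := ih nm_main (C.ket (Tm.psh (Al.tag s) (Tm.atom 0)) y)
    exact ⟨s', y', h1, by rw [ctl_succ, wrap, C.E_nd hs, h2]⟩

theorem M_s0 (q : S.Q) (g : G) (k : ℤ) (κ : Tm G S.Λ) (y : A) :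
    C.D.E (Sta.M q) * C.ket (Tm.nd g k κ (s0 G S)) y = 0 := by
  rw [(C.inv_E _).ket_nd, C.hD.bwd, mul_assoc, φ_ket, s0, ket, ← mul_assoc C.D.z', C.hD.z'psh,
    zero_mul, ket_zero, mul_zero]

theorem M_run (K : ℕ) {j : ℕ} {q : S.Q} {X : List (Tm G S.Λ)} (h : S.CanF j (q, X))
    (κ : Tm G S.Λ) :
    C.D.E (Sta.M q) * C.ket (Tm.pushW (List.replicate j (tick S)) ((wrap K)^[j] κ)) (C.ketL X)
      = C.D.E (Sta.M q) * C.ket κ (C.ketL X) := by
  induction j generalizing q X κ with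
  | zero => rfl
  | succ j ih =>
    obtain ⟨⟨q', T'⟩, ⟨ρ, h1, h2, h3⟩, h4⟩ := h
    simp only at h1 h2 h3
    subst h1 h2
    rw [List.replicate_succ, Tm.pushW, C.fwd_step h3, Function.iterate_succ_apply, ih h4, wrap,
      (C.inv_E _).ket_nd, C.bwd_step (Tm.stepS_symm (C.wf.botf ρ) h3)]

theorem M_short (K J i : ℕ) {q : S.Q} {X : List (Tm G S.Λ)} (h : S.CanF (J + i) (q, X))
    (w : List S.Λ) :
    C.D.E (Sta.M q) * C.ket (Tm.pushW (List.replicate (J + i) (tick S)) (ctl K J w)) (C.ketL X)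
      = 0 := by
  induction i generalizing q X with
  | zero => rw [add_zero, ctl, C.M_run K (j := J) h, M_s0]
  | succ i ih =>
    obtain ⟨⟨q', T'⟩, ⟨ρ, h1, h2, h3⟩, h4⟩ := h
    simp only at h1 h2 h3
    subst h1 h2
    rw [← add_assoc, List.replicate_succ, Tm.pushW, C.fwd_step h3, ih h4]

theorem M_det (K : ℕ) {j : ℕ} {q : S.Q} {X : List (Tm G S.Λ)} (hX : Tm.holesL X = 0)
    (h : S.Valid (Sta.M q) j X) (κ : Tm G S.Λ) :
    C.D.E (Sta.M q) * C.ket (wrap K κ) (C.ketL X)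
      = C.D.E (Sta.Ev Mode.main) * C.ket κ (C.D.psh (Al.tag (Sta.M q)) * C.ketL X) := by
  obtain ⟨-, h2, h3, h4⟩ := h
  have hl : ∀ ρ, (S.Lf' ρ).length = (S.Lf ρ).length := fun ρ => by rw [C.wf.lenf, C.wf.lenf']
  have hl' : ∀ ρ, (S.Lf' ρ).length ≤ X.length := fun ρ => by rw [C.wf.lenf']; exact h4
  have hst : C.D.stP q * C.ketL X = 0 := by
    rw [stP_eq]
    split_ifs with hq
    · exact C.opS_none hX rfl (by simp [Sys.stL]; omega) (h3 hq)
    · simp
  have e1 : (∑ ρ, if S.tgt ρ = q then C.D.E (Sta.M (S.src ρ)) * C.D.φ (C.D.opS (S.Lf' ρ) (S.Lf ρ))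
      else 0) * C.ket κ (C.ketL X) = 0 := by
    rw [Finset.sum_mul]
    refine Finset.sum_eq_zero fun ρ _ => ?_
    split_ifs with hq
    · rw [mul_assoc, φ_ket, C.opS_none hX (hl ρ) (hl' ρ) (h2 ρ hq), ket_zero, mul_zero]
    · simp
  have e2 : (∑ ρ, if S.tgt ρ = q then C.D.opS (S.Lf' ρ) (S.Lf' ρ) else 0) * C.ketL X = 0 := by
    rw [Finset.sum_mul]
    refine Finset.sum_eq_zero fun ρ _ => ?_
    split_ifs with hq
    · exact C.opS_none hX rfl (hl' ρ) (Tm.stepS_none_of_none (hl ρ) rfl (h2 ρ hq))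
    · simp
  rw [wrap, (C.inv_E _).ket_nd, C.hD.bwd, mul_assoc, φ_ket, ket_atom0, ← mul_assoc C.D.z',
    C.hD.z'z, one_mul, add_mul, add_mul, e1, mul_assoc, φ_ket, hst, mul_assoc, φ_ket, mul_assoc,
    sub_mul, sub_mul, hst, e2, ket_zero]
  simp

theorem M_gv (K j : ℕ) (q : S.Q) (y : A) :
    C.D.E (Sta.M q) * C.ket (Tm.pushW (List.replicate j (tick S)) (gv G S K)) y = 0 := by
  induction j generalizing q y with
  | zero => exact C.M_s0 _ _ _ _ _
  | succ j ih =>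
    rw [List.replicate_succ, Tm.pushW, ket, ← mul_assoc, C.hD.fwd, add_mul, mul_assoc, φ_ket, ih,
      add_zero, Finset.sum_mul]
    refine Finset.sum_eq_zero fun ρ _ => ?_
    split_ifs
    · rw [mul_assoc, φ_ket, ih]
    · simp

theorem nval_ket (N : Neu G S) (c : Tm G S.Λ) (y : A) :
    C.nval N * C.ket c y
      = C.D.E N.s * C.ket (Tm.pushW (List.replicate N.j (tick S)) c) (C.ketL N.T * y) := by
  rw [nval, mul_assoc, φ_ket, ket_pushW, mul_assoc]

theorem nval_gv (N : Neu G S) (K : ℕ) (y : A) : C.nval N * C.ket (gv G S K) y = 0 := by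
  rw [nval_ket]
  by_cases hs : NM N.s
  · have hw : C.PW [tick S] 0 := fun κ x => by
      rw [Tm.pushW, Tm.pushW, ev_psh']; rfl
    rw [N.valid.nm hs]
    exact (C.ctl_zero hs hw K _).trans (zero_mul _)
  · simp only [NM, not_forall, not_not] at hs
    obtain ⟨q, hq⟩ := hs
    rw [hq, M_gv]

/-- Test of the tag on top. -/
noncomputable def B0 (s : Sta S.Q) : A := C.bra (Tm.psh (Al.tag s) (s0 G S)).toPat 1

theorem B0_ket (s s' : Sta S.Q) (y : A) :
    C.B0 s * C.ket (Tm.psh (Al.tag s') (s0 G S)) y = if s = s' then y else 0 := by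
  split_ifs with h
  · rw [B0, h, C.bra_toPat_self rfl, one_mul]
  · exact C.bra_toPat_ne rfl rfl (by simpa using h) _ _

/-- Test of the context. -/
noncomputable def pre : Sta S.Q → A
  | Sta.M q => C.D.pop (Al.tag (Sta.M q)) * C.B0 (Sta.Ev Mode.main)
  | Sta.Ev m => C.B0 (Sta.Ev m)
  | Sta.Rs => C.B0 Sta.Rs

theorem PV_pre (s : Sta S.Q) : C.PV (C.pre s) := by
  have h : ∀ s, C.PV (C.B0 s) := fun s => C.PV_bra rfl C.PV_one
  cases s
  exacts [(C.PV_pop _).mul (h _), h _, h _]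

theorem pre_nm {s : Sta S.Q} (hs : NM s) : C.pre s = C.B0 s ∧ ∀ j, Jof s j = 0 := by
  cases s with
  | M q => exact (hs q rfl).elim
  | Ev m => exact ⟨rfl, fun _ => rfl⟩
  | Rs => exact ⟨rfl, fun _ => rfl⟩

theorem pre_M (q : S.Q) (s' : Sta S.Q) (y : A) :
    C.pre (Sta.M q) * C.ket (Tm.psh (Al.tag (Sta.Ev Mode.main)) (s0 G S)) (C.D.psh (Al.tag s') * y)
      = if Sta.M q = s' then y else 0 := by
  rw [pre, mul_assoc, B0_ket, if_pos rfl, ← mul_assoc, C.hD.pop_psh]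
  by_cases h : Sta.M q = s' <;> simp [h]

theorem tailor {s s' : Sta S.Q} {j j' : ℕ} (hj : NM s → j = 0) {X : List (Tm G S.Λ)}
    (hX : Tm.holesL X = 0) (hv : S.Valid s' j' X) {w : List S.Λ} {a : A}
    (hw : C.PW w (a * C.pre s)) (K : ℕ) :
    C.D.E s' * C.ket (Tm.pushW (List.replicate j' (tick S)) (ctl K (Jof s j) w)) (C.ketL X)
      = if s = s' ∧ j = j' then a * C.ketL X else 0 := by
  have nm_or : ∀ s : Sta S.Q, NM s ∨ ∃ q, s = Sta.M q := fun s => by
    cases s <;> simp [NM]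
  rcases nm_or s with hs | ⟨q, rfl⟩
  · rw [(C.pre_nm hs).2, hj hs]
    rcases nm_or s' with hs' | ⟨q', rfl⟩
    · rw [hv.nm hs', List.replicate_zero, Tm.pushW, C.ctl_zero hs' hw, (C.pre_nm hs).1, mul_assoc,
        B0_ket]
      by_cases h : s = s' <;> simp [h]
    · have := C.M_short K 0 j' (q := q') (X := X) (by simpa using hv.1) w
      rw [zero_add] at this
      rw [this, if_neg (fun h => hs q' h.1)]
  · rw [Jof]
    rcases nm_or s' with hs' | ⟨q', rfl⟩
    · obtain ⟨s3, y', h1, h2⟩ := C.ctl_pos hs' hw K j (C.ketL X)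
      rw [hv.nm hs', List.replicate_zero, Tm.pushW, h2, mul_assoc, pre_M,
        if_neg (fun h => h1 q h.symm), if_neg (fun h => hs' q h.1.symm), mul_zero]
    · rcases Nat.lt_or_ge j j' with hlt | hge
      · obtain ⟨i, rfl⟩ := Nat.exists_eq_add_of_lt hlt
        have := C.M_short K (j + 1) i (q := q') (X := X) (by
          rw [add_right_comm]; exact hv.1) w
        rw [add_right_comm] at this
        rw [this, if_neg (fun h => by omega)]
      · obtain ⟨d, rfl⟩ := Nat.exists_eq_add_of_le hge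
        rw [add_assoc, ctl_add, C.M_run K hv.1, ctl_succ, C.M_det K hX hv]
        cases d with
        | zero =>
          rw [C.ctl_zero nm_main hw, mul_assoc, pre_M]
          by_cases h : q = q' <;> simp [h]
        | succ d =>
          obtain ⟨s3, y', h1, h2⟩ := C.ctl_pos nm_main hw K d
            (C.D.psh (Al.tag (Sta.M q')) * C.ketL X)
          rw [h2, mul_assoc, pre_M, if_neg (fun h => h1 q h.symm), if_neg (fun h => by omega),
            mul_zero]

/-- A list with all wires plugged. -/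
def Xof (K H : ℕ) (T : List (Tm G S.Λ)) : List (Tm G S.Λ) :=
  (T ++ List.replicate (H - Tm.holesL T) (Tm.hole 1 0)).map (Tm.fill K (s0 G S))

omit [Group G] in
theorem closed_fill (K : ℕ) (T : List (Tm G S.Λ)) :
    Tm.holesL (T.map (Tm.fill K (s0 G S))) = 0 := by
  rw [Tm.holesL_eq_zero]
  intro t ht
  obtain ⟨t', -, rfl⟩ := List.mem_map.mp ht
  exact Tm.holes_fill K rfl t'

theorem closed_Xof (K H : ℕ) (T : List (Tm G S.Λ)) : Tm.holesL (Xof K H T) = 0 :=
  closed_fill _ _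

theorem ketL_Xof (K : ℕ) {H : ℕ} {T : List (Tm G S.Λ)} (h : Tm.holesL T ≤ H) :
    C.ketL T * C.ketL (List.replicate H (gv G S K)) = C.ketL (Xof K H T) := by
  rw [Xof, ← C.ketL_fill K rfl, ketL_pad, C.ketL_replicate rfl, Tm.holesL_append,
    Tm.holesL_replicate_hole, Nat.add_sub_cancel' h, gv]

theorem Xof_ne {K H : ℕ} {T T' : List (Tm G S.Λ)} (hK : Tm.szL T + Tm.szL T' < K)
    (hH : Tm.szL T + Tm.szL T' ≤ H) (hne : C.ketL T ≠ C.ketL T') :
    C.brc (Xof K H T) * C.ketL (Xof K H T') = 0 := by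
  simp only [Tm.szL] at hK hH
  obtain ⟨r, hr⟩ : ∃ r, H - Tm.holesL T = T'.length + r := ⟨H - Tm.holesL T - T'.length, by omega⟩
  obtain ⟨r', hr'⟩ : ∃ r, H - Tm.holesL T' = T.length + r :=
    ⟨H - Tm.holesL T' - T.length, by omega⟩
  rw [Xof, Xof, hr, hr', List.replicate_add, List.replicate_add, ← List.append_assoc,
    ← List.append_assoc, List.map_append (l₁ := T ++ _), List.map_append (l₁ := T' ++ _)]
  refine C.brc_ne (closed_fill _ _) (closed_fill _ _) (by simp [add_comm]) (fun e => hne ?_) _ _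
  have := Tm.fillL_inj (by rw [Tm.bdL_pad, Tm.bdL_pad]; omega) e
  rw [← C.ketL_pad T, this, ketL_pad]

theorem φp_ketL_append {V : List (Tm G S.Λ)} (hV : Tm.holesL V = 0) (Z : List (Tm G S.Λ)) (x : A) :
    C.φp V.length x * C.ketL (V ++ Z) = C.ketL V * (x * C.ketL Z) := by
  rw [C.ketL_append_closed hV, ← mul_assoc, φp_ketL, hV, φp_zero, mul_assoc]

theorem die_gv {V : List (Tm G S.Λ)} (hV : Tm.holesL V = 0) (K H : ℕ) {j : ℕ} (h1 : V.length ≤ j)
    (h2 : j < V.length + H) (N : Neu G S) :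
    C.φp j (C.nval N) * C.ketL (V ++ List.replicate H (gv G S K)) = 0 := by
  obtain ⟨i, rfl⟩ := Nat.exists_eq_add_of_le h1
  obtain ⟨r, rfl⟩ : ∃ r, H = i + (r + 1) := ⟨H - i - 1, by omega⟩
  have hc : Tm.holesL (V ++ List.replicate i (gv G S K)) = 0 := by
    rw [Tm.holesL_append, hV, zero_add, Tm.holesL_eq_zero]
    intro t ht
    rw [(List.mem_replicate.mp ht).2]; rfl
  have := C.φp_ketL_append hc (List.replicate (r + 1) (gv G S K)) (C.nval N)
  rw [List.length_append, List.length_replicate] at this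
  rw [List.replicate_add, ← List.append_assoc, this, List.replicate_succ, ketL, nval_gv, mul_zero]

end Ctx

end Vale.Agent.P193
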