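import Vale.Agent.P193.RB5

/-!
Separation of normal forms by closed inputs.
-/

namespace Vale.Agent.P193

universe v

namespace Ch

variable {n : ℕ} {G : Type v} {S : Sys n}

/-- Number of steps. -/
def len : Ch G S → ℕ
  | fin _ => 0
  | step c _ _ _ => len c + 1

/-- The chain without its last step. -/
def prev : Ch G S → Ch G S
  | fin T => fin T
  | step c _ _ _ => c

/-- The patterns of the last step. -/
def pat : Ch G S → List (Pat G S.Λ)
  | fin _ => []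
  | step _ P _ _ => P

/-- The depth of the last step. -/
def dep : Ch G S → ℕ
  | fin _ => 0
  | step _ _ j _ => j

/-- The neutral element of the last step. -/
def neu : Ch G S → Neu G S
  | fin _ => ⟨Sta.Rs, 0, [], rfl⟩
  | step _ _ _ N => N

/-- Size of the last step. -/
def sz : Ch G S → ℕ
  | fin T => Tm.szL T
  | step _ _ j N => j + Tm.szL N.T

end Ch

theorem sum_filter_lt {ι : Type} (I : Finset ι) (f : ι → ℕ) (p : ι → Prop) [DecidablePred p]
    {i : ι} (hi : i ∈ I) (hp : p i) :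
    ∑ i ∈ I.filter (fun i => ¬ p i), (f i + 1) < ∑ i ∈ I, (f i + 1) := by
  have h2 : f i + 1 ≤ ∑ i ∈ I.filter p, (f i + 1) :=
    Finset.single_le_sum (f := fun i => f i + 1) (fun _ _ => Nat.zero_le _)
      (Finset.mem_filter.mpr ⟨hi, hp⟩)
  rw [← Finset.sum_filter_add_sum_filter_not I p (fun i => f i + 1)]
  exact Nat.lt_add_of_pos_left (lt_of_lt_of_le (Nat.succ_pos _) h2)

namespace Ctx

variable {n : ℕ} {G : Type v} [Group G] {S : Sys n} {A : Type} [Ring A] (C : Ctx G S A)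

/-- Separation by an input whose first `j` entries are fresh. -/
def Sep1 (a : A) (j F : ℕ) : Prop := ∃ Y V Z : List (Tm G S.Λ), Tm.holesL Y = 0 ∧
  Tm.holesL Z = 0 ∧ V.length = j ∧ (∀ v ∈ V, Fr F v) ∧ C.brc Y * (a * C.ketL (V ++ Z)) = 1

/-- Separation by a long fresh input. -/
def Sep2 (a : A) (h F : ℕ) : Prop := ∃ Y V : List (Tm G S.Λ), Tm.holesL Y = 0 ∧
  h ≤ V.length ∧ (∀ v ∈ V, Fr F v) ∧ C.brc Y * (a * C.ketL V) = 1

include C in
theorem natCast_cases (m : ℕ) : (m : A) = 0 ∨ (m : A) = 1 := by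
  induction m with
  | zero => simp
  | succ m ih =>
    rcases ih with h | h
    · right; simp [h]
    · left; simp [h, C.hD.two]

theorem val_step (c : Ch G S) (h : ∀ T, c ≠ Ch.fin T) :
    C.val c = C.val c.prev * C.φp c.dep (C.braL c.pat) * C.φp c.dep (C.nval c.neu) ∧
      c.len = c.prev.len + 1 ∧ c.sz = c.dep + Tm.szL c.neu.T := by
  cases c with
  | fin T => exact (h T rfl).elim
  | step c P j N => exact ⟨by rw [val, map_mul, ← mul_assoc]; rfl, rfl, rfl⟩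

theorem neu_step {a : A} {j0 F : ℕ} (ha : C.Sep1 a j0 F) (N0 : Neu G S) (h B : ℕ)
    (hB : Tm.szL N0.T ≤ B) :
    ∃ Y V : List (Tm G S.Λ), Tm.holesL Y = 0 ∧ h ≤ V.length ∧ (∀ v ∈ V, Fr F v) ∧
      C.brc Y * (a * C.φp j0 (C.nval N0) * C.ketL V) = 1 ∧
      ∀ (N : Neu G S) (j : ℕ), j0 ≤ j → j + Tm.szL N.T ≤ B →
        ¬ (j = j0 ∧ C.nval N = C.nval N0) → C.φp j (C.nval N) * C.ketL V = 0 := by
  obtain ⟨Y, V0, Z, hY, hZ, rfl, hV0, e⟩ := ha
  have hV0c := Fr.closed hV0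
  obtain ⟨K, hK, hK'⟩ : ∃ K, F < K ∧ B + B < K := ⟨F + B + B + 1, by omega, by omega⟩
  obtain ⟨H, hH, hH'⟩ : ∃ H, h ≤ H ∧ B + B ≤ H := ⟨h + B + B, by omega, by omega⟩
  obtain ⟨w, hw⟩ := ((C.PV_ketL hZ).mul (C.PV_brc (closed_Xof K H N0.T))).mul (C.PV_pre N0.s)
  have key : ∀ N : Neu G S, Tm.szL N.T ≤ B →
      C.φp V0.length (C.nval N) *
        C.ketL (V0 ++ (ctl K (Jof N0.s N0.j) w :: List.replicate H (gv G S K)))
      = C.ketL V0 * (if N0.s = N.s ∧ N0.j = N.j then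
          C.ketL Z * C.brc (Xof K H N0.T) * C.ketL (Xof K H N.T) else 0) := by
    intro N hN
    rw [C.φp_ketL_append hV0c, ketL, nval_ket, C.ketL_Xof K (by simp only [Tm.szL] at hN; omega),
      C.tailor N0.valid.nm (closed_Xof _ _ _) ((N.valid.append C.wf _).fill _ _) hw]
  refine ⟨Y, V0 ++ (ctl K (Jof N0.s N0.j) w :: List.replicate H (gv G S K)), hY,
    by simp; omega, ?_, ?_, fun N j h1 h2 h3 => ?_⟩
  · intro v hv
    rcases List.mem_append.mp hv with hv | hv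
    · exact hV0 v hv
    · rcases List.mem_cons.mp hv with rfl | hv
      · exact fr_ctl hK _ _
      · exact fr_gvs hK _ v hv
  · rw [mul_assoc, key N0 hB, if_pos ⟨rfl, rfl⟩, mul_assoc (C.ketL Z),
      C.brc_self (closed_Xof _ _ _), mul_one, ← C.ketL_append_closed hV0c, e]
  · rcases Nat.eq_or_lt_of_le h1 with rfl | hlt
    · rw [key N (by omega)]
      split_ifs with h4
      · rw [mul_assoc (C.ketL Z), C.Xof_ne (by omega) (by omega), mul_zero, mul_zero]
        intro h5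
        exact h3 ⟨rfl, by rw [nval, nval, h4.1, h4.2, h5]⟩
      · rw [mul_zero]
    · have hc : Tm.holesL (V0 ++ [(ctl K (Jof N0.s N0.j) w : Tm G S.Λ)]) = 0 := by
        rw [Tm.holesL_append, hV0c, zero_add, Tm.holesL, (fr_ctl hK _ _).1]; rfl
      have := C.die_gv hc K H (j := j) (by simpa using hlt) (by simp; omega) N
      rwa [List.append_assoc] at this

theorem claim2_of (m : ℕ)
    (ih1 : ∀ (ι : Type) (I : Finset ι) (c : ι → Ch G S) (P : ι → List (Pat G S.Λ)) (j F : ℕ),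
      ∑ i ∈ I, ((c i).len + 1) < m → ∑ i ∈ I, C.val (c i) * C.φp j (C.braL (P i)) ≠ 0 →
        C.Sep1 (∑ i ∈ I, C.val (c i) * C.φp j (C.braL (P i))) j F)
    (ih2 : ∀ (ι : Type) (I : Finset ι) (c : ι → Ch G S) (h F : ℕ),
      ∑ i ∈ I, ((c i).len + 1) < m → ∑ i ∈ I, C.val (c i) ≠ 0 → C.Sep2 (∑ i ∈ I, C.val (c i)) h F)
    (ι : Type) (I : Finset ι) (c : ι → Ch G S) (h F : ℕ) (hm : ∑ i ∈ I, ((c i).len + 1) ≤ m)
    (hne : ∑ i ∈ I, C.val (c i) ≠ 0) : C.Sep2 (∑ i ∈ I, C.val (c i)) h F := by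
  classical
  obtain ⟨B, hB⟩ : ∃ B, ∀ i ∈ I, (c i).sz ≤ B := ⟨∑ i ∈ I, (c i).sz, fun i hi =>
    Finset.single_le_sum (f := fun i => (c i).sz) (fun _ _ => Nat.zero_le _) hi⟩
  have drop : ∀ (p : ι → Prop) (i0 : ι), i0 ∈ I → p i0 →
      (∀ I0 : Finset ι, (∀ i, i ∈ I0 ↔ i ∈ I ∧ p i) → ∑ i ∈ I0, C.val (c i) ≠ 0 →
        ∃ Y V : List (Tm G S.Λ), Tm.holesL Y = 0 ∧ h ≤ V.length ∧ (∀ v ∈ V, Fr F v) ∧
        C.brc Y * ((∑ i ∈ I0, C.val (c i)) * C.ketL V) = 1 ∧
        ∀ i ∈ I, ¬ p i → C.brc Y * (C.val (c i) * C.ketL V) = 0) →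
      C.Sep2 (∑ i ∈ I, C.val (c i)) h F := by
    intro p i0 hi0 hp0 hyp
    rw [← Finset.sum_filter_add_sum_filter_not I p] at hne ⊢
    by_cases h0 : ∑ i ∈ I.filter p, C.val (c i) = 0
    · rw [h0, zero_add] at hne ⊢
      exact ih2 _ _ _ _ _ (lt_of_lt_of_le (sum_filter_lt I (fun i => (c i).len) p hi0 hp0) hm) hne
    · obtain ⟨Y, V, h1, h2, h3, h4, h5⟩ := hyp _ (fun i => Finset.mem_filter) h0
      refine ⟨Y, V, h1, h2, h3, ?_⟩
      rw [add_mul, mul_add, h4, Finset.sum_mul, Finset.mul_sum, Finset.sum_eq_zero, add_zero]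
      intro i hi
      exact h5 i (Finset.mem_filter.mp hi).1 (Finset.mem_filter.mp hi).2
  by_cases hA : ∃ i ∈ I, ∃ T, c i = Ch.fin T
  · obtain ⟨i0, hi0, T0, e0⟩ := hA
    refine drop (fun i => ∃ T, c i = Ch.fin T ∧ C.ketL T = C.ketL T0) i0 hi0 ⟨T0, e0, rfl⟩ ?_
    intro I0 hI0 h0
    have hT0 : Tm.szL T0 ≤ B := by have := hB i0 hi0; rwa [e0] at this
    obtain ⟨K, hK, hK'⟩ : ∃ K, F < K ∧ B + B < K := ⟨F + B + B + 1, by omega, by omega⟩
    obtain ⟨H, hH, hH'⟩ : ∃ H, h ≤ H ∧ B + B < H := ⟨h + B + B + 1, by omega, by omega⟩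
    have hs : ∑ i ∈ I0, C.val (c i) = C.ketL T0 := by
      rw [Finset.sum_congr rfl (g := fun _ => C.ketL T0)] at h0 ⊢
      · rw [Finset.sum_const, nsmul_eq_mul] at h0 ⊢
        rcases C.natCast_cases I0.card with h1 | h1
        · rw [h1, zero_mul] at h0; exact (h0 rfl).elim
        · rw [h1, one_mul]
      all_goals
        intro i hi
        obtain ⟨T, e, e'⟩ := ((hI0 i).mp hi).2
        rw [e, val, e']
    refine ⟨Xof K H T0, List.replicate H (gv G S K), closed_Xof _ _ _, by simpa using hH,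
      fr_gvs hK H, ?_, fun i hi hp => ?_⟩
    · rw [hs, C.ketL_Xof K (by simp only [Tm.szL] at hT0; omega), C.brc_self (closed_Xof _ _ _)]
    · have hi' := hB i hi
      cases e : c i with
      | fin T =>
        rw [e, Ch.sz] at hi'
        rw [val, C.ketL_Xof K (by simp only [Tm.szL] at hi'; omega),
          C.Xof_ne (by omega) (by omega) (fun e' => hp ⟨T, e, e'.symm⟩)]
      | step c' P j N =>
        rw [e, Ch.sz] at hi'
        have := C.die_gv (V := []) rfl K H (j := j) (by simp) (by simp; omega) N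
        rw [List.nil_append] at this
        rw [val, map_mul, mul_assoc, mul_assoc, this]; simp
  · have hst : ∀ i ∈ I, ∀ T, c i ≠ Ch.fin T := fun i hi T e => hA ⟨i, hi, T, e⟩
    have hI : I.Nonempty := by
      rcases I.eq_empty_or_nonempty with rfl | hI
      · simp at hne
      · exact hI
    obtain ⟨i0, hi0, hmin⟩ := Finset.exists_min_image I (fun i => (c i).dep) hI
    refine drop (fun i => (c i).dep = (c i0).dep ∧ C.nval (c i).neu = C.nval (c i0).neu) i0 hi0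
      ⟨rfl, rfl⟩ ?_
    intro I0 hI0 h0
    have hs : ∑ i ∈ I0, C.val (c i)
        = (∑ i ∈ I0, C.val (c i).prev * C.φp (c i0).dep (C.braL (c i).pat))
          * C.φp (c i0).dep (C.nval (c i0).neu) := by
      rw [Finset.sum_mul]
      refine Finset.sum_congr rfl fun i hi => ?_
      obtain ⟨h1, h2, h3⟩ := (hI0 i).mp hi
      rw [(C.val_step _ (hst i h1)).1, h2, h3]
    have hlt : ∑ i ∈ I0, ((c i).prev.len + 1) < m := by
      refine lt_of_lt_of_le ?_ (le_trans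
        (Finset.sum_le_sum_of_subset (s := I0) (fun i hi => ((hI0 i).mp hi).1)) hm)
      refine Finset.sum_lt_sum_of_nonempty ⟨i0, (hI0 i0).mpr ⟨hi0, rfl, rfl⟩⟩ ?_
      intro i hi
      rw [(C.val_step _ (hst i ((hI0 i).mp hi).1)).2.1]
      omega
    have h1 := ih1 ι I0 (fun i => (c i).prev) (fun i => (c i).pat) (c i0).dep F hlt
      (fun e => h0 (by rw [hs, e, zero_mul]))
    obtain ⟨Y, V, e1, e2, e3, e4, e5⟩ := C.neu_step h1 (c i0).neu h B (by
      have := hB i0 hi0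
      rw [(C.val_step _ (hst i0 hi0)).2.2] at this
      omega)
    refine ⟨Y, V, e1, e2, e3, by rw [hs, e4], fun i hi hp => ?_⟩
    rw [(C.val_step _ (hst i hi)).1, mul_assoc, e5 _ _ (hmin i hi)
      (by rw [← (C.val_step _ (hst i hi)).2.2]; exact hB i hi) hp]
    simp

theorem claim1_of (m : ℕ)
    (ih1 : ∀ (ι : Type) (I : Finset ι) (c : ι → Ch G S) (P : ι → List (Pat G S.Λ)) (j F : ℕ),
      ∑ i ∈ I, ((c i).len + 1) < m → ∑ i ∈ I, C.val (c i) * C.φp j (C.braL (P i)) ≠ 0 →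
        C.Sep1 (∑ i ∈ I, C.val (c i) * C.φp j (C.braL (P i))) j F)
    (ih2 : ∀ (ι : Type) (I : Finset ι) (c : ι → Ch G S) (h F : ℕ),
      ∑ i ∈ I, ((c i).len + 1) ≤ m → ∑ i ∈ I, C.val (c i) ≠ 0 → C.Sep2 (∑ i ∈ I, C.val (c i)) h F)
    (ι : Type) (I : Finset ι) (c : ι → Ch G S) (P : ι → List (Pat G S.Λ)) (j F L : ℕ)
    (hL : ∀ i ∈ I, (P i).length = L) (hm : ∑ i ∈ I, ((c i).len + 1) ≤ m)
    (hne : ∑ i ∈ I, C.val (c i) * C.φp j (C.braL (P i)) ≠ 0) :
    C.Sep1 (∑ i ∈ I, C.val (c i) * C.φp j (C.braL (P i))) j F := by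
  classical
  obtain ⟨F', hF, hF'⟩ : ∃ F', F ≤ F' ∧ ∀ i ∈ I, Pat.bdL (P i) ≤ F' :=
    ⟨F + ∑ i ∈ I, Pat.bdL (P i), by omega, fun i hi => le_trans
      (Finset.single_le_sum (f := fun i => Pat.bdL (P i)) (fun _ _ => Nat.zero_le _) hi) (by omega)⟩
  have hI : I.Nonempty := by
    rcases I.eq_empty_or_nonempty with rfl | hI
    · simp at hne
    · exact hI
  obtain ⟨i0, hi0, hmin⟩ := Finset.exists_min_image I (fun i => Pat.sizeL (P i)) hI
  rw [← Finset.sum_filter_add_sum_filter_not I (fun i => P i = P i0)] at hne ⊢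
  by_cases h0 : ∑ i ∈ I.filter (fun i => P i = P i0), C.val (c i) * C.φp j (C.braL (P i)) = 0
  · rw [h0, zero_add] at hne ⊢
    exact ih1 _ _ _ _ _ _
      (lt_of_lt_of_le (sum_filter_lt I (fun i => (c i).len) (fun i => P i = P i0) hi0 rfl) hm) hne
  · have hs : ∑ i ∈ I.filter (fun i => P i = P i0), C.val (c i) * C.φp j (C.braL (P i))
        = (∑ i ∈ I.filter (fun i => P i = P i0), C.val (c i)) * C.φp j (C.braL (P i0)) := by
      rw [Finset.sum_mul]
      exact Finset.sum_congr rfl fun i hi => by rw [(Finset.mem_filter.mp hi).2]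
    obtain ⟨Y, V, e1, e2, e3, e4⟩ := ih2 ι (I.filter (fun i => P i = P i0)) c
      (j + Pat.holesL (P i0)) F'
      (le_trans (Finset.sum_le_sum_of_subset (Finset.filter_subset _ I)) hm)
      (fun e => h0 (by rw [hs, e, zero_mul]))
    obtain ⟨V0, U, Z, rfl, l1, l2⟩ : ∃ V0 U Z : List (Tm G S.Λ), V = V0 ++ (U ++ Z) ∧
        V0.length = j ∧ U.length = Pat.holesL (P i0) :=
      ⟨V.take j, (V.drop j).take (Pat.holesL (P i0)), (V.drop j).drop (Pat.holesL (P i0)),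
        by rw [List.take_append_drop, List.take_append_drop], by simp; omega, by simp; omega⟩
    have hV0 : ∀ v ∈ V0, Fr F' v := fun v hv => e3 v (by simp [hv])
    have hU : ∀ v ∈ U, Fr F' v := fun v hv => e3 v (by simp [hv])
    have hZ : ∀ v ∈ Z, Fr F' v := fun v hv => e3 v (by simp [hv])
    obtain ⟨Yp, f1, f2, f3⟩ := C.inst_patL F' (P i0) U l2 hU
    have key : ∀ Q, C.φp j (C.braL Q) * C.ketL (V0 ++ (Yp ++ Z))
        = C.ketL V0 * (C.braL Q * C.ketL Yp * C.ketL Z) := fun Q => by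
      rw [← l1, C.φp_ketL_append (Fr.closed hV0), C.ketL_append_closed f1, mul_assoc]
    refine ⟨Y, V0, Yp ++ Z, e1, by rw [Tm.holesL_append, f1, Fr.closed hZ], l1,
      fun v hv => (hV0 v hv).mono hF, ?_⟩
    rw [add_mul, hs, mul_assoc, key, f2, ← C.ketL_append_closed (Fr.closed hU),
      ← C.ketL_append_closed (Fr.closed hV0), mul_add, e4, Finset.sum_mul, Finset.sum_eq_zero,
      mul_zero, add_zero]
    intro i hi
    obtain ⟨hi, hp⟩ := Finset.mem_filter.mp hi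
    rw [mul_assoc, key]
    rcases f3 (P i) (by rw [hL i hi, hL i0 hi0]) (hF' i hi) with h | h
    · rw [h]; simp
    · exact (hp (h.2 (le_antisymm h.1 (hmin i hi)))).elim

theorem claims (m : ℕ) :
    (∀ (ι : Type) (I : Finset ι) (c : ι → Ch G S) (P : ι → List (Pat G S.Λ)) (j F : ℕ),
      ∑ i ∈ I, ((c i).len + 1) < m → ∑ i ∈ I, C.val (c i) * C.φp j (C.braL (P i)) ≠ 0 →
        C.Sep1 (∑ i ∈ I, C.val (c i) * C.φp j (C.braL (P i))) j F) ∧
    (∀ (ι : Type) (I : Finset ι) (c : ι → Ch G S) (h F : ℕ),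
      ∑ i ∈ I, ((c i).len + 1) < m → ∑ i ∈ I, C.val (c i) ≠ 0 →
        C.Sep2 (∑ i ∈ I, C.val (c i)) h F) := by
  induction m with
  | zero => exact ⟨fun _ _ _ _ _ _ h => by omega, fun _ _ _ _ _ h => by omega⟩
  | succ m ih =>
    have h2 := C.claim2_of m ih.1 ih.2
    refine ⟨fun ι I c P j F hm hne => ?_, fun ι I c h F hm hne => h2 ι I c h F (by omega) hne⟩
    obtain ⟨L, hL⟩ : ∃ L, ∀ i ∈ I, (P i).length ≤ L := ⟨∑ i ∈ I, (P i).length, fun i hi =>
      Finset.single_le_sum (f := fun i => (P i).length) (fun _ _ => Nat.zero_le _) hi⟩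
    have := C.claim1_of m ih.1 h2 ι I c
      (fun i => P i ++ List.replicate (L - (P i).length) Pat.hole) j F L
      (fun i hi => by have := hL i hi; simp; omega) (by omega)
    simp only [braL_pad] at this
    exact this hne

theorem sep (hG : C.D.Gend) {a : A} (ha : a ≠ 0) :
    ∃ Y Z : List (Tm G S.Λ), Tm.holesL Y = 0 ∧ Tm.holesL Z = 0 ∧ C.brc Y * a * C.ketL Z = 1 := by
  obtain ⟨ι, _, c, P, rfl⟩ : ∃ (ι : Type) (_ : Fintype ι) (c : ι → Ch G S)
      (P : ι → List (Pat G S.Λ)), a = ∑ i, C.val (c i) * C.braL (P i) := by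
    refine C.RN_ind (Q := fun a => ∃ (ι : Type) (_ : Fintype ι) (c : ι → Ch G S)
      (P : ι → List (Pat G S.Λ)), a = ∑ i, C.val (c i) * C.braL (P i)) ?_ ?_ ?_ (C.span hG a)
    · exact ⟨Empty, inferInstance, Empty.elim, Empty.elim, by simp⟩
    · rintro _ _ ⟨ι, _, c, P, rfl⟩ ⟨ι', _, c', P', rfl⟩
      exact ⟨ι ⊕ ι', inferInstance, Sum.elim c c', Sum.elim P P', by simp [Fintype.sum_sum_type]⟩
    · exact fun c P => ⟨Unit, inferInstance, fun _ => c, fun _ => P, by simp⟩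
  obtain ⟨Y, V, Z, h1, h2, h3, -, h4⟩ :=
    (C.claims _).1 ι Finset.univ c P 0 0 (Nat.lt_succ_self _) ha
  obtain rfl := List.length_eq_zero_iff.mp h3
  exact ⟨Y, Z, h1, h2, by rw [mul_assoc]; exact h4⟩

theorem brc_ketL {Y Z : List (Tm G S.Λ)} (hY : Tm.holesL Y = 0) (hZ : Tm.holesL Z = 0) :
    C.brc Y * C.ketL Z = 1 ∨ (∃ x y, x * y = 1 ∧ x * (C.brc Y * C.ketL Z) = 0) ∨
      ∃ x y, x * y = 1 ∧ C.brc Y * C.ketL Z * y = 0 := by
  have other : ∀ t : Tm G S.Λ, ∃ t' : Tm G S.Λ, t'.holes = 0 ∧ t' ≠ t := fun t => by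
    by_cases h : t = Tm.atom 0
    · exact ⟨Tm.atom 1, rfl, by simp [h]⟩
    · exact ⟨Tm.atom 0, rfl, fun e => h e.symm⟩
  induction Y generalizing Z with
  | nil =>
    cases Z with
    | nil => left; simp [brc, braL, ketL]
    | cons t Z =>
      simp only [Tm.holesL, Nat.add_eq_zero_iff] at hZ
      obtain ⟨t', h1, h2⟩ := other t
      refine Or.inr (Or.inl ⟨C.bra t'.toPat 1, C.ket t' 1, by simp [C.bra_toPat_self h1], ?_⟩)
      simp [brc, braL, ketL, C.bra_toPat_ne h1 hZ.1 h2]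
  | cons y Y ih =>
    simp only [Tm.holesL, Nat.add_eq_zero_iff] at hY
    cases Z with
    | nil =>
      obtain ⟨t', h1, h2⟩ := other y
      refine Or.inr (Or.inr ⟨C.bra t'.toPat 1, C.ket t' 1, by simp [C.bra_toPat_self h1], ?_⟩)
      simp [brc, braL, ketL, C.bra_toPat_ne hY.1 h1 h2.symm]
    | cons t Z =>
      simp only [Tm.holesL, Nat.add_eq_zero_iff] at hZ
      by_cases e : y = t
      · have : C.brc (y :: Y) * C.ketL (t :: Z) = C.brc Y * C.ketL Z := by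
          rw [← e]; exact C.bra_toPat_self hY.1 _ _
        rw [this]
        exact ih hY.2 hZ.2
      · have : C.brc (y :: Y) * C.ketL (t :: Z) = 0 := C.bra_toPat_ne hY.1 hZ.1 e _ _
        exact Or.inr (Or.inl ⟨1, 1, by simp, by simp [this]⟩)

theorem center (hG : C.D.Gend) (h1 : (1 : A) ≠ 0) (c : A) (hc : ∀ x, c * x = x * c) :
    c = 0 ∨ c = 1 := by
  by_cases h0 : c = 0
  · exact Or.inl h0
  right
  obtain ⟨Y, Z, hY, hZ, e⟩ := C.sep hG h0
  rw [← hc, mul_assoc] at e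
  rcases C.brc_ketL hY hZ with h | ⟨x, y, h, h'⟩ | ⟨x, y, h, h'⟩
  · rwa [h, mul_one] at e
  · exfalso
    apply h1
    rw [← h, ← mul_one x, ← e, hc, ← mul_assoc x, h']; simp
  · exfalso
    apply h1
    rw [← h, ← one_mul y, ← e, mul_assoc c, h']; simp

end Ctx

end Vale.Agent.P193
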