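import Vale.Agent.P193.RDefs

/-!
TASK M1. The verdict on programs is computable.

`Bas.code a` is an injective code `Bas n → ℕ`; a program `w` is coded by the natural number
`wcode w` whose binary digits, least significant first, are `0^(code a) 1` for the letters `a` of `w`
in order. Show that a computable `f : ℕ → ℕ` returns `1` on `One`, `0` on `Zero`, `2` otherwise.
Plan: decode `wcode w` to the list of codes (`Primrec`: fold over `List.range m` with `m / 2`, `m % 2`),
test the shape on lists of numbers, turn the group letters into a `List (Fin n × Bool)` (reversed: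
`lblG` multiplies in reverse order) and call the decision procedure of the word problem.
-/

namespace Vale.Agent.P193

universe v

/-- Code of a basic letter. -/
def Bas.code {n : ℕ} : Bas n → ℕ
  | Bas.u => 0
  | Bas.u' => 1
  | Bas.z => 2
  | Bas.z' => 3
  | Bas.nd => 4
  | Bas.nd' => 5
  | Bas.gen i b => 6 + 2 * i.val + (if b then 1 else 0)

/-- Code of a program. -/
def wcode {n : ℕ} : List (Bas n) → ℕ
  | [] => 0
  | a :: w => 2 ^ a.code * (2 * wcode w + 1)

namespace RDecAux

/-- One step of the decoder. -/
def dstep (x : ℕ × ℕ × List ℕ) : ℕ × ℕ × List ℕ :=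
  if x.1 = 0 then x else
    if x.1 % 2 = 0 then (x.1 / 2, x.2.1 + 1, x.2.2) else (x.1 / 2, 0, x.2.2 ++ [x.2.1])

theorem dstep_prim : Primrec dstep := by
  have h1 : Primrec (fun x : ℕ × ℕ × List ℕ => x.1 / 2) :=
    Primrec.nat_div.comp Primrec.fst (Primrec.const 2)
  have h2 : Primrec (fun x : ℕ × ℕ × List ℕ => x.2.1) := Primrec.fst.comp Primrec.snd
  have h3 : Primrec (fun x : ℕ × ℕ × List ℕ => x.2.2) := Primrec.snd.comp Primrec.snd
  exact Primrec.ite (Primrec.eq.comp Primrec.fst (Primrec.const 0)) Primrec.id
    (Primrec.ite (Primrec.eq.comp (Primrec.nat_mod.comp Primrec.fst (Primrec.const 2))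
      (Primrec.const 0)) (h1.pair ((Primrec.succ.comp h2).pair h3))
      (h1.pair ((Primrec.const 0).pair (Primrec.list_concat.comp h3 h2))))

theorem dstep_pow (x : ℕ) (hx : x ≠ 0) (acc : List ℕ) (k : ℕ) :
    ∀ c, dstep^[k] (2 ^ k * x, c, acc) = (x, c + k, acc) := by
  induction k with
  | zero => intro c; simp
  | succ k ih =>
    intro c
    have h0 : 2 ^ (k + 1) * x ≠ 0 := by positivity
    have h1 : 2 ^ (k + 1) * x = 2 * (2 ^ k * x) := by ring
    have : dstep (2 ^ (k + 1) * x, c, acc) = (2 ^ k * x, c + 1, acc) := by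
      simp only [dstep, if_neg h0]
      rw [h1, if_pos (by omega), Nat.mul_div_cancel_left _ (by norm_num)]
    rw [Function.iterate_succ_apply, this, ih, add_assoc, add_comm 1 k]

theorem dstep_wcode {n : ℕ} (w : List (Bas n)) :
    ∀ (N : ℕ) (acc : List ℕ), wcode w ≤ N →
      dstep^[N] (wcode w, 0, acc) = (0, 0, acc ++ w.map Bas.code) := by
  induction w with
  | nil =>
    intro N acc _
    rw [Function.iterate_fixed (by simp [dstep, wcode])]
    simp [wcode]
  | cons a w ih =>
    intro N acc hN
    have h1 : a.code + 1 ≤ 2 ^ a.code := Nat.lt_two_pow_self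
    have h2 : wcode w + (1 + a.code) ≤ N := by
      rw [wcode] at hN
      nlinarith [Nat.zero_le (wcode w), Nat.zero_le a.code]
    obtain ⟨M, rfl⟩ : ∃ M, N = M + (1 + a.code) := ⟨N - (1 + a.code), by omega⟩
    have h3 : dstep (2 * wcode w + 1, 0 + a.code, acc) = (wcode w, 0, acc ++ [a.code]) := by
      simp only [dstep]
      rw [if_neg (by omega), if_neg (by omega), zero_add]
      congr 1
      omega
    rw [Function.iterate_add_apply, Function.iterate_add_apply, wcode,
      dstep_pow _ (by omega), Function.iterate_one, h3, ih M _ (by omega)]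
    simp

theorem code_lt {n : ℕ} (a : Bas n) : a.code < 6 + 2 * n := by
  cases a with
  | gen i b => have := i.2; simp only [Bas.code]; split_ifs <;> omega
  | _ => simp only [Bas.code]; omega

theorem code_inj {n : ℕ} : Function.Injective (Bas.code : Bas n → ℕ) := by
  intro a b h
  cases a with
  | gen i x =>
    cases b with
    | gen j y =>
      simp only [Bas.code] at h
      cases x <;> cases y <;> simp at h ⊢ <;> omega
    | _ => simp only [Bas.code] at h; omega
  | _ =>
    cases b with
    | gen j y => simp only [Bas.code] at h; omega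
    | _ => first | rfl | (simp only [Bas.code] at h; omega)

theorem exists_dec {n : ℕ} [Primcodable (Bas n)] :
    ∃ d : ℕ → List (Bas n), Primrec d ∧ ∀ w, d (wcode w) = w := by
  have : Nonempty (Bas n) := ⟨Bas.u⟩
  let L : List (Bas n) := (List.range (6 + 2 * n)).map (Function.invFun Bas.code)
  have hL : ∀ a : Bas n, L.getD a.code Bas.u = a := by
    intro a
    simp only [L]
    rw [List.getD_eq_getElem _ _ (by simpa using code_lt a)]
    simp only [List.getElem_map, List.getElem_range]
    exact Function.leftInverse_invFun code_inj a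
  refine ⟨fun m => ((dstep^[m] (m, 0, [])).2.2).map (fun k => L.getD k Bas.u), ?_, fun w => ?_⟩
  · refine Primrec.list_map (Primrec.snd.comp (Primrec.snd.comp
      (Primrec.nat_iterate (h := fun _ => dstep) Primrec.id
        (Primrec.id.pair (Primrec.const _)) (dstep_prim.comp Primrec.snd).to₂))) ?_
    exact ((Primrec.list_getD Bas.u).comp (Primrec.const L) Primrec.snd).to₂
  · simp only [dstep_wcode w _ [] le_rfl, List.nil_append, List.map_map]
    exact (List.map_congr_left fun a _ => hL a).trans (List.map_id w)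

/-- The group letter of a basic letter. -/
def toGen {n : ℕ} : Bas n → Option (Fin n × Bool)
  | Bas.gen i b => some (i, b)
  | _ => none

/-- The group word of a program. -/
def grp {n : ℕ} (w : List (Bas n)) : List (Fin n × Bool) := (w.filterMap toGen).reverse

theorem prod_grp {n : ℕ} {G : Type v} [Group G] (s : Fin n → G) (w : List (Bas n)) :
    ((grp w).map fun p => if p.2 then s p.1 else (s p.1)⁻¹).prod = lblG s w := by
  induction w with
  | nil => rfl
  | cons a w ih =>
    cases a with
    | gen i b =>
      rw [lblG, ← ih]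
      simp [grp, toGen, gval]
    | _ => exact ih

theorem lblZ_eq {n : ℕ} (w : List (Bas n)) :
    lblZ w = ((w.filter (fun a => a = Bas.u)).length : ℤ)
      - ((w.filter (fun a => a = Bas.u')).length : ℤ) := by
  induction w with
  | nil => rfl
  | cons a w ih =>
    cases a <;> simp [lblZ, ih] <;> ring

/-- The middle of a program. -/
def midl {α : Type} (w : List α) : List α := w.tail.reverse.tail.reverse

theorem eq_of_heads {α : Type} {w : List α} {c d : α} (h1 : w.head? = some c)
    (h2 : w.tail.reverse.head? = some d) : w = c :: (midl w ++ [d]) := by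
  cases w with
  | nil => simp at h1
  | cons a t =>
    have : a = c := by simpa using h1
    subst this
    simp only [midl, List.tail_cons] at h2 ⊢
    congr 1
    apply List.reverse_injective
    cases h : t.reverse with
    | nil => rw [h] at h2; simp at h2
    | cons b r =>
      rw [h] at h2
      have : b = d := by simpa using h2
      simp [this]

theorem zero_iff {n : ℕ} {G : Type v} [Group G] (s : Fin n → G) (w : List (Bas n)) :
    Zero s w ↔ (∀ a ∈ midl w, a.isLab = true) ∧
      (((w.head? = some Bas.nd ∧ w.tail.reverse.head? = some Bas.z') ∨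
        (w.head? = some Bas.z ∧ w.tail.reverse.head? = some Bas.nd')) ∨
      ((w.head? = some Bas.nd ∧ w.tail.reverse.head? = some Bas.nd') ∧
        ¬ (lblG s (midl w) = 1 ∧ lblZ (midl w) = 0))) := by
  constructor
  · rintro ⟨c, d, mid, rfl, h1, h2⟩
    have e : midl (c :: (mid ++ [d])) = mid := by simp [midl]
    rw [e]
    refine ⟨h1, ?_⟩
    rcases h2 with ⟨rfl, rfl⟩ | ⟨rfl, rfl⟩ | ⟨rfl, rfl, h⟩
    · simp
    · simp
    · exact Or.inr ⟨by simp, h⟩
  · rintro ⟨h1, (⟨h2, h3⟩ | ⟨h2, h3⟩) | ⟨⟨h2, h3⟩, h4⟩⟩
    · exact ⟨_, _, _, eq_of_heads h2 h3, h1, Or.inl ⟨rfl, rfl⟩⟩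
    · exact ⟨_, _, _, eq_of_heads h2 h3, h1, Or.inr (Or.inl ⟨rfl, rfl⟩)⟩
    · exact ⟨_, _, _, eq_of_heads h2 h3, h1, Or.inr (Or.inr ⟨rfl, rfl, h4⟩)⟩

theorem not_one_of_zero {n : ℕ} {G : Type v} [Group G] (s : Fin n → G) {w : List (Bas n)}
    (h : Zero s w) : ¬ One s w := by
  rintro ⟨h1, -⟩
  obtain ⟨c, d, mid, rfl, -, h2⟩ := h
  have := h1 c (by simp)
  rcases h2 with ⟨rfl, -⟩ | ⟨rfl, -⟩ | ⟨rfl, -⟩ <;> simp [Bas.isGen] at this

theorem cp_and {α : Type} [Primcodable α] {p q : α → Prop} (hp : ComputablePred p)
    (hq : ComputablePred q) : ComputablePred fun a => p a ∧ q a := by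
  obtain ⟨f, hf, rfl⟩ := ComputablePred.computable_iff.1 hp
  obtain ⟨g, hg, rfl⟩ := ComputablePred.computable_iff.1 hq
  exact ComputablePred.computable_iff.2
    ⟨fun a => f a && g a, Primrec.and.to_comp.comp hf hg, by funext a; simp⟩

theorem cp_or {α : Type} [Primcodable α] {p q : α → Prop} (hp : ComputablePred p)
    (hq : ComputablePred q) : ComputablePred fun a => p a ∨ q a := by
  obtain ⟨f, hf, rfl⟩ := ComputablePred.computable_iff.1 hp
  obtain ⟨g, hg, rfl⟩ := ComputablePred.computable_iff.1 hq
  exact ComputablePred.computable_iff.2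
    ⟨fun a => f a || g a, Primrec.or.to_comp.comp hf hg, by funext a; simp⟩

theorem cp_comp {α β : Type} [Primcodable α] [Primcodable β] {p : β → Prop}
    (hp : ComputablePred p) {g : α → β} (hg : Computable g) : ComputablePred fun a => p (g a) := by
  obtain ⟨f, hf, rfl⟩ := ComputablePred.computable_iff.1 hp
  exact ComputablePred.computable_iff.2 ⟨fun a => f (g a), hf.comp hg, rfl⟩

theorem pp_fin {α : Type} [Primcodable α] [Finite α] (p : α → Prop) : PrimrecPred p := by
  classical
  exact ⟨inferInstance, Primrec.dom_finite _⟩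

end RDecAux

open RDecAux in
theorem exists_decider {n : ℕ} {G : Type v} [Group G] (s : Fin n → G)
    (hWP : ComputablePred fun w : List (Fin n × Bool) =>
      (w.map fun p => if p.2 then s p.1 else (s p.1)⁻¹).prod = 1) :
    ∃ f : ℕ → ℕ, Computable f ∧ ∀ w : List (Bas n),
      (One s w → f (wcode w) = 1) ∧ (Zero s w → f (wcode w) = 0) ∧
      (¬ One s w → ¬ Zero s w → f (wcode w) = 2) := by
  let _ : Primcodable (Bas n) := Primcodable.ofEquiv _ (Fintype.equivFin (Bas n))
  obtain ⟨d, hd, hd'⟩ := exists_dec (n := n)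
  have hgrp : Primrec (grp : List (Bas n) → _) :=
    Primrec.list_reverse.comp (Primrec.listFilterMap Primrec.id
      ((Primrec.dom_finite toGen).comp Primrec.snd).to₂)
  have hG : ComputablePred fun w : List (Bas n) => lblG s w = 1 :=
    (cp_comp hWP hgrp.to_comp).of_eq fun w => by rw [prod_grp]
  have hZ : PrimrecPred fun w : List (Bas n) => lblZ w = 0 :=
    (Primrec.eq.comp (Primrec.list_length.comp (Primrec.listFilter (pp_fin (fun a => a = Bas.u))))
      (Primrec.list_length.comp (Primrec.listFilter (pp_fin (fun a => a = Bas.u'))))).of_eq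
      fun w => by rw [lblZ_eq]; omega
  have hmid : Primrec (midl : List (Bas n) → _) :=
    Primrec.list_reverse.comp (Primrec.list_tail.comp
      (Primrec.list_reverse.comp Primrec.list_tail))
  have hh1 : ∀ c : Bas n, PrimrecPred fun w : List (Bas n) => w.head? = some c := fun c =>
    Primrec.eq.comp Primrec.list_head? (Primrec.const _)
  have hh2 : ∀ c : Bas n, PrimrecPred fun w : List (Bas n) => w.tail.reverse.head? = some c :=
    fun c => Primrec.eq.comp (Primrec.list_head?.comp
      (Primrec.list_reverse.comp Primrec.list_tail)) (Primrec.const _)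
  have hOne : ComputablePred (One s) :=
    cp_and (PrimrecPred.forall_mem_list (pp_fin (fun a : Bas n => a.isGen = true))).computablePred
      hG
  have hZero : ComputablePred (Zero s) := by
    refine ComputablePred.of_eq ?_ fun w => (zero_iff s w).symm
    refine cp_and (cp_comp (PrimrecPred.forall_mem_list
      (pp_fin (fun a : Bas n => a.isLab = true))).computablePred hmid.to_comp) ?_
    refine cp_or (((hh1 _).and (hh2 _)).or ((hh1 _).and (hh2 _))).computablePred ?_
    refine cp_and ((hh1 _).and (hh2 _)).computablePred ?_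
    exact (cp_comp (cp_and hG hZ.computablePred) hmid.to_comp).not
  obtain ⟨f1, hf1, e1⟩ := ComputablePred.computable_iff.1 hOne
  obtain ⟨f0, hf0, e0⟩ := ComputablePred.computable_iff.1 hZero
  refine ⟨fun m => bif f1 (d m) then 1 else bif f0 (d m) then 0 else 2,
    (hf1.comp hd.to_comp).cond (Computable.const 1)
      ((hf0.comp hd.to_comp).cond (Computable.const 0) (Computable.const 2)), fun w => ?_⟩
  have a1 : One s w ↔ f1 w = true := by rw [e1]
  have a0 : Zero s w ↔ f0 w = true := by rw [e0]
  simp only [hd']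
  refine ⟨fun h => ?_, fun h => ?_, fun h h' => ?_⟩
  · rw [a1.1 h]; rfl
  · rw [Bool.eq_false_iff.2 (fun h' => not_one_of_zero s h (a1.2 h')), a0.1 h]; rfl
  · rw [Bool.eq_false_iff.2 (fun h'' => h (a1.2 h'')),
      Bool.eq_false_iff.2 (fun h'' => h' (a0.2 h''))]
    rfl

end Vale.Agent.P193
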