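import Vale.Agent.P193.GDefs

/-!
Ring-theoretic half of the Boone-Higman project: definitions.

A ring acts on an infinite stack of terms. `φ r` is `r` acting below the top entry.
Local generators build, destruct, relabel or erase the top entries. The generators `E s`
are the states of a machine that lives inside the ring.
-/

namespace Vale.Agent.P193

universe v

/-- Basic program letters. -/
inductive Bas (n : ℕ) : Type
  | gen (i : Fin n) (b : Bool) | u | u' | z | z' | nd | nd'
  deriving DecidableEq, Fintype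

/-- Modes of the evaluator. -/
inductive Mode : Type
  | main | push | pop
  deriving DecidableEq

instance : Fintype Mode where
  elems := {Mode.main, Mode.push, Mode.pop}
  complete := by intro x; cases x <;> simp

/-- States of the machine inside the ring. -/
inductive Sta (Q : Type) : Type
  | M (q : Q) | Ev (m : Mode) | Rs
  deriving DecidableEq, Fintype

/-- The finite types of a rule system. -/
structure Sig where
  Q : Type
  Rl : Type
  W : Type
  [fQ : Fintype Q]
  [fR : Fintype Rl]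
  [fW : Fintype W]
  [dQ : DecidableEq Q]
  [dR : DecidableEq Rl]
  [dW : DecidableEq W]

attribute [instance] Sig.fQ Sig.fR Sig.fW Sig.dQ Sig.dR Sig.dW

/-- The list alphabet. -/
inductive Al (n : ℕ) (σ : Sig) : Type
  | bas (b : Bas n) | push | pop | wk (w : σ.W) | log (r : σ.Rl) | tag (s : Sta σ.Q)
  deriving DecidableEq, Fintype

/-- A register pattern: a word on top of a hole (`true`) or of the atom `0` (`false`). -/
abbrev SP (Λ : Type) : Type := List Λ × Bool

/-- A rule system. Registers: `K` work registers, then `u`, then `t`. -/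
structure Sys (n : ℕ) extends Sig where
  K : ℕ
  start : Q
  one : Q
  zero : Q
  src : Rl → Q
  tgt : Rl → Q
  L : Rl → List (SP (Al n toSig))
  L' : Rl → List (SP (Al n toSig))

/-- Terms. -/
inductive Tm (G : Type v) (Λ : Type) : Type v
  | hole (g : G) (k : ℤ)
  | atom (k : ℕ)
  | psh (a : Λ) (t : Tm G Λ)
  | nd (g : G) (k : ℤ) (t t' : Tm G Λ)

namespace Tm

variable {G : Type v} {Λ : Type}

/-- Push a word (its head ends on top). -/
def pushW : List Λ → Tm G Λ → Tm G Λ
  | [], t => t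
  | a :: w, t => psh a (pushW w t)

/-- Remove a word from the top. -/
def strip [DecidableEq Λ] : List Λ → Tm G Λ → Option (Tm G Λ)
  | [], t => some t
  | a :: w, psh b t => if a = b then strip w t else none
  | _ :: _, _ => none

/-- Is it the atom `0`? -/
def isZ : Tm G Λ → Bool
  | atom 0 => true
  | _ => false

/-- Erasable terms. -/
def Er : Tm G Λ → Prop
  | hole _ _ => False
  | atom _ => True
  | psh _ t => Er t
  | nd _ _ t s => Er t ∧ isZ s = true

/-- One register of a rule: match `A`, produce `B`. -/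
def regStep [DecidableEq Λ] (A B : SP Λ) (t : Tm G Λ) : Option (Tm G Λ) :=
  match strip A.1 t with
  | none => none
  | some r => if A.2 = true ∨ isZ r = true then some (pushW B.1 r) else none

/-- A rule acting on the first registers of a list. -/
def stepS [DecidableEq Λ] : List (SP Λ) → List (SP Λ) → List (Tm G Λ) → Option (List (Tm G Λ))
  | a :: A, b :: B, t :: T =>
    match regStep a b t, stepS A B T with
    | some t', some T' => some (t' :: T')
    | _, _ => none
  | _ :: _, _ :: _, [] => none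
  | _, _, T => some T

end Tm

/-- Two words that clash: no term matches both register patterns. -/
def Clash {Λ : Type} : List Λ → Bool → List Λ → Bool → Prop
  | [], _, [], _ => False
  | [], b, _ :: _, _ => b = false
  | _ :: _, _, [], b' => b' = false
  | a :: w, b, a' :: w', b' => a ≠ a' ∨ Clash w b w' b'

/-- Two lists of register patterns clash in some position. -/
def ClashL {Λ : Type} : List (SP Λ) → List (SP Λ) → Prop
  | a :: A, b :: B => Clash a.1 a.2 b.1 b.2 ∨ ClashL A B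
  | _, _ => False

section Words

variable {n : ℕ} {G : Type v} [Group G] (s : Fin n → G)

/-- Value of a group letter. -/
def gval (i : Fin n) (b : Bool) : G := if b then s i else (s i)⁻¹

/-- Group element of a program (the first letter is applied first). -/
def lblG : List (Bas n) → G
  | [] => 1
  | Bas.gen i b :: w => lblG w * gval s i b
  | _ :: w => lblG w

/-- Exponent sum of `u`. -/
def lblZ : List (Bas n) → ℤ
  | [] => 0
  | Bas.u :: w => lblZ w + 1
  | Bas.u' :: w => lblZ w - 1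
  | _ :: w => lblZ w

/-- Group letters. -/
def Bas.isGen : Bas n → Bool
  | Bas.gen _ _ => true
  | _ => false

/-- Label letters. -/
def Bas.isLab : Bas n → Bool
  | Bas.gen _ _ => true
  | Bas.u => true
  | Bas.u' => true
  | _ => false

/-- Programs that must equal `1`. -/
def One (w : List (Bas n)) : Prop := (∀ a ∈ w, a.isGen = true) ∧ lblG s w = 1

/-- Programs that must equal `0`. -/
def Zero (w : List (Bas n)) : Prop :=
  ∃ (c d : Bas n) (mid : List (Bas n)), w = c :: (mid ++ [d]) ∧ (∀ a ∈ mid, a.isLab = true) ∧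
    ((c = Bas.nd ∧ d = Bas.z') ∨ (c = Bas.z ∧ d = Bas.nd') ∨
      (c = Bas.nd ∧ d = Bas.nd' ∧ ¬ (lblG s mid = 1 ∧ lblZ mid = 0)))

end Words

namespace Sys

variable {n : ℕ} (S : Sys n)

/-- The alphabet of a system. -/
abbrev Λ : Type := Al n S.toSig

/-- Left side of a rule, including the history register. -/
def Lf (ρ : S.Rl) : List (SP S.Λ) := ([], true) :: S.L ρ

/-- Right side of a rule, including the history register. -/
def Lf' (ρ : S.Rl) : List (SP S.Λ) := ([Al.log ρ], true) :: S.L' ρ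

variable {G : Type v}

/-- A program as a term. -/
def listTm (w : List (Bas n)) : Tm G S.Λ := Tm.pushW (w.map Al.bas) (Tm.atom 0)

/-- One forward step. -/
def Step (c c' : S.Q × List (Tm G S.Λ)) : Prop :=
  ∃ ρ, S.src ρ = c.1 ∧ S.tgt ρ = c'.1 ∧ Tm.stepS (S.Lf ρ) (S.Lf' ρ) c.2 = some c'.2

/-- Initial configuration: history, `K` work registers and `u` empty, input `t`. -/
def ini (t : Tm G S.Λ) : S.Q × List (Tm G S.Λ) :=
  (S.start, List.replicate (S.K + 2) (Tm.atom 0) ++ [t])

/-- Reachable configurations. -/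
def Reach (t : Tm G S.Λ) (c : S.Q × List (Tm G S.Λ)) : Prop :=
  Relation.ReflTransGen S.Step (S.ini t) c

/-- Syntactic conditions on a rule system. -/
structure WF : Prop where
  len : ∀ ρ, (S.L ρ).length = S.K + 2
  len' : ∀ ρ, (S.L' ρ).length = S.K + 2
  bot : ∀ ρ, (S.L ρ).map Prod.snd = (S.L' ρ).map Prod.snd
  det : ∀ ρ ρ', ρ ≠ ρ' → S.src ρ = S.src ρ' → ClashL (S.L ρ) (S.L ρ')
  one_ne : S.one ≠ S.zero

/-- The machine decides `One` and `Zero`, and keeps its input. -/
structure OK [Group G] (s : Fin n → G) : Prop extends S.WF where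
  inv : ∀ (t : Tm G S.Λ) q T, S.Reach t (q, T) →
    ∃ (h : Tm G S.Λ) (ws : List (Tm G S.Λ)) (l : List S.Λ) (tt : Tm G S.Λ),
      T = h :: (ws ++ [Tm.pushW l (Tm.atom 0), tt]) ∧ ws.length = S.K ∧ h.Er ∧
        (∀ w ∈ ws, w.Er) ∧ t = Tm.pushW l.reverse tt
  sone : ∀ (t : Tm G S.Λ) T, S.Reach t (S.one, T) →
    (∃ w, One s w ∧ t = S.listTm w) ∧ ∀ x ∈ T, x.Er
  szero : ∀ (t : Tm G S.Λ) T, S.Reach t (S.zero, T) → ∃ w, Zero s w ∧ t = S.listTm w
  cone : ∀ w, One s w → ∃ T : List (Tm G S.Λ), S.Reach (S.listTm w) (S.one, T)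
  czero : ∀ w, Zero s w → ∃ T : List (Tm G S.Λ), S.Reach (S.listTm w) (S.zero, T)

end Sys

/-- Generators of the ring. -/
structure Gens {n : ℕ} (S : Sys n) (A : Type*) [Ring A] where
  φ : A →+* A
  γ : Fin n → Bool → A
  u : A
  u' : A
  z : A
  z' : A
  nd : A
  nd' : A
  eps : A
  psh : S.Λ → A
  pop : S.Λ → A
  E : Sta S.Q → A

/-- Names of the generators. -/
inductive XG {n : ℕ} (S : Sys n) : Type
  | γ (i : Fin n) (b : Bool) | u | u' | z | z' | nd | nd' | eps
  | psh (a : S.Λ) | pop (a : S.Λ) | E (s : Sta S.Q)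
  deriving Fintype

/-- Next mode of the evaluator. -/
def nxt {n : ℕ} {σ : Sig} : Mode → Al n σ → Mode
  | Mode.main, Al.push => Mode.push
  | Mode.main, Al.pop => Mode.pop
  | _, _ => Mode.main

namespace Gens

variable {n : ℕ} {S : Sys n} {A : Type*} [Ring A] (D : Gens S A)

/-- The generator with a given name. -/
def gen : XG S → A
  | XG.γ i b => D.γ i b
  | XG.u => D.u
  | XG.u' => D.u'
  | XG.z => D.z
  | XG.z' => D.z'
  | XG.nd => D.nd
  | XG.nd' => D.nd'
  | XG.eps => D.eps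
  | XG.psh a => D.psh a
  | XG.pop a => D.pop a
  | XG.E s => D.E s

/-- Operation of a basic letter. -/
def basOp : Bas n → A
  | Bas.gen i b => D.γ i b
  | Bas.u => D.u
  | Bas.u' => D.u'
  | Bas.z => D.z
  | Bas.z' => D.z'
  | Bas.nd => D.nd
  | Bas.nd' => D.nd'

/-- Operation performed by the evaluator on reading a letter. -/
def evOp : Mode → S.Λ → A
  | Mode.main, Al.bas b => D.basOp b
  | Mode.main, Al.push => 1
  | Mode.main, Al.pop => 1
  | Mode.main, _ => 0
  | Mode.push, a => D.psh a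
  | Mode.pop, a => D.pop a

/-- Push a word. -/
def pshW : List S.Λ → A
  | [] => 1
  | a :: w => D.psh a * pshW w

/-- Pop a word. -/
def popW : List S.Λ → A
  | [] => 1
  | a :: w => popW w * D.pop a

/-- One register of a rule. -/
def regOp (a b : SP S.Λ) : A :=
  D.pshW b.1 * (if a.2 = true then 1 else D.z * D.z') * D.popW a.1

/-- A rule as a ring element. -/
def opS : List (SP S.Λ) → List (SP S.Λ) → A
  | a :: A, b :: B => D.regOp a b * D.φ (opS A B)
  | _, _ => 1

/-- Projection onto start configurations. -/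
def stP (q : S.Q) : A := if q = S.start then D.z ^ (S.K + 2) * D.z' ^ (S.K + 2) else 0

/-- The relations. -/
structure Good : Prop where
  two : (1 : A) + 1 = 0
  nat_γ : ∀ i b r, D.γ i b * D.φ r = D.φ r * D.γ i b
  nat_u : ∀ r, D.u * D.φ r = D.φ r * D.u
  nat_u' : ∀ r, D.u' * D.φ r = D.φ r * D.u'
  nat_psh : ∀ a r, D.psh a * D.φ r = D.φ r * D.psh a
  nat_pop : ∀ a r, D.pop a * D.φ r = D.φ r * D.pop a
  nat_z : ∀ r, D.z * r = D.φ r * D.z
  nat_z' : ∀ r, D.z' * D.φ r = r * D.z'
  nat_eps : ∀ r, D.eps * D.φ r = r * D.eps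
  nat_nd : ∀ r, D.nd * D.φ (D.φ r) = D.φ r * D.nd
  nat_nd' : ∀ r, D.nd' * D.φ r = D.φ (D.φ r) * D.nd'
  z'z : D.z' * D.z = 1
  nd'nd : D.nd' * D.nd = 1
  pop_psh : ∀ a b, D.pop a * D.psh b = if a = b then 1 else 0
  z'psh : ∀ a, D.z' * D.psh a = 0
  pop_z : ∀ a, D.pop a * D.z = 0
  pop_nd : ∀ a, D.pop a * D.nd = 0
  nd'psh : ∀ a, D.nd' * D.psh a = 0
  u'u : D.u' * D.u = 1
  uu' : D.z * D.z' + D.u * D.u' = 1
  γu : ∀ i b, D.γ i b * D.u = D.u * D.γ i b
  γz : ∀ i b, D.γ i b * D.z = D.z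
  z'γ : ∀ i b, D.z' * D.γ i b = D.z'
  γpsh : ∀ i b a, D.γ i b * D.psh a = D.psh a
  upsh : ∀ a, D.u * D.psh a = D.psh a
  popγ : ∀ i b a, D.pop a * D.γ i b = D.pop a
  popu : ∀ a, D.pop a * D.u = D.pop a
  eps_z : D.eps * D.z = 1
  eps_psh : ∀ a, D.eps * D.psh a = D.eps
  eps_γ : ∀ i b, D.eps * D.γ i b = D.eps
  eps_u : D.eps * D.u = D.eps
  eps_nd : D.eps * D.nd = D.eps * D.φ D.z'
  E_γ : ∀ s i b, D.E s * D.γ i b = D.E s
  E_u : ∀ s, D.E s * D.u = D.E s
  ev_psh : ∀ m a, D.E (Sta.Ev m) * D.psh a = D.E (Sta.Ev (nxt m a)) * D.φ (D.evOp m a)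
  ev_z : ∀ m, D.E (Sta.Ev m) * D.z = if m = Mode.main then 1 else 0
  ev_nd : ∀ m, D.E (Sta.Ev m) * D.nd
    = D.E (Sta.Ev Mode.main) * D.φ (D.psh (Al.tag (Sta.Ev m)))
  rs_psh : ∀ a, D.E Sta.Rs * D.psh a = D.E Sta.Rs * D.φ (D.psh a)
  rs_z : D.E Sta.Rs * D.z = D.E (Sta.Ev Mode.main)
  rs_nd : D.E Sta.Rs * D.nd = D.E (Sta.Ev Mode.main) * D.φ (D.psh (Al.tag Sta.Rs))
  fwd : ∀ q a, D.E (Sta.M q) * D.psh a =
    (∑ ρ, if S.src ρ = q then D.E (Sta.M (S.tgt ρ)) * D.φ (D.opS (S.Lf ρ) (S.Lf' ρ)) else 0) +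
      D.E (Sta.M q) * D.φ (1 - ∑ ρ, if S.src ρ = q then D.opS (S.Lf ρ) (S.Lf ρ) else 0)
  bwd : ∀ q, D.E (Sta.M q) * D.nd =
    ((∑ ρ, if S.tgt ρ = q then D.E (Sta.M (S.src ρ)) * D.φ (D.opS (S.Lf' ρ) (S.Lf ρ)) else 0) +
      D.E (Sta.M q) * D.φ (D.stP q) +
      D.E (Sta.Ev Mode.main) * D.φ (D.psh (Al.tag (Sta.M q)) *
        (1 - (∑ ρ, if S.tgt ρ = q then D.opS (S.Lf' ρ) (S.Lf' ρ) else 0) - D.stP q))) *
      D.φ D.z'
  halt : ∀ q, D.E (Sta.M q) * D.z =
    if q = S.one then D.eps ^ (S.K + 3) else if q = S.zero then 0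
    else D.E Sta.Rs * D.eps ^ (S.K + 1)
  link : D.E (Sta.M S.start) * D.φ (D.z ^ (S.K + 2)) = D.E (Sta.Ev Mode.main) * D.eps

/-- The ring is generated by the generators and their images under `φ`. -/
def Gend : Prop :=
  ∀ r : A, r ∈ Subring.closure (Set.range D.gen ∪ Set.range (fun x => D.φ (D.gen x)))

end Gens

end Vale.Agent.P193
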