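import Vale.Agent.P193.RDefs

/-!
Stack rings: a ring with elements `put t` (push the entry `t`) and case distinction on the top
entry. The local generators and their action on `put t`.
-/

namespace Vale.Agent.P193

universe v

/-- A ring acting on an infinite stack with entries in `X`. -/
structure Stk (X : Type v) (A : Type v) [Ring A] where
  put : X → A
  disp : (X → A) → A
  disp_put : ∀ F t, disp F * put t = F t
  ext' : ∀ a b : A, (∀ t, a * put t = b * put t) → a = b
  two : (1 : A) + 1 = 0
  nontriv : (1 : A) ≠ 0

theorem exists_stk (X : Type v) [Nonempty X] : ∃ (A : Type v) (_ : Ring A), Nonempty (Stk X A) := by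
  refine ⟨(Module.End (ZMod 2) (Stream' X → ZMod 2))ᵐᵒᵖ, inferInstance, ⟨
    { put := fun t => MulOpposite.op (LinearMap.funLeft (ZMod 2) (ZMod 2) (Stream'.cons t))
      disp := fun F => MulOpposite.op
        { toFun := fun w ω => (F ω.head).unop w ω.tail
          map_add' := fun w w' => by funext ω; simp
          map_smul' := fun c w => by funext ω; simp }
      disp_put := fun F t => rfl
      ext' := ?_
      two := ?_
      nontriv := ?_ }⟩⟩
  · intro a b h
    apply MulOpposite.unop_injective
    refine LinearMap.ext fun w => funext fun ω => ?_
    have := congrArg (fun c => c.unop w ω.tail) (h ω.head)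
    simpa [LinearMap.funLeft_apply] using this
  · apply MulOpposite.unop_injective
    refine LinearMap.ext fun w => funext fun ω => ?_
    simpa using CharTwo.add_self_eq_zero (w ω)
  · intro h
    obtain ⟨t⟩ := ‹Nonempty X›
    have := congrArg (fun c => c.unop (fun _ => 1) (Stream'.const t)) h
    simp at this

namespace Stk

section Basic

variable {X A : Type v} [Ring A] (P : Stk X A)

/-- Acting below the top entry. -/
def φ : A →+* A where
  toFun r := P.disp fun t => P.put t * r
  map_one' := P.ext' _ _ fun t => by simp [P.disp_put]
  map_mul' r s := P.ext' _ _ fun t => by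
    rw [mul_assoc, P.disp_put, P.disp_put, ← mul_assoc _ (P.put t), P.disp_put, mul_assoc]
  map_zero' := P.ext' _ _ fun t => by simp [P.disp_put]
  map_add' r s := P.ext' _ _ fun t => by simp [P.disp_put, add_mul, mul_add]

theorem φ_put (r : A) (t : X) : P.φ r * P.put t = P.put t * r := P.disp_put _ _

theorem φ_put' (r : A) (t : X) (x : A) : P.φ r * (P.put t * x) = P.put t * (r * x) := by
  rw [← mul_assoc, P.φ_put, mul_assoc]

theorem disp_put' (F : X → A) (t : X) (x : A) : P.disp F * (P.put t * x) = F t * x := by
  rw [← mul_assoc, P.disp_put]

/-- Push a list of entries. -/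
def putL : List X → A
  | [] => 1
  | t :: T => P.put t * putL T

theorem putL_append (T T' : List X) : P.putL (T ++ T') = P.putL T * P.putL T' := by
  induction T with
  | nil => simp [putL]
  | cons t T ih => simp [putL, ih, mul_assoc]

end Basic

end Stk

namespace Tm

variable {G : Type v} {Λ : Type}

/-- Relabel the top node. -/
def lab [Group G] (g : G) (k : ℤ) : Tm G Λ → Tm G Λ
  | hole g' k' => hole (g * g') (k' + k)
  | nd g' k' t s => nd (g * g') (k' + k) t s
  | t => t

/-- The action of `u`. -/
def up [Group G] : Tm G Λ → Tm G Λ
  | atom k => atom (k + 1)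
  | t => lab 1 1 t

theorem isZ_iff {t : Tm G Λ} : t.isZ = true ↔ t = atom 0 := by
  rcases t with _ | _ | _ | _ <;> simp [isZ]
  rename_i k
  cases k <;> simp

theorem strip_eq [DecidableEq Λ] {w : List Λ} {t r : Tm G Λ} (h : strip w t = some r) :
    t = pushW w r := by
  induction w generalizing t with
  | nil => simpa [strip, pushW] using h
  | cons a w ih =>
    cases t with
    | psh b t =>
      by_cases hab : a = b
      · subst hab
        simp only [strip, if_true] at h
        rw [pushW, ← ih h]
      · simp [strip, hab] at h
    | _ => simp [strip] at h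

theorem strip_pushW [DecidableEq Λ] (w : List Λ) (r : Tm G Λ) : strip w (pushW w r) = some r := by
  induction w with
  | nil => simp [strip, pushW]
  | cons a w ih => simp [strip, pushW, ih]

theorem regStep_back [DecidableEq Λ] {a b : SP Λ} (hab : a.2 = b.2) {t t' : Tm G Λ}
    (h : regStep a b t = some t') :
    regStep b a t' = some t ∧ regStep a a t = some t ∧ regStep b b t' = some t' := by
  unfold regStep at h
  cases hs : strip a.1 t with
  | none => simp [hs] at h
  | some r =>
    rw [hs] at h
    by_cases hc : a.2 = true ∨ isZ r = true
    · simp only [hc, if_true, Option.some.injEq] at h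
      subst h
      have := strip_eq hs
      subst this
      simp only [regStep, strip_pushW, ← hab, hc, if_true, and_self]
    · simp [hc] at h

theorem regStep_none [DecidableEq Λ] {a b : SP Λ} {t : Tm G Λ}
    (h : regStep a b t = none) : regStep a a t = none := by
  unfold regStep at h ⊢
  cases hs : strip a.1 t with
  | none => rfl
  | some r =>
    rw [hs] at h
    by_cases hc : a.2 = true ∨ isZ r = true
    · simp [hc] at h
    · simp only [hc, if_false]

theorem stepS_back [DecidableEq Λ] {A B : List (SP Λ)} (hAB : A.map Prod.snd = B.map Prod.snd)
    {T T' : List (Tm G Λ)} (h : stepS A B T = some T') :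
    stepS B A T' = some T ∧ stepS A A T = some T ∧ stepS B B T' = some T' := by
  induction A generalizing B T T' with
  | nil =>
    cases B with
    | nil => simp only [stepS, Option.some.injEq] at h ⊢; simp [h]
    | cons b B => simp at hAB
  | cons a A ih =>
    cases B with
    | nil => simp at hAB
    | cons b B =>
      simp only [List.map_cons, List.cons.injEq] at hAB
      cases T with
      | nil => simp [stepS] at h
      | cons t T =>
        cases h1 : regStep a b t with
        | none => simp [stepS, h1] at h
        | some t' =>
          cases h2 : stepS A B T with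
          | none => simp [stepS, h1, h2] at h
          | some T'' =>
            simp only [stepS, h1, h2, Option.some.injEq] at h
            subst h
            obtain ⟨a1, a2, a3⟩ := regStep_back hAB.1 h1
            obtain ⟨b1, b2, b3⟩ := ih hAB.2 h2
            simp [stepS, a1, a2, a3, b1, b2, b3]

theorem stepS_none [DecidableEq Λ] {A B : List (SP Λ)} (hAB : A.length = B.length)
    {T : List (Tm G Λ)} (h : stepS A B T = none) : stepS A A T = none := by
  induction A generalizing B T with
  | nil => cases B <;> simp [stepS] at h
  | cons a A ih =>
    cases B with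
    | nil => simp at hAB
    | cons b B =>
      cases T with
      | nil => simp [stepS]
      | cons t T =>
        cases h1 : regStep a b t with
        | none => simp [stepS, regStep_none h1]
        | some t' =>
          cases h2 : stepS A B T with
          | none => simp [stepS, ih (by simpa using hAB) h2]
          | some T'' => simp [stepS, h1, h2] at h

end Tm

namespace Stk

variable {n : ℕ} {G : Type v} [Group G] (s : Fin n → G) {S : Sys n} {A : Type v} [Ring A]
  (P : Stk (Tm G S.Λ) A)

open Classical in
/-- The local generators; the states are a parameter. -/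
noncomputable def gens (E : Sta S.Q → A) : Gens S A where
  φ := P.φ
  γ i b := P.disp fun t => P.put (t.lab (gval s i b) 0)
  u := P.disp fun t => P.put t.up
  u' := P.disp fun t => match t with
    | Tm.atom 0 => 0
    | Tm.atom (k + 1) => P.put (Tm.atom k)
    | t => P.put (t.lab 1 (-1))
  z := P.put (Tm.atom 0)
  z' := P.disp fun t => if t.isZ = true then 1 else 0
  nd := P.disp fun t => P.disp fun t' => P.put (Tm.nd 1 0 t t')
  nd' := P.disp fun t => match t with
    | Tm.nd g k t t' => if g = 1 ∧ k = 0 then P.put t * P.put t' else 0
    | _ => 0
  eps := P.disp fun t => if t.Er then 1 else 0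
  psh a := P.disp fun t => P.put (Tm.psh a t)
  pop a := P.disp fun t => match t with
    | Tm.psh b t => if a = b then P.put t else 0
    | _ => 0
  E := E

variable (E : Sta S.Q → A)

theorem pshW_put (w : List S.Λ) (t : Tm G S.Λ) :
    (P.gens s E).pshW w * P.put t = P.put (Tm.pushW w t) := by
  induction w with
  | nil => simp [Gens.pshW, Tm.pushW]
  | cons a w ih =>
    rw [Gens.pshW, mul_assoc, ih]
    exact P.disp_put _ _

theorem popW_put (w : List S.Λ) (t : Tm G S.Λ) :
    (P.gens s E).popW w * P.put t = (Tm.strip w t).elim 0 P.put := by
  induction w generalizing t with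
  | nil => simp [Gens.popW, Tm.strip]
  | cons a w ih =>
    rw [Gens.popW, mul_assoc]
    change _ * (P.disp _ * _) = _
    rw [P.disp_put]
    cases t with
    | psh b t =>
      by_cases hab : a = b
      · simp [Tm.strip, hab, ih]
      · simp [Tm.strip, hab]
    | _ => simp [Tm.strip]

theorem regOp_put (a b : SP S.Λ) (t : Tm G S.Λ) :
    (P.gens s E).regOp a b * P.put t = (Tm.regStep a b t).elim 0 P.put := by
  rw [Gens.regOp, mul_assoc, popW_put, Tm.regStep]
  cases Tm.strip a.1 t with
  | none => simp
  | some r =>
    by_cases ha : a.2 = true
    · simp [ha, pshW_put]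
    · simp only [ha, Bool.false_eq_true, if_false, false_or, Option.elim, mul_assoc]
      change _ * (P.put _ * (P.disp _ * _)) = _
      rw [P.disp_put]
      by_cases hr : r.isZ = true
      · simp [pshW_put, Tm.isZ_iff.mp hr, Tm.isZ]
      · simp [hr]

theorem opS_putL (L L' : List (SP S.Λ)) (T : List (Tm G S.Λ)) (h : L.length ≤ T.length) :
    (P.gens s E).opS L L' * P.putL T = (Tm.stepS L L' T).elim 0 P.putL := by
  induction L generalizing L' T with
  | nil => simp [Gens.opS, Tm.stepS]
  | cons a L ih =>
    cases L' with
    | nil => cases T <;> simp [Gens.opS, Tm.stepS]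
    | cons b L' =>
      cases T with
      | nil => simp at h
      | cons t T =>
        rw [Gens.opS, putL, mul_assoc]
        change _ * (P.φ _ * _) = _
        rw [P.φ_put', ih L' T (by simpa using h), ← mul_assoc, regOp_put, Tm.stepS]
        cases Tm.regStep a b t with
        | none => simp
        | some t' =>
          cases Tm.stepS L L' T with
          | none => simp
          | some T' => simp [putL]

theorem pshW_congr (E' : Sta S.Q → A) (w : List S.Λ) :
    (P.gens s E).pshW w = (P.gens s E').pshW w :=
  P.ext' _ _ fun t => by rw [pshW_put, pshW_put]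

theorem opS_congr (E' : Sta S.Q → A) (L L' : List (SP S.Λ)) :
    (P.gens s E).opS L L' = (P.gens s E').opS L L' := by
  induction L generalizing L' with
  | nil => simp [Gens.opS]
  | cons a L ih =>
    cases L' with
    | nil => simp [Gens.opS]
    | cons b L' =>
      rw [Gens.opS, Gens.opS, ih]
      congr 1
      exact P.ext' _ _ fun t => by rw [regOp_put, regOp_put]

theorem evOp_congr (E' : Sta S.Q → A) (m : Mode) (a : S.Λ) :
    (P.gens s E).evOp m a = (P.gens s E').evOp m a := by
  cases m <;> cases a <;> rfl

end Stk

end Vale.Agent.P193
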